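import Vale.Agent.P347.PiBasic

/-! TASK Transport: the Taylor transport lemma. See PROOF.md, section G. -/

open MeasureTheory ProbabilityTheory MvPolynomial

namespace Vale.Agent.P347

variable {d : ℕ} {α β : ℝ} {U : E d → ℝ}

/-- the `m`-th jet of a vector of formal elements -/
noncomputable def jet (U : E d → ℝ) (y : E d) (a : ℝ × ℝ) (l : ℝ) (P : Fin d → R d) (m : ℕ)
    (b : ℝ × ℝ) (Z : E d × E d) : E d :=
  evV U y b Z fun i => (XX a l)^[m] (P i)

/-- Taylor polynomial of order `K` of a sequence of jets -/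
noncomputable def tay {F : Type*} [AddCommGroup F] [Module ℝ F] (K : ℕ) (s : ℝ) (j : ℕ → F) : F :=
  ∑ m ∈ Finset.range (K + 1), (s ^ m / (m.factorial : ℝ)) • j m

/-- polynomial growth, uniform in a parameter -/
def UPG {X : Type*} [Norm X] (S : Set ℝ) (f : ℝ → X → ℝ) : Prop :=
  ∃ (C : ℝ) (p : ℕ), 0 ≤ C ∧ ∀ σ ∈ S, ∀ x, |f σ x| ≤ C * (1 + ‖x‖) ^ p

section
variable {X : Type*} [NormedAddCommGroup X] {S : Set ℝ} {f g : ℝ → X → ℝ}

theorem UPG.of_bound {C : ℝ} (h : ∀ σ ∈ S, ∀ x, |f σ x| ≤ C) : UPG S f :=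
  ⟨|C|, 0, abs_nonneg _, fun σ hσ x => by simpa using (h σ hσ x).trans (le_abs_self C)⟩

theorem UPG.add (hf : UPG S f) (hg : UPG S g) : UPG S fun σ x => f σ x + g σ x := by
  obtain ⟨C, p, hC, hf⟩ := hf
  obtain ⟨C', q, hC', hg⟩ := hg
  refine ⟨C + C', p + q, by positivity, fun σ hσ x => (abs_add_le _ _).trans ?_⟩
  have h1 : (1 : ℝ) ≤ 1 + ‖x‖ := by simp
  have h2 := mul_le_mul_of_nonneg_left (pow_le_pow_right₀ h1 (Nat.le_add_right p q)) hC
  have h3 := mul_le_mul_of_nonneg_left (pow_le_pow_right₀ h1 (Nat.le_add_left q p)) hC'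
  linarith [hf σ hσ x, hg σ hσ x]

theorem UPG.mul (hf : UPG S f) (hg : UPG S g) : UPG S fun σ x => f σ x * g σ x := by
  obtain ⟨C, p, hC, hf⟩ := hf
  obtain ⟨C', q, hC', hg⟩ := hg
  refine ⟨C * C', p + q, by positivity, fun σ hσ x => ?_⟩
  rw [abs_mul, pow_add, mul_mul_mul_comm]
  exact mul_le_mul (hf σ hσ x) (hg σ hσ x) (abs_nonneg _) (by positivity)

theorem UPG.of_le (hg : UPG S g) (h : ∀ σ ∈ S, ∀ x, |f σ x| ≤ |g σ x|) : UPG S f := by
  obtain ⟨C', q, hC', hg⟩ := hg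
  exact ⟨C', q, hC', fun σ hσ x => (h σ hσ x).trans (hg σ hσ x)⟩

theorem UPG.abs (hf : UPG S f) : UPG S fun σ x => |f σ x| :=
  hf.of_le fun _ _ _ => (abs_abs _).le

theorem UPG.sum {ι : Type*} (t : Finset ι) {f : ι → ℝ → X → ℝ} (hf : ∀ i ∈ t, UPG S (f i)) :
    UPG S fun σ x => ∑ i ∈ t, f i σ x := by
  classical
  induction t using Finset.induction_on with
  | empty => exact UPG.of_bound (C := 0) (by simp)
  | insert a t ha ih =>
    simp only [Finset.sum_insert ha]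
    exact (hf a (by simp)).add (ih fun i hi => hf i (by simp [hi]))

end

theorem hasDerivAt_toLp {f : ℝ → Fin d → ℝ} {f' : Fin d → ℝ} {x : ℝ}
    (h : ∀ i, HasDerivAt (fun t => f t i) (f' i) x) :
    HasDerivAt (fun t => (WithLp.toLp 2 (f t) : E d)) (WithLp.toLp 2 f') x :=
  (PiLp.continuousLinearEquiv 2 ℝ
    (fun _ : Fin d => ℝ)).symm.toContinuousLinearMap.hasFDerivAt.comp_hasDerivAt x
      (hasDerivAt_pi.2 h)

theorem norm_le_sum_abs (v : E d) : ‖v‖ ≤ ∑ i, |v i| := by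
  rw [EuclideanSpace.norm_eq]
  refine Real.sqrt_le_iff.2 ⟨Finset.sum_nonneg fun _ _ => abs_nonneg _, ?_⟩
  simp only [Real.norm_eq_abs]
  exact Finset.sum_sq_le_sq_sum_of_nonneg fun _ _ => abs_nonneg _

theorem pi_norm_le_sum {n : ℕ} (w : Fin n → E d) : ‖w‖ ≤ ∑ k, ‖w k‖ :=
  (pi_norm_le_iff_of_nonneg (Finset.sum_nonneg fun _ _ => norm_nonneg _)).2 fun k =>
    Finset.single_le_sum (f := fun k => ‖w k‖) (fun _ _ => norm_nonneg _) (Finset.mem_univ k)

/-- evaluation of a tuple of formal vectors -/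
noncomputable def evT (U : E d → ℝ) (y : E d) (b : ℝ × ℝ) (Z : E d × E d) {n : ℕ}
    (W : Fin n → Fin d → R d) : Fin n → E d := fun k => evV U y b Z (W k)

theorem evT_apply (y : E d) (b : ℝ × ℝ) (Z : E d × E d) {n : ℕ} (W : Fin n → Fin d → R d)
    (k : Fin n) (i : Fin d) : evT U y b Z W k i = evS U y b Z (W k i) := rfl

theorem norm_evT_le (y : E d) (b : ℝ × ℝ) (Z : E d × E d) {n : ℕ} (W : Fin n → Fin d → R d) :
    ‖evT U y b Z W‖ ≤ ∑ k, ∑ i, |evS U y b Z (W k i)| :=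
  (pi_norm_le_sum _).trans (Finset.sum_le_sum fun _ _ => norm_le_sum_abs _)

theorem continuous_evT (h : Pot α β U) (y : E d) {b : ℝ × ℝ} (hb : 0 < lev b) {n : ℕ}
    (W : Fin n → Fin d → R d) : Continuous fun Z => evT U y b Z W :=
  continuous_pi fun k => continuous_evV h (W k) y hb

theorem pg_evT (h : Pot α β U) (y : E d) {b : ℝ × ℝ} (hb : 0 < lev b) {n : ℕ}
    (W : Fin n → Fin d → R d) : PG fun Z => ‖evT U y b Z W‖ := by
  refine (PG.sum Finset.univ fun k _ => pg_evV h (W k) y hb).of_le fun Z => ?_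
  rw [abs_norm]
  exact (pi_norm_le_sum _).trans (le_abs_self _)

section
variable {n : ℕ} {ψ : (Fin n → E d) → ℝ} {L : ℝ}

theorem abs_fderiv_le (hψ' : ∀ x, ‖fderiv ℝ ψ x‖ ≤ L) (x w : Fin n → E d) :
    |fderiv ℝ ψ x w| ≤ L * ‖w‖ :=
  ((fderiv ℝ ψ x).le_opNorm w).trans (mul_le_mul_of_nonneg_right (hψ' x) (norm_nonneg _))

theorem continuous_Dps (h : Pot α β U) (y : E d) {b : ℝ × ℝ} (hb : 0 < lev b)
    (hψ : ContDiff ℝ 1 ψ) (Q W : Fin n → Fin d → R d) :
    Continuous fun Z => fderiv ℝ ψ (evT U y b Z Q) (evT U y b Z W) :=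
  ((hψ.continuous_fderiv one_ne_zero).comp (continuous_evT h y hb Q)).clm_apply
    (continuous_evT h y hb W)

theorem pg_Dps (h : Pot α β U) (y : E d) {b : ℝ × ℝ} (hb : 0 < lev b)
    (hψ' : ∀ x, ‖fderiv ℝ ψ x‖ ≤ L) (Q W : Fin n → Fin d → R d) :
    PG fun Z => fderiv ℝ ψ (evT U y b Z Q) (evT U y b Z W) :=
  ((PG.const L).mul (pg_evT h y hb W)).of_le fun _ =>
    (abs_fderiv_le hψ' _ _).trans (le_abs_self _)

theorem integrable_PiM_real (h : Pot α β U) (y : E d) (b : ℝ × ℝ) {f : E d × E d → ℝ}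
    (hf : Continuous f) (hg : PG f) : Integrable f (PiM U y b) :=
  integrable_PiM h y b hf (hg.of_le fun Z => by rw [abs_norm]; exact le_rfl)

/-- weak form of the continuity equation -/
theorem transport_key (h : Pot α β U) (y : E d) {c : ℝ × ℝ} (hc : 0 < lev c) (a : ℝ × ℝ) (l : ℝ)
    (hψ : ContDiff ℝ 1 ψ) (hψL : LipR L ψ) (hψ' : ∀ x, ‖fderiv ℝ ψ x‖ ≤ L)
    (Q : Fin n → Fin d → R d) :
    ∫ Z, ψ (evT U y c Z Q) * evS U y c Z (a.1 • Lam 0 + a.2 • Lam 1) ∂(PiM U y c) =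
      ∫ Z, fderiv ℝ ψ (evT U y c Z Q) (evT U y c Z fun k i =>
        XX a l (Q k i) - (a.1 • db 0 (Q k i) + a.2 • db 1 (Q k i))) ∂(PiM U y c) := by
  have hf : Continuous fun Z => ψ (evT U y c Z Q) := hψ.continuous.comp (continuous_evT h y hc Q)
  have hg : PG fun Z => ψ (evT U y c Z Q) := hψL.pg.comp (pg_evT h y hc Q)
  have h1 : ∀ (m : Fin 2) (j : Fin d),
      ∫ Z, fderiv ℝ ψ (evT U y c Z Q) (evT U y c Z fun k i => dZ m j (Q k i)) *
        evS U y c Z (XX a l (zz m j)) ∂(PiM U y c) =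
      ∫ Z, ψ (evT U y c Z Q) * evS U y c Z (del m j (XX a l (zz m j))) ∂(PiM U y c) := by
    intro m j
    refine PiM_ibp h y hc m j _ hf (continuous_Dps h y hc hψ _ _) hg (pg_Dps h y hc hψ' _ _)
      fun Z => ?_
    set v : E d × E d :=
      sel m ((EuclideanSpace.single j (1 : ℝ), 0), (0, EuclideanSpace.single j (1 : ℝ))) with hv
    have k1 : HasDerivAt (fun t : ℝ => evT U y c (Z + t • v) Q)
        (evT U y c Z fun k i => dZ m j (Q k i)) 0 := by
      refine hasDerivAt_pi.2 fun k => hasDerivAt_toLp fun i => ?_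
      have := hasDerivAt_evS_Z h (Q k i) y hc Z v 0
      convert this using 1
      rw [zero_smul, add_zero, Fin.sum_univ_two, hv]
      fin_cases m <;> simp [sel]
    have k2 := (hψ.differentiable one_ne_zero (evT U y c (Z + (0 : ℝ) • v) Q)).hasFDerivAt
    have k3 := k2.comp_hasDerivAt (0 : ℝ) k1
    rw [zero_smul, add_zero] at k3
    exact k3
  have h2 : ∀ Z, (evT U y c Z fun k i =>
        XX a l (Q k i) - (a.1 • db 0 (Q k i) + a.2 • db 1 (Q k i))) =
      ∑ m, ∑ j, evS U y c Z (XX a l (zz m j)) • evT U y c Z fun k i => dZ m j (Q k i) := by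
    intro Z
    ext k i
    rw [evT_apply, XX_split, add_sub_cancel_left]
    simp [evT_apply]
  have i1 : ∀ (m : Fin 2) (j : Fin d), Integrable (fun Z => ψ (evT U y c Z Q) *
      evS U y c Z (del m j (XX a l (zz m j)))) (PiM U y c) := fun m j =>
    integrable_PiM_real h y c (hf.mul (continuous_evS h _ y hc)) (hg.mul (pg_evS h _ y hc))
  have i2 : ∀ (m : Fin 2) (j : Fin d), Integrable (fun Z =>
      fderiv ℝ ψ (evT U y c Z Q) (evT U y c Z fun k i => dZ m j (Q k i)) *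
        evS U y c Z (XX a l (zz m j))) (PiM U y c) := fun m j =>
    integrable_PiM_real h y c ((continuous_Dps h y hc hψ _ _).mul (continuous_evS h _ y hc))
      ((pg_Dps h y hc hψ' _ _).mul (pg_evS h _ y hc))
  simp only [h2, ← XX_div a l, map_sum, map_smul, smul_eq_mul, Finset.mul_sum]
  rw [integral_finsetSum _ fun m _ => integrable_finsetSum _ fun j _ => i1 m j,
    integral_finsetSum _ fun m _ => integrable_finsetSum _ fun j _ =>
      (i2 m j).congr (Filter.Eventually.of_forall fun Z => mul_comm _ _)]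
  refine Finset.sum_congr rfl fun m _ => ?_
  rw [integral_finsetSum _ fun j _ => i1 m j, integral_finsetSum _ fun j _ =>
      (i2 m j).congr (Filter.Eventually.of_forall fun Z => mul_comm _ _)]
  refine Finset.sum_congr rfl fun j _ => ?_
  rw [← h1]
  exact integral_congr_ae (Filter.Eventually.of_forall fun Z => mul_comm _ _)

end

theorem hasDerivAt_taylor (j : ℕ → ℝ → ℝ) (j' : ℕ → ℝ) (σ : ℝ)
    (h : ∀ m, HasDerivAt (j m) (j' m) σ) (K : ℕ) :
    HasDerivAt (fun σ => ∑ m ∈ Finset.range (K + 1), σ ^ m / (m.factorial : ℝ) * j m σ)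
      (∑ m ∈ Finset.range (K + 1), σ ^ m / (m.factorial : ℝ) * (j (m + 1) σ + j' m)
        - σ ^ K / (K.factorial : ℝ) * j (K + 1) σ) σ := by
  induction K with
  | zero => simpa using h 0
  | succ K ih =>
    simp only [Finset.sum_range_succ _ (K + 1)]
    have h1 := ((hasDerivAt_pow (K + 1) σ).div_const ((K + 1).factorial : ℝ)).mul (h (K + 1))
    refine (ih.add h1).congr_deriv ?_
    have : ((K + 1).factorial : ℝ) = (K + 1) * K.factorial := by
      rw [Nat.factorial_succ]; push_cast; rfl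
    have h2 : (K.factorial : ℝ) ≠ 0 := by positivity
    rw [this]
    simp only [Nat.add_sub_cancel]
    push_cast
    field_simp
    ring

/-- the formal Taylor polynomial -/
noncomputable def tayF (a : ℝ × ℝ) (l : ℝ) (K : ℕ) (σ : ℝ) (f : R d) : R d :=
  ∑ m ∈ Finset.range (K + 1), (σ ^ m / (m.factorial : ℝ)) • (XX a l)^[m] f

theorem evT_tayF (y : E d) (c a : ℝ × ℝ) (l : ℝ) {n : ℕ} (P : Fin n → Fin d → R d) (K : ℕ) (σ : ℝ)
    (Z : E d × E d) : (evT U y c Z fun k i => tayF a l K σ (P k i)) =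
      fun k => tay K σ fun m => jet U y a l (P k) m c Z := by
  ext k i
  simp [evT_apply, tayF, tay, jet, evV]

theorem hasDerivAt_tayF (h : Pot α β U) (y : E d) (b a : ℝ × ℝ) (l : ℝ) (K : ℕ) (f : R d)
    (Z : E d × E d) {σ : ℝ} (hb : 0 < lev (b + σ • (-a))) :
    HasDerivAt (fun σ : ℝ => evS U y (b + σ • (-a)) Z (tayF a l K σ f))
      (evS U y (b + σ • (-a)) Z ((XX a l (tayF a l K σ f) -
        (a.1 • db 0 (tayF a l K σ f) + a.2 • db 1 (tayF a l K σ f))) -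
        (σ ^ K / (K.factorial : ℝ)) • (XX a l)^[K + 1] f)) σ := by
  have := hasDerivAt_taylor (fun m σ => evS U y (b + σ • (-a)) Z ((XX a l)^[m] f)) _ σ
    (fun m => hasDerivAt_evS_b h ((XX a l)^[m] f) y b (-a) Z hb) K
  convert this using 1
  · funext σ
    simp only [tayF, map_sum, map_smul, smul_eq_mul]
  · simp only [tayF, map_sum, map_smul, smul_eq_mul, map_sub, map_add, Derivation.map_smul,
      Function.iterate_succ_apply', Prod.fst_neg, Prod.snd_neg, Finset.mul_sum,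
      ← Finset.sum_add_distrib, ← Finset.sum_sub_distrib]
    congr 1
    exact Finset.sum_congr rfl fun m _ => by ring

theorem upg_evS (h : Pot α β U) (y : E d) {S : Set ℝ} {c : ℝ → ℝ × ℝ}
    (hc : ∀ σ ∈ S, 1 / 4 ≤ lev (c σ)) (f : R d) : UPG S fun σ Z => evS U y (c σ) Z f := by
  obtain ⟨C, p, hC⟩ := evS_growth h f y (s₀ := 1 / 4) (by norm_num)
  refine ⟨|C|, p, abs_nonneg _, fun σ hσ Z => (hC _ Z (hc σ hσ)).trans ?_⟩
  exact mul_le_mul_of_nonneg_right (le_abs_self C) (by positivity)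

theorem upg_coef {S : Set ℝ} {ρ : ℝ} (hS : ∀ σ ∈ S, |σ| ≤ ρ) (m : ℕ) :
    UPG S fun σ (_ : E d × E d) => σ ^ m / (m.factorial : ℝ) := by
  refine UPG.of_bound (C := ρ ^ m / (m.factorial : ℝ)) fun σ hσ _ => ?_
  rw [abs_div, abs_pow, Nat.abs_cast]
  exact div_le_div_of_nonneg_right (pow_le_pow_left₀ (abs_nonneg _) (hS σ hσ) m) (by positivity)

theorem upg_tayF (h : Pot α β U) (y : E d) {S : Set ℝ} {c : ℝ → ℝ × ℝ}
    (hc : ∀ σ ∈ S, 1 / 4 ≤ lev (c σ)) {ρ : ℝ} (hS : ∀ σ ∈ S, |σ| ≤ ρ) (a : ℝ × ℝ) (l : ℝ) (K : ℕ)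
    (D : R d →ₗ[ℝ] R d) (f : R d) : UPG S fun σ Z => evS U y (c σ) Z (D (tayF a l K σ f)) := by
  simp only [tayF, map_sum, map_smul, smul_eq_mul]
  exact UPG.sum _ fun m _ => (upg_coef hS m).mul (upg_evS h y hc _)

theorem continuous_lev : Continuous lev := by unfold lev; fun_prop

theorem hasDerivAt_transport (h : Pot α β U) (y : E d) (b a : ℝ × ℝ) (l : ℝ) {n : ℕ}
    (P : Fin n → Fin d → R d) (K : ℕ) {L : ℝ} {ψ : (Fin n → E d) → ℝ} (hψ : ContDiff ℝ 1 ψ)
    (hψL : LipR L ψ) (hψ' : ∀ x, ‖fderiv ℝ ψ x‖ ≤ L) {σ₀ : ℝ}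
    (hb : 1 / 2 ≤ lev (b + σ₀ • (-a))) :
    HasDerivAt (fun σ : ℝ => ∫ Z, ψ (evT U y (b + σ • (-a)) Z fun k i => tayF a l K σ (P k i))
        ∂(PiM U y (b + σ • (-a))))
      (-(σ₀ ^ K / (K.factorial : ℝ) * ∫ Z,
        fderiv ℝ ψ (evT U y (b + σ₀ • (-a)) Z fun k i => tayF a l K σ₀ (P k i))
          (evT U y (b + σ₀ • (-a)) Z fun k i => (XX a l)^[K + 1] (P k i))
        ∂(PiM U y (b + σ₀ • (-a))))) σ₀ := by
  set c : ℝ → ℝ × ℝ := fun σ => b + σ • (-a) with hcdef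
  set S : Set ℝ := {σ | 1 / 4 < lev (c σ)} ∩ Metric.ball σ₀ 1 with hSdef
  have hS : S ∈ nhds σ₀ := by
    refine Filter.inter_mem (IsOpen.mem_nhds (isOpen_lt continuous_const
      (continuous_lev.comp (by simp only [hcdef]; fun_prop))) ?_) (Metric.ball_mem_nhds _ one_pos)
    show 1 / 4 < lev (c σ₀)
    linarith
  have hS1 : ∀ σ ∈ S, 1 / 4 ≤ lev (c σ) := fun σ hσ => le_of_lt hσ.1
  have hS2 : ∀ σ ∈ S, 0 < lev (c σ) := fun σ hσ => by linarith [hS1 σ hσ]
  have hS3 : ∀ σ ∈ S, |σ| ≤ |σ₀| + 1 := fun σ hσ => by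
    have h1 : |σ - σ₀| < 1 := hσ.2
    have := abs_add_le (σ - σ₀) σ₀
    rw [sub_add_cancel] at this
    linarith
  have h0 : σ₀ ∈ S := mem_of_mem_nhds hS
  set Q : ℝ → Fin n → Fin d → R d := fun σ k i => tayF a l K σ (P k i) with hQ
  set D : R d →ₗ[ℝ] R d := (XX a l : Der d).toLinearMap -
    (a.1 • (db 0 : Der d).toLinearMap + a.2 • (db 1 : Der d).toLinearMap) with hD
  have hDa : ∀ f, D f = XX a l f - (a.1 • db 0 f + a.2 • db 1 f) := fun f => rfl
  set W : ℝ → Fin n → Fin d → R d := fun σ k i => D (Q σ k i) -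
    (σ ^ K / (K.factorial : ℝ)) • (XX a l)^[K + 1] (P k i) with hW
  set ρ : ℝ → E d × E d → ℝ := fun σ Z => Fz U (lev (c σ)) (pt y (c σ) Z) / Fz U 1 y with hρ
  have cρ : ∀ σ, Continuous (ρ σ) := fun σ =>
    (h.continuous_Fz.comp (f := fun Z : E d × E d => (lev (c σ), pt y (c σ) Z))
      (by unfold pt; fun_prop)).div_const _
  have bρ : ∀ σ Z, |ρ σ Z| ≤ 1 / Fz U 1 y := fun σ Z => by
    rw [abs_of_pos (div_pos (h.Fz_pos _ _) (h.Fz_pos _ _))]
    exact div_le_div_of_nonneg_right (h.Fz_le_one _ _) (h.Fz_pos _ _).le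
  have pρ : ∀ σ, PG (ρ σ) := fun σ => (PG.const (1 / Fz U 1 y)).of_le fun Z =>
    (bρ σ Z).trans (le_abs_self _)
  have cψ : ∀ σ ∈ S, Continuous fun Z => ψ (evT U y (c σ) Z (Q σ)) := fun σ hσ =>
    hψ.continuous.comp (continuous_evT h y (hS2 σ hσ) _)
  have pψ : PG fun Z => ψ (evT U y (c σ₀) Z (Q σ₀)) := hψL.pg.comp (pg_evT h y (hS2 _ h0) _)
  have u1 : UPG S fun σ Z => ψ (evT U y (c σ) Z (Q σ)) := by
    refine ((UPG.of_bound (f := fun _ _ => |ψ 0|) (C := |ψ 0|) (by simp)).add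
      ((UPG.of_bound (f := fun _ _ => |L|) (C := |L|) (by simp)).mul (UPG.sum Finset.univ fun k _ =>
        UPG.sum Finset.univ fun i _ =>
          (upg_tayF h y hS1 hS3 a l K LinearMap.id (P k i)).abs))).of_le fun σ _ Z => ?_
    have k1 := hψL (evT U y (c σ) Z (Q σ)) 0
    rw [sub_zero] at k1
    have k2 := mul_le_mul (le_abs_self L) (norm_evT_le (U := U) y (c σ) Z (Q σ))
      (norm_nonneg _) (abs_nonneg L)
    have k3 := abs_add_le (ψ (evT U y (c σ) Z (Q σ)) - ψ 0) (ψ 0)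
    rw [sub_add_cancel] at k3
    refine le_trans ?_ (le_abs_self _)
    simp only [LinearMap.id_apply]
    linarith
  have u2 : UPG S fun σ Z => fderiv ℝ ψ (evT U y (c σ) Z (Q σ)) (evT U y (c σ) Z (W σ)) := by
    have k0 : ∀ k i, UPG S fun σ Z => evS U y (c σ) Z (W σ k i) := by
      intro k i
      refine ((upg_tayF h y hS1 hS3 a l K D (P k i)).add ((upg_coef hS3 K).mul
        (upg_evS h y hS1 (-(XX a l)^[K + 1] (P k i))))).of_le fun σ _ Z => le_of_eq ?_
      simp only [hW, hQ, map_sub, map_smul, map_neg, smul_eq_mul]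
      ring_nf
    refine ((UPG.of_bound (f := fun _ _ => |L|) (C := |L|) (by simp)).mul
      (UPG.sum Finset.univ fun k _ => UPG.sum Finset.univ fun i _ => (k0 k i).abs)).of_le
        fun σ _ Z => ?_
    exact ((abs_fderiv_le hψ' _ _).trans (mul_le_mul (le_abs_self L) (norm_evT_le y (c σ) Z (W σ))
      (norm_nonneg _) (abs_nonneg L))).trans (le_abs_self _)
  obtain ⟨C, p, -, hC⟩ := (UPG.of_bound fun σ _ Z => bρ σ Z).mul
    ((u1.mul (upg_evS h y hS1 (-(a.1 • Lam 0 + a.2 • Lam 1)))).add u2)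
  have cF' : Continuous fun Z => ψ (evT U y (c σ₀) Z (Q σ₀)) *
      evS U y (c σ₀) Z (-(a.1 • Lam 0 + a.2 • Lam 1)) +
      fderiv ℝ ψ (evT U y (c σ₀) Z (Q σ₀)) (evT U y (c σ₀) Z (W σ₀)) :=
    ((cψ _ h0).mul (continuous_evS h _ y (hS2 _ h0))).add (continuous_Dps h y (hS2 _ h0) hψ _ _)
  have main := (hasDerivAt_integral_of_dominated_loc_of_deriv_le (μ := (gam d).prod (gam d))
    (F := fun σ Z => ρ σ Z * ψ (evT U y (c σ) Z (Q σ)))
    (F' := fun σ Z => ρ σ Z * (ψ (evT U y (c σ) Z (Q σ)) *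
      evS U y (c σ) Z (-(a.1 • Lam 0 + a.2 • Lam 1)) +
      fderiv ℝ ψ (evT U y (c σ) Z (Q σ)) (evT U y (c σ) Z (W σ))))
    (bound := fun Z => C * (1 + ‖Z‖) ^ p) hS
    (Filter.mem_of_superset hS fun σ hσ => ((cρ σ).mul (cψ σ hσ)).aestronglyMeasurable)
    (((pρ σ₀).mul pψ).integrable_gam2 ((cρ σ₀).mul (cψ σ₀ h0)).aestronglyMeasurable)
    ((cρ σ₀).mul cF').aestronglyMeasurable
    (Filter.Eventually.of_forall fun Z σ hσ => hC σ hσ Z)
    (((PG.const C).mul (((PG.const 1).add PG.norm).pow p)).integrable_gam2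
      (Continuous.aestronglyMeasurable (by fun_prop)))
    (Filter.Eventually.of_forall fun Z σ hσ => by
      have k1 := (hasDerivAt_Fz_b h y b (-a) Z (hS2 σ hσ)).div_const (Fz U 1 y)
      have k2 : HasDerivAt (fun σ => evT U y (c σ) Z (Q σ)) (evT U y (c σ) Z (W σ)) σ :=
        hasDerivAt_pi.2 fun k => hasDerivAt_toLp fun i =>
          hasDerivAt_tayF h y b a l K (P k i) Z (hS2 σ hσ)
      have k3 := (hψ.differentiable one_ne_zero
        (evT U y (c σ) Z (Q σ))).hasFDerivAt.comp_hasDerivAt σ k2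
      refine (k1.mul k3).congr_deriv ?_
      simp only [hρ, hcdef, map_neg, map_add, map_smul, smul_eq_mul, Prod.fst_neg, Prod.snd_neg,
        Function.comp_apply]
      ring)).2
  refine (main.congr_of_eventuallyEq (Filter.Eventually.of_forall fun σ =>
    integral_PiM h y (c σ) _)).congr_deriv (Eq.symm ?_)
  · have e1 := integral_PiM h y (c σ₀) fun Z => ψ (evT U y (c σ₀) Z (Q σ₀)) *
      evS U y (c σ₀) Z (-(a.1 • Lam 0 + a.2 • Lam 1)) +
      fderiv ℝ ψ (evT U y (c σ₀) Z (Q σ₀)) (evT U y (c σ₀) Z (W σ₀))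
    refine Eq.trans ?_ e1
    have e2 : ∀ Z, evT U y (c σ₀) Z (W σ₀) = (evT U y (c σ₀) Z fun k i => D (Q σ₀ k i)) -
        (σ₀ ^ K / (K.factorial : ℝ)) • evT U y (c σ₀) Z fun k i => (XX a l)^[K + 1] (P k i) := by
      intro Z
      ext k i
      simp only [evT_apply, hW, map_sub, map_smul, Pi.sub_apply, Pi.smul_apply, PiLp.sub_apply,
        PiLp.smul_apply]
    have i1 : Integrable (fun Z => ψ (evT U y (c σ₀) Z (Q σ₀)) *
        evS U y (c σ₀) Z (a.1 • Lam 0 + a.2 • Lam 1)) (PiM U y (c σ₀)) :=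
      integrable_PiM_real h y (c σ₀) ((cψ _ h0).mul
      (continuous_evS h (a.1 • Lam 0 + a.2 • Lam 1) y (hS2 _ h0)))
      (pψ.mul (pg_evS h _ y (hS2 _ h0)))
    have i2 : ∀ V, Integrable (fun Z => fderiv ℝ ψ (evT U y (c σ₀) Z (Q σ₀)) (evT U y (c σ₀) Z V))
        (PiM U y (c σ₀)) := fun V => integrable_PiM_real h y (c σ₀)
      (continuous_Dps h y (hS2 _ h0) hψ _ _) (pg_Dps h y (hS2 _ h0) hψ' _ _)
    simp only [e2, map_sub, map_smul, map_neg, mul_neg, smul_eq_mul]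
    rw [integral_add (by exact i1.neg) (by exact (i2 _).sub ((i2 _).const_mul _)), integral_neg,
      integral_sub (i2 _) ((i2 _).const_mul _), integral_const_mul,
      transport_key h y (hS2 _ h0) a l hψ hψL hψ']
    simp only [hDa]
    ring

theorem transport (h : Pot α β U) (y : E d) (b a : ℝ × ℝ) (l : ℝ) {n : ℕ}
    (P : Fin n → Fin d → R d) (K : ℕ) {s₁ B L : ℝ} (hs : 0 ≤ s₁) (hL : 0 ≤ L)
    (hb : ∀ s, 0 ≤ s → s ≤ s₁ → 1 / 2 ≤ lev (b + s • a))
    (hB : ∀ s, 0 ≤ s → s ≤ s₁ →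
      ∑ k, ∫ Z, ‖jet U y a l (P k) (K + 1) (b + s • a) Z‖ ∂(PiM U y (b + s • a)) ≤ B)
    {ψ : (Fin n → E d) → ℝ} (hψ : LipR L ψ) :
    |∫ Z, ψ (fun k => tay K s₁ fun m => jet U y a l (P k) m b Z) ∂(PiM U y b)
      - ∫ Z, ψ (fun k => jet U y a l (P k) 0 (b + s₁ • a) Z) ∂(PiM U y (b + s₁ • a))|
      ≤ L * s₁ ^ (K + 1) * B := by
  have hB0 : 0 ≤ B := le_trans (Finset.sum_nonneg fun k _ => integral_nonneg fun Z => norm_nonneg _)
    (hB 0 le_rfl hs)
  have hc : ∀ σ : ℝ, b + s₁ • a + σ • (-a) = b + (s₁ - σ) • a := fun σ => by module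
  have l0 : 0 < lev b := by have := hb 0 le_rfl hs; rw [zero_smul, add_zero] at this; linarith
  have l1 : 0 < lev (b + s₁ • a) := by linarith [hb s₁ hs le_rfl]
  have e1 : ∀ Z, (fun k => jet U y a l (P k) 0 (b + s₁ • a) Z) =
      evT U y (b + s₁ • a) Z fun k i => tayF a l K 0 (P k i) := by
    intro Z
    rw [evT_tayF]
    funext k
    simp [tay, Finset.sum_range_succ']
  simp only [← evT_tayF, e1]
  have key : ∀ φ : (Fin n → E d) → ℝ, ContDiff ℝ 1 φ → LipR L φ → (∀ x, ‖fderiv ℝ φ x‖ ≤ L) →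
      |∫ Z, φ (evT U y b Z fun k i => tayF a l K s₁ (P k i)) ∂(PiM U y b) -
        ∫ Z, φ (evT U y (b + s₁ • a) Z fun k i => tayF a l K 0 (P k i))
          ∂(PiM U y (b + s₁ • a))| ≤ L * s₁ ^ (K + 1) * B := by
    intro φ h1 h2 h3
    have := norm_image_sub_le_of_norm_deriv_le_segment' (a := 0) (b := s₁) (C := L * s₁ ^ K * B)
      (fun σ hσ => (hasDerivAt_transport h y (b + s₁ • a) a l P K h1 h2 h3 (σ₀ := σ) (by
        rw [hc]; exact hb _ (by linarith [hσ.2]) (by linarith [hσ.1]))).hasDerivWithinAt)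
      (fun σ hσ => by
        have k0 := hb (s₁ - σ) (by linarith [hσ.2]) (by linarith [hσ.1])
        have k1 := hB (s₁ - σ) (by linarith [hσ.2]) (by linarith [hσ.1])
        rw [hc, norm_neg, norm_mul]
        set c := b + (s₁ - σ) • a
        have lc : 0 < lev c := by linarith
        have i1 : ∀ k, Integrable (fun Z => ‖jet U y a l (P k) (K + 1) c Z‖) (PiM U y c) :=
          fun k => integrable_PiM_real h y c (continuous_evV h _ y lc).norm (pg_evV h _ y lc)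
        have k2 : ‖σ ^ K / (K.factorial : ℝ)‖ ≤ s₁ ^ K := by
          rw [Real.norm_of_nonneg (div_nonneg (pow_nonneg hσ.1 _) (by positivity))]
          exact (div_le_self (pow_nonneg hσ.1 _) (by exact_mod_cast K.factorial_pos)).trans
            (pow_le_pow_left₀ hσ.1 hσ.2.le K)
        have k3 := norm_integral_le_of_norm_le (μ := PiM U y c)
          (f := fun Z => fderiv ℝ φ (evT U y c Z fun k i => tayF a l K σ (P k i))
            (evT U y c Z fun k i => (XX a l)^[K + 1] (P k i)))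
          ((integrable_finsetSum Finset.univ fun k _ => i1 k).const_mul L)
          (Filter.Eventually.of_forall fun Z => (abs_fderiv_le h3 _ _).trans
            (mul_le_mul_of_nonneg_left (pi_norm_le_sum _) hL))
        rw [integral_const_mul, integral_finsetSum _ fun k _ => i1 k] at k3
        refine (mul_le_mul k2 (k3.trans (mul_le_mul_of_nonneg_left k1 hL)) (norm_nonneg _)
          (pow_nonneg hs _)).trans (le_of_eq (by ring))) s₁ ⟨hs, le_rfl⟩
    simp only [hc, sub_self, sub_zero, zero_smul, add_zero, Real.norm_eq_abs] at this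
    exact this.trans (le_of_eq (by ring))
  refine le_of_forall_pos_le_add fun η hη => ?_
  obtain ⟨φ, h1, h2, h3, h4⟩ := exists_smooth_lip hL hψ (half_pos hη)
  have close : ∀ (c : ℝ × ℝ), 0 < lev c → ∀ Q : Fin n → Fin d → R d,
      |∫ Z, φ (evT U y c Z Q) ∂(PiM U y c) - ∫ Z, ψ (evT U y c Z Q) ∂(PiM U y c)| ≤ η / 2 := by
    intro c lc Q
    have := isProb_PiM h y lc.le
    have i1 : Integrable (fun Z => φ (evT U y c Z Q)) (PiM U y c) := integrable_PiM_real h y c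
      (h2.continuous.comp (continuous_evT h y lc Q)) (h2.pg.comp (pg_evT h y lc Q))
    have i2 : Integrable (fun Z => ψ (evT U y c Z Q)) (PiM U y c) := integrable_PiM_real h y c
      (hψ.continuous.comp (continuous_evT h y lc Q)) (hψ.pg.comp (pg_evT h y lc Q))
    rw [← integral_sub i1 i2]
    simpa using norm_integral_le_of_norm_le_const (μ := PiM U y c) (C := η / 2)
      (f := fun Z => φ (evT U y c Z Q) - ψ (evT U y c Z Q))
      (Filter.Eventually.of_forall fun Z => h4 _)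
  have k1 := abs_le.1 (key φ h1 h2 h3)
  have k2 := abs_le.1 (close b l0 fun k i => tayF a l K s₁ (P k i))
  have k3 := abs_le.1 (close _ l1 fun k i => tayF a l K 0 (P k i))
  rw [abs_le]
  constructor <;> linarith [k1.1, k1.2, k2.1, k2.2, k3.1, k3.2]

end Vale.Agent.P347
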