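import Vale.Agent.P347.CollocDefs
import Vale.Agent.P347.Transport

/-! TASK Colloc: existence of the weights, Lipschitz bounds of the templates, and the abstract
collocation error estimate. See PROOF.md, section H. -/

open MeasureTheory ProbabilityTheory

namespace Vale.Agent.P347

variable {d K : ℕ}

/-- inverse Vandermonde matrix -/
theorem exists_quad {K : ℕ} (hK : 1 ≤ K) : Nonempty (Quad K) := by
  have hKpos : (0 : ℝ) < K := by exact_mod_cast hK
  have hinj : Function.Injective (nd K) := by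
    intro i j hij
    unfold nd at hij
    have h1 : ((i : ℕ) : ℝ) = ((j : ℕ) : ℝ) := by
      field_simp at hij
      exact hij
    exact Fin.ext (by exact_mod_cast h1)
  have hdet : (Matrix.vandermonde (nd K)).det ≠ 0 :=
    Matrix.det_vandermonde_ne_zero_iff.mpr hinj
  have hsolve : ∀ t : ℕ → ℝ, ∃ w : Fin (K + 1) → ℝ, ∀ m, m ≤ K → ∑ j, w j * nd K j ^ m = t m := by
    intro t
    refine ⟨Matrix.vecMul (fun m : Fin (K + 1) => t m) (Matrix.vandermonde (nd K))⁻¹, ?_⟩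
    intro m hm
    have h1 : Matrix.vecMul (Matrix.vecMul (fun m : Fin (K + 1) => t m)
        (Matrix.vandermonde (nd K))⁻¹) (Matrix.vandermonde (nd K)) =
        fun m : Fin (K + 1) => t m := by
      rw [Matrix.vecMul_vecMul, Matrix.nonsing_inv_mul _ (isUnit_iff_ne_zero.mpr hdet),
        Matrix.vecMul_one]
    have h2 := congrFun h1 ⟨m, by omega⟩
    simpa [Matrix.vecMul, dotProduct, Matrix.vandermonde_apply] using h2
  choose a ha using fun i : Fin (K + 1) => hsolve fun m => nd K i ^ (m + 1) / (m + 1)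
  obtain ⟨c, hc⟩ := hsolve fun m => if m = 1 then 1 else 0
  have hA : ∀ i, 0 ≤ ∑ j, |a i j| := fun i => Finset.sum_nonneg fun j _ => abs_nonneg _
  have hA' : 0 ≤ ∑ i, ∑ j, |a i j| := Finset.sum_nonneg fun i _ => hA i
  have hC : 0 ≤ ∑ j, |c j| := Finset.sum_nonneg fun j _ => abs_nonneg _
  refine ⟨⟨a, c, 1 + ∑ i, ∑ j, |a i j| + ∑ j, |c j|, by linarith, fun i => ?_, by linarith,
    ha, hc⟩⟩
  have : ∑ j, |a i j| ≤ ∑ i, ∑ j, |a i j| :=
    Finset.single_le_sum (f := fun i => ∑ j, |a i j|) (fun i _ => hA i) (Finset.mem_univ i)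
  linarith

theorem nd_last {K : ℕ} (hK : 1 ≤ K) : nd K (Fin.last K) = 1 := by
  have hKpos : (0 : ℝ) < K := by exact_mod_cast hK
  simp [nd, hKpos.ne']

theorem nd_nonneg (i : Fin (K + 1)) : 0 ≤ nd K i := by
  unfold nd
  positivity

theorem nd_le_one (i : Fin (K + 1)) : nd K i ≤ 1 := by
  unfold nd
  apply div_le_one_of_le₀
  · exact_mod_cast Nat.lt_succ_iff.mp i.isLt
  · positivity

section Lip
variable {X F : Type*} [NormedAddCommGroup X] [NormedSpace ℝ X] [NormedAddCommGroup F]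
  [NormedSpace ℝ F]

omit [NormedSpace ℝ X] [NormedSpace ℝ F] in
theorem LipV.mono' {L L' : ℝ} {f : X → F} (hf : LipV L f) (h : L ≤ L') : LipV L' f :=
  fun x y => (hf x y).trans (mul_le_mul_of_nonneg_right h (norm_nonneg _))

/-- norm of a weighted sum -/
theorem norm_wsum_le {ι : Type*} [Fintype ι] (w : ι → ℝ) (u : ι → F) {Λ M : ℝ} (hM : 0 ≤ M)
    (hw : ∑ j, |w j| ≤ Λ) (hu : ∀ j, ‖u j‖ ≤ M) : ‖∑ j, w j • u j‖ ≤ Λ * M := by
  calc ‖∑ j, w j • u j‖ ≤ ∑ j, ‖w j • u j‖ := norm_sum_le _ _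
    _ ≤ ∑ j, |w j| * M := by
        refine Finset.sum_le_sum fun j _ => ?_
        rw [norm_smul, Real.norm_eq_abs]
        exact mul_le_mul_of_nonneg_left (hu j) (abs_nonneg _)
    _ = (∑ j, |w j|) * M := by rw [Finset.sum_mul]
    _ ≤ Λ * M := mul_le_mul_of_nonneg_right hw hM

omit [NormedSpace ℝ X] in
/-- weighted sums of Lipschitz maps -/
theorem lip_wsum {ι : Type*} [Fintype ι] (w : ι → ℝ) (u : ι → X → F) {Λ M : ℝ} (hM : 0 ≤ M)
    (hw : ∑ j, |w j| ≤ Λ) (hu : ∀ j, LipV M (u j)) :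
    LipV (Λ * M) fun Z => ∑ j, w j • u j Z := by
  intro x y
  have h1 : ∑ j, w j • u j x - ∑ j, w j • u j y = ∑ j, w j • (u j x - u j y) := by
    rw [← Finset.sum_sub_distrib]
    exact Finset.sum_congr rfl fun j _ => (smul_sub _ _ _).symm
  rw [h1, mul_assoc]
  exact norm_wsum_le w _ (by positivity) hw fun j => hu j x y

omit [NormedSpace ℝ X] [NormedSpace ℝ F] in
theorem LipV.comp' {Y : Type*} [NormedAddCommGroup Y] {L L' : ℝ} {f : Y → F} {g : X → Y}
    (hL : 0 ≤ L) (hf : LipV L f) (hg : LipV L' g) : LipV (L * L') fun x => f (g x) := by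
  intro x y
  rw [mul_assoc]
  exact (hf _ _).trans (mul_le_mul_of_nonneg_left (hg x y) hL)

omit [NormedSpace ℝ X] in
theorem LipV.smul' {L : ℝ} {f : X → F} (c : ℝ) (hf : LipV L f) :
    LipV (|c| * L) fun x => c • f x := by
  intro x y
  rw [← smul_sub, norm_smul, Real.norm_eq_abs, mul_assoc]
  exact mul_le_mul_of_nonneg_left (hf x y) (abs_nonneg _)

theorem pic_lip (Qd : Quad K) {h Lv : ℝ} (hh : 0 ≤ h) (hL : 0 ≤ Lv) (a : ℝ × ℝ)
    (v : ℝ × ℝ → X → X) (b : ℝ × ℝ) (hv : ∀ j, LipV Lv (v (b + (h * nd K j) • a)))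
    (hs : h * Qd.Λ * Lv ≤ 1 / 2) (n : ℕ) (i : Fin (K + 1)) :
    LipV 2 fun Z => pic Qd h a v b Z n i := by
  induction n generalizing i with
  | zero =>
    intro x y
    simp only [pic]
    linarith [norm_nonneg (x - y)]
  | succ n ih =>
    have h1 := (lip_wsum (Qd.a i) (fun j Z => v (b + (h * nd K j) • a) (pic Qd h a v b Z n j))
      (M := Lv * 2) (by positivity) (Qd.ha i) fun j => LipV.comp' hL (hv j) (ih j)).smul' h
    intro x y
    have h2 := h1 x y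
    simp only [pic]
    rw [abs_of_nonneg hh] at h2
    rw [add_sub_add_comm]
    refine (norm_add_le _ _).trans ?_
    have h3 : h * (Qd.Λ * (Lv * 2)) ≤ 1 := by linarith
    have h4 := mul_le_mul_of_nonneg_right h3 (norm_nonneg (x - y))
    linarith

theorem fd_lip (Qd : Quad K) {h Lv Lq : ℝ} (hh : 0 < h) (hL : 0 ≤ Lv) (hq : 0 ≤ Lq) (J : ℕ)
    (a : ℝ × ℝ) (v : ℝ × ℝ → X → X) (q : ℝ × ℝ → X → F) (b : ℝ × ℝ)
    (hv : ∀ j, LipV Lv (v (b + (h * nd K j) • a))) (hs : h * Qd.Λ * Lv ≤ 1 / 2)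
    (hq' : ∀ j, LipV Lq (q (b + (h * nd K j) • a))) :
    LipV (2 * Qd.Λ * Lq / h) (fd Qd h J a v q b) := by
  have h1 := (lip_wsum Qd.c (fun j Z => q (b + (h * nd K j) • a) (pic Qd h a v b Z J j))
    (M := Lq * 2) (by positivity) Qd.hc fun j =>
      LipV.comp' hq (hq' j) (pic_lip Qd hh.le hL a v b hv hs J j)).smul' h⁻¹
  rw [abs_of_pos (inv_pos.mpr hh)] at h1
  refine LipV.mono' h1 (le_of_eq ?_)
  field_simp

theorem qd_lip (Qd : Quad K) {h Lv Lq : ℝ} (hh : 0 < h) (hL : 0 ≤ Lv) (hq : 0 ≤ Lq) (J : ℕ)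
    (a : ℝ × ℝ) (v : ℝ × ℝ → X → X) (q : ℝ × ℝ → X → F) (b : ℝ × ℝ)
    (hv : ∀ j, LipV Lv (v (b + (h * nd K j) • a))) (hs : h * Qd.Λ * Lv ≤ 1 / 2)
    (hq' : ∀ j, LipV Lq (q (b + (h * nd K j) • a))) :
    LipV (2 * Qd.Λ * Lq * h) (qd Qd h J a v q b) := by
  have h1 := (lip_wsum (Qd.a (Fin.last K))
    (fun j Z => q (b + (h * nd K j) • a) (pic Qd h a v b Z J j))
    (M := Lq * 2) (by positivity) (Qd.ha _) fun j =>
      LipV.comp' hq (hq' j) (pic_lip Qd hh.le hL a v b hv hs J j)).smul' h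
  rw [abs_of_pos hh] at h1
  refine LipV.mono' h1 (le_of_eq ?_)
  ring
end Lip

/-- the standing Lipschitz hypothesis on the force -/
def GLip (ε : ℝ) (g : ℝ × ℝ → E d × E d → E d) : Prop :=
  ∀ b : ℝ × ℝ, ‖b‖ ≤ 1 / 2 → LipV (ε * (|b.1| + |b.2|)) (g b)

section Templates
variable (Qd : Quad K) {h ε l l' : ℝ} (J : ℕ) {g : ℝ × ℝ → E d × E d → E d}

theorem small_h (hh : 0 < h) (hs : 20 * Qd.Λ ^ 2 * h ≤ 1) : h ≤ 1 / 20 := by
  have h1 := Qd.one_le
  have h2 : 1 ≤ Qd.Λ ^ 2 := one_le_pow₀ h1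
  nlinarith

theorem GLip.lip (hε0 : 0 ≤ ε) (hg : GLip ε g) {b : ℝ × ℝ} {t : ℝ} (ht : t ≤ 1 / 2)
    (hb : |b.1| + |b.2| ≤ t) : LipV (ε * t) (g b) := by
  have h1 : ‖b‖ ≤ 1 / 2 := by
    rw [Prod.norm_def, Real.norm_eq_abs, Real.norm_eq_abs]
    refine max_le ?_ ?_ <;> linarith [abs_nonneg b.1, abs_nonneg b.2]
  exact (hg b h1).mono' (mul_le_mul_of_nonneg_left hb hε0)

theorem eb_abs (m : Fin 2) : |(eb m).1| + |(eb m).2| = 1 := by
  fin_cases m <;> simp [eb, sel]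

theorem shift_abs (hh : 0 ≤ h) {a b : ℝ × ℝ} {t : ℝ} (ha : |a.1| + |a.2| ≤ 1)
    (hb : |b.1| + |b.2| ≤ t) (j : Fin (K + 1)) :
    |(b + (h * nd K j) • a).1| + |(b + (h * nd K j) • a).2| ≤ t + h := by
  have h0 : 0 ≤ h * nd K j := mul_nonneg hh (nd_nonneg j)
  have h1 : h * nd K j ≤ h := mul_le_of_le_one_right hh (nd_le_one j)
  simp only [Prod.fst_add, Prod.snd_add, Prod.smul_fst, Prod.smul_snd, smul_eq_mul]
  have e1 := abs_add_le b.1 (h * nd K j * a.1)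
  have e2 := abs_add_le b.2 (h * nd K j * a.2)
  rw [abs_mul (h * nd K j), abs_of_nonneg h0] at e1 e2
  have e3 : h * nd K j * (|a.1| + |a.2|) ≤ h * nd K j := mul_le_of_le_one_right h0 ha
  nlinarith

theorem Dhat_lip (hh : 0 < h) (hs : 20 * Qd.Λ ^ 2 * h ≤ 1) (hε0 : 0 ≤ ε) (hε : ε ≤ 1)
    (hg : GLip ε g) (m : Fin 2) {b : ℝ × ℝ} (hb : |b.1| + |b.2| ≤ h) :
    LipV (4 * Qd.Λ * ε) (Dhat Qd h J g m b) := by
  have hh' := small_h Qd hh hs
  have hΛ := Qd.one_le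
  have hgj : ∀ j : Fin (K + 1), LipV (ε * (h + h)) (g (b + (h * nd K j) • eb m)) := fun j =>
    hg.lip hε0 (by linarith) (shift_abs hh.le (eb_abs m).le hb j)
  have hv : ∀ j : Fin (K + 1), LipV (ε * (h + h)) (v0 g (eb m) (b + (h * nd K j) • eb m)) := by
    intro j x y
    have h1 := (hgj j).smul' (eb m).1 x y
    have h2 := (hgj j).smul' (eb m).2 x y
    have h3 := eb_abs m
    have h4 : 0 ≤ ε * (h + h) * ‖x - y‖ := by positivity
    have h5 := abs_nonneg (eb m).1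
    have h6 := abs_nonneg (eb m).2
    simp only [v0, Prod.norm_def, Prod.fst_sub, Prod.snd_sub]
    refine max_le ?_ ?_
    · rw [neg_sub_neg, norm_sub_rev]
      refine h1.trans ?_
      rw [mul_assoc]
      exact mul_le_of_le_one_left h4 (by linarith)
    · rw [neg_sub_neg, norm_sub_rev]
      refine h2.trans ?_
      rw [mul_assoc]
      exact mul_le_of_le_one_left h4 (by linarith)
  have hs' : h * Qd.Λ * (ε * (h + h)) ≤ 1 / 2 := by
    have e1 : ε * (h + h) ≤ 1 := by nlinarith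
    have e2 : h * Qd.Λ ≤ 1 / 20 := by nlinarith
    have e3 : 0 ≤ h * Qd.Λ := by positivity
    nlinarith
  refine LipV.mono' (fd_lip Qd hh (by positivity) (by positivity) J (eb m) _ g b hv hs' hgj)
    (le_of_eq ?_)
  field_simp
  ring

theorem vf_lip (hh : 0 < h) (hs : 20 * Qd.Λ ^ 2 * h ≤ 1) (hε0 : 0 ≤ ε) (hε : ε ≤ 1)
    (hg : GLip ε g) {a : ℝ × ℝ} (ha : ‖a‖ ≤ 1) (hl : |l| * ε ≤ 1) {b : ℝ × ℝ}
    (hb : |b.1| + |b.2| ≤ h) : LipV (5 * Qd.Λ) (vf Qd h J g a l b) := by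
  have hh' := small_h Qd hh hs
  have hΛ := Qd.one_le
  have hgb : LipV (ε * h) (g b) := hg.lip hε0 (by linarith) hb
  have ha1 : |a.1| ≤ 1 := (norm_fst_le a).trans ha
  have ha2 : |a.2| ≤ 1 := (norm_snd_le a).trans ha
  have hεh : ε * h ≤ Qd.Λ := by nlinarith
  have hεh0 : 0 ≤ ε * h := by positivity
  have hl' : |l| * (4 * Qd.Λ * ε) ≤ 4 * Qd.Λ := by nlinarith
  intro x y
  have h1 := (hgb.smul' a.1).mono' (L' := Qd.Λ) (by nlinarith) x y
  have h2 := (hgb.smul' a.2).mono' (L' := Qd.Λ) (by nlinarith) x y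
  have h3 := ((Dhat_lip Qd J hh hs hε0 hε hg 1 hb).smul' l).mono' hl' x y
  have h4 := ((Dhat_lip Qd J hh hs hε0 hε hg 0 hb).smul' l).mono' hl' x y
  simp only [vf, Prod.norm_def, Prod.fst_sub, Prod.snd_sub]
  rw [← Prod.fst_sub, ← Prod.snd_sub, ← Prod.norm_def]
  refine max_le ?_ ?_
  · have e : -(a.1 • g b x) - l • Dhat Qd h J g 1 b x - (-(a.1 • g b y) - l • Dhat Qd h J g 1 b y)
        = -((a.1 • g b x - a.1 • g b y) + (l • Dhat Qd h J g 1 b x - l • Dhat Qd h J g 1 b y)) := by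
      abel
    rw [e, norm_neg]
    refine (norm_add_le _ _).trans ?_
    linarith
  · have e : -(a.2 • g b x) + l • Dhat Qd h J g 0 b x - (-(a.2 • g b y) + l • Dhat Qd h J g 0 b y)
        = (l • Dhat Qd h J g 0 b x - l • Dhat Qd h J g 0 b y) - (a.2 • g b x - a.2 • g b y) := by
      abel
    rw [e]
    refine (norm_sub_le _ _).trans ?_
    linarith

theorem Ahat_lip (hh : 0 < h) (hs : 20 * Qd.Λ ^ 2 * h ≤ 1) (hε0 : 0 ≤ ε) (hε : ε ≤ 1)
    (hg : GLip ε g) (hl : |l'| * ε ≤ 1) {b : ℝ × ℝ} (hb : |b.1| + |b.2| ≤ h) :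
    LipV (2 * Qd.Λ * ε) (Ahat Qd h J g l' b) := by
  have hh' := small_h Qd hh hs
  have hΛ := Qd.one_le
  have hgb : LipV (ε * h) (g b) := hg.lip hε0 (by linarith) hb
  refine LipV.mono' (fd_lip Qd hh (Lv := 5 * Qd.Λ) (Lq := ε * h) (by positivity) (by positivity)
    J 0 _ g b (fun j => ?_) (by nlinarith) fun j => ?_) (le_of_eq ?_)
  · rw [smul_zero, add_zero]
    exact vf_lip Qd J hh hs hε0 hε hg (by simp) hl hb
  · rw [smul_zero, add_zero]
    exact hgb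
  · field_simp

theorem main_abs (hh : 0 ≤ h) (j : Fin (K + 1)) :
    |((0 : ℝ × ℝ) + (h * nd K j) • ((1, 0) : ℝ × ℝ)).1|
      + |((0 : ℝ × ℝ) + (h * nd K j) • ((1, 0) : ℝ × ℝ)).2| ≤ h := by
  have := shift_abs (K := K) hh (a := (1, 0)) (b := 0) (t := 0) (by simp) (by simp) j
  rwa [zero_add h] at this

theorem Zend_lip (hh : 0 < h) (hs : 20 * Qd.Λ ^ 2 * h ≤ 1) (hε0 : 0 ≤ ε) (hε : ε ≤ 1)
    (hg : GLip ε g) (hl : |l| * ε ≤ 1) : LipV 2 (Zend Qd h J g l) := by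
  have hΛ := Qd.one_le
  exact pic_lip Qd hh.le (Lv := 5 * Qd.Λ) (by positivity) (1, 0) _ 0
    (fun j => vf_lip Qd J hh hs hε0 hε hg (by simp [Prod.norm_def]) hl (main_abs hh.le j))
    (by nlinarith) J (Fin.last K)

theorem corr_lip (hh : 0 < h) (hs : 20 * Qd.Λ ^ 2 * h ≤ 1) (hε0 : 0 ≤ ε) (hε : ε ≤ 1)
    (hg : GLip ε g) (hl : |l| * ε ≤ 1) (hl' : |l'| * ε ≤ 1) :
    LipV (4 * Qd.Λ ^ 2 * ε * h) (corr Qd h J g l l') := by
  have hΛ := Qd.one_le
  refine LipV.mono' (qd_lip Qd hh (Lv := 5 * Qd.Λ) (Lq := 2 * Qd.Λ * ε) (by positivity)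
    (by positivity) J (1, 0) _ _ 0
    (fun j => vf_lip Qd J hh hs hε0 hε hg (by simp [Prod.norm_def]) hl (main_abs hh.le j))
    (by nlinarith) fun j => Ahat_lip Qd J hh hs hε0 hε hg hl' (main_abs hh.le j)) (le_of_eq ?_)
  ring
end Templates

/-- exactness of the finite difference on Taylor polynomials -/
theorem fd_tay {F : Type*} [AddCommGroup F] [Module ℝ F] (hK : 1 ≤ K) (Qd : Quad K) {h : ℝ}
    (hh : 0 < h) (j : ℕ → F) : h⁻¹ • ∑ i, Qd.c i • tay K (h * nd K i) j = j 1 := by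
  have h1 : ∑ i, Qd.c i • tay K (h * nd K i) j = ∑ m ∈ Finset.range (K + 1),
      (h ^ m / (m.factorial : ℝ) * ∑ i, Qd.c i * nd K i ^ m) • j m := by
    simp only [tay, Finset.smul_sum, smul_smul]
    rw [Finset.sum_comm]
    refine Finset.sum_congr rfl fun m _ => ?_
    rw [← Finset.sum_smul, Finset.mul_sum]
    congr 1
    refine Finset.sum_congr rfl fun i _ => ?_
    rw [mul_pow]
    ring
  rw [h1, Finset.sum_eq_single 1]
  · rw [Qd.exc 1 hK, smul_smul]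
    simp [hh.ne']
  · intro m hm hm1
    rw [Qd.exc m (Nat.lt_succ_iff.mp (Finset.mem_range.mp hm)), if_neg hm1]
    simp
  · intro h1
    exact absurd (Finset.mem_range.mpr (by omega)) h1

/-- exactness of the quadrature on Taylor polynomials -/
theorem qd_tay {F : Type*} [AddCommGroup F] [Module ℝ F] (Qd : Quad K) (h : ℝ)
    (j : ℕ → F) (j₀ : F) (i : Fin (K + 1)) :
    j₀ + h • ∑ k, Qd.a i k • tay K (h * nd K k) j =
      tay (K + 1) (h * nd K i) fun m => Nat.casesOn m j₀ j := by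
  have h1 : ∑ k, Qd.a i k • tay K (h * nd K k) j = ∑ m ∈ Finset.range (K + 1),
      (h ^ m / (m.factorial : ℝ) * ∑ k, Qd.a i k * nd K k ^ m) • j m := by
    simp only [tay, Finset.smul_sum, smul_smul]
    rw [Finset.sum_comm]
    refine Finset.sum_congr rfl fun m _ => ?_
    rw [← Finset.sum_smul, Finset.mul_sum]
    congr 1
    refine Finset.sum_congr rfl fun i _ => ?_
    rw [mul_pow]
    ring
  rw [h1, tay, Finset.sum_range_succ' _ (K + 1), add_comm, Finset.smul_sum]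
  congr 1
  · refine Finset.sum_congr rfl fun m hm => ?_
    rw [Qd.exa i m (Nat.lt_succ_iff.mp (Finset.mem_range.mp hm)), smul_smul]
    congr 1
    rw [Nat.factorial_succ, mul_pow]
    have : (m.factorial : ℝ) ≠ 0 := by positivity
    push_cast
    field_simp
    ring
  · simp

theorem LipV.continuous' {X F : Type*} [NormedAddCommGroup X] [NormedAddCommGroup F] {L : ℝ}
    {f : X → F} (hf : LipV L f) : Continuous f := by
  have : LipschitzWith (Real.toNNReal L) f := by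
    refine LipschitzWith.of_dist_le_mul fun x y => ?_
    rw [dist_eq_norm, dist_eq_norm]
    exact (hf x y).trans (mul_le_mul_of_nonneg_right (Real.le_coe_toNNReal L) (norm_nonneg _))
  exact this.continuous

theorem LipV.integrable_comp' {Ω X F : Type*} [MeasurableSpace Ω] [NormedAddCommGroup X]
    [NormedAddCommGroup F] {μ : Measure Ω} [IsFiniteMeasure μ] {L : ℝ} {f : X → F}
    (hf : LipV L f) {u : Ω → X} (hu : Integrable u μ) : Integrable (fun ω => f (u ω)) μ := by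
  refine Integrable.mono' (g := fun ω => ‖f 0‖ + L * ‖u ω‖)
    ((integrable_const _).add (hu.norm.const_mul L))
    (hf.continuous'.comp_aestronglyMeasurable hu.1) (Filter.Eventually.of_forall fun ω => ?_)
  have h1 := hf (u ω) 0
  rw [sub_zero] at h1
  have h2 := norm_add_le (f (u ω) - f 0) (f 0)
  rw [sub_add_cancel] at h2
  linarith

theorem integrable_tay {Ω F : Type*} [MeasurableSpace Ω] [NormedAddCommGroup F] [NormedSpace ℝ F]
    {μ : Measure Ω} (K : ℕ) (s : ℝ) {j : Ω → ℕ → F} (hj : ∀ m, Integrable (fun ω => j ω m) μ) :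
    Integrable (fun ω => tay K s (j ω)) μ := by
  unfold tay
  exact integrable_finsetSum _ fun m _ => (hj m).smul _

theorem tay_coef_le {s : ℝ} (h0 : 0 ≤ s) (m : ℕ) : |s ^ m / (m.factorial : ℝ)| ≤ s ^ m := by
  have h1 : (1 : ℝ) ≤ m.factorial := by exact_mod_cast Nat.one_le_iff_ne_zero.mpr m.factorial_ne_zero
  rw [abs_of_nonneg (by positivity)]
  exact div_le_self (by positivity) h1

section Err
variable {X : Type*} [NormedAddCommGroup X] [NormedSpace ℝ X]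

theorem colloc_pt0 {s : ℝ} (h0 : 0 ≤ s) (h1 : s ≤ 1) (Z : X) (jv : ℕ → X) :
    ‖Z - tay K s fun m => Nat.casesOn m Z jv‖ ≤ ∑ m ∈ Finset.range K, ‖jv m‖ := by
  rw [tay, Finset.sum_range_succ']
  simp only [pow_zero, Nat.factorial_zero, Nat.cast_one, div_one, one_smul, Nat.rec_zero]
  rw [show ∀ u : X, Z - (u + Z) = -u from fun u => by abel, norm_neg]
  refine (norm_sum_le _ _).trans (Finset.sum_le_sum fun m _ => ?_)
  rw [norm_smul, Real.norm_eq_abs]
  refine mul_le_of_le_one_left (norm_nonneg _) ((tay_coef_le h0 _).trans ?_)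
  exact pow_le_one₀ h0 h1

theorem colloc_pt (Qd : Quad K) {h Lv : ℝ} (hh : 0 < h) (w : Fin (K + 1) → X → X)
    (hw : ∀ k, LipV Lv (w k)) (Z : X) (jv : ℕ → X) (p : Fin (K + 1) → X) (i : Fin (K + 1)) :
    ‖Z + h • ∑ k, Qd.a i k • w k (p k) - tay K (h * nd K i) fun m => Nat.casesOn m Z jv‖ ≤
      h * ∑ k, |Qd.a i k| * (Lv * ‖p k - tay K (h * nd K k) fun m => Nat.casesOn m Z jv‖
        + ‖w k (tay K (h * nd K k) fun m => Nat.casesOn m Z jv) - tay K (h * nd K k) jv‖)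
        + h ^ (K + 1) * ‖jv K‖ := by
  have hs0 : 0 ≤ h * nd K i := mul_nonneg hh.le (nd_nonneg i)
  have hsh : h * nd K i ≤ h := mul_le_of_le_one_right hh.le (nd_le_one i)
  have e3 : (tay K (h * nd K i) fun m => Nat.casesOn m Z jv) =
      Z + h • ∑ k, Qd.a i k • tay K (h * nd K k) jv
        - ((h * nd K i) ^ (K + 1) / ((K + 1).factorial : ℝ)) • jv K := by
    rw [eq_sub_iff_add_eq, qd_tay Qd h jv Z i]
    exact (Finset.sum_range_succ (fun m => ((h * nd K i) ^ m / (m.factorial : ℝ)) •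
      (Nat.casesOn m Z jv : X)) (K + 1)).symm
  have e2 : (Z + h • ∑ k, Qd.a i k • w k (p k) - tay K (h * nd K i) fun m => Nat.casesOn m Z jv) =
      h • ∑ k, Qd.a i k • (w k (p k) - tay K (h * nd K k) jv)
        + ((h * nd K i) ^ (K + 1) / ((K + 1).factorial : ℝ)) • jv K := by
    rw [e3]
    simp only [smul_sub, Finset.sum_sub_distrib]
    abel
  rw [e2]
  refine (norm_add_le _ _).trans (add_le_add ?_ ?_)
  · rw [norm_smul, Real.norm_eq_abs, abs_of_pos hh]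
    refine mul_le_mul_of_nonneg_left ?_ hh.le
    refine (norm_sum_le _ _).trans (Finset.sum_le_sum fun k _ => ?_)
    rw [norm_smul, Real.norm_eq_abs]
    refine mul_le_mul_of_nonneg_left ?_ (abs_nonneg _)
    refine (norm_sub_le_norm_sub_add_norm_sub _
      (w k (tay K (h * nd K k) fun m => Nat.casesOn m Z jv)) _).trans ?_
    exact add_le_add (hw k _ _) le_rfl
  · rw [norm_smul, Real.norm_eq_abs]
    refine mul_le_mul_of_nonneg_right ((tay_coef_le hs0 _).trans ?_) (norm_nonneg _)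
    exact pow_le_pow_left₀ hs0 hsh _

omit [NormedSpace ℝ X] in
theorem colloc_int {Ω ι : Type*} [MeasurableSpace Ω] [Fintype ι] {μ : Measure Ω}
    {h Λ Lv e η c B : ℝ} (hh : 0 ≤ h) (hLv : 0 ≤ Lv) (he : 0 ≤ e) (hη : 0 ≤ η) (hc : 0 ≤ c)
    (w : ι → ℝ) (hw : ∑ k, |w k| ≤ Λ) {f r : Ω → ℝ} {p q : ι → Ω → ℝ} (hf : Integrable f μ)
    (hr : Integrable r μ) (hp : ∀ k, Integrable (p k) μ) (hq : ∀ k, Integrable (q k) μ)
    (hpe : ∀ k, ∫ Z, p k Z ∂μ ≤ e) (hqe : ∀ k, ∫ Z, q k Z ∂μ ≤ η) (hrB : ∫ Z, r Z ∂μ ≤ B)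
    (h1 : ∀ Z, f Z ≤ h * ∑ k, |w k| * (Lv * p k Z + q k Z) + c * r Z) :
    ∫ Z, f Z ∂μ ≤ h * (Λ * (Lv * e + η)) + c * B := by
  have i1 : ∀ k, Integrable (fun Z => Lv * p k Z) μ := fun k => (hp k).const_mul _
  have i3 : ∀ k, Integrable (fun Z => |w k| * (Lv * p k Z + q k Z)) μ := fun k =>
    ((i1 k).add (hq k)).const_mul _
  have i4 : Integrable (fun Z => h * ∑ k, |w k| * (Lv * p k Z + q k Z)) μ :=
    (integrable_finsetSum Finset.univ fun k _ => i3 k).const_mul h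
  have i5 : Integrable (fun Z => c * r Z) μ := hr.const_mul c
  have i6 : Integrable (fun Z => h * ∑ k, |w k| * (Lv * p k Z + q k Z) + c * r Z) μ := i4.add i5
  refine (integral_mono hf i6 h1).trans ?_
  rw [integral_add i4 i5, integral_const_mul, integral_const_mul,
    integral_finsetSum _ fun k _ => i3 k]
  have h2 : ∑ k, ∫ Z, |w k| * (Lv * p k Z + q k Z) ∂μ ≤ Λ * (Lv * e + η) := by
    refine le_trans (Finset.sum_le_sum fun k _ => ?_)
      ((Finset.sum_mul _ (fun k => |w k|) (Lv * e + η)).symm.le.trans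
        (mul_le_mul_of_nonneg_right hw (by positivity)))
    rw [integral_const_mul, integral_add (i1 k) (hq k), integral_const_mul]
    exact mul_le_mul_of_nonneg_left
      (add_le_add (mul_le_mul_of_nonneg_left (hpe k) hLv) (hqe k)) (abs_nonneg _)
  exact add_le_add (mul_le_mul_of_nonneg_left h2 hh) (mul_le_mul_of_nonneg_left hrB hc)

theorem integrable_tayZ [MeasurableSpace X] {μ₀ : Measure X} (hid : Integrable (fun Z => Z) μ₀)
    {jv : ℕ → X → X} (hjv : ∀ m, Integrable (jv m) μ₀) (s : ℝ) :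
    Integrable (fun Z => tay K s fun m => (Nat.casesOn m Z fun m => jv m Z : X)) μ₀ :=
  by
  have h1 : ∀ m : ℕ, Integrable (fun Z => (Nat.casesOn m Z fun m => jv m Z : X)) μ₀ := by
    intro m
    cases m with
    | zero => exact hid
    | succ m => exact hjv m
  unfold tay
  exact integrable_finsetSum _ fun m _ => (h1 m).smul (s ^ m / (m.factorial : ℝ))

theorem colloc_main [MeasurableSpace X] (Qd : Quad K) {h Lv B B₁ ηv : ℝ} (hh : 0 < h)
    (hh1 : h ≤ 1) (hLv : 0 ≤ Lv) (hB : 0 ≤ B) (hηv : 0 ≤ ηv) (a b : ℝ × ℝ)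
    (v : ℝ × ℝ → X → X) (hv : ∀ j, LipV Lv (v (b + (h * nd K j) • a)))
    (hs : h * Qd.Λ * Lv ≤ 1 / 2)
    (μ₀ : Measure X) [IsProbabilityMeasure μ₀] (hid : Integrable (fun Z => Z) μ₀)
    (jv : ℕ → X → X) (hjv : ∀ m, Integrable (jv m) μ₀)
    (hB₁ : ∀ m, m ≤ K → ∫ Z, ‖jv m Z‖ ∂μ₀ ≤ B₁) (hBK : ∫ Z, ‖jv K Z‖ ∂μ₀ ≤ B)
    (hTv : ∀ j, ∫ Z, ‖v (b + (h * nd K j) • a)
        (tay K (h * nd K j) fun m => Nat.casesOn m Z fun m => jv m Z)
        - tay K (h * nd K j) fun m => jv m Z‖ ∂μ₀ ≤ ηv) (n : ℕ) (i : Fin (K + 1)) :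
    ∫ Z, ‖pic Qd h a v b Z n i
        - tay K (h * nd K i) fun m => Nat.casesOn m Z fun m => jv m Z‖ ∂μ₀
      ≤ (h * Qd.Λ * Lv) ^ n * ((K + 1) * B₁) + 2 * h * Qd.Λ * ηv + 2 * h ^ (K + 1) * B := by
  have hΛ := Qd.one_le
  have hB1 : 0 ≤ B₁ := (integral_nonneg fun Z => norm_nonneg _).trans (hB₁ 0 (Nat.zero_le _))
  have iT := fun s => integrable_tayZ (K := K) hid hjv s
  have iTv : ∀ s, Integrable (fun Z => tay K s fun m => jv m Z) μ₀ := fun s =>
    integrable_tay K s (j := fun Z m => jv m Z) hjv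
  have iP : ∀ n j, Integrable (fun Z => pic Qd h a v b Z n j) μ₀ := fun n j =>
    (pic_lip Qd hh.le hLv a v b hv hs n j).integrable_comp' hid
  have iD : ∀ n j, Integrable (fun Z => ‖pic Qd h a v b Z n j
      - tay K (h * nd K j) fun m => Nat.casesOn m Z fun m => jv m Z‖) μ₀ := fun n j =>
    ((iP n j).sub (iT _)).norm
  induction n generalizing i with
  | zero =>
    have h2 : ∫ Z, ‖pic Qd h a v b Z 0 i
        - tay K (h * nd K i) fun m => Nat.casesOn m Z fun m => jv m Z‖ ∂μ₀ ≤ K * B₁ := by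
      refine (integral_mono (iD 0 i)
        (integrable_finsetSum (Finset.range K) fun m _ => (hjv m).norm) fun Z =>
          colloc_pt0 (mul_nonneg hh.le (nd_nonneg i))
            ((mul_le_of_le_one_right hh.le (nd_le_one i)).trans hh1) Z _).trans ?_
      rw [integral_finsetSum _ fun m _ => (hjv m).norm]
      refine (Finset.sum_le_sum fun m hm => hB₁ m (Finset.mem_range.mp hm).le).trans ?_
      simp
    have h3 : 0 ≤ 2 * h * Qd.Λ * ηv := by positivity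
    have h4 : 0 ≤ 2 * h ^ (K + 1) * B := by positivity
    rw [pow_zero]
    nlinarith
  | succ n ih =>
    have h1 := colloc_int hh.le hLv (by positivity) hηv (pow_nonneg hh.le (K + 1)) (Qd.a i)
      (Qd.ha i) (iD (n + 1) i) (hjv K).norm (iD n)
      (fun k => (((hv k).integrable_comp' (iT _)).sub (iTv _)).norm) ih hTv hBK
      fun Z => colloc_pt Qd hh _ hv Z (fun m => jv m Z) (pic Qd h a v b Z n) i
    refine h1.trans ?_
    have h5 : 0 ≤ 2 * h * Qd.Λ * ηv + 2 * h ^ (K + 1) * B := by positivity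
    have h6 := mul_le_mul_of_nonneg_right hs h5
    have h7 : h * (Qd.Λ * (Lv * ((h * Qd.Λ * Lv) ^ n * ((K + 1) * B₁) + 2 * h * Qd.Λ * ηv
        + 2 * h ^ (K + 1) * B) + ηv)) = (h * Qd.Λ * Lv) ^ (n + 1) * ((K + 1) * B₁)
        + h * Qd.Λ * Lv * (2 * h * Qd.Λ * ηv + 2 * h ^ (K + 1) * B) + h * Qd.Λ * ηv := by
      ring
    linarith
end Err

/-- Abstract collocation estimate. `μ₀` is the initial law, `jv m` are the jets of the exact
field and `jq m` those of the exact observable at the initial time. The hypotheses `hTv`, `hTq`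
are what the transport lemma gives for the test functions `‖v̂ z - w‖`, `‖q̂ z - w‖`. -/
theorem colloc_error {X F : Type*} [NormedAddCommGroup X] [NormedSpace ℝ X]
    [NormedAddCommGroup F] [NormedSpace ℝ F] [MeasurableSpace X] [BorelSpace X]
    [SecondCountableTopology X] [SecondCountableTopology F]
    (hK : 1 ≤ K) (Qd : Quad K) {h Lv Lq B B₁ ηv ηq : ℝ} (hh : 0 < h) (hh1 : h ≤ 1)
    (hLv : 0 ≤ Lv) (hLq : 0 ≤ Lq) (hB : 0 ≤ B) (hηv : 0 ≤ ηv) (a b : ℝ × ℝ)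
    (v : ℝ × ℝ → X → X) (q : ℝ × ℝ → X → F)
    (hv : ∀ j, LipV Lv (v (b + (h * nd K j) • a))) (hq : ∀ j, LipV Lq (q (b + (h * nd K j) • a)))
    (hs : h * Qd.Λ * Lv ≤ 1 / 2)
    (μ₀ : Measure X) [IsProbabilityMeasure μ₀] (hid : Integrable (fun Z => Z) μ₀)
    (jv : ℕ → X → X) (jq : ℕ → X → F) (hjv : ∀ m, Integrable (jv m) μ₀)
    (hjq : ∀ m, Integrable (jq m) μ₀)
    (hB₁ : ∀ m, m ≤ K → ∫ Z, ‖jv m Z‖ ∂μ₀ ≤ B₁) (hBK : ∫ Z, ‖jv K Z‖ ∂μ₀ ≤ B)
    (hTv : ∀ j, ∫ Z, ‖v (b + (h * nd K j) • a)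
        (tay K (h * nd K j) fun m => Nat.casesOn m Z fun m => jv m Z)
        - tay K (h * nd K j) fun m => jv m Z‖ ∂μ₀ ≤ ηv)
    (hTq : ∀ j, ∫ Z, ‖q (b + (h * nd K j) • a)
        (tay K (h * nd K j) fun m => Nat.casesOn m Z fun m => jv m Z)
        - tay K (h * nd K j) fun m => jq m Z‖ ∂μ₀ ≤ ηq) (J : ℕ) (i : Fin (K + 1)) :
    (∫ Z, ‖pic Qd h a v b Z J i
        - tay K (h * nd K i) fun m => Nat.casesOn m Z fun m => jv m Z‖ ∂μ₀
      ≤ (h * Qd.Λ * Lv) ^ J * ((K + 1) * B₁) + 2 * h * Qd.Λ * ηv + 2 * h ^ (K + 1) * B) ∧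
    (∫ Z, ‖q (b + (h * nd K i) • a) (pic Qd h a v b Z J i)
        - tay K (h * nd K i) fun m => jq m Z‖ ∂μ₀
      ≤ ηq + Lq * ((h * Qd.Λ * Lv) ^ J * ((K + 1) * B₁) + 2 * h * Qd.Λ * ηv
        + 2 * h ^ (K + 1) * B)) := by
  have main := colloc_main Qd hh hh1 hLv hB hηv a b v hv hs μ₀ hid jv hjv hB₁ hBK hTv J i
  refine ⟨main, ?_⟩
  have iT := integrable_tayZ (K := K) hid hjv (h * nd K i)
  have iP : Integrable (fun Z => pic Qd h a v b Z J i) μ₀ :=
    (pic_lip Qd hh.le hLv a v b hv hs J i).integrable_comp' hid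
  have iq : Integrable (fun Z => tay K (h * nd K i) fun m => jq m Z) μ₀ :=
    integrable_tay K _ (j := fun Z m => jq m Z) hjq
  have i0 : Integrable (fun Z => ‖q (b + (h * nd K i) • a) (pic Qd h a v b Z J i)
      - tay K (h * nd K i) fun m => jq m Z‖) μ₀ := (((hq i).integrable_comp' iP).sub iq).norm
  have i1 : Integrable (fun Z => Lq * ‖pic Qd h a v b Z J i
      - tay K (h * nd K i) fun m => Nat.casesOn m Z fun m => jv m Z‖) μ₀ :=
    (iP.sub iT).norm.const_mul _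
  have i2 : Integrable (fun Z => ‖q (b + (h * nd K i) • a)
      (tay K (h * nd K i) fun m => Nat.casesOn m Z fun m => jv m Z)
      - tay K (h * nd K i) fun m => jq m Z‖) μ₀ :=
    (((hq i).integrable_comp' iT).sub iq).norm
  have i3 : Integrable (fun Z => ‖q (b + (h * nd K i) • a)
      (tay K (h * nd K i) fun m => Nat.casesOn m Z fun m => jv m Z)
      - tay K (h * nd K i) fun m => jq m Z‖ + Lq * ‖pic Qd h a v b Z J i
      - tay K (h * nd K i) fun m => Nat.casesOn m Z fun m => jv m Z‖) μ₀ := i2.add i1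
  refine (integral_mono i0 i3 fun Z => ?_).trans ?_
  · refine (norm_sub_le_norm_sub_add_norm_sub _ (q (b + (h * nd K i) • a)
      (tay K (h * nd K i) fun m => Nat.casesOn m Z fun m => jv m Z)) _).trans ?_
    rw [add_comm]
    exact add_le_add le_rfl (hq i _ _)
  · rw [integral_add i2 i1, integral_const_mul]
    exact add_le_add (hTq i) (mul_le_mul_of_nonneg_left main hLq)

end Vale.Agent.P347
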