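import Vale.Agent.P347.Basic

/-! Collocation templates (purely algebraic circuits built from a force `g b Z`). -/

namespace Vale.Agent.P347

variable {d : ℕ}

/-- node `i / K` -/
noncomputable def nd (K : ℕ) (i : Fin (K + 1)) : ℝ := (i : ℝ) / K

/-- interpolatory weights on the nodes `i / K`: `c` differentiates at `0`, `a i` integrates
over `[0, i / K]`, exactly on polynomials of degree at most `K` -/
structure Quad (K : ℕ) where
  a : Fin (K + 1) → Fin (K + 1) → ℝ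
  c : Fin (K + 1) → ℝ
  Λ : ℝ
  one_le : 1 ≤ Λ
  ha : ∀ i, ∑ j, |a i j| ≤ Λ
  hc : ∑ j, |c j| ≤ Λ
  exa : ∀ i m, m ≤ K → ∑ j, a i j * nd K j ^ m = nd K i ^ (m + 1) / (m + 1)
  exc : ∀ m, m ≤ K → ∑ j, c j * nd K j ^ m = if m = 1 then 1 else 0

variable {K : ℕ}

/-- Picard iteration on the collocation nodes for the field `v` along `b + s • a` -/
noncomputable def pic {X : Type*} [AddCommGroup X] [Module ℝ X] (Qd : Quad K) (h : ℝ)
    (a : ℝ × ℝ) (v : ℝ × ℝ → X → X) (b : ℝ × ℝ) (Z : X) : ℕ → Fin (K + 1) → X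
  | 0, _ => Z
  | n + 1, i => Z + h • ∑ j, Qd.a i j • v (b + (h * nd K j) • a) (pic Qd h a v b Z n j)

/-- finite difference of `q` along the approximate flow -/
noncomputable def fd {X F : Type*} [AddCommGroup X] [Module ℝ X] [AddCommGroup F] [Module ℝ F]
    (Qd : Quad K) (h : ℝ) (J : ℕ) (a : ℝ × ℝ) (v : ℝ × ℝ → X → X) (q : ℝ × ℝ → X → F)
    (b : ℝ × ℝ) (Z : X) : F :=
  h⁻¹ • ∑ i, Qd.c i • q (b + (h * nd K i) • a) (pic Qd h a v b Z J i)

/-- quadrature over `[0, h]` of `q` along the approximate flow -/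
noncomputable def qd {X F : Type*} [AddCommGroup X] [Module ℝ X] [AddCommGroup F] [Module ℝ F]
    (Qd : Quad K) (h : ℝ) (J : ℕ) (a : ℝ × ℝ) (v : ℝ × ℝ → X → X) (q : ℝ × ℝ → X → F)
    (b : ℝ × ℝ) (Z : X) : F :=
  h • ∑ i, Qd.a (Fin.last K) i • q (b + (h * nd K i) • a) (pic Qd h a v b Z J i)

/-- unit vector `e_m` of the parameter plane -/
def eb (m : Fin 2) : ℝ × ℝ := sel m ((1, 0), (0, 1))

/-- the field of the connection -/
noncomputable def v0 (g : ℝ × ℝ → E d × E d → E d) (a : ℝ × ℝ) (b : ℝ × ℝ) (Z : E d × E d) :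
    E d × E d :=
  (-(a.1 • g b Z), -(a.2 • g b Z))

/-- approximation of `𝓓_m G` -/
noncomputable def Dhat (Qd : Quad K) (h : ℝ) (J : ℕ) (g : ℝ × ℝ → E d × E d → E d) (m : Fin 2)
    (b : ℝ × ℝ) (Z : E d × E d) : E d :=
  fd Qd h J (eb m) (v0 g (eb m)) g b Z

/-- approximation of the field of `a · 𝓓 + l 𝓐` -/
noncomputable def vf (Qd : Quad K) (h : ℝ) (J : ℕ) (g : ℝ × ℝ → E d × E d → E d) (a : ℝ × ℝ)
    (l : ℝ) (b : ℝ × ℝ) (Z : E d × E d) : E d × E d :=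
  (-(a.1 • g b Z) - l • Dhat Qd h J g 1 b Z, -(a.2 • g b Z) + l • Dhat Qd h J g 0 b Z)

/-- approximation of `l' 𝓐 G` -/
noncomputable def Ahat (Qd : Quad K) (h : ℝ) (J : ℕ) (g : ℝ × ℝ → E d × E d → E d) (l' : ℝ)
    (b : ℝ × ℝ) (Z : E d × E d) : E d :=
  fd Qd h J 0 (vf Qd h J g 0 l') g b Z

/-- end point of the main flow -/
noncomputable def Zend (Qd : Quad K) (h : ℝ) (J : ℕ) (g : ℝ × ℝ → E d × E d → E d) (l : ℝ)
    (Z : E d × E d) : E d × E d :=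
  pic Qd h (1, 0) (vf Qd h J g (1, 0) l) 0 Z J (Fin.last K)

/-- approximation of `l' ∫ 𝓐 G` along the main flow -/
noncomputable def corr (Qd : Quad K) (h : ℝ) (J : ℕ) (g : ℝ × ℝ → E d × E d → E d) (l l' : ℝ)
    (Z : E d × E d) : E d :=
  qd Qd h J (1, 0) (vf Qd h J g (1, 0) l) (Ahat Qd h J g l') 0 Z

end Vale.Agent.P347
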