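import Vale.Agent.P347.PotBasic

/-! TASK TiltDeriv: differentiation of tilted integrals in the level and in the centre,
integration by parts under the tilted law. -/

open MeasureTheory ProbabilityTheory

namespace Vale.Agent.P347

variable {d : ℕ} {α β : ℝ} {U : E d → ℝ}

/-- logarithmic derivative of `wt` in the level and the centre -/
noncomputable def wL (s : ℝ) (x u : E d) : ℝ × E d →L[ℝ] ℝ :=
  (‖u - x‖ ^ 2 / (2 * s ^ 2)) • ContinuousLinearMap.fst ℝ ℝ (E d) +
    s⁻¹ • (innerSL ℝ (u - x)).comp (ContinuousLinearMap.snd ℝ ℝ (E d))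

theorem wL_apply (s : ℝ) (x u : E d) (σ : ℝ) (ξ : E d) :
    wL s x u (σ, ξ) = σ * ‖u - x‖ ^ 2 / (2 * s ^ 2) + inner ℝ (u - x) ξ / s := by
  simp only [wL, add_apply, smul_apply,
    ContinuousLinearMap.coe_fst', ContinuousLinearMap.comp_apply, ContinuousLinearMap.coe_snd',
    innerSL_apply_apply, smul_eq_mul]
  ring

theorem continuous_wL (s : ℝ) (x : E d) : Continuous (wL s x) := by
  have h1 : Continuous fun u : E d => innerSL ℝ (u - x) :=
    (innerSL ℝ (E := E d)).continuous.comp (by fun_prop)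
  have h2 : Continuous fun u : E d =>
      (innerSL ℝ (u - x)).comp (ContinuousLinearMap.snd ℝ ℝ (E d)) :=
    h1.clm_comp continuous_const
  have h3 : Continuous fun u : E d => ‖u - x‖ ^ 2 / (2 * s ^ 2) := by fun_prop
  exact (h3.smul continuous_const).add (h2.const_smul s⁻¹)

theorem hasFDerivAt_wt (U : E d → ℝ) {s : ℝ} (hs : 0 < s) (x u : E d) :
    HasFDerivAt (fun p : ℝ × E d => wt U p.1 p.2 u) (wt U s x u • wL s x u) (s, x) := by
  have h1 : HasFDerivAt (fun p : ℝ × E d => ‖u - p.2‖ ^ 2) _ (s, x) :=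
    ((hasFDerivAt_snd (𝕜 := ℝ) (p := (s, x))).const_sub u).norm_sq
  have h2 : HasFDerivAt (fun p : ℝ × E d => (2 * p.1)⁻¹) _ (s, x) :=
    (hasDerivAt_inv (by positivity : 2 * s ≠ 0)).comp_hasFDerivAt (s, x)
      ((hasFDerivAt_fst (𝕜 := ℝ) (p := (s, x))).const_mul 2)
  have h3 := ((h1.mul h2).const_add (U u)).neg.exp
  refine HasFDerivAt.congr_fderiv h3 (ContinuousLinearMap.ext fun ⟨σ, ξ⟩ => ?_)
  rw [smul_apply, smul_apply, wL_apply]
  simp only [wt, div_eq_mul_inv, Pi.neg_apply, Pi.mul_apply, smul_eq_mul]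
  congr 1
  simp [inner_sub_left]
  field_simp
  ring

theorem Pot.wt_le (h : Pot α β U) {s S B : ℝ} (hs : 0 < s) (hS : s ≤ S) {x : E d} (hx : ‖x‖ ≤ B)
    (u : E d) : wt U s x u ≤ Real.exp (B ^ 2 / (2 * S)) *
      Real.exp (-(1 / (4 * S) * ‖u - 0‖ ^ 2)) := by
  rw [← Real.exp_add, wt, Real.exp_le_exp, sub_zero]
  have hS0 : 0 < S := hs.trans_le hS
  have h1 := h.nonneg_val u
  have h2 : ‖u - x‖ ^ 2 / (2 * S) ≤ ‖u - x‖ ^ 2 / (2 * s) :=
    div_le_div_of_nonneg_left (by positivity) (by positivity) (by linarith)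
  have h3 : ‖u‖ ≤ ‖u - x‖ + B := by
    have := norm_add_le (u - x) x
    rw [sub_add_cancel] at this
    linarith
  have h4 : ‖u‖ ^ 2 ≤ 2 * ‖u - x‖ ^ 2 + 2 * B ^ 2 := by
    have := pow_le_pow_left₀ (norm_nonneg _) h3 2
    nlinarith [sq_nonneg (‖u - x‖ - B)]
  have h5 : 1 / (4 * S) * ‖u‖ ^ 2 ≤ 1 / (4 * S) * (2 * ‖u - x‖ ^ 2 + 2 * B ^ 2) :=
    mul_le_mul_of_nonneg_left h4 (by positivity)
  have h6 : 1 / (4 * S) * (2 * ‖u - x‖ ^ 2 + 2 * B ^ 2) =
      ‖u - x‖ ^ 2 / (2 * S) + B ^ 2 / (2 * S) := by field_simp; ring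
  linarith

theorem norm_wL_le {s s₀ B : ℝ} (hs₀ : 0 < s₀) (hs : s₀ ≤ s) {x : E d} (hx : ‖x‖ ≤ B)
    (u : E d) : ‖wL s x u‖ ≤ (1 / (2 * s₀ ^ 2) + 1 / s₀) * (1 + B) ^ 2 * (1 + ‖u‖) ^ 2 := by
  have hB : 0 ≤ B := (norm_nonneg _).trans hx
  have hs' : 0 < s := hs₀.trans_le hs
  refine ContinuousLinearMap.opNorm_le_bound _ (by positivity) fun ⟨σ, ξ⟩ => ?_
  rw [wL_apply]
  set N := ‖((σ, ξ) : ℝ × E d)‖
  have hN : 0 ≤ N := norm_nonneg _
  have h1 : |σ| ≤ N := norm_fst_le ((σ, ξ) : ℝ × E d)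
  have h2 : ‖ξ‖ ≤ N := norm_snd_le ((σ, ξ) : ℝ × E d)
  set M := (1 + B) * (1 + ‖u‖) with hM
  have h3 : ‖u - x‖ ≤ M := by
    have := norm_sub_le u x
    nlinarith [mul_nonneg hB (norm_nonneg u)]
  have h4 : 1 ≤ M := by nlinarith [mul_nonneg hB (norm_nonneg u), norm_nonneg u]
  have h5 : ‖u - x‖ ^ 2 ≤ M ^ 2 := pow_le_pow_left₀ (norm_nonneg _) h3 2
  have h6 : ‖u - x‖ ≤ M ^ 2 := by nlinarith
  have h7 : |σ * ‖u - x‖ ^ 2 / (2 * s ^ 2)| ≤ N * M ^ 2 / (2 * s₀ ^ 2) := by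
    rw [abs_div, abs_mul, abs_of_nonneg (by positivity : 0 ≤ ‖u - x‖ ^ 2),
      abs_of_pos (by positivity : 0 < 2 * s ^ 2)]
    exact div_le_div₀ (by positivity) (mul_le_mul h1 h5 (by positivity) hN) (by positivity)
      (by have := pow_le_pow_left₀ hs₀.le hs 2; linarith)
  have h8 : |inner ℝ (u - x) ξ / s| ≤ M ^ 2 * N / s₀ := by
    rw [abs_div, abs_of_pos hs']
    exact div_le_div₀ (by positivity) ((abs_real_inner_le_norm _ _).trans
      (mul_le_mul h6 h2 (norm_nonneg _) (by positivity))) hs₀ hs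
  rw [Real.norm_eq_abs]
  refine (abs_add_le _ _).trans ((add_le_add h7 h8).trans (le_of_eq ?_))
  rw [hM]
  ring

theorem PG.wL (s : ℝ) (x : E d) (σ : ℝ) (ξ : E d) :
    PG fun u : E d => σ * ‖u - x‖ ^ 2 / (2 * s ^ 2) + inner ℝ (u - x) ξ / s := by
  have h1 : PG fun u : E d => ‖u - x‖ :=
    LipV.pg (L := 1) (f := fun u : E d => u - x) fun a b => by simp
  have h2 : PG fun u : E d => (inner ℝ (u - x) ξ : ℝ) :=
    (h1.mul (PG.const ‖ξ‖)).of_le fun u => (abs_real_inner_le_norm _ _).trans (le_abs_self _)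
  simpa only [div_eq_mul_inv] using
    (((PG.const σ).mul (h1.pow 2)).mul (PG.const (2 * s ^ 2)⁻¹)).add (h2.mul (PG.const s⁻¹))

/-- General differentiation lemma along a curve `(s τ, x τ)`, for an integrand depending on `τ`.
The integrand is differentiable in `τ` on a neighbourhood, with locally uniform polynomial
bounds. -/
theorem Pot.hasDerivAt_integral_wt (h : Pot α β U) {s s' : ℝ → ℝ} {x x' : ℝ → E d} {τ₀ r : ℝ}
    (hr : 0 < r) (hs : ∀ τ ∈ Metric.ball τ₀ r, HasDerivAt s (s' τ) τ)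
    (hx : ∀ τ ∈ Metric.ball τ₀ r, HasDerivAt x (x' τ) τ)
    {s₀ S B : ℝ} (hs₀ : 0 < s₀) (hsb : ∀ τ ∈ Metric.ball τ₀ r, s₀ ≤ s τ ∧ s τ ≤ S)
    (hB : ∀ τ ∈ Metric.ball τ₀ r, |s' τ| ≤ B ∧ ‖x' τ‖ ≤ B ∧ ‖x τ‖ ≤ B)
    {φ φ' : ℝ → E d → ℝ} (hφ : ∀ τ ∈ Metric.ball τ₀ r, ∀ u, HasDerivAt (fun σ => φ σ u) (φ' τ u) τ)
    (hm : ∀ τ ∈ Metric.ball τ₀ r, AEStronglyMeasurable (φ τ) volume)
    (hm' : AEStronglyMeasurable (φ' τ₀) volume)
    {C : ℝ} {p : ℕ} (hb : ∀ τ ∈ Metric.ball τ₀ r, ∀ u,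
      |φ τ u| ≤ C * (1 + ‖u‖) ^ p ∧ |φ' τ u| ≤ C * (1 + ‖u‖) ^ p) :
    HasDerivAt (fun τ => ∫ u, φ τ u * wt U (s τ) (x τ) u)
      (∫ u, (φ' τ₀ u + φ τ₀ u * (s' τ₀ * ‖u - x τ₀‖ ^ 2 / (2 * s τ₀ ^ 2)
        + inner ℝ (u - x τ₀) (x' τ₀) / s τ₀)) * wt U (s τ₀) (x τ₀) u) τ₀ := by
  have h0 : τ₀ ∈ Metric.ball τ₀ r := Metric.mem_ball_self hr
  have hB0 : 0 ≤ B := (abs_nonneg _).trans (hB _ h0).1
  have hS : 0 < S := hs₀.trans_le ((hsb _ h0).1.trans (hsb _ h0).2)
  have hC : 0 ≤ C := by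
    have := (abs_nonneg _).trans (hb _ h0 0).1
    simpa using this
  set K := (1 / (2 * s₀ ^ 2) + 1 / s₀) * (1 + B) ^ 2 with hK
  have hK0 : 0 ≤ K := by positivity
  have m1 : ∀ᶠ τ in nhds τ₀, AEStronglyMeasurable
      (fun u => φ τ u * wt U (s τ) (x τ) u) (volume : Measure (E d)) :=
    Filter.eventually_of_mem (Metric.ball_mem_nhds τ₀ hr) fun τ hτ =>
      (hm τ hτ).mul (h.continuous_wt _ _).aestronglyMeasurable
  have m2 : Integrable (fun u => φ τ₀ u * wt U (s τ₀) (x τ₀) u) (volume : Measure (E d)) :=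
    ((h.integrable_wt (hs₀.trans_le (hsb _ h0).1) (x τ₀) p).const_mul C).mono'
      ((hm _ h0).mul (h.continuous_wt _ _).aestronglyMeasurable) (ae_of_all _ fun u => by
        rw [Real.norm_eq_abs, abs_mul, abs_of_pos (wt_pos _ _ _ _), ← mul_assoc]
        exact mul_le_mul_of_nonneg_right (hb _ h0 u).1 (wt_pos _ _ _ _).le)
  have m3' : Continuous fun u => wL (s τ₀) (x τ₀) u (s' τ₀, x' τ₀) :=
    (continuous_wL _ _).clm_apply continuous_const
  have m3 : AEStronglyMeasurable (fun u => (φ' τ₀ u + φ τ₀ u *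
      wL (s τ₀) (x τ₀) u (s' τ₀, x' τ₀)) * wt U (s τ₀) (x τ₀) u) (volume : Measure (E d)) :=
    (hm'.add ((hm _ h0).mul m3'.aestronglyMeasurable)).mul
      (h.continuous_wt _ _).aestronglyMeasurable
  have m4 : ∀ u : E d, ∀ τ ∈ Metric.ball τ₀ r,
      ‖(φ' τ u + φ τ u * wL (s τ) (x τ) u (s' τ, x' τ)) * wt U (s τ) (x τ) u‖ ≤
      (C * (1 + K * B) * Real.exp (B ^ 2 / (2 * S))) *
        ((1 + ‖u‖) ^ (p + 2) * Real.exp (-(1 / (4 * S) * ‖u - 0‖ ^ 2))) := by
    intro u τ hτ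
    have a1 := h.wt_le (hs₀.trans_le (hsb _ hτ).1) (hsb _ hτ).2 (hB _ hτ).2.2 u
    have a0 : ‖((s' τ, x' τ) : ℝ × E d)‖ ≤ B := max_le (hB _ hτ).1 (hB _ hτ).2.1
    have a2 : |wL (s τ) (x τ) u (s' τ, x' τ)| ≤ K * (1 + ‖u‖) ^ 2 * B :=
      ((wL (s τ) (x τ) u).le_opNorm _).trans (mul_le_mul
        (norm_wL_le hs₀ (hsb _ hτ).1 (hB _ hτ).2.2 u) a0 (norm_nonneg _) (by positivity))
    have a3 : (1 : ℝ) ≤ (1 + ‖u‖) ^ 2 := one_le_pow₀ (by linarith [norm_nonneg u])
    have a4 : |φ' τ u + φ τ u * wL (s τ) (x τ) u (s' τ, x' τ)| ≤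
        C * (1 + K * B) * (1 + ‖u‖) ^ (p + 2) := by
      refine (abs_add_le _ _).trans ?_
      rw [abs_mul]
      have b1 := mul_le_mul (hb _ hτ u).1 a2 (abs_nonneg _) (by positivity)
      have b2 := (hb _ hτ u).2.trans (le_mul_of_one_le_right (by positivity) a3)
      refine (add_le_add b2 b1).trans (le_of_eq ?_)
      ring
    rw [Real.norm_eq_abs, abs_mul, abs_of_pos (wt_pos _ _ _ _)]
    refine (mul_le_mul a4 a1 (wt_pos _ _ _ _).le (by positivity)).trans (le_of_eq ?_)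
    ring
  have m5 : ∀ u : E d, ∀ τ ∈ Metric.ball τ₀ r,
      HasDerivAt (fun τ => φ τ u * wt U (s τ) (x τ) u)
        ((φ' τ u + φ τ u * wL (s τ) (x τ) u (s' τ, x' τ)) * wt U (s τ) (x τ) u) τ := by
    intro u τ hτ
    have a1 := (hasFDerivAt_wt U (hs₀.trans_le (hsb _ hτ).1) (x τ) u).comp_hasDerivAt τ
      ((hs τ hτ).prodMk (hx τ hτ))
    refine ((hφ τ hτ u).mul a1).congr_deriv ?_
    simp only [Function.comp, smul_apply, smul_eq_mul]
    ring
  have key := hasDerivAt_integral_of_dominated_loc_of_deriv_le (μ := (volume : Measure (E d)))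
    (F := fun τ u => φ τ u * wt U (s τ) (x τ) u)
    (F' := fun τ u => (φ' τ u + φ τ u * wL (s τ) (x τ) u (s' τ, x' τ)) * wt U (s τ) (x τ) u)
    (Metric.ball_mem_nhds τ₀ hr) m1 m2 m3 (ae_of_all _ m4)
    ((integrable_pow_mul_exp_neg (p + 2) (by positivity) 0).const_mul _) (ae_of_all _ m5)
  simpa only [wL_apply] using key.2

/-- Joint differentiability of the unnormalised integral of a fixed function. -/
theorem Pot.hasFDerivAt_integral_wt (h : Pot α β U) {f : E d → ℝ} (hf : PG f)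
    (hm : AEStronglyMeasurable f volume) {s : ℝ} (hs : 0 < s) (x : E d) :
    ∃ D : ℝ × E d →L[ℝ] ℝ,
      HasFDerivAt (fun p : ℝ × E d => ∫ u, f u * wt U p.1 p.2 u) D (s, x) ∧
      ∀ (σ : ℝ) (ξ : E d), D (σ, ξ) =
        ∫ u, f u * (σ * ‖u - x‖ ^ 2 / (2 * s ^ 2) + inner ℝ (u - x) ξ / s) * wt U s x u := by
  obtain ⟨C, p, hC⟩ := hf
  have hC0 : 0 ≤ C := by
    have := (abs_nonneg _).trans (hC 0)
    simpa using this
  set B := ‖x‖ + s / 2 with hB
  have hball : ∀ q ∈ Metric.ball ((s, x) : ℝ × E d) (s / 2),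
      s / 2 ≤ q.1 ∧ q.1 ≤ 2 * s ∧ ‖q.2‖ ≤ B := by
    intro q hq
    rw [Metric.mem_ball, Prod.dist_eq, max_lt_iff, Real.dist_eq, abs_lt, dist_eq_norm] at hq
    have := norm_add_le (q.2 - x) x
    rw [sub_add_cancel] at this
    exact ⟨by linarith [hq.1.1], by linarith [hq.1.2], by linarith [hq.2]⟩
  set K := (1 / (2 * (s / 2) ^ 2) + 1 / (s / 2)) * (1 + B) ^ 2 with hK
  have hK0 : 0 ≤ K := by positivity
  have hbound : ∀ u : E d, ∀ q ∈ Metric.ball ((s, x) : ℝ × E d) (s / 2),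
      ‖f u • wt U q.1 q.2 u • wL q.1 q.2 u‖ ≤ (C * K * Real.exp (B ^ 2 / (2 * (2 * s)))) *
      ((1 + ‖u‖) ^ (p + 2) * Real.exp (-(1 / (4 * (2 * s)) * ‖u - 0‖ ^ 2))) := by
    intro u q hq
    obtain ⟨a1, a2, a3⟩ := hball q hq
    have a4 := h.wt_le (by linarith) a2 a3 u
    have a5 := norm_wL_le (by positivity) a1 a3 u
    rw [norm_smul, norm_smul, Real.norm_eq_abs, Real.norm_eq_abs, abs_of_pos (wt_pos _ _ _ _)]
    refine (mul_le_mul (hC u) (mul_le_mul a4 a5 (norm_nonneg _) (by positivity))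
      (mul_nonneg (wt_pos _ _ _ _).le (norm_nonneg _)) (by positivity)).trans (le_of_eq ?_)
    rw [← hK]
    ring
  have hint := (integrable_pow_mul_exp_neg (p + 2) (c := 1 / (4 * (2 * s))) (by positivity)
    (0 : E d)).const_mul (C * K * Real.exp (B ^ 2 / (2 * (2 * s))))
  have hmeas : AEStronglyMeasurable (fun u => f u • wt U s x u • wL s x u) volume :=
    hm.smul ((h.continuous_wt _ _).smul (continuous_wL _ _)).aestronglyMeasurable
  have key := hasFDerivAt_integral_of_dominated_of_fderiv_le (μ := (volume : Measure (E d)))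
    (F := fun (q : ℝ × E d) u => f u * wt U q.1 q.2 u)
    (F' := fun q u => f u • wt U q.1 q.2 u • wL q.1 q.2 u) (x₀ := (s, x))
    (s := Metric.ball ((s, x) : ℝ × E d) (s / 2)) (Metric.ball_mem_nhds _ (by positivity))
    (Filter.Eventually.of_forall fun q => hm.mul (h.continuous_wt _ _).aestronglyMeasurable)
    (((h.integrable_wt hs x p).const_mul C).mono'
      (hm.mul (h.continuous_wt _ _).aestronglyMeasurable) (ae_of_all _ fun u => by
        rw [Real.norm_eq_abs, abs_mul, abs_of_pos (wt_pos _ _ _ _), ← mul_assoc]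
        exact mul_le_mul_of_nonneg_right (hC u) (wt_pos _ _ _ _).le))
    hmeas (ae_of_all _ hbound) hint
    (ae_of_all _ fun u q hq =>
      (hasFDerivAt_wt U (by linarith [(hball q hq).1]) q.2 u).const_mul (f u))
  refine ⟨_, key, fun σ ξ => ?_⟩
  rw [ContinuousLinearMap.integral_apply (hint.mono' hmeas
    (ae_of_all _ fun u => hbound u (s, x) (Metric.mem_ball_self (by positivity))))]
  congr 1
  funext u
  simp only [smul_apply, wL_apply, smul_eq_mul]
  ring

/-- Derivative of a tilted expectation of a fixed function along any differentiable curve: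
a covariance. -/
theorem Pot.hasDerivAt_integral_tilt (h : Pot α β U) {f : E d → ℝ} (hf : PG f)
    (hm : AEStronglyMeasurable f volume) {s : ℝ → ℝ} {x : ℝ → E d} {s' : ℝ} {x' : E d} {τ : ℝ}
    (hs : HasDerivAt s s' τ) (hx : HasDerivAt x x' τ) (hpos : 0 < s τ) :
    HasDerivAt (fun σ => ∫ u, f u ∂(tilt U (s σ) (x σ)))
      (∫ u, f u * (s' * ‖u - x τ‖ ^ 2 / (2 * s τ ^ 2) + inner ℝ (u - x τ) x' / s τ)
          ∂(tilt U (s τ) (x τ))
        - (∫ u, f u ∂(tilt U (s τ) (x τ))) *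
          ∫ u, (s' * ‖u - x τ‖ ^ 2 / (2 * s τ ^ 2) + inner ℝ (u - x τ) x' / s τ)
            ∂(tilt U (s τ) (x τ))) τ := by
  obtain ⟨D, hD, hD'⟩ := h.hasFDerivAt_integral_wt hf hm hpos (x τ)
  obtain ⟨D1, hD1, hD1'⟩ := h.hasFDerivAt_integral_wt (PG.const 1) aestronglyMeasurable_const
    hpos (x τ)
  have a1 := hD.comp_hasDerivAt τ (hs.prodMk hx)
  have a2 := hD1.comp_hasDerivAt τ (hs.prodMk hx)
  have hZ := h.integral_wt_pos hpos (x τ)
  simp only [one_mul] at a2 hD1'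
  have a3 := a1.div a2 hZ.ne'
  have hev : ∀ᶠ σ in nhds τ, 0 < s σ := hs.continuousAt.eventually (lt_mem_nhds hpos)
  refine (a3.congr_of_eventuallyEq (hev.mono fun σ hσ => h.integral_tilt hσ _ _)).congr_deriv ?_
  rw [h.integral_tilt hpos, h.integral_tilt hpos, h.integral_tilt hpos, hD', hD1']
  simp only [Function.comp]
  field_simp

/-- Derivative of `F` along a curve. -/
theorem Pot.hasDerivAt_Fz (h : Pot α β U) {s : ℝ → ℝ} {x : ℝ → E d} {s' : ℝ} {x' : E d} {τ : ℝ}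
    (hs : HasDerivAt s s' τ) (hx : HasDerivAt x x' τ) (hpos : 0 < s τ) :
    HasDerivAt (fun σ => Fz U (s σ) (x σ))
      (Fz U (s τ) (x τ) * (s' * ((∫ u, ‖u - x τ‖ ^ 2 ∂(tilt U (s τ) (x τ))) / (2 * s τ ^ 2)
        - d / (2 * s τ)) - inner ℝ (Gt U (s τ) (x τ)) x')) τ := by
  obtain ⟨D1, hD1, hD1'⟩ := h.hasFDerivAt_integral_wt (PG.const 1) aestronglyMeasurable_const
    hpos (x τ)
  have a2 := hD1.comp_hasDerivAt τ (hs.prodMk hx)
  have hZ := h.integral_wt_pos hpos (x τ)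
  simp only [one_mul] at a2 hD1'
  have hp : 0 < 2 * Real.pi * s τ := by positivity
  have a1 := (hs.const_mul (2 * Real.pi)).rpow_const (p := -(d : ℝ) / 2) (Or.inl hp.ne')
  have a3 := a1.mul a2
  have hev : ∀ᶠ σ in nhds τ, 0 < s σ := hs.continuousAt.eventually (lt_mem_nhds hpos)
  refine (a3.congr_of_eventuallyEq (hev.mono fun σ hσ => h.Fz_eq hσ _)).congr_deriv ?_
  have := h.isProb_tilt hpos (x τ)
  have n1 : PG fun u : E d => ‖u - x τ‖ :=
    LipV.pg (L := 1) (f := fun u : E d => u - x τ) fun a b => by simp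
  have i1 : Integrable (fun u => ‖u - x τ‖ ^ 2) (tilt U (s τ) (x τ)) :=
    h.integrable_tilt hpos _ (n1.pow 2) (by fun_prop)
  have i2 : Integrable (fun u : E d => u) (tilt U (s τ) (x τ)) :=
    h.integrable_tilt_vec hpos _ PG.norm (by fun_prop)
  have i3 : Integrable (fun u : E d => u - x τ) (tilt U (s τ) (x τ)) :=
    i2.sub (integrable_const _)
  have e1 : ∫ u, (s' * ‖u - x τ‖ ^ 2 / (2 * s τ ^ 2) + inner ℝ (u - x τ) x' / s τ)
      ∂(tilt U (s τ) (x τ)) = s' * ((∫ u, ‖u - x τ‖ ^ 2 ∂(tilt U (s τ) (x τ))) / (2 * s τ ^ 2))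
        - inner ℝ (Gt U (s τ) (x τ)) x' := by
    rw [integral_add ((i1.const_mul _).div_const _) ((i3.inner_const _).div_const _),
      integral_div, integral_div, integral_const_mul]
    simp_rw [real_inner_comm x']
    rw [integral_inner i3, integral_sub i2 (integrable_const _), Gt, inner_smul_right,
      inner_sub_right, inner_sub_right]
    simp only [integral_const, probReal_univ, one_smul]
    ring
  rw [h.integral_tilt hpos, div_eq_iff hZ.ne'] at e1
  rw [hD1', e1, h.Fz_eq hpos, Real.rpow_sub_one hp.ne']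
  simp only [Function.comp]
  field_simp
  ring

theorem Pot.continuousOn_integral_tilt (h : Pot α β U) {f : E d → ℝ} (hf : PG f)
    (hm : AEStronglyMeasurable f volume) :
    ContinuousOn (fun p : ℝ × E d => ∫ u, f u ∂(tilt U p.1 p.2)) {p | 0 < p.1} := by
  intro q hq
  obtain ⟨D, hD, -⟩ := h.hasFDerivAt_integral_wt hf hm hq q.2
  obtain ⟨D1, hD1, -⟩ := h.hasFDerivAt_integral_wt (PG.const 1) aestronglyMeasurable_const hq q.2
  simp only [one_mul] at hD1
  have a3 := hD.continuousAt.div hD1.continuousAt (h.integral_wt_pos hq q.2).ne'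
  refine (a3.continuousWithinAt (s := {p | 0 < p.1})).congr (fun p hp => ?_) ?_
  · exact h.integral_tilt hp _ _
  · exact h.integral_tilt hq _ _

theorem Pot.hasLineDerivAt (h : Pot α β U) (u v : E d) :
    HasDerivAt (fun t : ℝ => U (u + t • v)) (inner ℝ v (gradient U u)) 0 := by
  have h1 : HasFDerivAt U (InnerProductSpace.toDual ℝ (E d) (gradient U u)) u :=
    (h.smooth.differentiable (by norm_num) u).hasGradientAt.hasFDerivAt
  have h2 := h1.hasLineDerivAt v
  rw [InnerProductSpace.toDual_apply_apply, real_inner_comm] at h2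
  exact h2

/-- Integration by parts under the tilted law. -/
theorem Pot.tilt_ibp (h : Pot α β U) {s : ℝ} (hs : 0 < s) (x : E d) {f f' : E d → ℝ}
    (hf : PG f) (hf' : PG f') (hc : Continuous f) (hc' : Continuous f') (v : E d)
    (hd : ∀ u, HasLineDerivAt ℝ f (f' u) u v) :
    ∫ u, f' u ∂(tilt U s x) =
      ∫ u, f u * (inner ℝ v (gradient U u) + inner ℝ v (u - x) / s) ∂(tilt U s x) := by
  have g1 : PG fun u : E d => ‖gradient U u‖ := LipV.pg (L := β) h.lip
  have gc : Continuous (gradient U) := h.contDiff_grad.continuous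
  have n1 : PG fun u : E d => ‖u - x‖ :=
    LipV.pg (L := 1) (f := fun u : E d => u - x) fun a b => by simp
  have g2 : PG fun u : E d => (inner ℝ v (gradient U u) : ℝ) :=
    ((PG.const ‖v‖).mul g1).of_le fun u => (abs_real_inner_le_norm _ _).trans (le_abs_self _)
  have g3 : PG fun u : E d => (inner ℝ v (u - x) : ℝ) / s := by
    simpa only [div_eq_mul_inv] using (((PG.const ‖v‖).mul n1).of_le
      fun u => (abs_real_inner_le_norm _ _).trans (le_abs_self _)).mul (PG.const s⁻¹)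
  have hI : ∀ g : E d → ℝ, PG g → Continuous g →
      Integrable (fun u => g u * wt U s x u) volume := by
    rintro g ⟨C, p, hC⟩ hg
    exact ((h.integrable_wt hs x p).const_mul C).mono'
      (hg.mul (h.continuous_wt _ _)).aestronglyMeasurable (ae_of_all _ fun u => by
        rw [Real.norm_eq_abs, abs_mul, abs_of_pos (wt_pos _ _ _ _), ← mul_assoc]
        exact mul_le_mul_of_nonneg_right (hC u) (wt_pos _ _ _ _).le)
  have i2 := hI _ (hf.mul (g2.add g3)) (by fun_prop)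
  have key := integral_bilinear_hasLineDerivAt_right_eq_neg_left_of_integrable
    (μ := (volume : Measure (E d))) (f := f) (f' := f') (g := wt U s x)
    (g' := fun u => -((inner ℝ v (gradient U u) + inner ℝ v (u - x) / s) * wt U s x u)) (v := v)
    (B := ContinuousLinearMap.mul ℝ ℝ) (hI _ hf' hc')
    (i2.neg.congr (ae_of_all _ fun u => by simp; ring)) (hI _ hf hc) (fun u _ => hd u)
    (fun u _ => by
      have a1 : HasDerivAt (fun t : ℝ => u + t • v - x) v 0 := by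
        simpa using (((hasDerivAt_id (0 : ℝ)).smul_const v).const_add u).sub_const x
      have a2 := ((h.hasLineDerivAt u v).add (a1.norm_sq.div_const (2 * s))).neg.exp
      refine HasDerivAt.congr_deriv a2 ?_
      simp only [wt, Pi.neg_apply, Pi.add_apply, zero_smul, add_zero, real_inner_comm v]
      field_simp)
  rw [h.integral_tilt hs, h.integral_tilt hs]
  congr 1
  simp only [ContinuousLinearMap.mul_apply'] at key
  rw [← neg_inj, ← key, ← integral_neg]
  congr 1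
  funext u
  ring

/-- Integration by parts: the effective gradient is the mean of the gradient. -/
theorem Pot.integral_grad_tilt (h : Pot α β U) {s : ℝ} (hs : 0 < s) (x : E d) :
    ∫ u, gradient U u ∂(tilt U s x) = Gt U s x := by
  have := h.isProb_tilt hs x
  have g1 : PG fun u : E d => ‖gradient U u‖ := LipV.pg (L := β) h.lip
  have gc : Continuous (gradient U) := h.contDiff_grad.continuous
  have i1 : Integrable (gradient U) (tilt U s x) :=
    h.integrable_tilt_vec hs _ g1 gc.aestronglyMeasurable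
  have i2 : Integrable (fun u : E d => u) (tilt U s x) :=
    h.integrable_tilt_vec hs _ PG.norm (by fun_prop)
  have i3 : Integrable (fun u : E d => u - x) (tilt U s x) := i2.sub (integrable_const _)
  refine ext_inner_left ℝ fun v => ?_
  have key := h.tilt_ibp hs x (PG.const 1) (PG.const 0) (f := fun _ => 1) (f' := fun _ => 0)
    continuous_const continuous_const v (fun u => hasDerivAt_const _ _)
  simp only [integral_zero, one_mul] at key
  rw [integral_add (i1.const_inner _) ((i3.const_inner _).div_const _), integral_div,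
    integral_inner i1, integral_inner i3, integral_sub i2 (integrable_const _)] at key
  simp only [integral_const, probReal_univ, one_smul, inner_sub_right] at key
  rw [Gt, inner_smul_right, inner_sub_right]
  have : (inner ℝ v (∫ u, gradient U u ∂(tilt U s x)) : ℝ) =
      -((inner ℝ v (∫ u, u ∂(tilt U s x)) - inner ℝ v x) / s) := by linarith
  rw [this]
  ring

end Vale.Agent.P347
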