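import Vale.Agent.P347.Formal
import Vale.Agent.P347.TiltDeriv

/-! TASK Ev: the formal derivations compute honest derivatives of the evaluation; growth and
continuity of evaluations. All proofs are inductions on the polynomial
(`MvPolynomial.induction_on`, or `Algebra.adjoin_induction` for `XO`, `GF`). -/

open MeasureTheory ProbabilityTheory MvPolynomial

namespace Vale.Agent.P347

variable {d : ℕ} {α β : ℝ} {U : E d → ℝ}

/-- the monomial attached to a multiset of coordinates -/
noncomputable def evMono (L : Multiset (Fin d)) (v : E d) : ℝ := (L.map fun i => v i).prod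

/-- its tilted expectation -/
noncomputable def evMom (U : E d → ℝ) (s : ℝ) (x : E d) (L : Multiset (Fin d)) : ℝ :=
  ∫ v, evMono L v ∂(tilt U s x)

theorem evMono_zero (v : E d) : evMono 0 v = 1 := by simp [evMono]

theorem evMono_cons (i : Fin d) (L : Multiset (Fin d)) (v : E d) :
    evMono (i ::ₘ L) v = v i * evMono L v := by simp [evMono]

theorem ev_cont_coord (i : Fin d) : Continuous fun v : E d => v i :=
  (EuclideanSpace.proj i : E d →L[ℝ] ℝ).continuous

theorem ev_abs_coord (v : E d) (i : Fin d) : |v i| ≤ ‖v‖ := by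
  simpa using PiLp.norm_apply_le v i

theorem ev_pg_coord (i : Fin d) : PG fun v : E d => v i :=
  PG.of_le PG.norm fun v => (ev_abs_coord v i).trans (le_abs_self _)

theorem evMono_cont (L : Multiset (Fin d)) : Continuous (evMono L : E d → ℝ) := by
  induction L using Multiset.induction_on with
  | empty => exact continuous_const.congr fun v => (evMono_zero v).symm
  | cons i L ih => exact ((ev_cont_coord i).mul ih).congr fun v => (evMono_cons i L v).symm

theorem evMono_le (L : Multiset (Fin d)) (v : E d) : |evMono L v| ≤ (1 + ‖v‖) ^ L.card := by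
  induction L using Multiset.induction_on with
  | empty => simp [evMono_zero]
  | cons i L ih =>
    rw [evMono_cons, abs_mul, Multiset.card_cons, pow_succ']
    exact mul_le_mul ((ev_abs_coord v i).trans (by linarith)) ih (abs_nonneg _) (by positivity)

theorem evMono_pg (L : Multiset (Fin d)) : PG (evMono L : E d → ℝ) :=
  ⟨1, L.card, fun v => by rw [one_mul]; exact evMono_le L v⟩

theorem evMono_int (h : Pot α β U) {s : ℝ} (hs : 0 < s) (x : E d) (L : Multiset (Fin d)) :
    Integrable (evMono L) (tilt U s x) :=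
  h.integrable_tilt hs x (evMono_pg L) (evMono_cont L).aestronglyMeasurable

theorem evMom_zero (h : Pot α β U) {s : ℝ} (hs : 0 < s) (x : E d) : evMom U s x 0 = 1 := by
  have := h.isProb_tilt hs x
  simp [evMom, evMono_zero]

theorem evMom_kernel (h : Pot α β U) {s : ℝ} (hs : 0 < s) (x ξ : E d) (A B : ℝ)
    (L : Multiset (Fin d)) :
    ∫ u, evMono L u * (A * ‖u - x‖ ^ 2 / B + inner ℝ (u - x) ξ / s) ∂(tilt U s x) =
      ∑ j, (A / B * evMom U s x (j ::ₘ j ::ₘ L)
        + (ξ j / s - 2 * x j * (A / B)) * evMom U s x (j ::ₘ L)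
        + (A / B * x j ^ 2 - ξ j / s * x j) * evMom U s x L) := by
  have e : ∀ u : E d, evMono L u * (A * ‖u - x‖ ^ 2 / B + inner ℝ (u - x) ξ / s) =
      ∑ j, (A / B * evMono (j ::ₘ j ::ₘ L) u
        + (ξ j / s - 2 * x j * (A / B)) * evMono (j ::ₘ L) u
        + (A / B * x j ^ 2 - ξ j / s * x j) * evMono L u) := fun u => by
    rw [EuclideanSpace.real_norm_sq_eq, PiLp.inner_apply, Finset.mul_sum, Finset.sum_div,
      Finset.sum_div, ← Finset.sum_add_distrib, Finset.mul_sum]
    refine Finset.sum_congr rfl fun j _ => ?_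
    simp only [evMono_cons, PiLp.sub_apply, RCLike.inner_apply, conj_trivial]
    ring
  have i1 := fun (c : ℝ) L => (evMono_int h hs x L).const_mul c
  simp only [e]
  have i2 : ∀ (c c' : ℝ) L L', Integrable (fun u => c * evMono L u + c' * evMono L' u)
      (tilt U s x) := fun c c' L L' => (i1 c L).add (i1 c' L')
  have i3 : ∀ (c c' c'' : ℝ) L L' L'', Integrable
      (fun u => c * evMono L u + c' * evMono L' u + c'' * evMono L'' u) (tilt U s x) :=
    fun c c' c'' L L' L'' => (i2 c c' L L').add (i1 c'' L'')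
  rw [integral_finsetSum _ fun j _ => i3 _ _ _ _ _ _]
  refine Finset.sum_congr rfl fun j _ => ?_
  rw [integral_add (i2 _ _ _ _) (i1 _ _), integral_add (i1 _ _) (i1 _ _),
    integral_const_mul, integral_const_mul, integral_const_mul]
  rfl

section atoms
variable (b : ℝ × ℝ) (Z : E d × E d) (s : ℝ) (x u : E d)
theorem ev_bb (m : Fin 2) : ev U b Z s x u (bb m) = sel m b := aeval_X _ _
theorem ev_zz (m : Fin 2) (i : Fin d) : ev U b Z s x u (zz m i) = sel m Z i := aeval_X _ _
theorem ev_xx (i : Fin d) : ev U b Z s x u (xx i) = x i := aeval_X _ _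
theorem ev_ww : ev U b Z s x u ww = s⁻¹ := aeval_X _ _
theorem ev_uu (i : Fin d) : ev U b Z s x u (uu i) = u i := aeval_X _ _
theorem evA_gg (i : Fin d) : ev U b Z s x u (gg i) = gradient U u i := aeval_X _ _
theorem ev_mom (L : Multiset (Fin d)) : ev U b Z s x u (X (Atom.mom L)) = evMom U s x L :=
  aeval_X _ _
theorem ev_C (r : ℝ) : ev U b Z s x u (C r) = r := aeval_C _ _
end atoms

theorem sel_zero {γ : Type*} (p : γ × γ) : sel 0 p = p.1 := rfl
theorem sel_one {γ : Type*} (p : γ × γ) : sel 1 p = p.2 := rfl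

theorem ev_M' (h : Pot α β U) (b : ℝ × ℝ) (Z : E d × E d) {s : ℝ} (hs : 0 < s) (x u : E d)
    (L : Multiset (Fin d)) : ev U b Z s x u (M L) = evMom U s x L := by
  unfold M
  split_ifs with hL
  · rw [hL, map_one, evMom_zero h hs]
  · exact ev_mom b Z s x u L

theorem ev_ind {p : R d → Prop} (S : Set (Atom d)) (hC : ∀ r, p (C r)) (hX : ∀ a ∈ S, p (X a))
    (hadd : ∀ f g, p f → p g → p (f + g)) (hmul : ∀ f g, p f → p g → p (f * g)) {f : R d}
    (hf : f ∈ supported ℝ S) : p f := by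
  rw [supported_eq_adjoin_X] at hf
  induction hf using Algebra.adjoin_induction with
  | mem x hx => obtain ⟨a, ha, rfl⟩ := hx; exact hX a ha
  | algebraMap r => exact hC r
  | add x y _ _ hx hy => exact hadd _ _ hx hy
  | mul x y _ _ hx hy => exact hmul _ _ hx hy

theorem ev_ind_all {p : R d → Prop} (hC : ∀ r, p (C r)) (hX : ∀ a, p (X a))
    (hadd : ∀ f g, p f → p g → p (f + g)) (hmul : ∀ f g, p f → p g → p (f * g)) (f : R d) :
    p f :=
  ev_ind Set.univ hC (fun a _ => hX a) hadd hmul (by rw [supported_univ]; trivial)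

theorem ev_leib (e : R d →ₐ[ℝ] ℝ) (f g : R d) (D : Der d) (c : ℝ) :
    c * e (D (f * g)) = c * e (D f) * e g + e f * (c * e (D g)) := by
  rw [Derivation.leibniz, smul_eq_mul, smul_eq_mul, map_add, map_mul, map_mul]; ring

theorem evMom_single (h : Pot α β U) {s : ℝ} (hs : 0 < s) (x : E d) (i : Fin d) :
    evMom U s x {i} = (∫ u, u ∂(tilt U s x)) i := by
  have hi : Integrable (fun u : E d => u) (tilt U s x) :=
    h.integrable_tilt_vec hs x PG.norm continuous_id.aestronglyMeasurable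
  have := (EuclideanSpace.proj i : E d →L[ℝ] ℝ).integral_comp_comm hi
  simp only [EuclideanSpace.coe_proj] at this
  rw [← this]
  simp [evMom, evMono]

theorem Gt_coord (h : Pot α β U) {s : ℝ} (hs : 0 < s) (x : E d) (i : Fin d) :
    Gt U s x i = (x i - evMom U s x {i}) * s⁻¹ := by
  rw [evMom_single h hs]
  simp [Gt, mul_comm]

theorem ev_line (x v : E d) (t : ℝ) : HasDerivAt (fun s : ℝ => x + s • v) v t :=
  (((hasDerivAt_id t).smul_const v).const_add x).congr_deriv (by simp)

theorem ev_hasDerivAt_sel {γ : Type*} [NormedAddCommGroup γ] [NormedSpace ℝ γ] {f : ℝ → γ × γ}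
    {f' : γ × γ} {τ : ℝ} (hf : HasDerivAt f f' τ) (m : Fin 2) :
    HasDerivAt (fun σ => sel m (f σ)) (sel m f') τ := by
  fin_cases m
  · exact (ContinuousLinearMap.fst ℝ γ γ).hasFDerivAt.comp_hasDerivAt τ hf
  · exact (ContinuousLinearMap.snd ℝ γ γ).hasFDerivAt.comp_hasDerivAt τ hf

theorem ev_hasDerivAt_coord {f : ℝ → E d} {f' : E d} {τ : ℝ} (hf : HasDerivAt f f' τ)
    (i : Fin d) : HasDerivAt (fun σ => f σ i) (f' i) τ :=
  (EuclideanSpace.proj i : E d →L[ℝ] ℝ).hasFDerivAt.comp_hasDerivAt τ hf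

theorem ev_norm_sel {γ : Type*} [NormedAddCommGroup γ] (p : γ × γ) (m : Fin 2) :
    ‖sel m p‖ ≤ ‖p‖ := by
  fin_cases m
  · exact norm_fst_le p
  · exact norm_snd_le p

theorem ev_cont_sel {γ : Type*} [TopologicalSpace γ] (m : Fin 2) :
    Continuous (sel m : γ × γ → γ) := by
  fin_cases m
  · exact continuous_fst
  · exact continuous_snd

theorem hasDerivAt_lev (b a : ℝ × ℝ) (τ : ℝ) :
    HasDerivAt (fun σ : ℝ => lev (b + σ • a))
      (-(2 * (b + τ • a).1 * a.1 + 2 * (b + τ • a).2 * a.2)) τ := by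
  have h1 : HasDerivAt (fun σ : ℝ => b.1 + σ * a.1) a.1 τ := by
    simpa using ((hasDerivAt_id τ).mul_const a.1).const_add b.1
  have h2 : HasDerivAt (fun σ : ℝ => b.2 + σ * a.2) a.2 τ := by
    simpa using ((hasDerivAt_id τ).mul_const a.2).const_add b.2
  refine (((h1.pow 2).add (h2.pow 2)).const_sub 1).congr_deriv ?_
  simp

theorem hasDerivAt_pt_b (y : E d) (b a : ℝ × ℝ) (Z : E d × E d) (τ : ℝ) :
    HasDerivAt (fun σ : ℝ => pt y (b + σ • a) Z) (a.1 • Z.1 + a.2 • Z.2) τ := by
  have h1 : HasDerivAt (fun σ : ℝ => b.1 + σ * a.1) a.1 τ := by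
    simpa using ((hasDerivAt_id τ).mul_const a.1).const_add b.1
  have h2 : HasDerivAt (fun σ : ℝ => b.2 + σ * a.2) a.2 τ := by
    simpa using ((hasDerivAt_id τ).mul_const a.2).const_add b.2
  exact ((h1.smul_const Z.1).add (h2.smul_const Z.2)).const_add y

theorem hasDerivAt_pt_Z (y : E d) (b : ℝ × ℝ) (Z v : E d × E d) (τ : ℝ) :
    HasDerivAt (fun σ : ℝ => pt y b (Z + σ • v)) (b.1 • v.1 + b.2 • v.2) τ :=
  (((ev_line Z.1 v.1 τ).const_smul b.1).add ((ev_line Z.2 v.2 τ).const_smul b.2)).const_add y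

theorem ev_line2 {γ : Type*} [NormedAddCommGroup γ] [NormedSpace ℝ γ] (x v : γ) (t : ℝ) :
    HasDerivAt (fun s : ℝ => x + s • v) v t :=
  (((hasDerivAt_id t).smul_const v).const_add x).congr_deriv (by simp)

theorem norm_le_one_of_lev {b : ℝ × ℝ} (hb : 0 < lev b) : ‖b‖ ≤ 1 := by
  unfold lev at hb
  rw [Prod.norm_def, max_le_iff, Real.norm_eq_abs, Real.norm_eq_abs]
  constructor
  · exact abs_le_one_iff_mul_self_le_one.2 (by nlinarith [sq_nonneg b.2])
  · exact abs_le_one_iff_mul_self_le_one.2 (by nlinarith [sq_nonneg b.1])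

theorem lev_le_one (b : ℝ × ℝ) : lev b ≤ 1 := by
  unfold lev; nlinarith [sq_nonneg b.1, sq_nonneg b.2]

theorem ev_M (h : Pot α β U) (b : ℝ × ℝ) (Z : E d × E d) {s : ℝ} (hs : 0 < s) (x u : E d)
    (L : Multiset (Fin d)) :
    ev U b Z s x u (M L) = ∫ v, (L.map fun i => v i).prod ∂(tilt U s x) :=
  ev_M' h b Z hs x u L

theorem ev_G (h : Pot α β U) (b : ℝ × ℝ) (Z : E d × E d) {s : ℝ} (hs : 0 < s) (x u : E d)
    (i : Fin d) : ev U b Z s x u (G i) = Gt U s x i := by
  rw [G, map_mul, map_sub, ev_xx, ev_ww, ev_M' h b Z hs, Gt_coord h hs]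

theorem evV_G (h : Pot α β U) (y : E d) {b : ℝ × ℝ} (hb : 0 < lev b) (Z : E d × E d) :
    evV U y b Z G = gfun U y b Z := by
  ext i
  exact ev_G h b Z hb _ _ i

theorem evV_zz (y : E d) (b : ℝ × ℝ) (Z : E d × E d) (m : Fin 2) :
    evV U y b Z (zz m) = sel m Z := by
  ext i
  exact ev_zz _ _ _ _ _ m i

theorem ev_XO {f : R d} (hf : f ∈ XO d) (b b' : ℝ × ℝ) (Z Z' : E d × E d) (s : ℝ)
    (x u u' : E d) : ev U b Z s x u f = ev U b' Z' s x u' f := by
  refine ev_ind (p := fun f => ev U b Z s x u f = ev U b' Z' s x u' f) _ (fun r => ?_)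
    (fun a ha => ?_) (fun f g h1 h2 => ?_) (fun f g h1 h2 => ?_) hf
  · rw [ev_C, ev_C]
  · cases a with
    | x j => exact (ev_xx _ _ _ _ _ j).trans (ev_xx _ _ _ _ _ j).symm
    | w => exact (ev_ww _ _ _ _ _).trans (ev_ww _ _ _ _ _).symm
    | mom L => rw [ev_mom, ev_mom]
    | _ => exact ha.elim
  · rw [map_add, map_add, h1, h2]
  · rw [map_mul, map_mul, h1, h2]

/-- chain rule along curves in all variables except `u` -/
theorem hasDerivAt_ev (h : Pot α β U) (P : R d) {b : ℝ → ℝ × ℝ} {Z : ℝ → E d × E d} {s : ℝ → ℝ}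
    {x : ℝ → E d} {b' : ℝ × ℝ} {Z' : E d × E d} {s' : ℝ} {x' : E d} {τ : ℝ} (u : E d)
    (hb : HasDerivAt b b' τ) (hZ : HasDerivAt Z Z' τ) (hs : HasDerivAt s s' τ)
    (hx : HasDerivAt x x' τ) (hpos : 0 < s τ) :
    HasDerivAt (fun σ => ev U (b σ) (Z σ) (s σ) (x σ) u P)
      (∑ m, sel m b' * ev U (b τ) (Z τ) (s τ) (x τ) u (rawb m P)
        + ∑ m, ∑ i, sel m Z' i * ev U (b τ) (Z τ) (s τ) (x τ) u (rawZ m i P)
        + s' * ev U (b τ) (Z τ) (s τ) (x τ) u (ds P)
        + ∑ i, x' i * ev U (b τ) (Z τ) (s τ) (x τ) u (dx i P)) τ := by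
  induction P using ev_ind_all with
  | hC r =>
    simp only [ev_C, derivation_C, map_zero, mul_zero, Finset.sum_const_zero, add_zero]
    exact hasDerivAt_const τ r
  | hadd f g h1 h2 =>
    simp only [map_add]
    refine (h1.add h2).congr_deriv ?_
    simp only [mul_add, Finset.sum_add_distrib]
    ring
  | hmul f g h1 h2 =>
    simp only [map_mul, ev_leib]
    refine (h1.mul h2).congr_deriv ?_
    simp only [Finset.sum_add_distrib, ← Finset.mul_sum, ← Finset.sum_mul]
    ring
  | hX a =>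
    cases a with
    | b m =>
      refine ((ev_hasDerivAt_sel hb m).congr_deriv ?_).congr_of_eventuallyEq
        (Filter.Eventually.of_forall fun σ => ev_bb _ _ _ _ _ m)
      have h1 := ds_bb (d := d) m
      have h2 := fun i : Fin d => dx_bb i m
      simp only [bb] at h1 h2
      simp [h1, h2, rawb, rawZ, pderiv_X, Pi.single_apply, apply_ite]
    | z m i =>
      refine ((ev_hasDerivAt_coord (ev_hasDerivAt_sel hZ m) i).congr_deriv ?_).congr_of_eventuallyEq
        (Filter.Eventually.of_forall fun σ => ev_zz _ _ _ _ _ m i)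
      have h1 := ds_zz (d := d) i m
      have h2 := fun j : Fin d => dx_zz j i m
      simp only [zz] at h1 h2
      simp [h1, h2, rawb, rawZ, pderiv_X, Pi.single_apply, apply_ite, ite_and]
    | x i =>
      refine ((ev_hasDerivAt_coord hx i).congr_deriv ?_).congr_of_eventuallyEq
        (Filter.Eventually.of_forall fun σ => ev_xx _ _ _ _ _ i)
      have h1 := ds_xx (d := d) i
      have h2 := fun j : Fin d => dx_xx j i
      simp only [xx] at h1 h2
      simp [h1, h2, rawb, rawZ, pderiv_X, apply_ite]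
    | w =>
      refine ((hs.inv hpos.ne').congr_deriv ?_).congr_of_eventuallyEq
        (Filter.Eventually.of_forall fun σ => ev_ww _ _ _ _ _)
      have h1 : ds (X Atom.w : R d) = -(ww * ww) := ds_ww
      have h2 : ∀ j : Fin d, dx j (X Atom.w) = 0 := dx_ww
      simp [h1, h2, rawb, rawZ, pderiv_X, ev_ww]
      field_simp
    | mom L =>
      refine ((h.hasDerivAt_integral_tilt (evMono_pg L) (evMono_cont L).aestronglyMeasurable
        hs hx hpos).congr_deriv ?_).congr_of_eventuallyEq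
        (Filter.Eventually.of_forall fun σ => ev_mom _ _ _ _ _ L)
      have h0 := evMom_kernel h hpos (x τ) x' s' (2 * s τ ^ 2) 0
      simp only [evMono_zero, one_mul] at h0
      rw [evMom_kernel h hpos, h0, evMom_zero h hpos, ds_mom, ds_M]
      change _ - evMom U (s τ) (x τ) L * _ = _
      have h1 : ∀ m, rawb m (X (Atom.mom L) : R d) = 0 := fun m => rawb_XO m (mom_mem_XO L)
      have h2 : ∀ m i, rawZ m i (X (Atom.mom L) : R d) = 0 :=
        fun m i => rawZ_XO m i (mom_mem_XO L)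
      simp only [h1, h2, dx_mom, dx_M, map_zero, mul_zero, Finset.sum_const_zero, zero_add,
        map_mul, map_sub, map_sum, ev_M' h _ _ hpos, ev_ww, ev_C, ev_xx, map_ofNat,
        Finset.mul_sum, ← Finset.sum_sub_distrib, ← Finset.sum_add_distrib]
      refine Finset.sum_congr rfl fun j _ => ?_
      have e1 : (j ::ₘ 0 : Multiset (Fin d)) = {j} := rfl
      have e2 : ({j, j} : Multiset (Fin d)) = j ::ₘ {j} := rfl
      rw [e1, e2]
      field_simp
      ring
    | u i =>
      refine ((hasDerivAt_const τ (u i)).congr_deriv ?_).congr_of_eventuallyEq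
        (Filter.Eventually.of_forall fun σ => ev_uu _ _ _ _ _ i)
      have h1 := ds_uu (d := d) i
      have h2 := fun j : Fin d => dx_uu j i
      simp only [uu] at h1 h2
      simp [h1, h2, rawb, rawZ, pderiv_X]
    | g i =>
      refine ((hasDerivAt_const τ (gradient U u i)).congr_deriv ?_).congr_of_eventuallyEq
        (Filter.Eventually.of_forall fun σ => evA_gg _ _ _ _ _ i)
      have h1 := ds_gg (d := d) i
      have h2 := fun j : Fin d => dx_gg j i
      simp only [gg] at h1 h2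
      simp [h1, h2, rawb, rawZ, pderiv_X]

theorem hasDerivAt_ev_x (h : Pot α β U) (P : R d) (b : ℝ × ℝ) (Z : E d × E d) {s : ℝ}
    (hs : 0 < s) (x v u : E d) (τ : ℝ) :
    HasDerivAt (fun σ : ℝ => ev U b Z s (x + σ • v) u P)
      (∑ i, v i * ev U b Z s (x + τ • v) u (dx i P)) τ := by
  refine (hasDerivAt_ev h P u (hasDerivAt_const τ b) (hasDerivAt_const τ Z)
    (hasDerivAt_const τ s) (ev_line x v τ) hs).congr_deriv ?_
  simp [Fin.sum_univ_two, sel_zero, sel_one]

theorem hasDerivAt_evS_b (h : Pot α β U) (P : R d) (y : E d) (b a : ℝ × ℝ) (Z : E d × E d)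
    {τ : ℝ} (hb : 0 < lev (b + τ • a)) :
    HasDerivAt (fun σ : ℝ => evS U y (b + σ • a) Z P)
      (a.1 * evS U y (b + τ • a) Z (db 0 P) + a.2 * evS U y (b + τ • a) Z (db 1 P)) τ := by
  refine (hasDerivAt_ev h P 0 (ev_line2 b a τ) (hasDerivAt_const τ Z)
    (hasDerivAt_lev b a τ) (hasDerivAt_pt_b y b a Z τ) hb).congr_deriv ?_
  simp only [evS, db_apply, map_sub, map_add, map_mul, map_sum, map_ofNat, ev_bb, ev_zz,
    Fin.sum_univ_two, sel_zero, sel_one, Prod.fst_zero, Prod.snd_zero, PiLp.zero_apply, zero_mul,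
    Finset.sum_const_zero, add_zero, PiLp.add_apply, PiLp.smul_apply, smul_eq_mul, add_mul,
    Finset.sum_add_distrib, mul_assoc, ← Finset.mul_sum]
  ring

theorem hasDerivAt_evS_Z (h : Pot α β U) (P : R d) (y : E d) {b : ℝ × ℝ} (hb : 0 < lev b)
    (Z v : E d × E d) (τ : ℝ) :
    HasDerivAt (fun σ : ℝ => evS U y b (Z + σ • v) P)
      (∑ m, ∑ i, sel m v i * evS U y b (Z + τ • v) (dZ m i P)) τ := by
  refine (hasDerivAt_ev h P 0 (hasDerivAt_const τ b) (ev_line2 Z v τ)
    (hasDerivAt_const τ (lev b)) (hasDerivAt_pt_Z y b Z v τ) hb).congr_deriv ?_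
  simp only [evS, dZ_apply, map_add, map_mul, ev_bb,
    Fin.sum_univ_two, sel_zero, sel_one, Prod.fst_zero, Prod.snd_zero, zero_mul,
    add_zero, zero_add, PiLp.add_apply, PiLp.smul_apply, smul_eq_mul,
    ← Finset.sum_add_distrib]
  exact Finset.sum_congr rfl fun i _ => by ring

/-- derivative in `u` of `g`-free elements -/
theorem contDiff_ev_u {P : R d} (hP : P ∈ GF d) (b : ℝ × ℝ) (Z : E d × E d) (s : ℝ) (x : E d) :
    ContDiff ℝ 1 fun u => ev U b Z s x u P := by
  refine ev_ind (p := fun P => ContDiff ℝ 1 fun u => ev U b Z s x u P) _ (fun r => ?_)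
    (fun a ha => ?_) (fun f g h1 h2 => ?_) (fun f g h1 h2 => ?_) hP
  · simp only [ev_C]; exact contDiff_const
  · cases a with
    | g j => exact ha.elim
    | u j =>
      simp only [ev, aeval_X]
      exact (EuclideanSpace.proj j : E d →L[ℝ] ℝ).contDiff
    | _ => simp only [ev, aeval_X]; exact contDiff_const
  · simp only [map_add]; exact h1.add h2
  · simp only [map_mul]; exact h1.mul h2

theorem fderiv_ev_u {P : R d} (hP : P ∈ GF d) (b : ℝ × ℝ) (Z : E d × E d) (s : ℝ) (x u v : E d) :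
    fderiv ℝ (fun u => ev U b Z s x u P) u v = ∑ j, v j * ev U b Z s x u (du j P) := by
  have h1 : HasDerivAt (fun σ : ℝ => ev U b Z s x (u + σ • v) P)
      (∑ j, v j * ev U b Z s x (u + (0 : ℝ) • v) (du j P)) 0 := by
    refine ev_ind (p := fun P => HasDerivAt (fun σ : ℝ => ev U b Z s x (u + σ • v) P)
      (∑ j, v j * ev U b Z s x (u + (0 : ℝ) • v) (du j P)) 0) _ (fun r => ?_)
      (fun a ha => ?_) (fun f g h1 h2 => ?_) (fun f g h1 h2 => ?_) hP
    · simp only [ev_C, derivation_C, map_zero, mul_zero, Finset.sum_const_zero]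
      exact hasDerivAt_const _ r
    · cases a with
      | g j => exact ha.elim
      | u j =>
        refine ((ev_hasDerivAt_coord (ev_line u v 0) j).congr_deriv ?_).congr_of_eventuallyEq
          (Filter.Eventually.of_forall fun σ => ev_uu _ _ _ _ _ j)
        simp [du, pderiv_X, Pi.single_apply, apply_ite]
      | _ =>
        simp only [ev, aeval_X]
        refine (hasDerivAt_const _ _).congr_deriv ?_
        simp [du, pderiv_X]
    · simp only [map_add]
      refine (h1.add h2).congr_deriv ?_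
      simp only [mul_add, Finset.sum_add_distrib]
    · simp only [map_mul, ev_leib]
      refine (h1.mul h2).congr_deriv ?_
      simp only [Finset.sum_add_distrib, ← Finset.mul_sum, ← Finset.sum_mul]
  have h2 : DifferentiableAt ℝ (fun u => ev U b Z s x u P) (u + (0 : ℝ) • v) :=
    (contDiff_ev_u hP b Z s x).differentiable (by simp) _
  have h4 := h2.hasFDerivAt.comp_hasDerivAt (0 : ℝ) (ev_line u v 0)
  have h3 := h1.unique h4
  simpa using h3.symm

theorem continuous_ev_u (h : Pot α β U) (P : R d) (b : ℝ × ℝ) (Z : E d × E d) (s : ℝ) (x : E d) :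
    Continuous fun u => ev U b Z s x u P := by
  induction P using ev_ind_all with
  | hC r => simp only [ev_C]; exact continuous_const
  | hadd f g h1 h2 => simp only [map_add]; exact h1.add h2
  | hmul f g h1 h2 => simp only [map_mul]; exact h1.mul h2
  | hX a =>
    cases a with
    | g j =>
      simp only [ev, aeval_X]
      exact (ev_cont_coord j).comp h.contDiff_grad.continuous
    | u j => simp only [ev, aeval_X]; exact ev_cont_coord j
    | _ => simp only [ev, aeval_X]; exact continuous_const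

/-- polynomial growth, uniform for `s ∈ [s₀, 1]` and `|b m| ≤ 1` -/
theorem ev_growth (h : Pot α β U) (P : R d) {s₀ : ℝ} (hs₀ : 0 < s₀) :
    ∃ (C : ℝ) (p : ℕ), ∀ (b : ℝ × ℝ) (Z : E d × E d) (s : ℝ) (x u : E d),
      ‖b‖ ≤ 1 → s₀ ≤ s → s ≤ 1 →
        |ev U b Z s x u P| ≤ C * (1 + ‖Z‖ + ‖x‖ + ‖u‖) ^ p := by
  have one : ∀ (Z : E d × E d) (x u : E d), 1 ≤ 1 + ‖Z‖ + ‖x‖ + ‖u‖ := fun Z x u => by
    linarith [norm_nonneg Z, norm_nonneg x, norm_nonneg u]
  suffices H : ∃ (C : ℝ) (p : ℕ), 0 ≤ C ∧ ∀ (b : ℝ × ℝ) (Z : E d × E d) (s : ℝ) (x u : E d),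
      ‖b‖ ≤ 1 → s₀ ≤ s → s ≤ 1 →
        |ev U b Z s x u P| ≤ C * (1 + ‖Z‖ + ‖x‖ + ‖u‖) ^ p by
    obtain ⟨C, p, -, H⟩ := H
    exact ⟨C, p, H⟩
  induction P using ev_ind_all with
  | hC r => exact ⟨|r|, 0, abs_nonneg r, fun b Z s x u _ _ _ => by simp⟩
  | hadd f g h1 h2 =>
    obtain ⟨C, p, hC, h1⟩ := h1
    obtain ⟨D, q, hD, h2⟩ := h2
    refine ⟨C + D, p + q, by positivity, fun b Z s x u k1 k2 k3 => ?_⟩
    rw [map_add]
    have a1 := mul_le_mul_of_nonneg_left
      (pow_le_pow_right₀ (one Z x u) (Nat.le_add_right p q)) hC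
    have a2 := mul_le_mul_of_nonneg_left
      (pow_le_pow_right₀ (one Z x u) (Nat.le_add_left q p)) hD
    linarith [h1 b Z s x u k1 k2 k3, h2 b Z s x u k1 k2 k3,
      abs_add_le (ev U b Z s x u f) (ev U b Z s x u g)]
  | hmul f g h1 h2 =>
    obtain ⟨C, p, hC, h1⟩ := h1
    obtain ⟨D, q, hD, h2⟩ := h2
    refine ⟨C * D, p + q, by positivity, fun b Z s x u k1 k2 k3 => ?_⟩
    rw [map_mul, abs_mul]
    refine (mul_le_mul (h1 b Z s x u k1 k2 k3) (h2 b Z s x u k1 k2 k3) (abs_nonneg _)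
      (by positivity)).trans (le_of_eq ?_)
    ring
  | hX a =>
    cases a with
    | b m =>
      refine ⟨1, 0, zero_le_one, fun b Z s x u k1 _ _ => ?_⟩
      have := (ev_norm_sel b m).trans k1
      simpa [ev] using this
    | z m i =>
      refine ⟨1, 1, zero_le_one, fun b Z s x u _ _ _ => ?_⟩
      have := (ev_abs_coord (sel m Z) i).trans (ev_norm_sel Z m)
      simp only [ev, aeval_X, pow_one, one_mul]
      linarith [norm_nonneg x, norm_nonneg u]
    | x i =>
      refine ⟨1, 1, zero_le_one, fun b Z s x u _ _ _ => ?_⟩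
      have := ev_abs_coord x i
      simp only [ev, aeval_X, pow_one, one_mul]
      linarith [norm_nonneg Z, norm_nonneg u]
    | w =>
      refine ⟨s₀⁻¹, 0, by positivity, fun b Z s x u _ k2 _ => ?_⟩
      simp only [ev, aeval_X, pow_zero, mul_one]
      rw [abs_of_nonneg (inv_nonneg.2 (hs₀.le.trans k2))]
      exact inv_anti₀ hs₀ k2
    | mom L =>
      obtain ⟨C, hC⟩ := h.moment_growth hs₀ L.card
      refine ⟨|C|, L.card, abs_nonneg C, fun b Z s x u _ k2 k3 => ?_⟩
      have hs := hs₀.trans_le k2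
      rw [ev_mom, ← Real.norm_eq_abs]
      have hi : Integrable (fun v : E d => (1 + ‖v‖) ^ L.card) (tilt U s x) :=
        h.integrable_tilt hs x (((PG.const 1).add PG.norm).pow _)
          (Continuous.aestronglyMeasurable (by fun_prop))
      refine (norm_integral_le_of_norm_le hi
        (Filter.Eventually.of_forall fun v => evMono_le L v)).trans ((hC s k2 k3 x).trans ?_)
      refine mul_le_mul (le_abs_self C) (pow_le_pow_left₀ (by positivity) ?_ _) (by positivity)
        (abs_nonneg C)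
      linarith [norm_nonneg Z, norm_nonneg u]
    | u i =>
      refine ⟨1, 1, zero_le_one, fun b Z s x u _ _ _ => ?_⟩
      have := ev_abs_coord u i
      simp only [ev, aeval_X, pow_one, one_mul]
      linarith [norm_nonneg Z, norm_nonneg x]
    | g i =>
      have hβ : 0 ≤ β := h.nonneg.trans h.le
      refine ⟨β, 1, hβ, fun b Z s x u _ _ _ => ?_⟩
      have := (ev_abs_coord (gradient U u) i).trans (h.norm_grad_le u)
      simp only [ev, aeval_X, pow_one]
      refine this.trans (mul_le_mul_of_nonneg_left ?_ hβ)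
      linarith [norm_nonneg Z, norm_nonneg x]

theorem evS_growth (h : Pot α β U) (P : R d) (y : E d) {s₀ : ℝ} (hs₀ : 0 < s₀) :
    ∃ (C : ℝ) (p : ℕ), ∀ (b : ℝ × ℝ) (Z : E d × E d), s₀ ≤ lev b →
      |evS U y b Z P| ≤ C * (1 + ‖Z‖) ^ p := by
  obtain ⟨C, p, H⟩ := ev_growth h P hs₀
  refine ⟨|C| * (3 + ‖y‖) ^ p, p, fun b Z hb => ?_⟩
  have hb1 := norm_le_one_of_lev (hs₀.trans_le hb)
  refine (H b Z _ _ 0 hb1 hb (lev_le_one b)).trans ?_
  rw [mul_assoc, ← mul_pow]
  refine mul_le_mul (le_abs_self C) (pow_le_pow_left₀ (by positivity) ?_ _) (by positivity)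
    (abs_nonneg C)
  have h1 : ‖b.1 • Z.1‖ ≤ ‖Z‖ := by
    rw [norm_smul]
    exact (mul_le_of_le_one_left (norm_nonneg _) ((norm_fst_le b).trans hb1)).trans (norm_fst_le Z)
  have h2 : ‖b.2 • Z.2‖ ≤ ‖Z‖ := by
    rw [norm_smul]
    exact (mul_le_of_le_one_left (norm_nonneg _) ((norm_snd_le b).trans hb1)).trans (norm_snd_le Z)
  have h3 : ‖pt y b Z‖ ≤ ‖y‖ + (‖b.1 • Z.1‖ + ‖b.2 • Z.2‖) :=
    (norm_add_le _ _).trans (add_le_add le_rfl (norm_add_le _ _))
  rw [norm_zero]
  nlinarith [norm_nonneg y, norm_nonneg Z, mul_nonneg (norm_nonneg y) (norm_nonneg Z)]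

theorem pg_ev_u (h : Pot α β U) (P : R d) (b : ℝ × ℝ) (Z : E d × E d) (s : ℝ) (x : E d) :
    PG fun u => ev U b Z s x u P := by
  induction P using ev_ind_all with
  | hC r => simp only [ev_C]; exact PG.const r
  | hadd f g h1 h2 => simp only [map_add]; exact h1.add h2
  | hmul f g h1 h2 => simp only [map_mul]; exact h1.mul h2
  | hX a =>
    cases a with
    | g j =>
      simp only [ev, aeval_X]
      exact PG.of_le ((PG.const β).mul PG.norm) fun v =>
        ((ev_abs_coord _ j).trans (h.norm_grad_le v)).trans (le_abs_self _)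
    | u j => simp only [ev, aeval_X]; exact ev_pg_coord j
    | _ => simp only [ev, aeval_X]; exact PG.const _

theorem pg_evS (h : Pot α β U) (P : R d) (y : E d) {b : ℝ × ℝ} (hb : 0 < lev b) :
    PG fun Z => evS U y b Z P := by
  obtain ⟨C, p, H⟩ := evS_growth h P y hb
  exact ⟨C, p, fun Z => H b Z le_rfl⟩

theorem continuous_evS (h : Pot α β U) (P : R d) (y : E d) {b : ℝ × ℝ} (hb : 0 < lev b) :
    Continuous fun Z => evS U y b Z P := by
  have hpt : Continuous fun Z : E d × E d => pt y b Z := by unfold pt; fun_prop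
  induction P using ev_ind_all with
  | hC r => simp only [evS, ev_C]; exact continuous_const
  | hadd f g h1 h2 => simp only [map_add]; exact h1.add h2
  | hmul f g h1 h2 => simp only [map_mul]; exact h1.mul h2
  | hX a =>
    cases a with
    | z m j => simp only [evS, ev, aeval_X]; exact (ev_cont_coord j).comp (ev_cont_sel m)
    | x j => simp only [evS, ev, aeval_X]; exact (ev_cont_coord j).comp hpt
    | mom L =>
      simp only [evS, ev_mom]
      exact (h.continuousOn_integral_tilt (evMono_pg L)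
        (evMono_cont L).aestronglyMeasurable).comp_continuous
        (f := fun Z : E d × E d => (lev b, pt y b Z)) (continuous_const.prodMk hpt) fun _ => hb
    | _ => simp only [evS, ev, aeval_X]; exact continuous_const

theorem continuous_evV (h : Pot α β U) (P : Fin d → R d) (y : E d) {b : ℝ × ℝ} (hb : 0 < lev b) :
    Continuous fun Z => evV U y b Z P :=
  (PiLp.continuous_toLp 2 _).comp (continuous_pi fun i => continuous_evS h (P i) y hb)

theorem pg_evV (h : Pot α β U) (P : Fin d → R d) (y : E d) {b : ℝ × ℝ} (hb : 0 < lev b) :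
    PG fun Z => ‖evV U y b Z P‖ := by
  refine PG.of_le ((PG.const 1).add (PG.sum Finset.univ fun i _ => (pg_evS h (P i) y hb).pow 2))
    fun Z => le_trans ?_ (le_abs_self _)
  have h1 : ‖evV U y b Z P‖ ^ 2 = ∑ i, evS U y b Z (P i) ^ 2 := EuclideanSpace.real_norm_sq_eq _
  rw [← h1, abs_norm]
  nlinarith [sq_nonneg (‖evV U y b Z P‖ - 1)]

/-- differentiating a tilted expectation in the centre raises the integrand by `WW` -/
theorem hasDerivAt_integral_ev (h : Pot α β U) (P : R d) (b : ℝ × ℝ) (Z : E d × E d)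
    (hb : ‖b‖ ≤ 1) {s : ℝ} (hs : 0 < s) (hs1 : s ≤ 1) (x : E d) (i : Fin d) :
    HasDerivAt
      (fun σ : ℝ => ∫ u, ev U b Z s (x + σ • EuclideanSpace.single i (1 : ℝ)) u P
        ∂(tilt U s (x + σ • EuclideanSpace.single i (1 : ℝ))))
      (∫ u, ev U b Z s x u (WW i P) ∂(tilt U s x)) 0 := by
  set e : E d := EuclideanSpace.single i (1 : ℝ) with he
  have hne : ‖e‖ = 1 := by simp [he]
  have hxb : ∀ τ ∈ Metric.ball (0 : ℝ) 1, ‖x + τ • e‖ ≤ ‖x‖ + 1 := fun τ hτ => by
    refine (norm_add_le _ _).trans (add_le_add le_rfl ?_)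
    rw [norm_smul, hne, mul_one]
    exact (mem_ball_zero_iff.1 hτ).le
  have hB : ∀ τ ∈ Metric.ball (0 : ℝ) 1,
      |(0 : ℝ)| ≤ ‖x‖ + 1 ∧ ‖e‖ ≤ ‖x‖ + 1 ∧ ‖x + τ • e‖ ≤ ‖x‖ + 1 := fun τ hτ =>
    ⟨by rw [abs_zero]; positivity, by rw [hne]; linarith [norm_nonneg x], hxb τ hτ⟩
  have hgr : ∀ Q : R d, ∃ (C : ℝ) (p : ℕ), 0 ≤ C ∧ ∀ τ ∈ Metric.ball (0 : ℝ) 1, ∀ u : E d,
      |ev U b Z s (x + τ • e) u Q| ≤ C * (1 + ‖u‖) ^ p := fun Q => by
    obtain ⟨C, p, H⟩ := ev_growth h Q hs
    refine ⟨|C| * (2 + ‖Z‖ + ‖x‖) ^ p, p, by positivity, fun τ hτ u => ?_⟩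
    refine (H b Z s _ u hb le_rfl hs1).trans ?_
    rw [mul_assoc, ← mul_pow]
    refine mul_le_mul (le_abs_self C) (pow_le_pow_left₀ (by positivity) ?_ _) (by positivity)
      (abs_nonneg C)
    have := hxb τ hτ
    nlinarith [norm_nonneg u, norm_nonneg Z, norm_nonneg x,
      mul_nonneg (norm_nonneg u) (norm_nonneg Z), mul_nonneg (norm_nonneg u) (norm_nonneg x)]
  obtain ⟨C, p, hC, H1⟩ := hgr P
  obtain ⟨D, q, hD, H2⟩ := hgr (dx i P)
  have hN := h.hasDerivAt_integral_wt (s := fun _ => s) (s' := fun _ => 0)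
    (x := fun σ => x + σ • e) (x' := fun _ => e) (τ₀ := 0) one_pos
    (fun τ _ => hasDerivAt_const τ s) (fun τ _ => ev_line x e τ) hs (fun _ _ => ⟨le_rfl, le_rfl⟩)
    hB (φ := fun σ u => ev U b Z s (x + σ • e) u P)
    (φ' := fun σ u => ev U b Z s (x + σ • e) u (dx i P))
    (fun τ _ u => (hasDerivAt_ev_x h P b Z hs x e u τ).congr_deriv (by
      simp [he]))
    (fun τ _ => (continuous_ev_u h P b Z s _).aestronglyMeasurable)
    (continuous_ev_u h _ b Z s _).aestronglyMeasurable (C := C + D) (p := p + q)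
    fun τ hτ u => by
      have o : 1 ≤ 1 + ‖u‖ := le_add_of_nonneg_right (norm_nonneg u)
      have a1 := mul_le_mul_of_nonneg_left (pow_le_pow_right₀ o (Nat.le_add_right p q)) hC
      have a2 := mul_le_mul_of_nonneg_left (pow_le_pow_right₀ o (Nat.le_add_left q p)) hD
      have a3 : 0 ≤ C * (1 + ‖u‖) ^ (p + q) := by positivity
      have a4 : 0 ≤ D * (1 + ‖u‖) ^ (p + q) := by positivity
      exact ⟨by linarith [H1 τ hτ u], by linarith [H2 τ hτ u]⟩
  have hD' := h.hasDerivAt_integral_wt (s := fun _ => s) (s' := fun _ => 0)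
    (x := fun σ => x + σ • e) (x' := fun _ => e) (τ₀ := 0) one_pos
    (fun τ _ => hasDerivAt_const τ s) (fun τ _ => ev_line x e τ) hs (fun _ _ => ⟨le_rfl, le_rfl⟩)
    hB (φ := fun _ _ => 1) (φ' := fun _ _ => 0) (fun τ _ u => hasDerivAt_const τ _)
    (fun τ _ => aestronglyMeasurable_const) aestronglyMeasurable_const (C := 1) (p := 0)
    fun τ hτ u => by simp
  have hin : ∀ u : E d, inner ℝ (u - x) e = u i - x i := fun u => by
    simp [he, EuclideanSpace.inner_single_right]
  simp only [zero_smul, add_zero, zero_mul, zero_div, zero_add, one_mul, hin] at hN hD'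
  have hpos := h.integral_wt_pos hs x
  have hq := hN.div hD' (by simpa using hpos.ne')
  refine (hq.congr_deriv ?_).congr_of_eventuallyEq
    (Filter.Eventually.of_forall fun σ => h.integral_tilt hs _ _)
  have := h.isProb_tilt hs x
  have iP := fun Q : R d => h.integrable_tilt hs x (pg_ev_u h Q b Z s x)
    (continuous_ev_u h Q b Z s x).aestronglyMeasurable
  have k1 := h.integral_tilt hs x fun u =>
    ev U b Z s x u (dx i P) + ev U b Z s x u P * ((u i - x i) / s)
  have k2 := h.integral_tilt hs x fun u => (u i - x i) / s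
  have k3 := h.integral_tilt hs x fun u => ev U b Z s x u P
  have k4 : ∫ u, (u i - x i) / s ∂(tilt U s x) = (evMom U s x {i} - x i) / s := by
    have h5 := evMono_int h hs x {i}
    have e1 : evMono {i} = fun u : E d => u i := by ext u; simp [evMono]
    rw [e1] at h5
    rw [evMom, e1, integral_div, integral_sub h5 (integrable_const _)]
    simp
  have k5 : ∫ u, ev U b Z s x u (WW i P) ∂(tilt U s x) =
      ∫ u, (ev U b Z s x u (dx i P) + ev U b Z s x u P * ((u i - x i) / s)) ∂(tilt U s x)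
        - (∫ u, ev U b Z s x u P ∂(tilt U s x)) * ((evMom U s x {i} - x i) / s) := by
    have e1 : ∀ u, ev U b Z s x u (dx i P) + ev U b Z s x u P * ((u i - x i) / s)
        = ev U b Z s x u (WW i P) + ev U b Z s x u P * ((evMom U s x {i} - x i) / s) := fun u => by
      simp only [WW, map_add, map_mul, map_sub, ev_uu, ev_ww, ev_M' h b Z hs]
      ring
    simp only [e1]
    rw [integral_add (iP _) ((iP _).mul_const _), integral_mul_const]
    ring
  rw [k5, ← k4, k1, k2, k3]
  simp only [zero_smul, add_zero]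
  have alg : ∀ A B C W : ℝ, W ≠ 0 → (A * W - B * C) / W ^ 2 = A / W - B / W * (C / W) :=
    fun A B C W hW => by field_simp
  exact alg _ _ _ _ hpos.ne'

/-- logarithmic derivative of `F` in `b` -/
theorem hasDerivAt_Fz_b (h : Pot α β U) (y : E d) (b a : ℝ × ℝ) (Z : E d × E d)
    {τ : ℝ} (hb : 0 < lev (b + τ • a)) :
    HasDerivAt (fun σ : ℝ => Fz U (lev (b + σ • a)) (pt y (b + σ • a) Z))
      (Fz U (lev (b + τ • a)) (pt y (b + τ • a) Z) *
        (a.1 * evS U y (b + τ • a) Z (Lam 0) + a.2 * evS U y (b + τ • a) Z (Lam 1))) τ := by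
  refine (h.hasDerivAt_Fz (hasDerivAt_lev b a τ) (hasDerivAt_pt_b y b a Z τ) hb).congr_deriv ?_
  generalize b + τ • a = c at hb ⊢
  have h0 := evMom_kernel h hb (pt y c Z) 0 1 1 0
  simp only [evMono_zero, one_mul, div_one, inner_zero_right, zero_div, add_zero, mul_one,
    PiLp.zero_apply, zero_mul, sub_zero, zero_sub, evMom_zero h hb] at h0
  have hd : (d : ℝ) = ∑ _j : Fin d, (1 : ℝ) := by simp
  rw [h0, PiLp.inner_apply]
  congr 1
  simp only [evS, Lam, map_sub, map_neg, map_mul, map_sum, ev_bb, ev_zz, ev_G h _ _ hb, H_eq,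
    dx_M, if_true, map_one, ev_M' h _ _ hb, ev_ww, Gt_coord h hb, sel_zero, sel_one,
    RCLike.inner_apply, conj_trivial, PiLp.add_apply, PiLp.smul_apply, smul_eq_mul]
  conv_lhs => rw [hd]
  simp only [Finset.sum_div, Finset.mul_sum, ← Finset.sum_sub_distrib, ← Finset.sum_add_distrib,
    ← Finset.sum_neg_distrib]
  refine Finset.sum_congr rfl fun j _ => ?_
  have e1 : (j ::ₘ 0 : Multiset (Fin d)) = {j} := rfl
  rw [e1]
  field_simp
  ring

/-- logarithmic derivative of `F` in `Z` -/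
theorem hasDerivAt_Fz_Z (h : Pot α β U) (y : E d) {b : ℝ × ℝ} (hb : 0 < lev b)
    (Z v : E d × E d) (τ : ℝ) :
    HasDerivAt (fun σ : ℝ => Fz U (lev b) (pt y b (Z + σ • v)))
      (-(Fz U (lev b) (pt y b (Z + τ • v)) *
        ∑ m, ∑ i, sel m v i * evS U y b (Z + τ • v) (bb m * G i))) τ := by
  refine (h.hasDerivAt_Fz (hasDerivAt_const τ (lev b)) (hasDerivAt_pt_Z y b Z v τ)
    hb).congr_deriv ?_
  rw [zero_mul, zero_sub, mul_neg, PiLp.inner_apply]
  congr 2
  simp only [evS, map_mul, ev_bb, ev_G h _ _ hb, Fin.sum_univ_two, sel_zero, sel_one,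
    RCLike.inner_apply, conj_trivial, PiLp.add_apply, PiLp.smul_apply, smul_eq_mul,
    ← Finset.sum_add_distrib]
  exact Finset.sum_congr rfl fun j _ => by ring

end Vale.Agent.P347
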