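import Vale.Agent.P347.TiltDeriv
import Vale.Agent.P347.Poincare

/-! TASK TiltEst: quantitative, dimension-explicit estimates for `tilt`, `Gt`, `gibbs`, `rho`. -/

open MeasureTheory ProbabilityTheory

namespace Vale.Agent.P347

variable {d : ℕ} {α β : ℝ} {U : E d → ℝ}

section general
variable {X : Type*} [MeasurableSpace X] {μ : Measure X} [IsProbabilityMeasure μ]

theorem sq_integral_le {f : X → ℝ} (h1 : Integrable f μ) (h2 : Integrable (fun x => f x ^ 2) μ) :
    (∫ x, f x ∂μ) ^ 2 ≤ ∫ x, f x ^ 2 ∂μ := by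
  set m := ∫ x, f x ∂μ with hm
  have h3 : 0 ≤ ∫ x, (f x - m) ^ 2 ∂μ := integral_nonneg fun x => sq_nonneg _
  have h4 : ∀ x, (f x - m) ^ 2 = f x ^ 2 - 2 * m * f x + m ^ 2 := fun x => by ring
  simp_rw [h4] at h3
  have h5 : Integrable (fun x => f x ^ 2 - 2 * m * f x) μ := h2.sub (h1.const_mul _)
  rw [integral_add h5 (integrable_const _), integral_sub h2 (h1.const_mul _),
    integral_const_mul, ← hm] at h3
  simp only [integral_const, probReal_univ, one_smul] at h3
  linarith

theorem abs_cov_le {f g : X → ℝ} (h1 : Integrable f μ) (h2 : Integrable g μ)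
    (h3 : Integrable (fun x => f x ^ 2) μ) (h4 : Integrable (fun x => g x ^ 2) μ)
    (h5 : Integrable (fun x => f x * g x) μ) {A B : ℝ} (hA : 0 ≤ A) (hB : 0 ≤ B)
    (hf : ∫ x, f x ^ 2 ∂μ - (∫ x, f x ∂μ) ^ 2 ≤ A ^ 2)
    (hg : ∫ x, g x ^ 2 ∂μ - (∫ x, g x ∂μ) ^ 2 ≤ B ^ 2) :
    |∫ x, f x * g x ∂μ - (∫ x, f x ∂μ) * ∫ x, g x ∂μ| ≤ A * B := by
  set c := ∫ x, f x * g x ∂μ - (∫ x, f x ∂μ) * ∫ x, g x ∂μ with hc
  have key : ∀ t : ℝ, 0 ≤ A ^ 2 * (t * t) + 2 * c * t + B ^ 2 := by
    intro t
    have e : ∀ x, (t * f x + g x) ^ 2 = t ^ 2 * f x ^ 2 + (2 * t * (f x * g x) + g x ^ 2) :=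
      fun x => by ring
    have i1 : Integrable (fun x => 2 * t * (f x * g x) + g x ^ 2) μ := (h5.const_mul _).add h4
    have a1 := sq_integral_le (μ := μ) (f := fun x => t * f x + g x) ((h1.const_mul t).add h2)
      (by simp_rw [e]; exact (h3.const_mul _).add i1)
    simp_rw [e] at a1
    rw [integral_add (h1.const_mul t) h2, integral_add (h3.const_mul _) i1,
      integral_add (h5.const_mul _) h4, integral_const_mul, integral_const_mul,
      integral_const_mul] at a1
    have a2 := mul_le_mul_of_nonneg_left hf (sq_nonneg t)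
    rw [hc]
    linarith
  have h6 := discrim_le_zero key
  rw [discrim] at h6
  refine abs_le_of_sq_le_sq' ?_ (by positivity) |> abs_le.2
  linarith

end general

theorem Pot.poincare_tilt_lip (h : Pot α β U) {s : ℝ} (hs : 0 < s) (x : E d) {f : E d → ℝ} {L : ℝ}
    (hL : 0 ≤ L) (hf : LipR L f) :
    ∫ u, f u ^ 2 ∂(tilt U s x) - (∫ u, f u ∂(tilt U s x)) ^ 2 ≤ (α + s⁻¹)⁻¹ * L ^ 2 := by
  have := h.smooth.continuous
  have := h.nonneg
  exact poincare_lip (Ψ := fun u => U u + ‖u - x‖ ^ 2 / (2 * s)) (by fun_prop) (by positivity)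
    (h.mid_tilt hs x) (h.integrable_wt hs x) hL hf

theorem Pot.inv_le (h : Pot α β U) {s : ℝ} (hs : 0 < s) : (α + s⁻¹)⁻¹ ≤ s := by
  have := h.nonneg
  rw [inv_le_comm₀ (by positivity) hs]
  linarith

theorem le_of_inner_le {a : E d} {c : ℝ} (hc : 0 ≤ c) (h : inner ℝ a a ≤ c * ‖a‖) : ‖a‖ ≤ c := by
  rw [real_inner_self_eq_norm_sq] at h
  rcases (norm_nonneg a).eq_or_lt with h0 | h0
  · rw [← h0]; exact hc
  · exact le_of_mul_le_mul_right (by linarith) h0

theorem Pot.poincare_tilt (h : Pot α β U) {s : ℝ} (hs : 0 < s) (x : E d) {f : E d → ℝ}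
    (hf : ContDiff ℝ 1 f) (hg : PG f) (hg' : PG fun u => ‖fderiv ℝ f u‖) :
    ∫ u, f u ^ 2 ∂(tilt U s x) - (∫ u, f u ∂(tilt U s x)) ^ 2
      ≤ s * ∫ u, ‖fderiv ℝ f u‖ ^ 2 ∂(tilt U s x) := by
  have := h.smooth.continuous
  have := h.nonneg
  refine (poincare (Ψ := fun u => U u + ‖u - x‖ ^ 2 / (2 * s)) (by fun_prop) (by positivity)
    (h.mid_tilt hs x) (h.integrable_wt hs x) hf hg hg').trans ?_
  exact mul_le_mul_of_nonneg_right (h.inv_le hs) (integral_nonneg fun u => by positivity)

/-- Sharp contraction in the centre: derivative along a line is `Cov (ψ, ⟪u, v⟫) / s`, bounded by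
Cauchy-Schwarz and `poincare_lip` with constant `α + 1/s`. -/
theorem Pot.tilt_lip (h : Pot α β U) {s : ℝ} (hs : 0 < s) {ψ : E d → ℝ} {L : ℝ} (hL : 0 ≤ L)
    (hψ : LipR L ψ) : LipR (L / (1 + α * s)) fun x => ∫ u, ψ u ∂(tilt U s x) := by
  intro x y
  have hα := h.nonneg
  set v := x - y with hv
  have hc : ∀ τ : ℝ, HasDerivAt (fun τ : ℝ => y + τ • v) v τ := fun τ => by
    simpa using ((hasDerivAt_id τ).smul_const v).const_add y
  have hd := fun τ : ℝ => h.hasDerivAt_integral_tilt hψ.pg hψ.continuous.aestronglyMeasurable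
    (hasDerivAt_const τ s) (hc τ) hs
  have key := norm_image_sub_le_of_norm_deriv_le_segment_01'
    (C := L / (1 + α * s) * ‖v‖) (fun τ _ => (hd τ).hasDerivWithinAt) (fun τ _ => by
      have := h.isProb_tilt hs (y + τ • v)
      simp only [zero_mul, zero_div, zero_add]
      set z := y + τ • v
      have l2 : LipR (‖v‖ / s) fun u : E d => (inner ℝ (u - z) v : ℝ) / s := by
        intro a b
        rw [← sub_div, ← inner_sub_left, sub_sub_sub_cancel_right, abs_div, abs_of_pos hs,
          div_mul_eq_mul_div, mul_comm]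
        exact div_le_div_of_nonneg_right (abs_real_inner_le_norm _ _) hs.le
      have c1 := hψ.continuous
      have c2 := l2.continuous
      have p1 := h.poincare_tilt_lip hs z hL hψ
      have p2 := h.poincare_tilt_lip hs z (by positivity) l2
      have hκ : (0 : ℝ) ≤ (α + s⁻¹)⁻¹ := by positivity
      rw [← Real.sq_sqrt hκ, ← mul_pow] at p1 p2
      refine (abs_cov_le (h.integrable_tilt hs z hψ.pg c1.aestronglyMeasurable)
        (h.integrable_tilt hs z l2.pg c2.aestronglyMeasurable)
        (h.integrable_tilt hs z (hψ.pg.pow 2) (c1.pow 2).aestronglyMeasurable)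
        (h.integrable_tilt hs z (l2.pg.pow 2) (c2.pow 2).aestronglyMeasurable)
        (h.integrable_tilt hs z (hψ.pg.mul l2.pg) (c1.mul c2).aestronglyMeasurable)
        (by positivity) (by positivity) p1 p2).trans (le_of_eq ?_)
      rw [mul_mul_mul_comm, Real.mul_self_sqrt hκ]
      field_simp
      ring)
  simpa [hv] using key

theorem Pot.Gt_lip (h : Pot α β U) {s : ℝ} (hs : 0 < s) : LipV β (Gt U s) := by
  intro x y
  have hβ : 0 ≤ β := h.nonneg.trans h.le
  have gc : Continuous (gradient U) := h.contDiff_grad.continuous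
  have i1 : ∀ z, Integrable (gradient U) (tilt U s z) := fun z =>
    h.integrable_tilt_vec hs _ (LipV.pg (L := β) h.lip) gc.aestronglyMeasurable
  set v := Gt U s x - Gt U s y with hv
  have l1 : LipR (β * ‖v‖) fun u => (inner ℝ v (gradient U u) : ℝ) := by
    intro a b
    rw [← inner_sub_right]
    refine (abs_real_inner_le_norm _ _).trans ?_
    have := mul_le_mul_of_nonneg_left (h.lip a b) (norm_nonneg v)
    linarith
  have a1 := h.tilt_lip hs (by positivity) l1 x y
  simp only [integral_inner (i1 _), h.integral_grad_tilt hs] at a1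
  rw [← inner_sub_right, ← hv] at a1
  refine le_of_inner_le (by positivity) ((le_abs_self _).trans (a1.trans ?_))
  have a2 : β * ‖v‖ / (1 + α * s) ≤ β * ‖v‖ :=
    div_le_self (by positivity) (by have := mul_nonneg h.nonneg hs.le; linarith)
  have := mul_le_mul_of_nonneg_right a2 (norm_nonneg (x - y))
  linarith

/-- With `A = E ‖u - x‖`: `A ≤ √(s d) + s ‖G‖` (Poincare coordinatewise, `mean = x - s G`) and
`‖G - ∇U x‖ ≤ β A`. -/
theorem Pot.norm_Gt_sub_grad (h : Pot α β U) {s : ℝ} (hs : 0 < s) (hβ : β * s ≤ 1 / 2)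
    (x : E d) : ‖Gt U s x - gradient U x‖ ≤ 2 * β * (√(s * d) + s * β * ‖x‖) := by
  have := h.isProb_tilt hs x
  have hβ0 : 0 ≤ β := h.nonneg.trans h.le
  have gc : Continuous (gradient U) := h.contDiff_grad.continuous
  have i1 : Integrable (gradient U) (tilt U s x) :=
    h.integrable_tilt_vec hs _ (LipV.pg (L := β) h.lip) gc.aestronglyMeasurable
  have i2 : Integrable (fun u : E d => u) (tilt U s x) :=
    h.integrable_tilt_vec hs _ PG.norm (by fun_prop)
  set m := ∫ u, u ∂(tilt U s x) with hm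
  have n1 : ∀ c : E d, PG fun u : E d => ‖u - c‖ := fun c =>
    LipV.pg (L := 1) (f := fun u : E d => u - c) fun a b => by simp
  have i3 : ∀ c : E d, Integrable (fun u : E d => ‖u - c‖) (tilt U s x) := fun c =>
    (i2.sub (integrable_const c)).norm
  have i4 : Integrable (fun u : E d => ‖u - m‖ ^ 2) (tilt U s x) :=
    h.integrable_tilt hs x ((n1 m).pow 2) (by fun_prop)
  have a1 : ∫ u, ‖u - m‖ ^ 2 ∂(tilt U s x) ≤ s * d := by
    set e := EuclideanSpace.basisFun (Fin d) ℝ
    have l1 : ∀ i, LipR 1 fun u : E d => (inner ℝ (e i) (u - m) : ℝ) := by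
      intro i a b
      rw [← inner_sub_right, sub_sub_sub_cancel_right]
      refine (abs_real_inner_le_norm _ _).trans ?_
      rw [e.norm_eq_one]
    simp_rw [← e.sum_sq_inner_right]
    rw [integral_finsetSum _ fun i _ => h.integrable_tilt hs x ((l1 i).pg.pow 2)
      ((l1 i).continuous.pow 2).aestronglyMeasurable]
    refine (Finset.sum_le_sum (g := fun _ => s) fun i _ => ?_).trans (by simp [mul_comm])
    have b1 := h.poincare_tilt_lip hs x zero_le_one (l1 i)
    have b0 : Integrable (fun u : E d => u - m) (tilt U s x) := i2.sub (integrable_const m)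
    rw [integral_inner b0, integral_sub i2 (integrable_const m)] at b1
    simp only [integral_const, probReal_univ, one_smul, ← hm, sub_self, inner_zero_right] at b1
    have := h.inv_le hs
    linarith
  have a2 : ∫ u, ‖u - m‖ ∂(tilt U s x) ≤ √(s * d) :=
    Real.le_sqrt_of_sq_le ((sq_integral_le (i3 m) i4).trans a1)
  have a3 : ‖m - x‖ = s * ‖Gt U s x‖ := by
    rw [Gt, norm_smul, ← hm, Real.norm_of_nonneg (by positivity), norm_sub_rev]
    field_simp
  have a4 : ∫ u, ‖u - x‖ ∂(tilt U s x) ≤ √(s * d) + s * ‖Gt U s x‖ := by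
    refine (integral_mono (i3 x) ((i3 m).add (integrable_const ‖m - x‖))
      fun u => norm_sub_le_norm_sub_add_norm_sub u m x).trans ?_
    rw [integral_add' (i3 m) (integrable_const _)]
    simp only [integral_const, probReal_univ, one_smul]
    linarith
  have a5 : ‖Gt U s x - gradient U x‖ ≤ β * ∫ u, ‖u - x‖ ∂(tilt U s x) := by
    have : Gt U s x - gradient U x = ∫ u, (gradient U u - gradient U x) ∂(tilt U s x) := by
      rw [integral_sub i1 (integrable_const _), h.integral_grad_tilt hs]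
      simp
    rw [this, ← integral_const_mul]
    exact norm_integral_le_of_norm_le ((i3 x).const_mul _) (ae_of_all _ fun u => h.lip u x)
  have a6 : ‖Gt U s x‖ ≤ ‖Gt U s x - gradient U x‖ + β * ‖x‖ := by
    have b1 := norm_add_le (Gt U s x - gradient U x) (gradient U x)
    rw [sub_add_cancel] at b1
    linarith [h.norm_grad_le x]
  have a7 := mul_le_mul_of_nonneg_left a4 hβ0
  have a8 := mul_le_mul_of_nonneg_left a6 (mul_nonneg hβ0 hs.le)
  have a9 := mul_le_mul_of_nonneg_right hβ (norm_nonneg (Gt U s x - gradient U x))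
  linarith

theorem Pot.norm_Gt_le (h : Pot α β U) {s : ℝ} (hs : 0 < s) (hβ : β * s ≤ 1 / 2) (x : E d) :
    ‖Gt U s x‖ ≤ β * ‖x‖ + 2 * β * √(s * d) := by
  have a1 := h.Gt_lip hs x 0
  have a2 := h.norm_Gt_sub_grad hs hβ 0
  rw [h.grad0, sub_zero, norm_zero, mul_zero, add_zero] at a2
  have a3 := norm_add_le (Gt U s x - Gt U s 0) (Gt U s 0)
  rw [sub_add_cancel] at a3
  rw [sub_zero] at a1
  linarith

theorem Pot.integrable_exp (h : Pot α β U) (hα : 0 < α) :
    Integrable (fun u => Real.exp (-U u)) volume := by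
  simpa using h.integrable_gibbs hα 0

theorem Pot.integral_exp_pos (h : Pot α β U) (hα : 0 < α) : 0 < ∫ u, Real.exp (-U u) :=
  MeasureTheory.integral_exp_pos (h.integrable_exp hα)

theorem integral_gibbs (U : E d → ℝ) (f : E d → ℝ) :
    ∫ u, f u ∂(gibbs U) = (∫ u, f u * Real.exp (-U u)) / ∫ u, Real.exp (-U u) := by
  rw [gibbs, integral_tilted, ← integral_div]
  congr 1
  funext u
  rw [smul_eq_mul]
  ring

theorem Pot.integrable_mul_exp (h : Pot α β U) (hα : 0 < α) {g : E d → ℝ} (hg : PG g)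
    (hm : AEStronglyMeasurable g volume) :
    Integrable (fun u => g u * Real.exp (-U u)) volume := by
  obtain ⟨C, p, hC⟩ := hg
  have := h.smooth.continuous
  exact ((h.integrable_gibbs hα p).const_mul C).mono' (hm.mul (by fun_prop))
    (ae_of_all _ fun u => by
      rw [Real.norm_eq_abs, abs_mul, abs_of_pos (Real.exp_pos _), ← mul_assoc]
      exact mul_le_mul_of_nonneg_right (hC u) (Real.exp_pos _).le)

/-- Integration by parts under the Gibbs law. -/
theorem Pot.gibbs_ibp (h : Pot α β U) (hα : 0 < α) {f f' : E d → ℝ}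
    (hf : PG f) (hf' : PG f') (hc : Continuous f) (hc' : Continuous f') (v : E d)
    (hd : ∀ u, HasLineDerivAt ℝ f (f' u) u v) :
    ∫ u, f' u ∂(gibbs U) = ∫ u, f u * inner ℝ v (gradient U u) ∂(gibbs U) := by
  have g1 : PG fun u : E d => ‖gradient U u‖ := LipV.pg (L := β) h.lip
  have gc : Continuous (gradient U) := h.contDiff_grad.continuous
  have g2 : PG fun u : E d => (inner ℝ v (gradient U u) : ℝ) :=
    ((PG.const ‖v‖).mul g1).of_le fun u => (abs_real_inner_le_norm _ _).trans (le_abs_self _)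
  have i2 := h.integrable_mul_exp hα (hf.mul g2) (by fun_prop)
  have key := integral_bilinear_hasLineDerivAt_right_eq_neg_left_of_integrable
    (μ := (volume : Measure (E d))) (f := f) (f' := f') (g := fun u => Real.exp (-U u))
    (g' := fun u => -(inner ℝ v (gradient U u) * Real.exp (-U u))) (v := v)
    (B := ContinuousLinearMap.mul ℝ ℝ) (h.integrable_mul_exp hα hf' hc'.aestronglyMeasurable)
    (i2.neg.congr (ae_of_all _ fun u => by simp; ring))
    (h.integrable_mul_exp hα hf hc.aestronglyMeasurable) (fun u _ => hd u)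
    (fun u _ => by
      refine HasDerivAt.congr_deriv (h.hasLineDerivAt u v).neg.exp ?_
      simp only [Pi.neg_apply, zero_smul, add_zero]
      ring)
  rw [integral_gibbs, integral_gibbs]
  congr 1
  simp only [ContinuousLinearMap.mul_apply'] at key
  rw [← neg_inj, ← key, ← integral_neg]
  congr 1
  funext u
  ring

/-- second moment of the Gibbs law (integrate `div (x e^{-V}) = 0` by parts, `⟪x, ∇V x⟫ ≥ ‖x‖²`) -/
theorem gibbs_sq_moment {V : E d → ℝ} (h : Pot 1 2 V) : ∫ x, ‖x‖ ^ 2 ∂(gibbs V) ≤ d := by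
  have := h.isProb_gibbs one_pos
  set e := EuclideanSpace.basisFun (Fin d) ℝ
  have gc : Continuous (gradient V) := h.contDiff_grad.continuous
  have g1 : PG fun u : E d => ‖gradient V u‖ := LipV.pg (L := 2) h.lip
  have l1 : ∀ i, LipR 1 fun u : E d => (inner ℝ (e i) u : ℝ) := by
    intro i a b
    rw [← inner_sub_right]
    refine (abs_real_inner_le_norm _ _).trans ?_
    rw [e.norm_eq_one]
  have g2 : ∀ i, PG fun u : E d => (inner ℝ (e i) (gradient V u) : ℝ) := fun i =>
    ((PG.const ‖e i‖).mul g1).of_le fun u => (abs_real_inner_le_norm _ _).trans (le_abs_self _)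
  have a1 : ∀ i, ∫ u, inner ℝ (e i) u * inner ℝ (e i) (gradient V u) ∂(gibbs V) = 1 := by
    intro i
    rw [← h.gibbs_ibp one_pos (l1 i).pg (PG.const 1) (f' := fun _ => 1) (l1 i).continuous
      continuous_const (e i) fun u => by
        have := (innerSL ℝ (e i)).hasFDerivAt.hasLineDerivAt (x := u) (e i)
        rw [innerSL_apply_apply, real_inner_self_eq_norm_sq, e.norm_eq_one, one_pow] at this
        exact this]
    simp
  have i1 : ∀ i, Integrable (fun u => inner ℝ (e i) u * inner ℝ (e i) (gradient V u)) (gibbs V) :=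
    fun i => h.integrable_gibbs_pg one_pos ((l1 i).pg.mul (g2 i)) (by fun_prop)
  have a2 : ∫ u, ∑ i, inner ℝ (e i) u * inner ℝ (e i) (gradient V u) ∂(gibbs V) = d := by
    rw [integral_finsetSum _ fun i _ => i1 i, Finset.sum_congr rfl fun i _ => a1 i]
    simp
  rw [← a2]
  refine integral_mono (h.integrable_gibbs_pg one_pos (PG.norm.pow 2) (by fun_prop))
    (integrable_finsetSum _ fun i _ => i1 i) fun u => ?_
  have b1 := e.sum_inner_mul_inner u (gradient V u)
  simp_rw [real_inner_comm _ u] at b1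
  have b2 := h.lo u 0
  have b3 := h.lo 0 u
  rw [h.zero, zero_sub, inner_neg_right, norm_neg] at b2
  rw [h.zero, h.grad0, inner_zero_left, sub_zero] at b3
  dsimp only
  rw [b1]
  linarith

theorem pg_affine (T : ℝ) : PG fun p : E d × E d => ‖p.1 + √T • p.2‖ :=
  LipV.pg (L := 1 + √T) (f := fun p : E d × E d => p.1 + √T • p.2) fun a b => by
    have e : a.1 + √T • a.2 - (b.1 + √T • b.2) = (a - b).1 + √T • (a - b).2 := by
      simp only [Prod.fst_sub, Prod.snd_sub, smul_sub]; abel
    rw [e]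
    refine (norm_add_le _ _).trans ?_
    rw [norm_smul, Real.norm_of_nonneg (Real.sqrt_nonneg _)]
    have a1 := norm_fst_le (a - b)
    have a2 := mul_le_mul_of_nonneg_left (norm_snd_le (a - b)) (Real.sqrt_nonneg T)
    linarith

theorem integrable_gibbs_gam {V : E d → ℝ} (h : Pot 1 2 V) {f : E d × E d → ℝ} (hf : PG f)
    (hm : AEStronglyMeasurable f ((gibbs V).prod (gam d))) :
    Integrable f ((gibbs V).prod (gam d)) := by
  obtain ⟨C, p, hC⟩ := hf
  have i1 : Integrable (fun x : E d => (1 + ‖x‖) ^ p) (gibbs V) :=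
    h.integrable_gibbs_pg one_pos (((PG.const 1).add PG.norm).pow p) (by fun_prop)
  refine ((i1.mul_prod (integrable_pow_gam p)).const_mul |C|).mono' hm
    (ae_of_all _ fun Z => (hC Z).trans ?_)
  refine mul_le_mul (le_abs_self C) ?_ (by positivity) (abs_nonneg C)
  rw [← mul_pow]
  refine pow_le_pow_left₀ (by positivity) ?_ p
  have h1 : ‖Z‖ ≤ ‖Z.1‖ + ‖Z.2‖ := by
    rw [Prod.norm_def]
    exact max_le (by linarith [norm_nonneg Z.2]) (by linarith [norm_nonneg Z.1])
  nlinarith [mul_nonneg (norm_nonneg Z.1) (norm_nonneg Z.2)]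

theorem isProb_rho {V : E d → ℝ} (h : Pot 1 2 V) (T : ℝ) : IsProbabilityMeasure (rho V T) := by
  have := h.isProb_gibbs one_pos
  exact Measure.isProbabilityMeasure_map (by fun_prop)

theorem integral_rho {V : E d → ℝ} (h : Pot 1 2 V) (T : ℝ) {f : E d → ℝ} (hf : Continuous f)
    (hg : PG f) : ∫ y, f y ∂(rho V T) = ∫ x, ∫ ξ, f (x + √T • ξ) ∂(gam d) ∂(gibbs V) := by
  have := h.isProb_gibbs one_pos
  rw [rho, integral_map (by fun_prop) hf.aestronglyMeasurable]
  exact integral_prod _ (integrable_gibbs_gam h (hg.comp (pg_affine T)) (by fun_prop))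

theorem integrable_rho {V : E d → ℝ} (h : Pot 1 2 V) (T : ℝ) {f : E d → ℝ} (hf : Continuous f)
    (hg : PG f) : Integrable f (rho V T) := by
  rw [rho, integrable_map_measure hf.aestronglyMeasurable (by fun_prop)]
  exact integrable_gibbs_gam h (hg.comp (pg_affine T)) (by fun_prop)

theorem rho_sq_moment {V : E d → ℝ} (h : Pot 1 2 V) {T : ℝ} (hT : 0 ≤ T) (hT1 : T ≤ 1) :
    ∫ y, ‖y‖ ^ 2 ∂(rho V T) ≤ 4 * d := by
  have := h.isProb_gibbs one_pos
  rw [rho, integral_map (by fun_prop) (by fun_prop)]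
  have i1 : Integrable (fun x : E d => ‖x‖ ^ 2) (gibbs V) :=
    h.integrable_gibbs_pg one_pos (PG.norm.pow 2) (by fun_prop)
  have i2 : Integrable (fun x : E d => ‖x‖ ^ 2) (gam d) :=
    (PG.norm.pow 2).integrable_gam (by fun_prop)
  have i3 := (i1.comp_fst (gam d)).const_mul 2
  have i4 := (i2.comp_snd (gibbs V)).const_mul 2
  refine (integral_mono (integrable_gibbs_gam h ((pg_affine T).pow 2) (by fun_prop))
    (i3.add i4) fun p => ?_).trans ?_
  · have a1 := norm_add_le p.1 (√T • p.2)
    have a2 : ‖√T • p.2‖ ≤ ‖p.2‖ := by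
      rw [norm_smul, Real.norm_of_nonneg (Real.sqrt_nonneg _)]
      exact mul_le_of_le_one_left (norm_nonneg _) (Real.sqrt_le_one.2 hT1)
    have a3 := pow_le_pow_left₀ (norm_nonneg _) (a1.trans (add_le_add le_rfl a2)) 2
    simp only [Pi.add_apply]
    nlinarith [sq_nonneg (‖p.1‖ - ‖p.2‖)]
  · rw [integral_add' i3 i4, integral_const_mul, integral_const_mul,
      integral_fun_fst (fun x : E d => ‖x‖ ^ 2), integral_fun_snd (fun x : E d => ‖x‖ ^ 2),
      integral_norm_sq_gam]
    have := gibbs_sq_moment h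
    simp only [probReal_univ, one_smul]
    linarith

theorem integrable_prod_wt {V : E d → ℝ} (h : Pot 1 2 V) {T : ℝ} (hT : 0 < T)
    {f : E d × E d → ℝ} (hf : Continuous f) (hg : PG f) :
    Integrable (fun q : E d × E d => f q * wt V T q.1 q.2)
      ((volume : Measure (E d)).prod volume) := by
  obtain ⟨C, p, hC⟩ := hg
  have hV := h.smooth.continuous
  have i1 := (integrable_pow_mul_exp_neg p (c := 1 / (2 * T)) (by positivity) (0 : E d)).mul_prod
    (h.integrable_gibbs one_pos p)
  have i2 := (measurePreserving_sub_prod (volume : Measure (E d))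
    (volume : Measure (E d))).integrable_comp_of_integrable i1
  refine (i2.const_mul |C|).mono' (by unfold wt; fun_prop) (ae_of_all _ fun q => ?_)
  have h1 : ‖q‖ ≤ ‖q.1 - q.2‖ + ‖q.2‖ := by
    rw [Prod.norm_def]
    refine max_le ?_ (by linarith [norm_nonneg (q.1 - q.2)])
    have := norm_add_le (q.1 - q.2) q.2
    rwa [sub_add_cancel] at this
  have h2 : (1 + ‖q‖) ^ p ≤ (1 + ‖q.1 - q.2‖) ^ p * (1 + ‖q.2‖) ^ p := by
    rw [← mul_pow]
    refine pow_le_pow_left₀ (by positivity) ?_ p
    nlinarith [mul_nonneg (norm_nonneg (q.1 - q.2)) (norm_nonneg q.2)]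
  have h3 : wt V T q.1 q.2 =
      Real.exp (-(1 / (2 * T) * ‖q.1 - q.2 - 0‖ ^ 2)) * Real.exp (-V q.2) := by
    rw [← Real.exp_add, wt, sub_zero, norm_sub_rev]
    congr 1
    ring
  rw [Real.norm_eq_abs, abs_mul, abs_of_pos (wt_pos _ _ _ _)]
  refine (mul_le_mul_of_nonneg_right ((hC q).trans (mul_le_mul (le_abs_self C) h2 (by positivity)
    (abs_nonneg C))) (wt_pos _ _ _ _).le).trans (le_of_eq ?_)
  simp only [h3, Function.comp]
  ring

theorem bayes_aux {V : E d → ℝ} (h : Pot 1 2 V) {T : ℝ} (hT : 0 < T) {f : E d × E d → ℝ}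
    (hf : Continuous f) (hg : PG f) :
    ∫ x, ∫ ξ, f (x + √T • ξ, x) ∂(gam d) ∂(gibbs V) =
      ((2 * Real.pi * T) ^ (-(d : ℝ) / 2) / ∫ u, Real.exp (-V u)) *
        ∫ y, ∫ u, f (y, u) * wt V T y u := by
  rw [integral_integral_swap (f := fun y u => f (y, u) * wt V T y u)
    (integrable_prod_wt h hT hf hg), integral_gibbs, div_mul_eq_mul_div, ← integral_const_mul]
  congr 2
  funext x
  rw [integral_gam_affine x hT (fun y => f (y, x)), mul_assoc, ← integral_mul_const]
  congr 2
  funext y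
  rw [wt, mul_assoc, ← Real.exp_add, norm_sub_rev]
  congr 2
  ring

theorem rho_eq_withDensity {V : E d → ℝ} (h : Pot 1 2 V) {T : ℝ} (hT : 0 < T) :
    rho V T = (volume : Measure (E d)).withDensity
      fun y => ENNReal.ofReal (Fz V T y / ∫ u, Real.exp (-V u)) := by
  have := isProb_rho h T
  have hZ := h.integral_exp_pos one_pos
  have hc : Continuous (Fz V T) := h.continuous_Fz.comp (continuous_const.prodMk continuous_id)
  have i1 : Integrable (fun y => Fz V T y / ∫ u, Real.exp (-V u)) volume := by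
    have := (integrable_prod_wt h hT continuous_const (PG.const 1)).integral_prod_left
    simp only [one_mul] at this
    simp_rw [h.Fz_eq hT]
    exact (this.const_mul _).div_const _
  have := isFiniteMeasure_withDensity_ofReal i1.2
  refine ext_of_forall_integral_eq_of_IsFiniteMeasure fun φ => ?_
  have hφ : PG φ := ⟨‖φ‖, 0, fun x => by simpa using φ.norm_coe_le_norm x⟩
  have hφ' : PG fun q : E d × E d => φ q.1 :=
    ⟨‖φ‖, 0, fun x => by simpa using φ.norm_coe_le_norm x.1⟩
  rw [integral_rho h T φ.continuous hφ, bayes_aux h hT (f := fun q => φ q.1) (by fun_prop) hφ',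
    integral_withDensity_eq_integral_toReal_smul
    (hc.div_const _).measurable.ennreal_ofReal (by simp), ← integral_const_mul]
  congr 1
  funext y
  dsimp only
  rw [ENNReal.toReal_ofReal (div_pos (h.Fz_pos _ _) hZ).le, h.Fz_eq hT, smul_eq_mul,
    integral_const_mul]
  ring

/-- Bayes formula: if `y = x + √T ξ` with `x` Gibbs, then `x` given `y` has law `tilt V T y`. -/
theorem rho_bayes {V : E d → ℝ} (h : Pot 1 2 V) {T : ℝ} (hT : 0 < T) {f : E d × E d → ℝ}
    (hf : Continuous f) (hg : PG f) :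
    ∫ y, ∫ u, f (y, u) ∂(tilt V T y) ∂(rho V T) =
      ∫ x, ∫ ξ, f (x + √T • ξ, x) ∂(gam d) ∂(gibbs V) := by
  have hZ := h.integral_exp_pos one_pos
  have hc : Continuous (Fz V T) := h.continuous_Fz.comp (continuous_const.prodMk continuous_id)
  rw [bayes_aux h hT hf hg, rho_eq_withDensity h hT, integral_withDensity_eq_integral_toReal_smul
    (hc.div_const _).measurable.ennreal_ofReal (by simp), ← integral_const_mul]
  congr 1
  funext y
  rw [ENNReal.toReal_ofReal (div_pos (h.Fz_pos _ _) hZ).le, h.integral_tilt hT, h.Fz_eq hT,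
    smul_eq_mul]
  have := h.integral_wt_pos hT y
  field_simp

theorem gibbs_shift {V : E d → ℝ} (h : Pot 1 2 V) {B : Set (E d)} (hB : MeasurableSet B)
    (a : E d) : ‖∫ x, B.indicator (1 : E d → ℝ) (x + a) ∂(gibbs V) -
      ∫ x, B.indicator (1 : E d → ℝ) x ∂(gibbs V)‖ ≤ 2 * √d * ‖a‖ := by
  have := h.isProb_gibbs one_pos
  have hZ := h.integral_exp_pos one_pos
  have hV := h.smooth.continuous
  have gc : Continuous (gradient V) := h.contDiff_grad.continuous
  set Z := ∫ u, Real.exp (-V u) with hZdef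
  set I := B.indicator (1 : E d → ℝ) with hI
  have hIm : Measurable I := measurable_one.indicator hB
  have hI1 : ∀ x, ‖I x‖ ≤ 1 := fun x => by
    simpa using norm_indicator_le_norm_self (s := B) (1 : E d → ℝ) x
  have i0 : Integrable (fun x : E d => ‖x‖) (gibbs V) :=
    h.integrable_gibbs_pg one_pos PG.norm (by fun_prop)
  have m1 : ∫ x, ‖x‖ ∂(gibbs V) ≤ √d := Real.le_sqrt_of_sq_le ((sq_integral_le i0
    (h.integrable_gibbs_pg one_pos (PG.norm.pow 2) (by fun_prop))).trans (gibbs_sq_moment h))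
  rw [integral_gibbs, div_le_iff₀ hZ] at m1
  have hd : ∀ t : ℝ, ∀ x : E d, HasDerivAt (fun t : ℝ => I x * Real.exp (-V (x - t • a)))
      (I x * (inner ℝ a (gradient V (x - t • a)) * Real.exp (-V (x - t • a)))) t := by
    intro t x
    have a1 : HasDerivAt (fun t : ℝ => x - t • a) (-a) t := by
      simpa using ((hasDerivAt_id t).smul_const a).const_sub x
    have a2 : HasFDerivAt V (InnerProductSpace.toDual ℝ (E d) (gradient V (x - t • a)))
        (x - t • a) := (h.smooth.differentiable (by norm_num) _).hasGradientAt.hasFDerivAt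
    refine ((a2.comp_hasDerivAt t a1).neg.exp.const_mul (I x)).congr_deriv ?_
    simp only [InnerProductSpace.toDual_apply_apply, inner_neg_right, Pi.neg_apply,
      Function.comp, real_inner_comm a]
    ring
  have hb : ∀ t : ℝ, ∀ x : E d,
      ‖I x * (inner ℝ a (gradient V (x - t • a)) * Real.exp (-V (x - t • a)))‖ ≤
        2 * ‖a‖ * (‖x - t • a‖ * Real.exp (-V (x - t • a))) := by
    intro t x
    rw [norm_mul, norm_mul, Real.norm_of_nonneg (Real.exp_pos _).le]
    have a1 := (norm_inner_le_norm (𝕜 := ℝ) a _).trans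
      (mul_le_mul_of_nonneg_left (h.norm_grad_le (x - t • a)) (norm_nonneg a))
    refine (mul_le_mul (hI1 x) (mul_le_mul_of_nonneg_right a1 (Real.exp_pos _).le)
      (by positivity) zero_le_one).trans (le_of_eq ?_)
    ring
  have hD : ∀ t ∈ Set.Icc (0 : ℝ) 1, HasDerivAt (fun t : ℝ => ∫ x, I x * Real.exp (-V (x - t • a)))
      (∫ x, I x * (inner ℝ a (gradient V (x - t • a)) * Real.exp (-V (x - t • a)))) t := by
    intro t ht
    have m4 : ∀ x : E d, ∀ τ ∈ Metric.ball t 1,
        ‖I x * (inner ℝ a (gradient V (x - τ • a)) * Real.exp (-V (x - τ • a)))‖ ≤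
          (2 * ‖a‖ * (1 + 2 * ‖a‖) * Real.exp ((2 * ‖a‖) ^ 2 / 2)) *
            ((1 + ‖x‖) ^ 1 * Real.exp (-(1 / 4 * ‖x - 0‖ ^ 2))) := by
      intro x τ hτ
      rw [Metric.mem_ball, Real.dist_eq, abs_lt] at hτ
      have a1 : ‖τ • a‖ ≤ 2 * ‖a‖ := by
        rw [norm_smul]
        exact mul_le_mul_of_nonneg_right (abs_le.2 ⟨by linarith [ht.1], by linarith [ht.2]⟩)
          (norm_nonneg _)
      have a2 : ‖x - τ • a‖ ≤ (1 + 2 * ‖a‖) * (1 + ‖x‖) := by
        have := norm_sub_le x (τ • a)
        nlinarith [mul_nonneg (norm_nonneg a) (norm_nonneg x)]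
      have a3 : ‖x‖ ≤ ‖x - τ • a‖ + 2 * ‖a‖ := by
        have := norm_add_le (x - τ • a) (τ • a)
        rw [sub_add_cancel] at this
        linarith
      have a4 := h.lo 0 (x - τ • a)
      rw [h.zero, h.grad0, inner_zero_left, sub_zero] at a4
      have a5 : Real.exp (-V (x - τ • a)) ≤
          Real.exp ((2 * ‖a‖) ^ 2 / 2) * Real.exp (-(1 / 4 * ‖x - 0‖ ^ 2)) := by
        rw [← Real.exp_add, Real.exp_le_exp, sub_zero]
        have := pow_le_pow_left₀ (norm_nonneg _) a3 2
        nlinarith [sq_nonneg (‖x - τ • a‖ - 2 * ‖a‖)]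
      refine (hb τ x).trans ((mul_le_mul_of_nonneg_left (mul_le_mul a2 a5 (Real.exp_pos _).le
        (by positivity)) (by positivity)).trans (le_of_eq ?_))
      ring
    have m2 : Integrable (fun x => I x * Real.exp (-V (x - t • a))) volume :=
      ((h.integrable_exp one_pos).comp_sub_right (t • a)).bdd_mul hIm.aestronglyMeasurable
        (ae_of_all _ hI1)
    exact (hasDerivAt_integral_of_dominated_loc_of_deriv_le (μ := (volume : Measure (E d)))
      (F := fun (t : ℝ) x => I x * Real.exp (-V (x - t • a)))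
      (F' := fun (t : ℝ) x =>
        I x * (inner ℝ a (gradient V (x - t • a)) * Real.exp (-V (x - t • a))))
      (Metric.ball_mem_nhds t one_pos)
      (Filter.Eventually.of_forall fun τ => hIm.aestronglyMeasurable.mul (by fun_prop)) m2
      (hIm.aestronglyMeasurable.mul (by fun_prop)) (ae_of_all _ m4)
      ((integrable_pow_mul_exp_neg 1 (by positivity) 0).const_mul _)
      (ae_of_all _ fun x τ _ => hd τ x)).2
  have i1 := h.integrable_mul_exp one_pos PG.norm (by fun_prop)
  have key := norm_image_sub_le_of_norm_deriv_le_segment_01' (C := 2 * ‖a‖ * (√d * Z))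
    (fun t ht => (hD t ht).hasDerivWithinAt) (fun t _ => by
      refine (norm_integral_le_of_norm_le ((i1.comp_sub_right (t • a)).const_mul _)
        (ae_of_all _ (hb t))).trans ?_
      rw [integral_const_mul,
        integral_sub_right_eq_self (fun x => ‖x‖ * Real.exp (-V x)) (t • a)]
      exact mul_le_mul_of_nonneg_left m1 (by positivity))
  simp only [one_smul, zero_smul, sub_zero] at key
  rw [← integral_add_right_eq_self _ a] at key
  simp only [add_sub_cancel_right] at key
  rw [integral_gibbs, integral_gibbs, ← sub_div, norm_div, Real.norm_of_nonneg hZ.le,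
    div_le_iff₀ hZ]
  linarith

/-- Total variation between the Gibbs law and its Gaussian smoothing:
`∫ |π (x - a) - π x| ≤ ‖a‖ E_π ‖∇ V‖ ≤ 2 ‖a‖ √d`. -/
theorem rho_tv {V : E d → ℝ} (h : Pot 1 2 V) {T : ℝ} (hT : 0 ≤ T) {B : Set (E d)}
    (hB : MeasurableSet B) : |(rho V T).real B - (gibbs V).real B| ≤ 2 * √T * d := by
  have := h.isProb_gibbs one_pos
  have hm : Measurable fun p : E d × E d => p.1 + √T • p.2 := by fun_prop
  have i1 : Integrable (fun p : E d × E d => B.indicator (1 : E d → ℝ) (p.1 + √T • p.2))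
      ((gibbs V).prod (gam d)) :=
    (integrable_const (1 : ℝ)).mono' ((measurable_one.indicator hB).comp hm).aestronglyMeasurable
      (ae_of_all _ fun p => by
        have := norm_indicator_le_norm_self (s := B) (1 : E d → ℝ) (p.1 + √T • p.2)
        simpa only [Pi.one_apply, norm_one] using this)
  rw [← integral_indicator_one hB, ← integral_indicator_one hB, rho, integral_map hm.aemeasurable
    (measurable_one.indicator hB).aestronglyMeasurable, integral_prod_symm _ i1]
  have e1 : ∫ x, B.indicator (1 : E d → ℝ) x ∂(gibbs V) =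
      ∫ _ξ, (∫ x, B.indicator (1 : E d → ℝ) x ∂(gibbs V)) ∂(gam d) := by simp
  rw [e1, ← integral_sub i1.integral_prod_right (integrable_const _)]
  have i2 : Integrable (fun ξ : E d => ‖ξ‖) (gam d) := PG.norm.integrable_gam (by fun_prop)
  rw [← Real.norm_eq_abs]
  refine (norm_integral_le_of_norm_le (i2.const_mul (2 * √d * √T))
    (ae_of_all _ fun ξ => ?_)).trans ?_
  · refine (gibbs_shift h hB (√T • ξ)).trans (le_of_eq ?_)
    rw [norm_smul, Real.norm_of_nonneg (Real.sqrt_nonneg _)]
    ring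
  · rw [integral_const_mul]
    refine (mul_le_mul_of_nonneg_left integral_norm_gam_le (by positivity)).trans (le_of_eq ?_)
    have := Real.mul_self_sqrt (Nat.cast_nonneg d : (0 : ℝ) ≤ d)
    linear_combination 2 * √T * this

end Vale.Agent.P347
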