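import Vale.Agent.P347.Prog
import Vale.Agent.P347.TiltEst

/-! TASK ToAlg: from programs to the algorithms of the statement; from Wasserstein to total
variation. -/

open MeasureTheory ProbabilityTheory

namespace Vale.Agent.P347

variable {d : ℕ}

/-- the record of answers for a general parameter space -/
noncomputable def grec {J : Type} (V : E d → ℝ) (qry : ℕ → J × (ℕ → ℝ × E d) → E d) (j : J) :
    ℕ → ℕ → ℝ × E d
  | 0 => fun _ => (0, 0)
  | k + 1 => Function.update (grec V qry j k) k
      (V (qry k (j, grec V qry j k)), gradient V (qry k (j, grec V qry j k)))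

theorem grec_comp {J J' : Type} (V : E d → ℝ) (qry : ℕ → J × (ℕ → ℝ × E d) → E d) (φ : J' → J)
    (j : J') (k : ℕ) :
    grec V (fun k (z : J' × (ℕ → ℝ × E d)) => qry k (φ z.1, z.2)) j k = grec V qry (φ j) k := by
  induction k with
  | zero => rfl
  | succ k ih => simp only [grec, ih]

theorem measurable_grec {J : Type} [MeasurableSpace J] {V : E d → ℝ} (hV : Measurable V)
    (hg : Measurable (gradient V)) {qry : ℕ → J × (ℕ → ℝ × E d) → E d}
    (hq : ∀ k, Measurable (qry k)) (k : ℕ) : Measurable fun j => grec V qry j k := by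
  induction k with
  | zero => exact measurable_const
  | succ k ih =>
    have h1 : Measurable fun j => qry k (j, grec V qry j k) := (hq k).comp (measurable_id.prodMk ih)
    exact (measurable_update' (a := k)).comp (ih.prodMk ((hV.comp h1).prodMk (hg.comp h1)))

/-- query functions after one more query at the start -/
def shiftq {J J' : Type} (x : J' → E d) (ψ : J' × E d → J)
    (qry : ℕ → J × (ℕ → ℝ × E d) → E d) : ℕ → J' × (ℕ → ℝ × E d) → E d
  | 0 => fun z => x z.1
  | k + 1 => fun z => qry k (ψ (z.1, (z.2 0).2), fun n => z.2 (n + 1))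

theorem grec_shiftq {J J' : Type} (V : E d → ℝ) (x : J' → E d) (ψ : J' × E d → J)
    (qry : ℕ → J × (ℕ → ℝ × E d) → E d) (j : J') (k : ℕ) :
    (grec V (shiftq x ψ qry) j (k + 1) 0).2 = gradient V (x j) ∧
      (fun n => grec V (shiftq x ψ qry) j (k + 1) (n + 1)) =
        grec V qry (ψ (j, gradient V (x j))) k := by
  induction k with
  | zero =>
    refine ⟨by simp [grec, shiftq], ?_⟩
    funext n
    simp [grec]
  | succ k ih =>
    obtain ⟨r, hr⟩ : ∃ r, r = grec V (shiftq x ψ qry) j (k + 1) := ⟨_, rfl⟩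
    have e : grec V (shiftq x ψ qry) j (k + 1 + 1) = Function.update r (k + 1)
        (V (qry k (ψ (j, (r 0).2), fun n => r (n + 1))),
          gradient V (qry k (ψ (j, (r 0).2), fun n => r (n + 1)))) := by
      rw [hr]; rfl
    rw [← hr] at ih
    rw [e, ih.1, ih.2]
    refine ⟨by rw [Function.update_of_ne (by omega), ih.1], ?_⟩
    funext n
    by_cases hn : n = k
    · subst hn
      simp [grec]
    · rw [Function.update_of_ne (by omega), grec, Function.update_of_ne hn, ← ih.2]

theorem map_prod_eq_bind {α β γ : Type} [MeasurableSpace α] [MeasurableSpace β]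
    [MeasurableSpace γ] (μ : Measure α) (ν : Measure β) [SFinite ν] {F : α × β → γ}
    (hF : Measurable F) (hm : Measurable fun a => ν.map fun b => F (a, b)) :
    (μ.prod ν).map F = μ.bind fun a => ν.map fun b => F (a, b) := by
  ext s hs
  rw [Measure.map_apply hF hs, Measure.prod_apply (hF hs), Measure.bind_apply hs hm.aemeasurable]
  congr 1
  funext a
  have h1 : Measurable fun b => F (a, b) := hF.comp measurable_prodMk_left
  rw [Measure.map_apply h1 hs]
  rfl

theorem Prog.exists_compiled {I : Type} [MeasurableSpace I] (p : Prog d I) :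
    ∃ (ι : Type) (_ : Fintype ι) (qry : ℕ → (I × (ι → ℝ)) × (ℕ → ℝ × E d) → E d)
      (out : (I × (ι → ℝ)) × (ℕ → ℝ × E d) → E d), (∀ k, Measurable (qry k)) ∧ Measurable out ∧
      ∀ V : E d → ℝ, Measurable V → Measurable (gradient V) → ∀ q, p.cost ≤ q → ∀ i,
        (Measure.pi fun _ : ι => gaussianReal 0 1).map
          (fun ω => out ((i, ω), grec V qry (i, ω) q)) = p.law (gradient V) i := by
  induction p with
  | @ret I _ f hf =>
    refine ⟨Unit, inferInstance, fun _ _ => 0, fun z => f z.1.1, fun _ => measurable_const,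
      by fun_prop, fun V _ _ q _ i => ?_⟩
    show _ = Measure.dirac (f i)
    simp
  | @query I _ x hx p ih =>
    obtain ⟨ι, _, qry, out, hq, ho, h⟩ := ih
    refine ⟨ι, inferInstance,
      shiftq (fun z : I × (ι → ℝ) => x z.1) (fun z => ((z.1.1, z.2), z.1.2)) qry,
      fun z => out (((z.1.1, (z.2 0).2), z.1.2), fun n => z.2 (n + 1)), fun k => ?_,
      ho.comp (by fun_prop), fun V hV hg q hc i => ?_⟩
    · cases k with
      | zero => exact hx.comp (by fun_prop)
      | succ k => exact (hq k).comp (by fun_prop)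
    · obtain ⟨q', rfl⟩ : ∃ q', q = q' + 1 := ⟨q - 1, by
        have : p.cost + 1 ≤ q := hc
        omega⟩
      have hc' : p.cost ≤ q' := Nat.le_of_add_le_add_right hc
      show _ = p.law (gradient V) (i, gradient V (x i))
      rw [← h V hV hg q' hc']
      congr 1
      funext ω
      have := grec_shiftq V (fun z : I × (ι → ℝ) => x z.1) (fun z => ((z.1.1, z.2), z.1.2)) qry
        (i, ω) q'
      dsimp only at this ⊢
      rw [this.1, this.2]
  | @sample I _ p ih =>
    obtain ⟨ι, _, qry, out, hq, ho, h⟩ := ih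
    let φ : I × (Fin d ⊕ ι → ℝ) → (I × E d) × (ι → ℝ) := fun z =>
      ((z.1, WithLp.toLp 2 fun a => z.2 (Sum.inl a)), fun b => z.2 (Sum.inr b))
    have hφ : Measurable φ := by fun_prop
    refine ⟨Fin d ⊕ ι, inferInstance, fun k z => qry k (φ z.1, z.2), fun z => out (φ z.1, z.2),
      fun k => (hq k).comp (by fun_prop), ho.comp (by fun_prop), fun V hV hg q hc i => ?_⟩
    have hc' : p.cost ≤ q := hc
    show _ = (gam d).bind fun ξ => p.law (gradient V) (i, ξ)
    let F : E d × (ι → ℝ) → E d := fun z => out (((i, z.1), z.2), grec V qry ((i, z.1), z.2) q)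
    have hin : Measurable fun z : E d × (ι → ℝ) => ((i, z.1), z.2) := by fun_prop
    have hF : Measurable F :=
      ho.comp (hin.prodMk ((measurable_grec hV hg hq q).comp hin))
    have hlaw : (fun ξ => (Measure.pi fun _ : ι => gaussianReal 0 1).map fun b => F (ξ, b)) =
        fun ξ => p.law (gradient V) (i, ξ) := funext fun ξ => h V hV hg q hc' (i, ξ)
    have hm : Measurable fun ξ => p.law (gradient V) (i, ξ) :=
      (p.law_markov hg).1.comp measurable_prodMk_left
    have e1 := map_prod_eq_bind (gam d) (Measure.pi fun _ : ι => gaussianReal 0 1) hF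
      (by rw [hlaw]; exact hm)
    rw [hlaw] at e1
    rw [← e1]
    have e2 := (measurePreserving_sumPiEquivProdPi (X := fun _ : Fin d ⊕ ι => ℝ)
      (fun _ => gaussianReal 0 1)).map_eq
    have e3 : (gam d).prod (Measure.pi fun _ : ι => gaussianReal 0 1) =
        ((Measure.pi fun _ : Fin d => gaussianReal 0 1).prod
          (Measure.pi fun _ : ι => gaussianReal 0 1)).map (Prod.map (WithLp.toLp 2) id) := by
      rw [← Measure.map_prod_map _ _ (by fun_prop) measurable_id, map_pi_eq_stdGaussian,
        Measure.map_id]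
    rw [e3, ← e2, Measure.map_map (by fun_prop) (MeasurableEquiv.measurable _),
      Measure.map_map hF (by fun_prop)]
    congr 1
    funext ω
    dsimp only
    rw [grec_comp]
    rfl

theorem Alg.record_eq (A : Alg d) (V : E d → ℝ) (ω : Fin A.m → ℝ) (k : ℕ) :
    A.record V ω k = grec V A.query ω k := by
  induction k with
  | zero => rfl
  | succ k ih => simp only [Alg.record, grec, ih]

/-- Generalise to an arbitrary input space `I` and a starting index for the record, by
induction on the program: `m` grows by `d` at every `sample`; unused queries are made at `0`. -/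
theorem Prog.exists_alg (p : Prog d Unit) {q : ℕ} (hq : p.cost ≤ q) :
    ∃ A : Alg d, ∀ V : Vd d, A.law q V.1 = p.law (gradient V.1) () := by
  obtain ⟨ι, _, qry, out, hqm, ho, h⟩ := p.exists_compiled
  let e : (Fin (Fintype.card ι) → ℝ) ≃ᵐ (ι → ℝ) :=
    MeasurableEquiv.arrowCongr' (Fintype.equivFin ι).symm (MeasurableEquiv.refl ℝ)
  have he : MeasurePreserving e (Measure.pi fun _ => gaussianReal 0 1)
      (Measure.pi fun _ => gaussianReal 0 1) :=
    measurePreserving_arrowCongr' _ _ _ _ fun _ => MeasurePreserving.id _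
  have hem : Measurable e := e.measurable
  let φ : (Fin (Fintype.card ι) → ℝ) → Unit × (ι → ℝ) := fun ω => ((), e ω)
  have hφ : Measurable φ := by fun_prop
  refine ⟨⟨Fintype.card ι, fun k z => qry k (φ z.1, z.2), fun z => out (φ z.1, z.2),
    fun k => (hqm k).comp (by fun_prop), ho.comp (by fun_prop)⟩, fun V => ?_⟩
  have hV : Measurable V.1 := V.2.1.continuous.measurable
  have hin : Measurable fun ω : ι → ℝ => ((), ω) := by fun_prop
  have hF : Measurable fun ω : ι → ℝ => out (((), ω), grec V.1 qry ((), ω) q) :=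
    ho.comp (hin.prodMk ((measurable_grec hV V.measurable_grad hqm q).comp hin))
  rw [← h V.1 hV V.measurable_grad q hq (), ← he.map_eq, Measure.map_map hF hem]
  unfold Alg.law
  congr 1
  funext ω
  rw [Alg.record_eq]
  dsimp only
  rw [grec_comp]
  rfl

theorem integral_gauss_gauss_bdd (c : E d) (a b : ℝ) {f : E d → ℝ} (hf : Measurable f)
    (h1 : ∀ x, |f x| ≤ 1) :
    ∫ ξ, ∫ ξ', f (c + a • ξ + b • ξ') ∂(gam d) ∂(gam d) =
      ∫ ξ, f (c + √(a ^ 2 + b ^ 2) • ξ) ∂(gam d) := by
  have hm : Measurable fun Z : E d × E d => f (c + a • Z.1 + b • Z.2) := hf.comp (by fun_prop)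
  have hm' : Measurable fun u : E d => f (c + u) := hf.comp (by fun_prop)
  rw [← integral_prod (fun Z : E d × E d => f (c + a • Z.1 + b • Z.2))
    ((integrable_const (1 : ℝ)).mono' hm.aestronglyMeasurable (ae_of_all _ fun Z => h1 _)),
    ← integral_map (μ := gam d) (φ := fun ξ => √(a ^ 2 + b ^ 2) • ξ) (f := fun u => f (c + u))
      (by fun_prop) hm'.aestronglyMeasurable, ← gam_add,
    integral_map (by fun_prop) hm'.aestronglyMeasurable]
  simp only [add_assoc]

theorem rho_real {V : E d → ℝ} (h : Pot 1 2 V) (T : ℝ) {B : Set (E d)} (hB : MeasurableSet B) :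
    (rho V T).real B =
      ∫ x, ∫ ξ, B.indicator (fun _ => (1 : ℝ)) (x + √T • ξ) ∂(gam d) ∂(gibbs V) := by
  have := h.isProb_gibbs one_pos
  have hf : Measurable (B.indicator fun _ => (1 : ℝ)) := measurable_const.indicator hB
  have hm : Measurable fun Z : E d × E d => B.indicator (fun _ => (1 : ℝ)) (Z.1 + √T • Z.2) :=
    hf.comp (by fun_prop)
  rw [← integral_prod (fun Z : E d × E d => B.indicator (fun _ => (1 : ℝ)) (Z.1 + √T • Z.2))
    ((integrable_const (1 : ℝ)).mono' hm.aestronglyMeasurable (ae_of_all _ fun Z => by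
      rw [Real.norm_eq_abs, abs_of_nonneg (Set.indicator_nonneg (fun _ _ => zero_le_one) _)]
      exact Set.indicator_le_self' (fun _ _ => zero_le_one) _)),
    ← integral_map (φ := fun p : E d × E d => p.1 + √T • p.2) (by fun_prop)
      hf.aestronglyMeasurable]
  exact (integral_indicator_one hB).symm

/-- Add a last Gaussian noise of variance `σ²`; use `tv_shift`, `Close.lip`, `rho_tv`, and
`rho V T` convolved with the noise is `rho V (T + σ²)`. -/
theorem solves_of_samp {q : ℕ} {η T σ : ℝ} (hT : 0 ≤ T) (hσ : 0 < σ)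
    (h : Samp q η fun (V : Vd d) (_ : Unit) => rho V.1 T)
    (hη : η / σ + 2 * √(T + σ ^ 2) * d ≤ 1 / 10) : Solves d q := by
  obtain ⟨p, h1, h2⟩ := h
  let r : Prog d (Unit × E d) :=
    Prog.sample (Prog.ret (fun z : (Unit × E d) × E d => z.1.2 + σ • z.2) (by fun_prop))
  have hr : ∀ g o, r.law g ((), o) = gauss o σ := fun g o =>
    Measure.bind_dirac_eq_map (gam d) (f := fun ξ => o + σ • ξ) (by fun_prop)
  obtain ⟨p', e1, e2⟩ := p.exists_bind r
  obtain ⟨A, hA⟩ := p'.exists_alg (q := q) (by
    have : r.cost = 0 := rfl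
    omega)
  refine ⟨A, fun V hV B hB => ?_⟩
  have hP : Pot 1 2 V := hV.pot
  have hc := h2 ⟨V, hV⟩ ()
  have := hc.pl
  have hg : Measurable (gradient V) := Vd.measurable_grad ⟨V, hV⟩
  obtain ⟨f, hfd⟩ : ∃ f : E d → ℝ, f = B.indicator fun _ => (1 : ℝ) := ⟨_, rfl⟩
  have hf : Measurable f := hfd ▸ measurable_const.indicator hB
  have f0 : ∀ x, 0 ≤ f x := fun x => hfd ▸ Set.indicator_nonneg (fun _ _ => zero_le_one) x
  have f1 : ∀ x, f x ≤ 1 := fun x => hfd ▸ Set.indicator_le_self' (fun _ _ => zero_le_one) x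
  have hlip := tv_shift hf f0 f1 hσ
  have hm : Measurable fun o => r.law (gradient V) ((), o) :=
    (r.law_markov hg).1.comp measurable_prodMk_left
  have a1 : (A.law q V).real B =
      ∫ o, ∫ ξ, f (o + σ • ξ) ∂(gam d) ∂(p.law (gradient V) ()) := by
    have b1 := hA ⟨V, hV⟩
    dsimp only at b1
    have hm2 : Measurable fun o => r.law (gradient V) ((), o) B :=
      (Measure.measurable_coe hB).comp hm
    rw [b1, e2 _ hg, Measure.real, Measure.bind_apply hB hm.aemeasurable,
      ← integral_toReal hm2.aemeasurable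
        (ae_of_all _ fun o => by
          simp only [hr]; exact measure_lt_top _ _)]
    congr 1
    funext o
    simp only [hr]
    rw [← integral_gauss o σ hf.aestronglyMeasurable, hfd]
    exact (integral_indicator_one hB).symm
  have a2 : ∫ o, ∫ ξ, f (o + σ • ξ) ∂(gam d) ∂(rho V T) = (rho V (T + σ ^ 2)).real B := by
    rw [integral_rho hP T hlip.continuous hlip.pg, rho_real hP _ hB, ← hfd]
    congr 1
    funext x
    rw [integral_gauss_gauss_bdd x √T σ hf (fun y => by rw [abs_of_nonneg (f0 y)]; exact f1 y),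
      Real.sq_sqrt hT]
  have a3 := hc.lip (inv_pos.2 hσ).le hlip
  have a4 := rho_tv hP (T := T + σ ^ 2) (by positivity) hB
  dsimp only at a3
  rw [a2, ← a1, inv_mul_eq_div] at a3
  exact ((abs_sub_le _ _ _).trans (add_le_add a3 a4)).trans hη

end Vale.Agent.P347
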