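import Vale.Agent.P347.Node
import Vale.Agent.P347.ToAlg

/-! TASK Outer: the proximal chain and the descent. See PROOF.md, section O. -/

open MeasureTheory ProbabilityTheory

namespace Vale.Agent.P347

variable {d : ℕ} {P : Par}

/-- the exact kernel: law of `c₁ y + c₂ u + c₃ ξ` with `u` distributed as `tilt V T y` -/
noncomputable def Kex (V : E d → ℝ) (T c₁ c₂ c₃ : ℝ) (y : E d) : Measure (E d) :=
  ((tilt V T y).prod (gam d)).map fun p => c₁ • y + c₂ • p.1 + c₃ • p.2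

theorem outer_lipV_affine (c : E d) (a : ℝ) : LipV |a| fun u : E d => c + a • u := fun x y => by
  rw [add_sub_add_left_eq_sub, ← smul_sub, norm_smul, Real.norm_eq_abs]

theorem outer_lipR_norm : LipR 1 fun x : E d => ‖x‖ := fun x y => by
  simpa using abs_norm_sub_norm_le x y

theorem LipR.integrable_tilt {α β : ℝ} {U : E d → ℝ} (h : Pot α β U) {s : ℝ} (hs : 0 < s)
    (x : E d) {L : ℝ} {ψ : E d → ℝ} (hψ : LipR L ψ) : Integrable ψ (tilt U s x) :=
  h.integrable_tilt hs x hψ.pg hψ.continuous.aestronglyMeasurable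

section Kex
variable {V : E d → ℝ} {T c₁ c₂ c₃ : ℝ}

theorem isProb_Kex (hV : Pot 1 2 V) (hT : 0 < T) (y : E d) :
    IsProbabilityMeasure (Kex V T c₁ c₂ c₃ y) := by
  have := hV.isProb_tilt hT y
  exact Measure.isProbabilityMeasure_map (by fun_prop)

theorem integrable_Kex_prod (hV : Pot 1 2 V) (hT : 0 < T) (y : E d) {ψ : E d → ℝ}
    (hψ : LipR 1 ψ) : Integrable (fun p : E d × E d => ψ (c₁ • y + c₂ • p.1 + c₃ • p.2))
      ((tilt V T y).prod (gam d)) := by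
  have := hV.isProb_tilt hT y
  have i1 : Integrable (fun p : E d × E d => ‖p.1‖) ((tilt V T y).prod (gam d)) :=
    (outer_lipR_norm.integrable_tilt hV hT y).comp_fst _
  have i2 : Integrable (fun p : E d × E d => ‖p.2‖) ((tilt V T y).prod (gam d)) :=
    outer_lipR_norm.integrable_gam.comp_snd _
  have hc := hψ.continuous
  refine (((integrable_const |ψ (c₁ • y)|).add (i1.const_mul |c₂|)).add
    (i2.const_mul |c₃|)).mono' (by fun_prop) (ae_of_all _ fun p => ?_)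
  have h1 := hψ (c₁ • y + c₂ • p.1 + c₃ • p.2) (c₁ • y)
  rw [add_assoc, add_sub_cancel_left, one_mul] at h1
  have h2 := norm_add_le (c₂ • p.1) (c₃ • p.2)
  rw [norm_smul, norm_smul, Real.norm_eq_abs, Real.norm_eq_abs] at h2
  have h3 := abs_sub_abs_le_abs_sub (ψ (c₁ • y + (c₂ • p.1 + c₃ • p.2))) (ψ (c₁ • y))
  simp only [Pi.add_apply, Real.norm_eq_abs, add_assoc]
  linarith

theorem integrable_Kex (hV : Pot 1 2 V) (hT : 0 < T) (y : E d) :
    Integrable (fun x => ‖x‖) (Kex V T c₁ c₂ c₃ y) := by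
  unfold Kex
  rw [integrable_map_measure continuous_norm.aestronglyMeasurable (by fun_prop)]
  exact integrable_Kex_prod hV hT y outer_lipR_norm

theorem integral_Kex (hV : Pot 1 2 V) (hT : 0 < T) (y : E d) {ψ : E d → ℝ} (hψ : LipR 1 ψ) :
    ∫ x, ψ x ∂(Kex V T c₁ c₂ c₃ y) =
      ∫ u, ∫ ξ, ψ (c₁ • y + c₂ • u + c₃ • ξ) ∂(gam d) ∂(tilt V T y) := by
  have := hV.isProb_tilt hT y
  unfold Kex
  rw [integral_map (by fun_prop) hψ.continuous.aestronglyMeasurable,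
    integral_prod _ (integrable_Kex_prod hV hT y hψ)]

theorem Kex_lip (hV : Pot 1 2 V) (hT : 0 < T) (h1 : 0 ≤ c₁) (h2 : 0 ≤ c₂) {ψ : E d → ℝ}
    (hψ : LipR 1 ψ) : LipR (c₁ + c₂ / (1 + T)) fun y => ∫ x, ψ x ∂(Kex V T c₁ c₂ c₃ y) := by
  intro y y'
  simp only [integral_Kex hV hT _ hψ]
  have := hV.isProb_tilt hT y
  have hψ' := smooth_lip hψ c₃
  have l1 : ∀ z : E d, LipR c₂ fun u => ∫ ξ, ψ (c₁ • z + c₂ • u + c₃ • ξ) ∂(gam d) := fun z => by
    have := hψ'.comp zero_le_one (outer_lipV_affine (c₁ • z) c₂)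
    rwa [one_mul, abs_of_nonneg h2] at this
  have a1 := hV.tilt_lip hT h2 (l1 y') y y'
  have a2 : |∫ u, ∫ ξ, ψ (c₁ • y + c₂ • u + c₃ • ξ) ∂(gam d) ∂(tilt V T y) -
      ∫ u, ∫ ξ, ψ (c₁ • y' + c₂ • u + c₃ • ξ) ∂(gam d) ∂(tilt V T y)| ≤ c₁ * ‖y - y'‖ := by
    rw [← integral_sub ((l1 y).integrable_tilt hV hT y) ((l1 y').integrable_tilt hV hT y)]
    have := norm_integral_le_of_norm_le_const (μ := tilt V T y) (C := c₁ * ‖y - y'‖)
      (f := fun u => ∫ ξ, ψ (c₁ • y + c₂ • u + c₃ • ξ) ∂(gam d) -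
        ∫ ξ, ψ (c₁ • y' + c₂ • u + c₃ • ξ) ∂(gam d)) (ae_of_all _ fun u => by
        have := hψ' (c₁ • y + c₂ • u) (c₁ • y' + c₂ • u)
        rwa [add_sub_add_right_eq_sub, ← smul_sub, norm_smul, Real.norm_of_nonneg h1,
          one_mul] at this)
    simpa using this
  simp only [one_mul] at a1
  rw [add_mul]
  exact (abs_sub_le _ _ _).trans (add_le_add a2 a1)

theorem Kex_rho (hV : Pot 1 2 V) (hT : 0 < T) (h12 : c₁ + c₂ = 1) {ψ : E d → ℝ}
    (hψ : LipR 1 ψ) :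
    ∫ y, ∫ x, ψ x ∂(Kex V T c₁ c₂ c₃ y) ∂(rho V T) =
      ∫ x, ψ x ∂(rho V (c₁ ^ 2 * T + c₃ ^ 2)) := by
  simp only [integral_Kex hV hT _ hψ]
  have hψ' := smooth_lip hψ c₃
  have l1 := hψ'.comp zero_le_one (mixmap_lip (outer_lipV_affine (0 : E d) c₁) c₂)
  simp only [zero_add] at l1
  have b1 := rho_bayes hV hT l1.continuous l1.pg
  simp only at b1
  rw [b1, integral_rho hV _ hψ.continuous hψ.pg]
  congr 1
  funext x
  have e : ∀ ξ : E d, c₁ • (x + √T • ξ) + c₂ • x = x + (c₁ * √T) • ξ := fun ξ => by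
    rw [smul_add, smul_smul, add_right_comm, ← add_smul, h12, one_smul]
  simp only [e]
  rw [integral_gauss_gauss x _ _ hψ.continuous hψ.pg, mul_pow, Real.sq_sqrt hT.le]

theorem Kex_clip_rho (hV : Pot 1 2 V) (hT : 0 < T) (hT1 : T ≤ 1) (h1 : 0 ≤ c₁) (h2 : 0 ≤ c₂)
    (h12 : c₁ + c₂ = 1) {R : ℝ} (hR : 0 < R) {ψ : E d → ℝ} (hψ : LipR 1 ψ) :
    |∫ y, ∫ x, ψ x ∂(Kex V T c₁ c₂ c₃ (clip R y)) ∂(rho V T) -
      ∫ x, ψ x ∂(rho V (c₁ ^ 2 * T + c₃ ^ 2))| ≤ 4 * d / R := by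
  rw [← Kex_rho hV hT h12 hψ]
  have l1 := Kex_lip (c₃ := c₃) hV hT h1 h2 hψ
  have hL0 : 0 ≤ c₁ + c₂ / (1 + T) := by positivity
  have hL1 : c₁ + c₂ / (1 + T) ≤ 1 := by
    have : c₂ / (1 + T) ≤ c₂ := div_le_self h2 (by linarith)
    linarith
  have l2 := l1.comp hL0 (clip_lip hR.le)
  rw [← integral_sub (integrable_rho hV T l2.continuous l2.pg)
    (integrable_rho hV T l1.continuous l1.pg)]
  have i2 : Integrable (fun y : E d => ‖y‖ ^ 2) (rho V T) :=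
    integrable_rho hV T (by fun_prop) (PG.norm.pow 2)
  have hb := norm_integral_le_of_norm_le (μ := rho V T)
    (f := fun y => ∫ x, ψ x ∂(Kex V T c₁ c₂ c₃ (clip R y)) - ∫ x, ψ x ∂(Kex V T c₁ c₂ c₃ y))
    (i2.div_const R) (ae_of_all _ fun y => by
      refine (l1 _ _).trans ?_
      exact (mul_le_of_le_one_left (norm_nonneg _) hL1).trans (norm_clip_sub_le hR y))
  rw [Real.norm_eq_abs, integral_div] at hb
  exact hb.trans (div_le_div_of_nonneg_right (rho_sq_moment hV hT.le hT1) hR.le)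

end Kex

/-- the clipped Gaussian pair -/
noncomputable def clip2 (ρ : ℝ) (Z : E d × E d) : E d × E d := (clip ρ Z.1, clip ρ Z.2)

theorem clip2_lip {ρ : ℝ} (hρ : 0 ≤ ρ) : LipV 1 (clip2 ρ : E d × E d → E d × E d) := by
  have := Zc_lip2 (d := d) one_pos hρ hρ 0
  simp only [Zc, zero_add, one_smul, inv_one, sub_zero] at this
  exact this

theorem integral_clip2_sub {ρ : ℝ} (hρ : 0 < ρ) :
    ∫ Z, ‖clip2 ρ Z - Z‖ ∂((gam d).prod (gam d)) ≤ 2 * d / ρ := by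
  have := integral_Zc_sub (d := d) (r := 0) one_pos hρ 0 (by simp)
  simp only [Zc, zero_add, one_smul, inv_one, sub_zero, one_add_one_eq_two] at this
  exact this

/-- the centre of the output of one step -/
noncomputable def cst (P : Par) (V : Vd d) (T φ : ℝ) (y : E d) (Z : E d × E d) : E d :=
  y + (φ * (√T * P.h)) • (Zend P.Qd P.h P.J (gV V T y) 0 Z).1

theorem cst_lip (hP : P.Ok d) (V : Vd d) {T φ : ℝ} (hT : 0 < T) (hTT : T ≤ P.T0) (hφ0 : 0 ≤ φ)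
    (hφ1 : φ ≤ 1) (y : E d) : LipV 2 (cst P V T φ y) := by
  have hτ : 0 < √T := Real.sqrt_pos.2 hT
  have hh := hP.h_pos
  have hh1 := hP.h_le
  have hT0 := hP.T0_le
  have hτ1 : √T ≤ 1 := Real.sqrt_le_one.2 (by linarith)
  have hg : GLip (2 * T) (gV V T y) := gfun_glip (pot_scaled hT V) _
  have hZ := Zend_lip (l := 0) P.Qd P.J hh hP.hs (by positivity) (by linarith) hg (by simp)
  intro Z Z'
  simp only [cst]
  rw [add_sub_add_left_eq_sub, ← smul_sub, norm_smul, Real.norm_of_nonneg (by positivity)]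
  have h1 := (norm_fst_le (Zend P.Qd P.h P.J (gV V T y) 0 Z -
    Zend P.Qd P.h P.J (gV V T y) 0 Z')).trans (hZ Z Z')
  have h2 : φ * (√T * P.h) ≤ 1 :=
    mul_le_one₀ hφ1 (by positivity) (mul_le_one₀ hτ1 hh.le (by linarith))
  exact (mul_le_of_le_one_left (norm_nonneg _) h2).trans h1

theorem step_centre (hP : P.Ok d) (hN : ∀ j, j ≤ P.jst → NodeSt P d j) {T φ s : ℝ} (hT : 0 < T)
    (hTT : T ≤ P.T0) (hφ0 : 0 ≤ φ) (hφ1 : φ ≤ 1) (hs : √T * P.h ≤ 2 * s) :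
    Samp ((P.K + 2) ^ 2 * P.qq P.jst) (P.Qd.Λ * P.T0 * P.h ^ 2 * P.e P.jst)
      fun (V : Vd d) (i : (E d × E d) × E d) =>
        gauss (cst P V T φ (clip P.Rs i.1.1) (clip2 P.ρ (i.1.2, i.2))) s := by
  have hτ : 0 < √T := Real.sqrt_pos.2 hT
  have hh := hP.h_pos
  have hh1 := hP.h_le
  have hT0 := hP.T0_le
  have hρ := hP.ρ_pos
  have hRs := hP.Rs_pos
  have hΛ := P.Qd.one_le
  have hR := hP.R_nonneg (le_refl P.jst)
  have hτ1 : √T ≤ 1 := Real.sqrt_le_one.2 (by linarith)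
  have htt : √T ^ 2 = T := Real.sq_sqrt hT.le
  have hs0 : 0 ≤ s := by
    have : 0 < √T * P.h := by positivity
    linarith
  have my : Measurable fun i : (E d × E d) × E d => clip P.Rs i.1.1 :=
    (measurable_clip hRs.le).comp (measurable_fst.comp measurable_fst)
  have mz : Measurable fun i : (E d × E d) × E d => clip P.ρ i.1.2 :=
    (measurable_clip hρ.le).comp (measurable_snd.comp measurable_fst)
  have mg : Measurable fun i : (E d × E d) × E d => clip P.ρ i.2 :=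
    (measurable_clip hρ.le).comp measurable_snd
  have hAdm : Adm (fun f w n => Mat P T (P.jst - P.p) f w n) (√T) P.h
      (fun x : Vd d × ((E d × E d) × E d) => clip P.Rs x.2.1.1)
      (fun x => clip2 P.ρ (x.2.1.2, x.2.2)) 0 0 (P.Rs + P.ρ) := by
    intro b hb1 hb2
    refine ⟨Mat.explicit (P := P) T (P.jst - P.p) (my.add
      (((mz.const_smul b.1).add (mg.const_smul b.2)).const_smul (√T))), fun x => ?_⟩
    simp only [ctr, clip2]
    refine (norm_add_le _ _).trans (add_le_add (norm_clip_le hRs.le _) ?_)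
    rw [norm_smul, Real.norm_of_nonneg hτ.le]
    refine (mul_le_of_le_one_left (norm_nonneg _) hτ1).trans ((norm_add_le _ _).trans ?_)
    simp only [norm_smul, Real.norm_eq_abs]
    have p1 : |b.1| * ‖clip P.ρ x.2.1.2‖ ≤ 1 / 2 * P.ρ :=
      mul_le_mul (by linarith) (norm_clip_le hρ.le _) (norm_nonneg _) (by norm_num)
    have p2 : |b.2| * ‖clip P.ρ x.2.2‖ ≤ 1 / 2 * P.ρ :=
      mul_le_mul (by linarith) (norm_clip_le hρ.le _) (norm_nonneg _) (by norm_num)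
    linarith
  have hw : 4 * P.h * P.Qd.Λ * √T ^ 2 * (3 * P.h + (|(0 : ℝ)| + |(0 : ℝ)|) * P.Qd.Λ) ≤
      12 * P.h ^ 2 * P.Qd.Λ * P.T0 := by
    rw [htt]
    calc 4 * P.h * P.Qd.Λ * T * (3 * P.h + (|(0 : ℝ)| + |(0 : ℝ)|) * P.Qd.Λ)
        = 12 * P.h ^ 2 * P.Qd.Λ * T := by simp only [abs_zero]; ring
      _ ≤ _ := by gcongr
  have tm := tmat P.Qd P.J (Mat.cls (I := (E d × E d) × E d) hP T (P.jst - P.p))
    (Mat.cls (I := (E d × E d) × E d) hP T P.jst) (fun f w n h => h.order (by omega))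
    (l := 0) (l' := 0) (W := P.ω P.jst / 2) (Rc := P.Rr P.jst)
    (Rg := 4 * P.Rr P.jst) (N := P.nn P.jst) hτ hh (by positivity)
    (fun x => Grn T x.1) (fun x => clip P.Rs x.2.1.1)
    (fun b hb1 hb2 c' hc' hr' => node_hyp hP le_rfl hN hT hTT b hb1 hb2 c' hc' hr')
    _ hAdm (le_trans (by linarith) hP.o1) (by simpa using hP.o2)
    (le_trans (by gcongr) hP.o3)
  have eg : ∀ x, gsc (√T) (fun x : Vd d × ((E d × E d) × E d) => Grn T x.1)
      (fun x => clip P.Rs x.2.1.1) x = gV x.1 T (clip P.Rs x.2.1.1) :=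
    fun x => gsc_eq hT (fun x : Vd d × ((E d × E d) × E d) => x.1) (fun x => clip P.Rs x.2.1.1) x
  simp only [eg] at tm
  obtain ⟨⟨md, -⟩, -⟩ := tm
  have cl := Mat.cls (I := (E d × E d) × E d) hP T P.jst
  have m0 := Mat.explicit (P := P) T P.jst (my.add (mz.const_smul (φ * (√T * P.h))))
  have m1 := cl.add m0 (cl.smul (φ * (√T * P.h)) md)
  have ew : 0 + |φ * (√T * P.h)| * (P.Qd.Λ * √T * (P.h + |(0 : ℝ)| * P.Qd.Λ)) =
      φ * (P.Qd.Λ * T * P.h ^ 2) := by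
    rw [abs_of_nonneg (by positivity), abs_zero]
    linear_combination (φ * P.h ^ 2 * P.Qd.Λ) * htt
  rw [ew, zero_add] at m1
  have hw1 : φ * (P.Qd.Λ * T * P.h ^ 2) ≤ P.Qd.Λ * P.T0 * P.h ^ 2 :=
    (mul_le_of_le_one_left (by positivity) hφ1).trans (by gcongr)
  have m2 := m1.2 P.jst le_rfl s hs0 (Or.inr (by
    have hT00 := hP.T0_pos
    calc φ * (P.Qd.Λ * T * P.h ^ 2) * √T ≤ P.Qd.Λ * P.T0 * P.h ^ 2 * √T := by gcongr
      _ = P.Qd.Λ * P.T0 * P.h * (√T * P.h) := by ring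
      _ ≤ P.Qd.Λ * P.T0 * P.h * (2 * s) := by gcongr
      _ = 2 * P.Qd.Λ * P.T0 * P.h * s := by ring
      _ ≤ _ := mul_le_mul_of_nonneg_right hP.o4 hs0))
  have e : ∀ (V : Vd d) (i : (E d × E d) × E d),
      cst P V T φ (clip P.Rs i.1.1) (clip2 P.ρ (i.1.2, i.2)) =
      clip P.Rs i.1.1 + (φ * (√T * P.h)) • clip P.ρ i.1.2 + (φ * (√T * P.h)) •
        ((Zend P.Qd P.h P.J (gV V T (clip P.Rs i.1.1)) 0 (clip2 P.ρ (i.1.2, i.2))).1 -
          (clip2 P.ρ (i.1.2, i.2)).1) := fun V i => by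
    simp only [cst, clip2, smul_sub]
    abel
  simp only [e]
  exact m2.mono le_rfl (mul_le_mul_of_nonneg_right hw1 (hP.e_nonneg _))

theorem step_ideal (hP : P.Ok d) (V : Vd d) {T φ : ℝ} (hT : 0 < T)
    (hTT : T ≤ P.T0) (hφ0 : 0 ≤ φ) (hφ1 : φ ≤ 1) (s : ℝ) (y : E d) (hy : ‖y‖ ≤ P.Rs)
    {ψ : E d → ℝ} (hψ : LipR 1 ψ) :
    |∫ Z, ∫ ξ, ψ (cst P V T φ y Z + s • ξ) ∂(gam d) ∂((gam d).prod (gam d)) -
      ∫ x, ψ x ∂(Kex V.1 T (1 - φ * P.h ^ 2) (φ * P.h ^ 2)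
        √(φ ^ 2 * T * P.h ^ 2 * (1 - P.h ^ 2) + s ^ 2) y)| ≤
      P.CS / P.h ^ 2 * ((P.CS * P.h) ^ P.J * (P.Rs + √d) + P.h ^ (P.K + 1) * √d) := by
  have hτ : 0 < √T := Real.sqrt_pos.2 hT
  have hh := hP.h_pos
  have hh1 := hP.h_le
  have hT0 := hP.T0_le
  have hCS := hP.hCS
  have hτ1 : √T ≤ 1 := Real.sqrt_le_one.2 (by linarith)
  have htt : √T ^ 2 = T := Real.sq_sqrt hT.le
  have hψ' := smooth_lip hψ s
  obtain ⟨f, hf⟩ : ∃ f : E d → ℝ,
      f = fun x => ∫ ξ, ψ ((1 - φ) • y + (φ * √T) • x + s • ξ) ∂(gam d) := ⟨_, rfl⟩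
  have lf : LipR (φ * √T) f := by
    have := hψ'.comp zero_le_one (outer_lipV_affine ((1 - φ) • y) (φ * √T))
    rwa [one_mul, abs_of_nonneg (by positivity), ← hf] at this
  have lf' : LipR 1 fun x => (√T)⁻¹ * f x := by
    intro x x'
    rw [← mul_sub, abs_mul, abs_of_pos (inv_pos.2 hτ), inv_mul_le_iff₀ hτ]
    refine (lf x x').trans ?_
    have := norm_nonneg (x - x')
    calc φ * √T * ‖x - x'‖ ≤ 1 * √T * ‖x - x'‖ := by gcongr
      _ = _ := by ring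
  have key := hP.step P.J d (2 * T) _ (pot_scaled hT V) (by linarith) ((√T)⁻¹ • y) P.h hh
    hP.hCSh _ lf'
  simp only [integral_const_mul] at key
  rw [← mul_sub, abs_mul, abs_of_pos (inv_pos.2 hτ), inv_mul_le_iff₀ hτ,
    integral_PiM_bridge (pot_scaled hT V) _ (by nlinarith) lf.continuous lf.pg] at key
  have e1 : ∀ Z : E d × E d, f ((√T)⁻¹ • y + P.h • (Zend P.Qd P.h P.J
      (gfun (fun u => V.1 (√T • u)) ((√T)⁻¹ • y)) 0 Z).1) =
      ∫ ξ, ψ (cst P V T φ y Z + s • ξ) ∂(gam d) := fun Z => by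
    rw [hf]
    simp only [cst, gV]
    congr 1
    funext ξ
    congr 2
    rw [smul_add, smul_smul, smul_smul, mul_assoc, mul_inv_cancel₀ hτ.ne', mul_one, ← add_assoc,
      ← add_smul, sub_add_cancel, one_smul, mul_assoc]
  have e2 : ∀ u : E d, ∫ ξ, f ((1 - P.h ^ 2) • (√T)⁻¹ • y + P.h ^ 2 • u +
      (P.h * √(1 - P.h ^ 2)) • ξ) ∂(gam d) =
      ∫ ξ, ψ ((1 - φ * P.h ^ 2) • y + (φ * P.h ^ 2) • √T • u +
        √(φ ^ 2 * T * P.h ^ 2 * (1 - P.h ^ 2) + s ^ 2) • ξ) ∂(gam d) := fun u => by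
    have e3 : φ ^ 2 * T * P.h ^ 2 * (1 - P.h ^ 2) = (φ * √T * (P.h * √(1 - P.h ^ 2))) ^ 2 := by
      rw [mul_pow, mul_pow, mul_pow, htt, Real.sq_sqrt (by nlinarith)]
      ring
    rw [e3, ← integral_gauss_gauss _ _ _ hψ.continuous hψ.pg, hf]
    congr 1
    funext ξ
    dsimp only
    congr 1
    funext ξ'
    congr 2
    have e4 : (φ * √T) • (1 - P.h ^ 2) • (√T)⁻¹ • y = (φ * (1 - P.h ^ 2)) • y := by
      rw [smul_smul, smul_smul]
      congr 1
      field_simp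
    rw [smul_add, smul_add, e4]
    module
  simp only [e1, e2] at key
  have e5 := V.2.pot.integral_tilt_scale hτ one_pos ((√T)⁻¹ • y)
    fun u => ∫ ξ, ψ ((1 - φ * P.h ^ 2) • y + (φ * P.h ^ 2) • u +
      √(φ ^ 2 * T * P.h ^ 2 * (1 - P.h ^ 2) + s ^ 2) • ξ) ∂(gam d)
  rw [smul_smul, mul_inv_cancel₀ hτ.ne', one_smul, htt, mul_one] at e5
  rw [integral_Kex V.2.pot hT y hψ, e5]
  refine key.trans ?_
  have e6 : √T * ‖(√T)⁻¹ • y‖ = ‖y‖ := by
    rw [norm_smul, Real.norm_of_nonneg (by positivity), ← mul_assoc, mul_inv_cancel₀ hτ.ne',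
      one_mul]
  have hd := Real.sqrt_nonneg (d : ℝ)
  have a1 : √T * √d ≤ √d := mul_le_of_le_one_left hd hτ1
  calc √T * (P.CS / P.h ^ 2 * ((P.CS * P.h) ^ P.J * (‖(√T)⁻¹ • y‖ + √d) +
        P.h ^ (P.K + 1) * √d))
      = P.CS / P.h ^ 2 * ((P.CS * P.h) ^ P.J * (√T * ‖(√T)⁻¹ • y‖ + √T * √d) +
        P.h ^ (P.K + 1) * (√T * √d)) := by ring
    _ ≤ _ := by rw [e6]; gcongr

theorem step_samp (hP : P.Ok d) (hN : ∀ j, j ≤ P.jst → NodeSt P d j) {T φ s : ℝ} (hT : 0 < T)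
    (hTT : T ≤ P.T0) (hφ0 : 0 ≤ φ) (hφ1 : φ ≤ 1) (hs : √T * P.h ≤ 2 * s) :
    Samp ((P.K + 2) ^ 2 * P.qq P.jst) (P.Qd.Λ * P.T0 * P.h ^ 2 * P.e P.jst + (4 * d / P.ρ +
      P.CS / P.h ^ 2 * ((P.CS * P.h) ^ P.J * (P.Rs + √d) + P.h ^ (P.K + 1) * √d)))
      fun (V : Vd d) (o : E d) => Kex V.1 T (1 - φ * P.h ^ 2) (φ * P.h ^ 2)
        √(φ ^ 2 * T * P.h ^ 2 * (1 - P.h ^ 2) + s ^ 2) (clip P.Rs o) := by
  have hρ := hP.ρ_pos
  have hRs := hP.Rs_pos
  have l2 : ∀ (V : Vd d) (y : E d), LipV 2 fun Z => cst P V T φ y (clip2 P.ρ Z) :=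
    fun V y Z Z' => (cst_lip hP V hT hTT hφ0 hφ1 y _ _).trans (by
      have := clip2_lip hρ.le Z Z'
      linarith)
  have lg : ∀ (V : Vd d) (y ζ : E d), LipV 2 fun g => cst P V T φ y (clip2 P.ρ (ζ, g)) :=
    fun V y ζ g g' => by simpa using l2 V y (ζ, g) (ζ, g')
  have lz : ∀ (V : Vd d) (y g : E d), LipV 2 fun ζ => cst P V T φ y (clip2 P.ρ (ζ, g)) :=
    fun V y g ζ ζ' => by simpa using l2 V y (ζ, g) (ζ', g)
  have s1 := Samp.mix (I := E d × E d) (L := 2) (by norm_num)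
    (f := fun V i => cst P V T φ (clip P.Rs i.1.1) (clip2 P.ρ (i.1.2, i.2)))
    (step_centre hP hN hT hTT hφ0 hφ1 hs) fun V i => lg V (clip P.Rs i.1) i.2
  have s0 := samp_gauss (d := d) (I := E d) (f := fun _ => 0) measurable_const 1
  have e0 : gauss (0 : E d) 1 = gam d := by simp [gauss]
  have s2 := Samp.bind (η'' := 4 * d / P.ρ +
      P.CS / P.h ^ 2 * ((P.CS * P.h) ^ P.J * (P.Rs + √d) + P.h ^ (P.K + 1) * √d))
    (ν := fun (V : Vd d) (o : E d) => Kex V.1 T (1 - φ * P.h ^ 2) (φ * P.h ^ 2)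
        √(φ ^ 2 * T * P.h ^ 2 * (1 - P.h ^ 2) + s ^ 2) (clip P.Rs o)) s0 s1 (L := 1 * 2)
    (by norm_num)
    (fun V o ψ hψ => by
      have hψ' := smooth_lip hψ s
      simp only [integral_mixG (lg V (clip P.Rs o) _) s hψ]
      exact LipR.integral_param (fun g => hψ'.comp zero_le_one (lz V _ g))
        fun ζ => hψ'.comp zero_le_one (lg V _ ζ))
    (fun V o => isProb_Kex V.2.pot hT _) (fun V o => integrable_Kex V.2.pot hT _)
    (fun V o ψ hψ => by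
      have hψ' := smooth_lip hψ s
      simp only [integral_mixG (lg V (clip P.Rs o) _) s hψ, e0]
      have i1 := (hψ'.comp zero_le_one (l2 V (clip P.Rs o))).integrable_gam2
      have i2 := (hψ'.comp zero_le_one
        (cst_lip hP V hT hTT hφ0 hφ1 (clip P.Rs o))).integrable_gam2
      rw [← integral_prod _ i1]
      have k2 := step_ideal hP V hT hTT hφ0 hφ1 s _ (norm_clip_le hRs.le o) hψ
      refine (abs_sub_le _ _ _).trans (add_le_add ?_ k2)
      rw [← integral_sub i1 i2]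
      have lc : LipR 2 fun Z : E d × E d => ‖clip2 P.ρ Z - Z‖ := by
        intro Z Z'
        refine (abs_norm_sub_norm_le _ _).trans ?_
        rw [sub_sub_sub_comm]
        refine (norm_sub_le _ _).trans ?_
        have := clip2_lip hρ.le Z Z'
        linarith
      have hb := norm_integral_le_of_norm_le (μ := (gam d).prod (gam d))
        (f := fun Z => ∫ ξ, ψ (cst P V T φ (clip P.Rs o) (clip2 P.ρ Z) + s • ξ) ∂(gam d) -
          ∫ ξ, ψ (cst P V T φ (clip P.Rs o) Z + s • ξ) ∂(gam d))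
        (lc.integrable_gam2.const_mul 2) (ae_of_all _ fun Z => by
          refine (hψ' _ _).trans ?_
          rw [one_mul]
          exact cst_lip hP V hT hTT hφ0 hφ1 _ _ _)
      rw [Real.norm_eq_abs, integral_const_mul] at hb
      refine hb.trans ?_
      have := integral_clip2_sub (d := d) hρ
      calc 2 * ∫ Z, ‖clip2 P.ρ Z - Z‖ ∂((gam d).prod (gam d)) ≤ 2 * (2 * d / P.ρ) := by gcongr
        _ = 4 * d / P.ρ := by ring)
  simpa using s2

theorem chain_step (hP : P.Ok d) (hN : ∀ j, j ≤ P.jst → NodeSt P d j) {T φ s T' η : ℝ} {q : ℕ}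
    (hT : 0 < T) (hTT : T ≤ P.T0) (hφ0 : 0 ≤ φ) (hφ1 : φ ≤ 1) (hs : √T * P.h ≤ 2 * s)
    (hT' : T' = (1 - φ * P.h ^ 2) ^ 2 * T + (φ ^ 2 * T * P.h ^ 2 * (1 - P.h ^ 2) + s ^ 2))
    (h : Samp q η fun (V : Vd d) (_ : Unit) => rho V.1 T) :
    Samp (q + (P.K + 2) ^ 2 * P.qq P.jst)
      ((1 - φ * P.h ^ 2 + φ * P.h ^ 2 / (1 + T)) * η + P.eS d)
      fun (V : Vd d) (_ : Unit) => rho V.1 T' := by
  have hh := hP.h_pos
  have hh1 := hP.h_le
  have hT0 := hP.T0_le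
  have hRs := hP.Rs_pos
  have hh2 : P.h ^ 2 ≤ 1 := by nlinarith
  have h2 : 0 ≤ φ * P.h ^ 2 := by positivity
  have h1 : 0 ≤ 1 - φ * P.h ^ 2 := by
    have := mul_le_one₀ hφ1 (sq_nonneg P.h) hh2
    linarith
  have h3 : 0 ≤ 1 - P.h ^ 2 := by linarith
  have s1 := h.step (η'' := 4 * d / P.Rs) (ν := fun V => rho V.1 T')
    (step_samp hP hN hT hTT hφ0 hφ1 hs) (L := 1 - φ * P.h ^ 2 + φ * P.h ^ 2 / (1 + T))
    (by positivity)
    (fun V ψ hψ => by
      have := (Kex_lip (c₃ := √(φ ^ 2 * T * P.h ^ 2 * (1 - P.h ^ 2) + s ^ 2)) V.2.pot hT h1 h2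
        hψ).comp (by positivity) (clip_lip hRs.le)
      rwa [mul_one] at this)
    (fun V => isProb_rho V.2.pot T')
    (fun V => integrable_rho V.2.pot T' continuous_norm PG.norm)
    (fun V ψ hψ => by
      have := Kex_clip_rho (c₃ := √(φ ^ 2 * T * P.h ^ 2 * (1 - P.h ^ 2) + s ^ 2)) V.2.pot hT
        (by linarith) h1 h2 (by ring) hRs hψ
      rwa [Real.sq_sqrt (by positivity), ← hT'] at this)
  refine s1.mono le_rfl (le_of_eq ?_)
  rw [Par.eS]
  ring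

theorem Par.Ok.eS_nonneg (hP : P.Ok d) : 0 ≤ P.eS d := by
  have hh := hP.h_pos
  have hρ := hP.ρ_pos
  have hRs := hP.Rs_pos
  have hΛ := P.Qd.one_le
  have hT := hP.T0_pos
  have he := hP.e_nonneg P.jst
  have hCS := hP.hCS
  rw [Par.eS]
  positivity

theorem chain_start (hP : P.Ok d) :
    Samp 0 (2 * √d) fun (V : Vd d) (_ : Unit) => rho V.1 P.T0 := by
  have hT := hP.T0_pos
  have hT0 := hP.T0_le
  have s0 := (samp_gauss (d := d) (I := Unit) (f := fun _ => 0) measurable_const 0).close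
    (η' := 2 * √d) (κ' := fun V _ => rho V.1 P.T0) (fun V _ => by
      have hp := isProb_rho V.2.pot P.T0
      have i1 := integrable_rho V.2.pot P.T0 continuous_norm PG.norm
      refine ⟨inferInstance, hp, integrable_norm_gauss _ _, i1, fun ψ hψ => ?_⟩
      have i2 := integrable_rho V.2.pot P.T0 hψ.continuous hψ.pg
      have e : ∫ x, ψ x ∂(gauss (0 : E d) 0) = ∫ _, ψ 0 ∂(rho V.1 P.T0) := by
        rw [integral_gauss _ _ hψ.continuous.aestronglyMeasurable]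
        simp
      rw [e, ← integral_sub (integrable_const _) i2]
      have hb := norm_integral_le_of_norm_le (μ := rho V.1 P.T0) (f := fun x => ψ 0 - ψ x) i1
        (ae_of_all _ fun x => by simpa using hψ 0 x)
      refine hb.trans ?_
      have hm : MemLp (fun x : E d => ‖x‖) 2 (rho V.1 P.T0) :=
        (memLp_two_iff_integrable_sq continuous_norm.aestronglyMeasurable).2
          (integrable_rho V.2.pot P.T0 (by fun_prop) (PG.norm.pow 2))
      have hv := variance_nonneg (fun x : E d => ‖x‖) (rho V.1 P.T0)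
      rw [variance_eq_sub hm] at hv
      have h2 := rho_sq_moment V.2.pot hT.le (by linarith)
      refine abs_le_of_sq_le_sq' ?_ (by positivity) |>.2
      rw [mul_pow, Real.sq_sqrt (Nat.cast_nonneg d)]
      simp only [Pi.pow_apply] at hv
      linarith)
  simpa using s0

theorem chain_up (hP : P.Ok d) (hN : ∀ j, j ≤ P.jst → NodeSt P d j) (n : ℕ) :
    Samp (n * ((P.K + 2) ^ 2 * P.qq P.jst))
      ((1 - P.h ^ 2 * P.T0 / 2) ^ n * (2 * √d) + n * P.eS d)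
      fun (V : Vd d) (_ : Unit) => rho V.1 P.T0 := by
  have hh := hP.h_pos
  have hh1 := hP.h_le
  have hT := hP.T0_pos
  have hT0 := hP.T0_le
  have he := hP.eS_nonneg
  have hh2 : P.h ^ 2 ≤ 1 := by nlinarith
  have hu : 0 ≤ P.h ^ 2 * P.T0 := by positivity
  have hu1 : P.h ^ 2 * P.T0 ≤ 1 := mul_le_one₀ hh2 hT.le (by linarith)
  have hL0 : 0 ≤ 1 - P.h ^ 2 * P.T0 / 2 := by linarith
  induction n with
  | zero => simpa using chain_start hP
  | succ n ih =>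
    have s := chain_step hP hN (φ := 1) (s := √P.T0 * P.h) (T' := P.T0) hT le_rfl zero_le_one
      le_rfl (by have : 0 ≤ √P.T0 * P.h := by positivity
                 linarith)
      (by rw [mul_pow (√P.T0), Real.sq_sqrt hT.le]; ring) ih
    refine s.mono (le_of_eq (by ring)) ?_
    have hL : 1 - 1 * P.h ^ 2 + 1 * P.h ^ 2 / (1 + P.T0) ≤ 1 - P.h ^ 2 * P.T0 / 2 := by
      have : 1 * P.h ^ 2 / (1 + P.T0) ≤ P.h ^ 2 - P.h ^ 2 * P.T0 / 2 := by
        rw [div_le_iff₀ (by linarith)]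
        have : 0 ≤ P.h ^ 2 * P.T0 * (1 - P.T0) := mul_nonneg hu (by linarith)
        nlinarith
      linarith
    have h0 : 0 ≤ (1 - P.h ^ 2 * P.T0 / 2) ^ n * (2 * √d) + n * P.eS d := by positivity
    have h1 : (1 - P.h ^ 2 * P.T0 / 2) * (n * P.eS d) ≤ n * P.eS d :=
      mul_le_of_le_one_left (by positivity) (by linarith)
    have h2 := mul_le_mul_of_nonneg_right hL h0
    push_cast
    rw [pow_succ (1 - P.h ^ 2 * P.T0 / 2)]
    linarith

theorem chain_down (hP : P.Ok d) (hN : ∀ j, j ≤ P.jst → NodeSt P d j) (n : ℕ) :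
    Samp ((P.nup + n) * ((P.K + 2) ^ 2 * P.qq P.jst))
      ((1 - P.h ^ 2 * P.T0 / 2) ^ P.nup * (2 * √d) + (P.nup + n) * P.eS d)
      fun (V : Vd d) (_ : Unit) => rho V.1 (P.T0 * (1 - P.h ^ 2 / 2) ^ n) := by
  have hh := hP.h_pos
  have hh1 := hP.h_le
  have hT := hP.T0_pos
  have hT0 := hP.T0_le
  have he := hP.eS_nonneg
  have hh2 : P.h ^ 2 ≤ 1 := by nlinarith
  have hu1 : P.h ^ 2 * P.T0 ≤ 1 := mul_le_one₀ hh2 hT.le (by linarith)
  have hL0 : 0 ≤ 1 - P.h ^ 2 * P.T0 / 2 := by linarith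
  have hr0 : 0 < 1 - P.h ^ 2 / 2 := by linarith
  have hr1 : 1 - P.h ^ 2 / 2 ≤ 1 := by linarith [sq_nonneg P.h]
  induction n with
  | zero => simpa using chain_up hP hN P.nup
  | succ n ih =>
    have hTn : 0 < P.T0 * (1 - P.h ^ 2 / 2) ^ n := by positivity
    have s := chain_step hP hN (φ := 1 / 2) (s := √(P.T0 * (1 - P.h ^ 2 / 2) ^ n) * P.h / 2)
      (T' := P.T0 * (1 - P.h ^ 2 / 2) ^ (n + 1)) hTn
      (mul_le_of_le_one_right hT.le (pow_le_one₀ hr0.le hr1)) (by norm_num) (by norm_num)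
      (le_of_eq (by ring))
      (by rw [div_pow (_ * P.h), mul_pow (√_), Real.sq_sqrt hTn.le]; ring) ih
    refine s.mono (le_of_eq (by ring)) ?_
    have hL : 1 - 1 / 2 * P.h ^ 2 + 1 / 2 * P.h ^ 2 / (1 + P.T0 * (1 - P.h ^ 2 / 2) ^ n) ≤ 1 := by
      have : 1 / 2 * P.h ^ 2 / (1 + P.T0 * (1 - P.h ^ 2 / 2) ^ n) ≤ 1 / 2 * P.h ^ 2 :=
        div_le_self (by positivity) (by linarith)
      linarith
    have h0 : 0 ≤ (1 - P.h ^ 2 * P.T0 / 2) ^ P.nup * (2 * √d) + (P.nup + n) * P.eS d := by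
      positivity
    have h2 := mul_le_of_le_one_left h0 hL
    push_cast
    linarith

theorem outer (hP : P.Ok d) (hN : ∀ j, j ≤ P.jst → NodeSt P d j) : Solves d P.cost := by
  have hh := hP.h_pos
  have hh1 := hP.h_le
  have hT := hP.T0_pos
  have hr0 : 0 < 1 - P.h ^ 2 / 2 := by nlinarith
  exact solves_of_samp (by positivity) hP.σf_pos (chain_down hP hN P.ndown) hP.o5

end Vale.Agent.P347
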