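import Vale.Agent.P347.Params2

/-! Choice of the parameters. See PROOF.md, section P. -/

namespace Vale.Agent.P347

theorem exists_base {D : ℕ} (hD : 1 ≤ D) (N₀ : ℕ) (hN : 1 ≤ N₀) {d : ℕ} (hd : 1 ≤ d) :
    ∃ N : ℕ, N₀ ≤ N ∧ d ≤ N ^ D ∧ (N : ℝ) ≤ 2 * N₀ * (d : ℝ) ^ (1 / (D : ℝ)) := by
  have hd1 : (1 : ℝ) ≤ d := by exact_mod_cast hd
  have hN1 : (1 : ℝ) ≤ N₀ := by exact_mod_cast hN
  have hD0 : (0 : ℝ) < D := by exact_mod_cast hD
  set y := (d : ℝ) ^ (1 / (D : ℝ)) with hy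
  have hy1 : 1 ≤ y := Real.one_le_rpow hd1 (by positivity)
  refine ⟨N₀ * ⌈y⌉₊, ?_, ?_, ?_⟩
  · exact Nat.le_mul_of_pos_right _ (Nat.ceil_pos.2 (by linarith))
  · have h1 : y ≤ (N₀ * ⌈y⌉₊ : ℕ) := by
      push_cast
      have := Nat.le_ceil y
      nlinarith
    have h2 : y ^ D = d := by
      rw [hy, one_div, Real.rpow_inv_natCast_pow (by positivity) (by omega)]
    have h3 := pow_le_pow_left₀ (by linarith) h1 D
    rw [h2] at h3
    exact_mod_cast h3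
  · push_cast
    have := Nat.ceil_lt_add_one (show 0 ≤ y by linarith)
    nlinarith

theorem exists_par {ε : ℝ} (hε : 0 < ε) :
    ∃ C : ℝ, ∀ d : ℕ, 2 ≤ d → ∃ P : Par, P.Ok d ∧ (P.cost : ℝ) ≤ C * (d : ℝ) ^ ε := by
  obtain ⟨G, hG⟩ : ∃ G : ℕ, 19 / ε ≤ G := exists_nat_ge _
  have hG1 : 1 ≤ G := by
    have : (0 : ℝ) < G := lt_of_lt_of_le (by positivity) hG
    exact_mod_cast this
  obtain ⟨g, hg⟩ : ∃ g, g = 2 * G + 5 := ⟨_, rfl⟩
  obtain ⟨x', hx'⟩ : ∃ x', x' = g * (g + 10) + 6 := ⟨_, rfl⟩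
  obtain ⟨k, hk⟩ : ∃ k, k = x' + (g + 10) + 7 := ⟨_, rfl⟩
  obtain ⟨D, hD⟩ : ∃ D, D = G * k := ⟨_, rfl⟩
  have hgk : g * (2 * k) = 4 * D + 10 * k := by rw [hg, hD]; ring
  have hD1 : 1 ≤ D := by rw [hD]; exact Nat.mul_pos hG1 (by omega)
  obtain ⟨E', hE'⟩ : ∃ E', E' = 8 * D + 16 * k + 12 := ⟨_, rfl⟩
  obtain ⟨K, hK⟩ : ∃ K, K = 3 * E' + 5 * D + 10 * k + 20 := ⟨_, rfl⟩
  have hK1 : 1 ≤ K := by omega
  obtain ⟨Qd⟩ := exists_quad hK1
  obtain ⟨CM, hCM, main⟩ := ideal_main hK1 Qd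
  obtain ⟨CS, hCS, step⟩ := ideal_step hK1 Qd
  obtain ⟨N₀, hN₀⟩ : ∃ N₀ : ℕ, N₀ = 100 + ⌈CM ^ 2⌉₊ + ⌈CS ^ 2⌉₊ + (4 * E' + 1) + (8 * D + 18)
    + (6 * (K + 2) ^ 2 * (2 * k + 1) + (K + 2) ^ 2 + 1) := ⟨_, rfl⟩
  refine ⟨(2 * N₀) ^ (19 * k), fun d hd => ?_⟩
  obtain ⟨N, hN1, hN2, hN3⟩ := exists_base hD1 N₀ (by omega) (show 1 ≤ d by omega)
  let X : Expo :=
    { K := K, Qd := Qd, CM := CM, CS := CS, g := g, p := g + 10, c := g + 6, x' := x'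
      jst := 2 * k, r := 3 * D + 4 * k + 6, x := x' + (g + 10) + 2 * k, E' := E'
      J2 := 4 * E' + 8 * D + 16 * k + 26, D := D, N := N }
  have hX : X.Good d :=
    { hK := hK1, main := main, step := step, hCM := hCM, hCS := hCS
      N100 := by change 100 ≤ N; omega
      NCM := (Nat.le_ceil _).trans (Nat.cast_le.2 (show ⌈CM ^ 2⌉₊ ≤ N by omega))
      NCS := (Nat.le_ceil _).trans (Nat.cast_le.2 (show ⌈CS ^ 2⌉₊ ≤ N by omega))
      NE := by change 4 * E' + 1 ≤ N; omega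
      ND := by change 8 * D + 18 ≤ N; omega
      NK := by change 6 * (K + 2) ^ 2 * (2 * k + 1) + (K + 2) ^ 2 + 1 ≤ N; omega
      hd := hN2, hc := rfl, hp := rfl, hx' := hx', hx := rfl
      jst_pos := by change 1 ≤ 2 * k; omega
      a1 := by simp only [X, hgk]; omega
      a2 := by simp only [X, hgk]; omega
      a3 := by simp only [X, hgk]; omega
      a4 := by simp only [X, hgk]; omega
      a5 := by simp only [X, hgk]; omega
      a6 := by simp only [X]; omega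
      a7 := by simp only [X]; omega
      a8 := by simp only [X]; omega }
  refine ⟨X.par, hX.ok, ?_⟩
  have h1 : X.par.cost ≤ N ^ (19 * k) :=
    hX.cost_le.trans (Nat.pow_le_pow_right (by change 0 < N; omega) (by simp only [X]; omega))
  have h2 : (X.par.cost : ℝ) ≤ (N : ℝ) ^ (19 * k) := by exact_mod_cast h1
  have hd1 : (1 : ℝ) ≤ d := by exact_mod_cast (show 1 ≤ d by omega)
  refine h2.trans ((pow_le_pow_left₀ (Nat.cast_nonneg _) hN3 _).trans ?_)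
  rw [mul_pow, ← Real.rpow_natCast ((d : ℝ) ^ (1 / (D : ℝ))), ← Real.rpow_mul (by linarith)]
  refine mul_le_mul_of_nonneg_left (Real.rpow_le_rpow_of_exponent_le hd1 ?_) (by positivity)
  have hD0 : (0 : ℝ) < D := by exact_mod_cast hD1
  rw [one_div, inv_mul_le_iff₀ hD0, hD]
  rw [div_le_iff₀ hε] at hG
  push_cast
  nlinarith [Nat.cast_nonneg (α := ℝ) k]

end Vale.Agent.P347
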