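import Vale.Agent.P347.Node
import Vale.Agent.P347.Outer
import Vale.Agent.P347.Params

/-! The final assembly. -/

open Filter

namespace Vale.Agent.P347

theorem main_bound {ε : ℝ} (hε : 0 < ε) :
    ∃ C : ℝ, ∀ d : ℕ, 2 ≤ d → ∃ q : ℕ, Solves d q ∧ (q : ℝ) ≤ C * (d : ℝ) ^ ε := by
  obtain ⟨C, hC⟩ := exists_par hε
  refine ⟨C, fun d hd => ?_⟩
  obtain ⟨P, hP, hc⟩ := hC d hd
  exact ⟨P.cost, outer hP (node_all hP), hc⟩

theorem Q_bound {ε : ℝ} (hε : 0 < ε) :
    ∃ C : ℝ, ∀ d : ℕ, 2 ≤ d → Solves d (Q d) ∧ (Q d : ℝ) ≤ C * (d : ℝ) ^ ε := by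
  obtain ⟨C, hC⟩ := main_bound hε
  refine ⟨C, fun d hd => ?_⟩
  obtain ⟨q, hq, hc⟩ := hC d hd
  refine ⟨Nat.sInf_mem (s := {q : ℕ | Solves d q}) ⟨q, hq⟩, le_trans ?_ hc⟩
  exact_mod_cast Nat.sInf_le (s := {q : ℕ | Solves d q}) hq

theorem tendsto_exponent :
    Tendsto (fun d : ℕ => Real.log (Q d) / Real.log d) atTop (nhds 0) := by
  have hlog : Tendsto (fun d : ℕ => Real.log d) atTop atTop :=
    Real.tendsto_log_atTop.comp tendsto_natCast_atTop_atTop
  rw [tendsto_order]
  constructor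
  · intro a ha
    refine Eventually.of_forall fun d => lt_of_lt_of_le ha ?_
    exact div_nonneg (Real.log_natCast_nonneg _) (Real.log_natCast_nonneg _)
  · intro a ha
    obtain ⟨C, hC⟩ := Q_bound (show 0 < a / 2 by positivity)
    have h1 : ∀ᶠ d : ℕ in atTop, 2 * |Real.log C| / a < Real.log d :=
      hlog.eventually_gt_atTop _
    filter_upwards [h1, eventually_ge_atTop 2] with d hd h2
    have hd1 : (1 : ℝ) < d := by exact_mod_cast h2
    have hL : 0 < Real.log d := Real.log_pos hd1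
    rw [div_lt_iff₀ hL]
    rw [div_lt_iff₀ ha] at hd
    rcases Nat.eq_zero_or_pos (Q d) with h0 | h0
    · rw [h0]; simp; positivity
    · have hQ : (0 : ℝ) < Q d := by exact_mod_cast h0
      have h3 := (hC d h2).2
      have h4 : 0 < (d : ℝ) ^ (a / 2) := by positivity
      have hC0 : 0 < C := by
        by_contra h
        have := mul_nonpos_of_nonpos_of_nonneg (not_lt.1 h) h4.le
        linarith
      have h5 := Real.log_le_log hQ h3
      rw [Real.log_mul hC0.ne' h4.ne', Real.log_rpow (by linarith)] at h5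
      have := le_abs_self (Real.log C)
      nlinarith

end Vale.Agent.P347
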