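import Mathlib

open MeasureTheory ProbabilityTheory

namespace Vale.Agent.P347.Stmt

/-- The class of potentials: twice continuously differentiable, value and gradient zero at the
origin, Hessian between the identity and twice the identity. -/
def Admissible {d : ℕ} (V : EuclideanSpace ℝ (Fin d) → ℝ) : Prop :=
  ContDiff ℝ 2 V ∧ V 0 = 0 ∧ gradient V 0 = 0 ∧
    ∀ x v : EuclideanSpace ℝ (Fin d), ‖v‖ ^ 2 ≤ iteratedFDeriv ℝ 2 V x ![v, v] ∧
      iteratedFDeriv ℝ 2 V x ![v, v] ≤ 2 * ‖v‖ ^ 2

/-- The Gibbs law with density proportional to `exp (-V)` with respect to Lebesgue measure. -/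
noncomputable def gibbs {d : ℕ} (V : EuclideanSpace ℝ (Fin d) → ℝ) :
    Measure (EuclideanSpace ℝ (Fin d)) :=
  (volume : Measure (EuclideanSpace ℝ (Fin d))).tilted fun x => -V x

/-- An adaptive algorithm with internal randomness in `Ω`: its `k`-th query point and its output
are measurable functions of the random seed and of the record of the oracle answers. -/
structure Alg (d : ℕ) (Ω : Type) [MeasurableSpace Ω] where
  query : ℕ → Ω × (ℕ → ℝ × EuclideanSpace ℝ (Fin d)) → EuclideanSpace ℝ (Fin d)
  output : Ω × (ℕ → ℝ × EuclideanSpace ℝ (Fin d)) → EuclideanSpace ℝ (Fin d)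
  measurable_query : ∀ k, Measurable (query k)
  measurable_output : Measurable output

/-- The record after `k` queries: entry `j < k` is the answer (value, gradient) to query `j`,
the other entries are zero. -/
noncomputable def Alg.record {d : ℕ} {Ω : Type} [MeasurableSpace Ω] (A : Alg d Ω)
    (V : EuclideanSpace ℝ (Fin d) → ℝ) (ω : Ω) : ℕ → ℕ → ℝ × EuclideanSpace ℝ (Fin d)
  | 0 => fun _ => (0, 0)
  | k + 1 =>
    Function.update (A.record V ω k) k
      (V (A.query k (ω, A.record V ω k)), gradient V (A.query k (ω, A.record V ω k)))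

/-- The law of the output after `q` queries when the seed has law `P`. -/
noncomputable def Alg.law {d : ℕ} {Ω : Type} [MeasurableSpace Ω] (A : Alg d Ω) (P : Measure Ω)
    (q : ℕ) (V : EuclideanSpace ℝ (Fin d) → ℝ) : Measure (EuclideanSpace ℝ (Fin d)) :=
  P.map fun ω => A.output (ω, A.record V ω q)

/-- Some algorithm with seed law `P` and `q` queries is within total variation `1/10` of the
Gibbs law of every admissible potential. -/
def SolvesOn {Ω : Type} [MeasurableSpace Ω] (P : Measure Ω) (d q : ℕ) : Prop :=
  ∃ A : Alg d Ω, ∀ V : EuclideanSpace ℝ (Fin d) → ℝ, Admissible V →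
    ∀ B : Set (EuclideanSpace ℝ (Fin d)), MeasurableSet B →
      |(A.law P q V).real B - (gibbs V).real B| ≤ 1 / 10

/-- Some randomized algorithm (any probability space of seeds) with `q` queries succeeds. -/
def Solves (d q : ℕ) : Prop :=
  ∃ (Ω : Type) (_ : MeasurableSpace Ω) (P : Measure Ω), IsProbabilityMeasure P ∧ SolvesOn P d q

/-- The query complexity. -/
noncomputable def Q (d : ℕ) : ℕ := sInf {q : ℕ | Solves d q}

end Vale.Agent.P347.Stmt
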