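import Vale.Agent.P347.Final
import Vale.Agent.P347.Stmt

/-! Transfer of the upper bound to the general model. -/

open Filter MeasureTheory ProbabilityTheory

namespace Vale.Agent.P347

theorem solvesOn_of_solves {d q : ℕ} (h : Solves d q) :
    ∃ m : ℕ, Stmt.SolvesOn (Measure.pi fun _ : Fin m => gaussianReal 0 1) d q := by
  obtain ⟨A, hA⟩ := h
  let A' : Stmt.Alg d (Fin A.m → ℝ) :=
    ⟨A.query, A.output, A.measurable_query, A.measurable_output⟩
  have hrec : ∀ V ω k, A'.record V ω k = A.record V ω k := by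
    intro V ω k
    induction k with
    | zero => rfl
    | succ k ih => simp only [Stmt.Alg.record, Alg.record, ih]; rfl
  refine ⟨A.m, A', fun V hV B hB => ?_⟩
  have := hA V hV B hB
  simp only [Stmt.Alg.law, hrec]
  exact this

theorem upper_bound {ε : ℝ} (hε : 0 < ε) :
    ∃ C : ℝ, ∀ d : ℕ, 2 ≤ d → ∃ q m : ℕ, (q : ℝ) ≤ C * (d : ℝ) ^ ε ∧
      Stmt.SolvesOn (Measure.pi fun _ : Fin m => gaussianReal 0 1) d q := by
  obtain ⟨C, hC⟩ := main_bound hε
  refine ⟨C, fun d hd => ?_⟩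
  obtain ⟨q, hq, hc⟩ := hC d hd
  obtain ⟨m, hm⟩ := solvesOn_of_solves hq
  exact ⟨q, m, hc, hm⟩

theorem stmt_Q_bound {ε : ℝ} (hε : 0 < ε) :
    ∃ C : ℝ, ∀ d : ℕ, 2 ≤ d → Stmt.Solves d (Stmt.Q d) ∧ (Stmt.Q d : ℝ) ≤ C * (d : ℝ) ^ ε := by
  obtain ⟨C, hC⟩ := upper_bound hε
  refine ⟨C, fun d hd => ?_⟩
  obtain ⟨q, m, hc, hm⟩ := hC d hd
  have hq : Stmt.Solves d q := ⟨_, _, _, inferInstance, hm⟩
  refine ⟨Nat.sInf_mem (s := {q : ℕ | Stmt.Solves d q}) ⟨q, hq⟩, le_trans ?_ hc⟩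
  exact_mod_cast Nat.sInf_le (s := {q : ℕ | Stmt.Solves d q}) hq

theorem upper_both {ε : ℝ} (hε : 0 < ε) :
    ∃ C : ℝ, ∀ d : ℕ, 2 ≤ d →
      (∃ q m : ℕ, (q : ℝ) ≤ C * (d : ℝ) ^ ε ∧
        Stmt.SolvesOn (Measure.pi fun _ : Fin m => gaussianReal 0 1) d q) ∧
      Stmt.Solves d (Stmt.Q d) ∧ (Stmt.Q d : ℝ) ≤ C * (d : ℝ) ^ ε := by
  obtain ⟨C, hC⟩ := upper_bound hε
  refine ⟨C, fun d hd => ⟨hC d hd, ?_⟩⟩
  obtain ⟨q, m, hc, hm⟩ := hC d hd
  have hq : Stmt.Solves d q := ⟨_, _, _, inferInstance, hm⟩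
  refine ⟨Nat.sInf_mem (s := {q : ℕ | Stmt.Solves d q}) ⟨q, hq⟩, le_trans ?_ hc⟩
  exact_mod_cast Nat.sInf_le (s := {q : ℕ | Stmt.Solves d q}) hq

theorem tendsto_of_bound {f : ℕ → ℕ}
    (hf : ∀ ε : ℝ, 0 < ε → ∃ C : ℝ, ∀ d : ℕ, 2 ≤ d → (f d : ℝ) ≤ C * (d : ℝ) ^ ε) :
    Tendsto (fun d : ℕ => Real.log (f d) / Real.log d) atTop (nhds 0) := by
  have hlog : Tendsto (fun d : ℕ => Real.log d) atTop atTop :=
    Real.tendsto_log_atTop.comp tendsto_natCast_atTop_atTop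
  rw [tendsto_order]
  constructor
  · intro a ha
    refine Eventually.of_forall fun d => lt_of_lt_of_le ha ?_
    exact div_nonneg (Real.log_natCast_nonneg _) (Real.log_natCast_nonneg _)
  · intro a ha
    obtain ⟨C, hC⟩ := hf (a / 2) (by positivity)
    have h1 : ∀ᶠ d : ℕ in atTop, 2 * |Real.log C| / a < Real.log d :=
      hlog.eventually_gt_atTop _
    filter_upwards [h1, eventually_ge_atTop 2] with d hd h2
    have hd1 : (1 : ℝ) < d := by exact_mod_cast h2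
    have hL : 0 < Real.log d := Real.log_pos hd1
    rw [div_lt_iff₀ hL]
    rw [div_lt_iff₀ ha] at hd
    rcases Nat.eq_zero_or_pos (f d) with h0 | h0
    · rw [h0]; simp; positivity
    · have hQ : (0 : ℝ) < f d := by exact_mod_cast h0
      have h3 := hC d h2
      have h4 : 0 < (d : ℝ) ^ (a / 2) := by positivity
      have hC0 : 0 < C := by
        by_contra h
        have := mul_nonpos_of_nonpos_of_nonneg (not_lt.1 h) h4.le
        linarith
      have h5 := Real.log_le_log hQ h3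
      rw [Real.log_mul hC0.ne' h4.ne', Real.log_rpow (by linarith)] at h5
      have := le_abs_self (Real.log C)
      nlinarith

theorem stmt_tendsto :
    Tendsto (fun d : ℕ => Real.log (Stmt.Q d) / Real.log d) atTop (nhds 0) :=
  tendsto_of_bound fun _ hε => by
    obtain ⟨C, hC⟩ := stmt_Q_bound hε
    exact ⟨C, fun d hd => (hC d hd).2⟩

end Vale.Agent.P347
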