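import Vale.Agent.P347.FlatL2

/-! TASK Flat: every flattening of the derivative tensors of the effective Hessian has operator
norm `O(ε)`, uniformly in the dimension. See PROOF.md, section E. -/

open MeasureTheory ProbabilityTheory MvPolynomial

namespace Vale.Agent.P347

/-- flattened derivatives of the scaled covariance -/
noncomputable def NN {d : ℕ} (p q : ℕ) (a : Fin d × Pw d p) (c : Fin d × Pw d q) : R d :=
  dxs p a.2 (dxs q c.2 ((if a.1 = c.1 then ww else 0) - H a.1 c.1))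

theorem NN_mem_XO {d : ℕ} (p q : ℕ) (a : Fin d × Pw d p) (c : Fin d × Pw d q) :
    NN p q a c ∈ XO d := by
  refine dxs_mem_XO _ _ (dxs_mem_XO _ _ (sub_mem ?_ (H_mem_XO _ _)))
  split_ifs
  · exact ww_mem_XO
  · exact zero_mem _

theorem dxs_sub {d : ℕ} (p : ℕ) (a : Pw d p) (f g : R d) :
    dxs p a (f - g) = dxs p a f - dxs p a g := by
  induction p with
  | zero => rfl
  | succ p ih =>
    show dx a.1 (dxs p a.2 (f - g)) = dx a.1 (dxs p a.2 f) - dx a.1 (dxs p a.2 g)
    rw [ih, map_sub]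

theorem dxs_const {d : ℕ} (p : ℕ) (a : Pw d (p + 1)) {f : R d} (hf : ∀ i, dx i f = 0) :
    dxs (p + 1) a f = 0 := by
  show dx a.1 (dxs p a.2 f) = 0
  rw [dx_dxs, hf, dxs_zero]

/-- the class of two-sided families obtained from Wick polynomials -/
inductive KK : ℕ → (A B : Fam) → (∀ d, A.T d → B.T d → R d) → Prop
  | zero (n : ℕ) (A B : Fam) : KK n A B (fun _ _ _ => 0)
  | base (q : ℕ) : KK q Fam.one (Fam.pw q) (fun _ _ c => WWs q c 1)
  | tens {n : ℕ} {A B : Fam} {χ : ∀ d, A.T d → B.T d → R d} (p q : ℕ) (h : KK n A B χ) :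
      KK (n + (p + q + 2)) (A.prod (Fam.co.prod (Fam.pw p))) (B.prod (Fam.co.prod (Fam.pw q)))
        (fun d a b => χ d a.1 b.1 * NN p q a.2 b.2)
  | add {n : ℕ} {A B : Fam} {χ χ' : ∀ d, A.T d → B.T d → R d} (h : KK n A B χ)
      (h' : KK n A B χ') : KK n A B (fun d a b => χ d a b + χ' d a b)
  | neg {n : ℕ} {A B : Fam} {χ : ∀ d, A.T d → B.T d → R d} (h : KK n A B χ) :
      KK n A B (fun d a b => -χ d a b)
  | reindex {n : ℕ} {A B A' B' : Fam} {χ : ∀ d, A.T d → B.T d → R d} (h : KK n A B χ)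
      (e : ∀ d, A'.T d ≃ A.T d) (e' : ∀ d, B'.T d ≃ B.T d) :
      KK n A' B' (fun d a b => χ d (e d a) (e' d b))

theorem KK.congr {n n' : ℕ} {A B : Fam} {χ χ' : ∀ d, A.T d → B.T d → R d} (h : KK n A B χ)
    (e : ∀ d a b, χ' d a b = χ d a b) (en : n' = n) : KK n' A B χ' := by
  have : χ' = χ := by funext d a b; exact e d a b
  rw [this, en]; exact h

/-- move a new first coordinate into the second factor -/
def shuf (I A J P : Type) : I × (A × (J × P)) ≃ A × (J × (I × P)) where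
  toFun x := (x.2.1, x.2.2.1, x.1, x.2.2.2)
  invFun x := (x.2.2.1, x.1, x.2.1, x.2.2.2)
  left_inv _ := rfl
  right_inv _ := rfl

/-- reindex the second factor -/
def conR (I : Type) {A B : Type} (e : A ≃ B) : I × A ≃ I × B where
  toFun x := (x.1, e x.2)
  invFun x := (x.1, e.symm x.2)
  left_inv _ := by simp
  right_inv _ := by simp

theorem WW_neg {d : ℕ} (i : Fin d) (f : R d) : WW i (-f) = -WW i f := by
  simpa using WW_smul i (-1) f

theorem KK.ww {n : ℕ} {A B : Fam} {χ : ∀ d, A.T d → B.T d → R d} (h : KK n A B χ) :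
    KK (n + 1) A (Fam.co.prod B) (fun d a b => WW b.1 (χ d a b.2)) := by
  induction h with
  | zero n A B => exact (KK.zero _ _ _).congr (fun d a b => WW_zero _) rfl
  | base q =>
    exact ((KK.base (q + 1)).reindex (A' := Fam.one) (B' := Fam.co.prod (Fam.pw q))
      (fun _ => Equiv.refl _) (fun _ => Equiv.refl _)).congr (fun d a b => rfl) rfl
  | @tens n A B χ p q h ih =>
    refine (KK.add (((ih.tens p q).reindex (fun _ => Equiv.refl _)
      (B' := Fam.co.prod (B.prod (Fam.co.prod (Fam.pw q))))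
      (fun _ => (Equiv.prodAssoc _ _ _).symm)).congr (fun _ _ _ => rfl)
        (n' := n + (p + q + 2) + 1) (by omega))
      (((h.tens p (q + 1)).reindex (fun _ => Equiv.refl _)
      (fun _ => shuf _ _ _ _)).congr (fun _ _ _ => rfl) (by omega))).congr (fun d a b => ?_) rfl
    rw [WW_mul]
    congr 2
    exact dx_dxs _ _ _ _
  | add h h' ih ih' => exact (ih.add ih').congr (fun d a b => WW_add _ _ _) rfl
  | neg h ih => exact ih.neg.congr (fun d a b => WW_neg _ _) rfl
  | reindex h e e' ih =>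
    exact ih.reindex (B' := Fam.co.prod _) e (fun d => conR _ (e' d))

/-- reindexing used for the covariance term -/
def shufA (I : Type) : I × Unit ≃ Unit × (I × Unit) where
  toFun x := ((), x.1, ())
  invFun x := (x.2.1, ())
  left_inv _ := rfl
  right_inv _ := rfl

/-- reindexing used for the covariance term -/
def shufB (I P : Type) : I × P ≃ P × (I × Unit) where
  toFun x := (x.2, x.1, ())
  invFun x := (x.2.1, x.1)
  left_inv _ := rfl
  right_inv _ := rfl

theorem KK.dx_base (q : ℕ) :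
    KK (q + 1) (Fam.co.prod Fam.one) (Fam.pw q) (fun _ a c => dx a.1 (WWs q c 1)) := by
  induction q with
  | zero => exact (KK.zero _ _ _).congr (fun d a b => by simp [WWs]) rfl
  | succ q ih =>
    refine (KK.add (ih.ww.reindex (B' := Fam.pw (q + 1)) (fun _ => Equiv.refl _)
      (fun _ => Equiv.refl _)) (((KK.base q).tens 0 0).reindex (fun _ => shufA _)
        (fun _ => shufB _ _)).neg).congr (fun d a b => ?_) rfl
    have := dx_WW a.1 b.1 (WWs q b.2 1)
    rw [sub_eq_add_neg, mul_comm] at this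
    exact this

theorem KK.dx {n : ℕ} {A B : Fam} {χ : ∀ d, A.T d → B.T d → R d} (h : KK n A B χ) :
    KK (n + 1) (Fam.co.prod A) B (fun d a b => dx a.1 (χ d a.2 b)) := by
  induction h with
  | zero n A B => exact (KK.zero _ _ _).congr (fun d a b => map_zero _) rfl
  | base q => exact KK.dx_base q
  | @tens n A B χ p q h ih =>
    refine (KK.add (((ih.tens p q).reindex
      (A' := Fam.co.prod (A.prod (Fam.co.prod (Fam.pw p))))
      (fun _ => (Equiv.prodAssoc _ _ _).symm) (fun _ => Equiv.refl _)).congr (fun _ _ _ => rfl)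
        (n' := n + (p + q + 2) + 1) (by omega))
      (((h.tens (p + 1) q).reindex (fun _ => shuf _ _ _ _)
      (fun _ => Equiv.refl _)).congr (fun _ _ _ => rfl) (by omega))).congr (fun d a b => ?_) rfl
    rw [Derivation.leibniz, smul_eq_mul, smul_eq_mul, add_comm, mul_comm]
    rfl
  | add h h' ih ih' => exact (ih.add ih').congr (fun d a b => map_add _ _ _) rfl
  | neg h ih => exact ih.neg.congr (fun d a b => map_neg _ _) rfl
  | reindex h e e' ih =>
    exact ih.reindex (A' := Fam.co.prod _) (fun d => conR _ (e d)) e'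

theorem KK.mem_XO {n : ℕ} {A B : Fam} {χ : ∀ d, A.T d → B.T d → R d} (h : KK n A B χ)
    (hn : n = 0) (d : ℕ) (a : A.T d) (b : B.T d) : χ d a b ∈ XO d := by
  induction h with
  | zero n A B => exact zero_mem _
  | base q => subst hn; exact one_mem _
  | tens p q h ih => omega
  | add h h' ih ih' => exact add_mem (ih hn a b) (ih' hn a b)
  | neg h ih => exact neg_mem (ih hn a b)
  | reindex h e e' ih => exact ih hn _ _

/-- a family of real matrices has operator norm `O(ε)` -/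
def Small (A B : Fam) (P : ∀ d, A.T d → B.T d → R d) : Prop :=
  ∃ C : ℝ, 0 ≤ C ∧ ∀ (d : ℕ) (ε : ℝ) (U : E d → ℝ) (h : Pot 0 ε U), ε ≤ 1 / 2 →
    ∀ (s : ℝ) (hs : 0 < s), 1 / 2 ≤ s → s ≤ 1 → ∀ x : E d,
      Bd (C * ε ^ 2) (fun a b => Ex h hs x (P d a b))

theorem Small.congr {A B : Fam} {P P' : ∀ d, A.T d → B.T d → R d} (h : Small A B P)
    (e : ∀ d a b, P' d a b = P d a b) : Small A B P' := by
  have : P' = P := by funext d a b; exact e d a b
  rwa [this]

theorem Small.add {A B : Fam} {P P' : ∀ d, A.T d → B.T d → R d} (h : Small A B P)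
    (h' : Small A B P') : Small A B (fun d a b => P d a b + P' d a b) := by
  obtain ⟨C, hC, h⟩ := h
  obtain ⟨C', hC', h'⟩ := h'
  refine ⟨2 * C + 2 * C', by positivity, fun d ε U hU hε s hs hs2 hs1 x => ?_⟩
  exact (((h d ε U hU hε s hs hs2 hs1 x).add (h' d ε U hU hε s hs hs2 hs1 x)).mono
    (le_of_eq (by ring))).congr fun a b => map_add _ _ _

theorem Small.reindex {A B A' B' : Fam} {P : ∀ d, A.T d → B.T d → R d} (h : Small A B P)
    (e : ∀ d, A'.T d ≃ A.T d) (e' : ∀ d, B'.T d ≃ B.T d) :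
    Small A' B' (fun d a b => P d (e d a) (e' d b)) := by
  obtain ⟨C, hC, h⟩ := h
  exact ⟨C, hC, fun d ε U hU hε s hs hs2 hs1 x =>
    (h d ε U hU hε s hs hs2 hs1 x).reindex (e d) (e' d)⟩

theorem Ex_XO {d : ℕ} {α β : ℝ} {U : E d → ℝ} (h : Pot α β U) {s : ℝ} (hs : 0 < s) (x : E d)
    {f : R d} (hf : f ∈ XO d) : Ex h hs x f = ev U 0 0 s x 0 f := by
  have := Ex_mul_XO h hs x 1 hf
  rwa [one_mul, Ex_one, one_mul] at this

theorem NN_bd {p q : ℕ} (h : Small (Fam.co.prod (Fam.pw p)) (Fam.co.prod (Fam.pw q))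
    (fun _ a c => TT p q a c)) : ∃ C : ℝ, 0 ≤ C ∧ ∀ (d : ℕ) (ε : ℝ) (U : E d → ℝ),
    Pot 0 ε U → ε ≤ 1 / 2 → ∀ s : ℝ, 1 / 2 ≤ s → s ≤ 1 → ∀ x : E d,
      Bd C (fun (a : Fin d × Pw d p) (c : Fin d × Pw d q) => ev U 0 0 s x 0 (NN p q a c)) := by
  obtain ⟨C, hC, h⟩ := h
  refine ⟨2 * 4 + 2 * C, by positivity, fun d ε U hU hε s hs2 hs1 x => ?_⟩
  have hs : 0 < s := by linarith
  have h1 : Bd C (fun (a : Fin d × Pw d p) (c : Fin d × Pw d q) =>
      -ev U 0 0 s x 0 (TT p q a c)) := by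
    have h0 : 0 ≤ ε := hU.le
    refine ((h d ε U hU hε s hs hs2 hs1 x).neg.mono ?_).congr fun a c => by
      rw [Ex_XO hU hs x (TT_mem_XO _ _ _ _)]
    have : ε ^ 2 ≤ 1 := by nlinarith
    nlinarith
  have hw : ∀ (i j k : Fin d), dx k (if i = j then ww else 0 : R d) = 0 := fun i j k => by
    split_ifs
    · exact dx_ww k
    · exact map_zero _
  have h2 : Bd 4 (fun (a : Fin d × Pw d p) (c : Fin d × Pw d q) =>
      ev U 0 0 s x 0 (dxs p a.2 (dxs q c.2 (if a.1 = c.1 then ww else 0)))) := by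
    cases q with
    | succ q =>
      refine (Bd.zero (by norm_num)).congr fun a c => ?_
      rw [dxs_const q c.2 (hw _ _), dxs_zero, map_zero]
    | zero =>
      cases p with
      | succ p =>
        refine (Bd.zero (by norm_num)).congr fun a c => ?_
        have : dxs 0 c.2 (if a.1 = c.1 then ww else 0 : R d) = if a.1 = c.1 then ww else 0 := rfl
        rw [this, dxs_const p a.2 (hw _ _), map_zero]
      | zero =>
        have e : ev U 0 0 s x 0 (ww : R d) = s⁻¹ := by simp only [ww, ev, aeval_X]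
        have k1 : s⁻¹ ≤ 2 := by rw [inv_le_comm₀ hs (by norm_num)]; linarith
        have k2 : s⁻¹ ^ 2 ≤ 2 ^ 2 := pow_le_pow_left₀ (by positivity) k1 2
        refine ((((Bd.id (A := Fin d)).smul s⁻¹).reindex (Equiv.prodPUnit _)
          (Equiv.prodPUnit _)).mono (by linarith)).congr fun a c => ?_
        show ev U 0 0 s x 0 (if a.1 = c.1 then ww else 0) = s⁻¹ * if a.1 = c.1 then 1 else 0
        split_ifs <;> simp [e]
  refine (h2.add h1).congr fun a c => ?_
  rw [NN, dxs_sub, dxs_sub, map_sub, sub_eq_add_neg, TT]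

/-- all flattenings of order below `N` are small -/
def Hyp (N : ℕ) : Prop := ∀ p q, p + q + 2 < N →
  Small (Fam.co.prod (Fam.pw p)) (Fam.co.prod (Fam.pw q)) (fun _ a c => TT p q a c)

theorem KK.pair {n : ℕ} {A B : Fam} {χ : ∀ d, A.T d → B.T d → R d} (h : KK n A B χ)
    (hn : Hyp n) (r : ℕ) : Small ((Fam.co.prod (Fam.pw r)).prod A) B
      (fun d a b => Phi r a.1 * χ d a.2 b) := by
  induction h with
  | zero n A B =>
    exact ⟨0, le_rfl, fun d ε U hU hε s hs hs2 hs1 x =>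
      (Bd.zero (by simp)).congr fun a b => by simp⟩
  | base q =>
    obtain ⟨C, hC, h1⟩ := L2_Phi r
    obtain ⟨C', hC', h2⟩ := L2_W q
    refine ⟨C * C', by positivity, fun d ε U hU hε s hs hs2 hs1 x => ?_⟩
    have : Bd (C * C' * ε ^ 2) (fun (a : Fin d × Pw d r) (b : Pw d q) =>
        Ex hU hs x (Phi r a * WWs q b 1)) := by
      refine Bd.of_bil (by positivity) fun v w => ?_
      have e : ∑ b, (∑ a, Ex hU hs x (Phi r a * WWs q b 1) * v a) * w b =
          Ex hU hs x ((∑ a, v a • Phi r a) * ∑ b, w b • WWs q b 1) := by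
        simp only [Finset.mul_sum, Finset.sum_mul, map_sum, mul_smul_comm, smul_mul_assoc,
          map_smul, smul_eq_mul]
        exact Finset.sum_congr rfl fun b _ => Finset.sum_congr rfl fun a _ => by ring
      rw [e]
      refine (Ex_cs hU hs x _ _).trans ((mul_le_mul (h1 d ε U hU s hs hs2 hs1 x v)
        (h2 d ε U hU s hs hs2 hs1 x w) (Ex_sq_nonneg hU hs x _)
        (mul_nonneg (by positivity) (sum_sq_nonneg v))).trans (le_of_eq (by ring)))
    exact this.reindex (Equiv.prodPUnit _) (Equiv.refl _)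
  | @tens n A B χ p q h ih =>
    rcases Nat.eq_zero_or_pos n with h0 | h0
    · refine ⟨0, le_rfl, fun d ε U hU hε s hs hs2 hs1 x =>
        (Bd.zero (by simp)).congr fun a b => ?_⟩
      rw [Ex_mul_XO hU hs x _ (mul_mem (h.mem_XO h0 d _ _) (NN_mem_XO _ _ _ _)),
        Ex_Phi hU hs hs1, zero_mul]
    · obtain ⟨C, hC, h1⟩ := ih (fun p' q' h' => hn p' q' (by omega))
      obtain ⟨C', hC', h2⟩ := NN_bd (hn p q (by omega))
      refine ⟨C * C', by positivity, fun d ε U hU hε s hs hs2 hs1 x => ?_⟩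
      refine ((((h1 d ε U hU hε s hs hs2 hs1 x).kron (h2 d ε U hU hε s hs2 hs1 x)
        (by positivity)).reindex (Equiv.prodAssoc _ _ _).symm (Equiv.refl _)).mono
          (le_of_eq (by ring))).congr fun a b => ?_
      show Ex hU hs x (Phi r a.1 * (χ d a.2.1 b.1 * NN p q a.2.2 b.2)) =
        Ex hU hs x (Phi r a.1 * χ d a.2.1 b.1) * ev U 0 0 s x 0 (NN p q a.2.2 b.2)
      rw [← mul_assoc, Ex_mul_XO hU hs x _ (NN_mem_XO _ _ _ _)]
  | add h h' ih ih' => exact ((ih hn).add (ih' hn)).congr fun d a b => mul_add _ _ _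
  | neg h ih =>
    obtain ⟨C, hC, h1⟩ := ih hn
    exact ⟨C, hC, fun d ε U hU hε s hs hs2 hs1 x =>
      (h1 d ε U hU hε s hs hs2 hs1 x).neg.congr fun a b => by simp only [mul_neg, map_neg]⟩
  | reindex h e e' ih =>
    exact (ih hn).reindex (A' := Fam.prod _ _) (fun d => conR _ (e d)) e'

/-- reindexing for the first Leibniz term -/
def shufC (K P A I Q : Type) : ((K × P) × A) × (I × Q) ≃ ((K × (I × P)) × A) × Q where
  toFun x := (((x.1.1.1, x.2.1, x.1.1.2), x.1.2), x.2.2)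
  invFun x := (((x.1.1.1, x.1.1.2.2), x.1.2), x.1.1.2.1, x.2)
  left_inv _ := rfl
  right_inv _ := rfl

/-- reindexing for the second Leibniz term -/
def shufD (K A I Q : Type) : (K × A) × (I × Q) ≃ (K × (I × A)) × Q where
  toFun x := ((x.1.1, x.2.1, x.1.2), x.2.2)
  invFun x := ((x.1.1, x.1.2.2), x.1.2.1, x.2)
  left_inv _ := rfl
  right_inv _ := rfl

theorem KK.main (p : ℕ) {n : ℕ} {A B : Fam} {χ : ∀ d, A.T d → B.T d → R d} (h : KK n A B χ)
    (hn : Hyp (n + p)) (r : ℕ) :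
    Small (((Fam.co.prod (Fam.pw r)).prod A).prod (Fam.pw p)) B
      (fun d a b => WWs p a.2 (Phi r a.1.1 * χ d a.1.2 b)) := by
  induction p generalizing n A χ r with
  | zero =>
    exact (h.pair hn r).reindex (A' := Fam.prod _ (Fam.pw 0)) (fun _ => Equiv.prodPUnit _)
      (fun _ => Equiv.refl _)
  | succ p ih =>
    refine (((ih h (fun p' q' h' => hn p' q' (by omega)) (r + 1)).reindex
      (A' := ((Fam.co.prod (Fam.pw r)).prod A).prod (Fam.pw (p + 1)))
      (fun _ => shufC _ _ _ _ _) (fun _ => Equiv.refl _)).add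
      ((ih h.dx (fun p' q' h' => hn p' q' (by omega)) r).reindex
      (fun _ => shufD _ _ _ _) (fun _ => Equiv.refl _))).congr fun d a b => ?_
    obtain ⟨⟨⟨k, c⟩, a⟩, i, e⟩ := a
    show WW i (WWs p e (Phi r (k, c) * χ d a b)) =
      WWs p e (WW i (Phi r (k, c)) * χ d a b) + WWs p e (Phi r (k, c) * Vale.Agent.P347.dx i (χ d a b))
    rw [WWs_WW, WW_mul, WWs_add]

/-- reindexing of the final statement -/
def shufE (K P : Type) : K × P ≃ ((K × Unit) × Unit) × P where
  toFun x := (((x.1, ()), ()), x.2)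
  invFun x := (x.1.1.1, x.2)
  left_inv _ := rfl
  right_inv _ := rfl

theorem small_TT (p q : ℕ) :
    Small (Fam.co.prod (Fam.pw p)) (Fam.co.prod (Fam.pw q)) (fun _ a c => TT p q a c) := by
  induction hN : p + q using Nat.strong_induction_on generalizing p q with
  | _ N ih =>
    obtain ⟨C, hC, h1⟩ := ((KK.base (q + 1)).main p
      (fun p' q' h' => ih (p' + q') (by omega) p' q' rfl) 0).reindex
      (A' := Fam.co.prod (Fam.pw p)) (B' := Fam.co.prod (Fam.pw q)) (fun _ => shufE _ _)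
      (fun _ => Equiv.refl _)
    refine ⟨C, hC, fun d ε U hU hε s hs hs2 hs1 x =>
      (h1 d ε U hU hε s hs hs2 hs1 x).congr fun a c => ?_⟩
    have r1 := (rep_G hU hs a.1).steps hs1 (q + 1) c
    have r2 : Rep hU hs (dxs q c.2 (H a.1 c.1)) ((gg a.1 - G a.1) * WWs (q + 1) c 1) := by
      intro y
      have e1 : dxs q c.2 (H a.1 c.1) = dxs (q + 1) c (G a.1) := (dx_dxs _ _ _ _).symm
      have e2 : WWs (q + 1) c (gg a.1) = WWs (q + 1) c 1 * gg a.1 := by
        simpa only [one_mul] using WWs_mul (q + 1) c 1 (fun i => dx_gg i a.1)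
      have e3 : WWs (q + 1) c (1 : R d) = WWs q c.2 (WW c.1 1) := WWs_WW _ _ _ _
      have e4 : Ex hU hs y (WWs (q + 1) c 1) = 0 := by
        rw [e3, Ex_WWs_zero hs1 (rep_WW_one hU hs hs1 _)]
      rw [e1, r1 y, e2, mul_comm (gg a.1 - G a.1), mul_sub, map_sub,
        Ex_mul_XO hU hs y _ (G_mem_XO _), e4, zero_mul, sub_zero]
    rw [Ex_XO hU hs x (TT_mem_XO _ _ _ _)]
    exact r2.steps hs1 p a.2 x

theorem flat_bound (p q : ℕ) : ∃ C : ℝ, ∀ (d : ℕ) (ε : ℝ) (U : E d → ℝ), Pot 0 ε U → ε ≤ 1 / 2 →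
    ∀ (b : ℝ × ℝ) (Z : E d × E d) (s : ℝ) (x u : E d), 1 / 2 ≤ s → s ≤ 1 →
    ∀ v : Fin d × Pw d p → ℝ,
      ∑ c : Fin d × Pw d q, (∑ a : Fin d × Pw d p, ev U b Z s x u (TT p q a c) * v a) ^ 2
        ≤ (C * ε) ^ 2 * ∑ a, v a ^ 2 := by
  obtain ⟨C, hC, h⟩ := small_TT p q
  refine ⟨√C, fun d ε U hU hε b Z s x u hs2 hs1 v => ?_⟩
  have hs : 0 < s := by linarith
  have h1 := h d ε U hU hε s hs hs2 hs1 x v
  simp only [Ex_XO hU hs x (TT_mem_XO _ _ _ _)] at h1
  simp only [ev_XO (TT_mem_XO _ _ _ _) b 0 Z 0 s x u 0, mul_pow, Real.sq_sqrt hC]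
  exact h1

end Vale.Agent.P347
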