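import Vale.Agent.P347.FormalDefs

/-! Index families and squared operator norm bounds of real matrices. -/

namespace Vale.Agent.P347

/-- a family of finite index types, one for each dimension -/
structure Fam where
  T : ℕ → Type
  fin : ∀ d, Fintype (T d)

instance (A : Fam) (d : ℕ) : Fintype (A.T d) := A.fin d

abbrev Fam.one : Fam := ⟨fun _ => Unit, fun _ => inferInstance⟩
abbrev Fam.co : Fam := ⟨fun d => Fin d, fun _ => inferInstance⟩
abbrev Fam.pw (p : ℕ) : Fam := ⟨fun d => Pw d p, fun _ => inferInstance⟩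
abbrev Fam.prod (A B : Fam) : Fam := ⟨fun d => A.T d × B.T d, fun _ => inferInstance⟩

theorem sum_Pw_succ {M : Type*} [AddCommMonoid M] {d p : ℕ} (f : Pw d (p + 1) → M) :
    ∑ a, f a = ∑ i : Fin d, ∑ a : Pw d p, f (i, a) :=
  Fintype.sum_prod_type (f := fun x : Fin d × Pw d p => f x)

theorem sum_Pw_zero {M : Type*} [AddCommMonoid M] {d : ℕ} (f : Pw d 0 → M) :
    ∑ a, f a = f () :=
  Fintype.sum_unique (f := fun x : Unit => f x)

variable {A B A' B' : Type*} [Fintype A] [Fintype B] [Fintype A'] [Fintype B']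

/-- the squared operator norm of `M` is at most `K` -/
def Bd (K : ℝ) (M : A → B → ℝ) : Prop :=
  ∀ v : A → ℝ, ∑ b, (∑ a, M a b * v a) ^ 2 ≤ K * ∑ a, v a ^ 2

theorem sum_sq_nonneg (v : A → ℝ) : 0 ≤ ∑ a, v a ^ 2 := Finset.sum_nonneg fun _ _ => sq_nonneg _

theorem Bd.mono {K K' : ℝ} {M : A → B → ℝ} (h : Bd K M) (hK : K ≤ K') : Bd K' M := fun v =>
  (h v).trans (mul_le_mul_of_nonneg_right hK (sum_sq_nonneg v))

theorem Bd.congr {K : ℝ} {M N : A → B → ℝ} (h : Bd K M) (e : ∀ a b, N a b = M a b) : Bd K N := by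
  have : N = M := by funext a b; exact e a b
  rwa [this]

theorem Bd.zero {K : ℝ} (hK : 0 ≤ K) : Bd K (fun (_ : A) (_ : B) => (0 : ℝ)) := fun v => by
  simpa using mul_nonneg hK (sum_sq_nonneg v)

theorem Bd.add {K K' : ℝ} {M N : A → B → ℝ} (h : Bd K M) (h' : Bd K' N) :
    Bd (2 * K + 2 * K') (fun a b => M a b + N a b) := fun v => by
  have h1 := h v
  have h2 := h' v
  have h3 : ∑ b, (∑ a, (M a b + N a b) * v a) ^ 2 ≤
      ∑ b, (2 * (∑ a, M a b * v a) ^ 2 + 2 * (∑ a, N a b * v a) ^ 2) := by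
    refine Finset.sum_le_sum fun b _ => ?_
    simp only [add_mul, Finset.sum_add_distrib]
    nlinarith [sq_nonneg ((∑ a, M a b * v a) - ∑ a, N a b * v a)]
  rw [Finset.sum_add_distrib, ← Finset.mul_sum, ← Finset.mul_sum] at h3
  linarith

theorem Bd.smul {K : ℝ} {M : A → B → ℝ} (h : Bd K M) (c : ℝ) :
    Bd (c ^ 2 * K) (fun a b => c * M a b) := fun v => by
  have h1 := mul_le_mul_of_nonneg_left (h v) (sq_nonneg c)
  simp only [mul_assoc, ← Finset.mul_sum, mul_pow]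
  exact h1

theorem Bd.neg {K : ℝ} {M : A → B → ℝ} (h : Bd K M) : Bd K (fun a b => -M a b) := by
  simpa using h.smul (-1)

theorem Bd.reindex {K : ℝ} {M : A → B → ℝ} (h : Bd K M) (e : A' ≃ A) (e' : B' ≃ B) :
    Bd K (fun a b => M (e a) (e' b)) := fun v => by
  have h1 := h (fun a => v (e.symm a))
  rw [← e'.sum_comp, ← e.sum_comp (fun a => v (e.symm a) ^ 2)] at h1
  simp only [← e.sum_comp (fun a => M a _ * v (e.symm a)), Equiv.symm_apply_apply] at h1
  exact h1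

theorem Bd.id [DecidableEq A] : Bd 1 (fun a b : A => if a = b then (1 : ℝ) else 0) := fun v => by
  simp

theorem Bd.kron {K K' : ℝ} {M : A → B → ℝ} {N : A' → B' → ℝ} (h : Bd K M) (h' : Bd K' N)
    (hK : 0 ≤ K) : Bd (K * K') (fun (a : A × A') (b : B × B') => M a.1 b.1 * N a.2 b.2) := fun v => by
  rw [Fintype.sum_prod_type_right, Fintype.sum_prod_type]
  have e : ∀ (b : B) (b' : B'), ∑ a : A × A', M a.1 b * N a.2 b' * v a =
      ∑ a, M a b * ∑ a', N a' b' * v (a, a') := by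
    intro b b'
    simp only [Fintype.sum_prod_type, Finset.mul_sum, mul_assoc]
  simp only [e]
  calc ∑ b', ∑ b, (∑ a, M a b * ∑ a', N a' b' * v (a, a')) ^ 2
      ≤ ∑ b', K * ∑ a, (∑ a', N a' b' * v (a, a')) ^ 2 := Finset.sum_le_sum fun b' _ => h _
    _ = K * ∑ a, ∑ b', (∑ a', N a' b' * v (a, a')) ^ 2 := by
        rw [← Finset.mul_sum, Finset.sum_comm]
    _ ≤ K * ∑ a, K' * ∑ a', v (a, a') ^ 2 :=
        mul_le_mul_of_nonneg_left (Finset.sum_le_sum fun a _ => h' _) hK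
    _ = _ := by rw [← Finset.mul_sum, mul_assoc]

theorem Bd.mul {K K' : ℝ} {M : A → B → ℝ} {N : B → B' → ℝ} (h : Bd K M) (h' : Bd K' N)
    (hK : 0 ≤ K') : Bd (K' * K) (fun a c => ∑ b, M a b * N b c) := fun v => by
  have e : ∀ c, ∑ a, (∑ b, M a b * N b c) * v a = ∑ b, N b c * ∑ a, M a b * v a := by
    intro c
    simp only [Finset.sum_mul, Finset.mul_sum]
    rw [Finset.sum_comm]
    exact Finset.sum_congr rfl fun b _ => Finset.sum_congr rfl fun a _ => by ring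
  simp only [e]
  rw [mul_assoc]
  exact (h' _).trans (mul_le_mul_of_nonneg_left (h v) hK)

theorem Bd.of_bil {K : ℝ} {M : A → B → ℝ} (hK : 0 ≤ K)
    (h : ∀ (v : A → ℝ) (w : B → ℝ),
      (∑ b, (∑ a, M a b * v a) * w b) ^ 2 ≤ K * (∑ a, v a ^ 2) * ∑ b, w b ^ 2) : Bd K M := fun v => by
  have h1 := h v (fun b => ∑ a, M a b * v a)
  simp only [← sq] at h1
  have h2 := sum_sq_nonneg (fun b => ∑ a, M a b * v a)
  rcases h2.eq_or_lt with h3 | h3
  · rw [← h3]; exact mul_nonneg hK (sum_sq_nonneg v)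
  · rw [sq] at h1
    exact le_of_mul_le_mul_right h1 h3

theorem Bd.bil {K : ℝ} {M : A → B → ℝ} (h : Bd K M) (v : A → ℝ) (w : B → ℝ) :
    (∑ b, (∑ a, M a b * v a) * w b) ^ 2 ≤ K * (∑ a, v a ^ 2) * ∑ b, w b ^ 2 :=
  (Finset.sum_mul_sq_le_sq_mul_sq _ _ _).trans
    (mul_le_mul_of_nonneg_right (h v) (sum_sq_nonneg w))

theorem Bd.transpose {K : ℝ} {M : A → B → ℝ} (h : Bd K M) (hK : 0 ≤ K) :
    Bd K (fun b a => M a b) := by
  refine Bd.of_bil hK fun v w => ?_
  have e : ∑ a, (∑ b, M a b * v b) * w a = ∑ b, (∑ a, M a b * w a) * v b := by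
    simp only [Finset.sum_mul]
    rw [Finset.sum_comm]
    exact Finset.sum_congr rfl fun b _ => Finset.sum_congr rfl fun a _ => by ring
  rw [e, mul_right_comm]
  exact h.bil w v

end Vale.Agent.P347
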