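import Vale.Agent.P347.Ev
import Vale.Agent.P347.TiltEst
import Vale.Agent.P347.FlatBd

/-! Tilted expectations of formal elements, Wick polynomials and their `L²` bounds. -/

open MeasureTheory ProbabilityTheory MvPolynomial

namespace Vale.Agent.P347

variable {d : ℕ} {α β : ℝ} {U : E d → ℝ}

theorem integrable_ev (h : Pot α β U) {s : ℝ} (hs : 0 < s) (x : E d) (P : R d) :
    Integrable (fun u => ev U 0 0 s x u P) (tilt U s x) :=
  h.integrable_tilt hs x (pg_ev_u h P 0 0 s x) (continuous_ev_u h P 0 0 s x).aestronglyMeasurable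

/-- tilted expectation of a formal element -/
noncomputable def Ex (h : Pot α β U) {s : ℝ} (hs : 0 < s) (x : E d) : R d →ₗ[ℝ] ℝ where
  toFun P := ∫ u, ev U 0 0 s x u P ∂(tilt U s x)
  map_add' P Q := by
    simp only [map_add]
    exact integral_add (integrable_ev h hs x P) (integrable_ev h hs x Q)
  map_smul' c P := by
    simp only [map_smul, smul_eq_mul, RingHom.id_apply]
    exact integral_const_mul _ _

theorem Ex_apply (h : Pot α β U) {s : ℝ} (hs : 0 < s) (x : E d) (P : R d) :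
    Ex h hs x P = ∫ u, ev U 0 0 s x u P ∂(tilt U s x) := rfl

theorem Ex_mul_XO (h : Pot α β U) {s : ℝ} (hs : 0 < s) (x : E d) (P : R d) {f : R d}
    (hf : f ∈ XO d) : Ex h hs x (P * f) = Ex h hs x P * ev U 0 0 s x 0 f := by
  simp only [Ex_apply, map_mul]
  rw [← integral_mul_const]
  exact integral_congr_ae (Filter.Eventually.of_forall fun u => by
    simp only [ev_XO hf 0 0 0 0 s x u 0])

theorem Ex_one (h : Pot α β U) {s : ℝ} (hs : 0 < s) (x : E d) : Ex h hs x 1 = 1 := by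
  have := h.isProb_tilt hs x
  simp [Ex_apply]

theorem Ex_sq_nonneg (h : Pot α β U) {s : ℝ} (hs : 0 < s) (x : E d) (P : R d) :
    0 ≤ Ex h hs x (P ^ 2) := by
  simp only [Ex_apply, map_pow]
  exact integral_nonneg fun u => sq_nonneg _

theorem Ex_cs (h : Pot α β U) {s : ℝ} (hs : 0 < s) (x : E d) (P Q : R d) :
    Ex h hs x (P * Q) ^ 2 ≤ Ex h hs x (P ^ 2) * Ex h hs x (Q ^ 2) := by
  have key : ∀ t : ℝ, 0 ≤ Ex h hs x (Q ^ 2) * (t * t) + 2 * Ex h hs x (P * Q) * t +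
      Ex h hs x (P ^ 2) := by
    intro t
    have h1 := Ex_sq_nonneg h hs x (P + t • Q)
    have e : (P + t • Q) ^ 2 = (t * t) • Q ^ 2 + (2 * t) • (P * Q) + P ^ 2 := by
      simp only [smul_eq_C_mul, map_mul, map_ofNat]; ring
    rw [e] at h1
    simp only [map_add, map_smul, smul_eq_mul] at h1
    linarith
  have := discrim_le_zero key
  rw [discrim] at this
  nlinarith

/-- `a` is represented as the tilted expectation of `P` -/
def Rep (h : Pot α β U) {s : ℝ} (hs : 0 < s) (a P : R d) : Prop :=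
  ∀ x, ev U 0 0 s x 0 a = Ex h hs x P

theorem Rep.step {h : Pot α β U} {s : ℝ} {hs : 0 < s} (hs1 : s ≤ 1) {a P : R d}
    (hr : Rep h hs a P) (i : Fin d) : Rep h hs (dx i a) (WW i P) := by
  intro x
  have h1 := hasDerivAt_ev_x h a 0 0 hs x (EuclideanSpace.single i (1 : ℝ)) 0 0
  have h2 := hasDerivAt_integral_ev h P 0 0 (by simp) hs hs1 x i
  simp only [hr _, Ex_apply] at h1
  have h3 := h1.unique h2
  rw [Ex_apply, ← h3]
  simp

/-- iterated `WW` along a tuple -/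
noncomputable def WWs : (p : ℕ) → Pw d p → R d → R d
  | 0, _, f => f
  | p + 1, a, f => WW a.1 (WWs p a.2 f)

theorem WWs_succ (p : ℕ) (i : Fin d) (a : Pw d p) (f : R d) :
    WWs (p + 1) ((i, a) : Fin d × Pw d p) f = WW i (WWs p a f) := rfl

theorem WWs_WW (i : Fin d) (p : ℕ) (a : Pw d p) (f : R d) :
    WW i (WWs p a f) = WWs p a (WW i f) := by
  induction p with
  | zero => rfl
  | succ p ih =>
    show WW i (WW a.1 (WWs p a.2 f)) = WW a.1 (WWs p a.2 (WW i f))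
    rw [WW_comm, ih]

theorem WWs_add (p : ℕ) (a : Pw d p) (f g : R d) : WWs p a (f + g) = WWs p a f + WWs p a g := by
  induction p with
  | zero => rfl
  | succ p ih =>
    show WW a.1 (WWs p a.2 (f + g)) = WW a.1 (WWs p a.2 f) + WW a.1 (WWs p a.2 g)
    rw [ih, WW_add]

theorem WWs_mul (p : ℕ) (a : Pw d p) (f : R d) {g : R d} (hg : ∀ i, dx i g = 0) :
    WWs p a (f * g) = WWs p a f * g := by
  induction p with
  | zero => rfl
  | succ p ih =>
    show WW a.1 (WWs p a.2 (f * g)) = WW a.1 (WWs p a.2 f) * g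
    rw [ih, WW_mul, hg, mul_zero, add_zero]

theorem WWs_mem_GF (p : ℕ) (a : Pw d p) {f : R d} (hf : f ∈ GF d) : WWs p a f ∈ GF d := by
  induction p with
  | zero => exact hf
  | succ p ih => exact WW_mem_GF _ (ih a.2)

theorem Rep.steps {h : Pot α β U} {s : ℝ} {hs : 0 < s} (hs1 : s ≤ 1) {a P : R d}
    (hr : Rep h hs a P) (p : ℕ) (c : Pw d p) : Rep h hs (dxs p c a) (WWs p c P) := by
  induction p with
  | zero => exact hr
  | succ p ih => exact (ih c.2).step hs1 c.1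

theorem dxs_zero (p : ℕ) (c : Pw d p) : dxs p c (0 : R d) = 0 := by
  induction p with
  | zero => rfl
  | succ p ih => show dx c.1 (dxs p c.2 0) = 0; rw [ih, map_zero]

theorem Ex_WWs_zero {h : Pot α β U} {s : ℝ} {hs : 0 < s} (hs1 : s ≤ 1) {P : R d}
    (hr : Rep h hs 0 P) (p : ℕ) (c : Pw d p) (x : E d) : Ex h hs x (WWs p c P) = 0 := by
  rw [← hr.steps hs1 p c x, dxs_zero, map_zero]

theorem rep_G (h : Pot α β U) {s : ℝ} (hs : 0 < s) (k : Fin d) : Rep h hs (G k) (gg k) := by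
  intro x
  rw [ev_G h 0 0 hs, ← h.integral_grad_tilt hs x, Ex_apply]
  have hi : Integrable (gradient U) (tilt U s x) := by
    refine h.integrable_tilt_vec hs x ?_ h.contDiff_grad.continuous.aestronglyMeasurable
    refine ((PG.const β).mul PG.norm).of_le fun u => ?_
    rw [abs_norm]
    exact (h.norm_grad_le u).trans (le_abs_self _)
  have := (EuclideanSpace.proj k : E d →L[ℝ] ℝ).integral_comp_comm hi
  simp only [gg, ev, aeval_X]
  exact this.symm

theorem rep_psi (h : Pot α β U) {s : ℝ} (hs : 0 < s) (k : Fin d) : Rep h hs 0 (gg k - G k) := by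
  intro x
  have := Ex_mul_XO h hs x 1 (G_mem_XO k)
  rw [one_mul, Ex_one, one_mul] at this
  rw [map_sub, ← rep_G h hs k x, this, map_zero, sub_self]

theorem rep_WW_one (h : Pot α β U) {s : ℝ} (hs : 0 < s) (hs1 : s ≤ 1) (i : Fin d) :
    Rep h hs 0 (WW i 1) := by
  have : Rep h hs 1 1 := fun x => by rw [Ex_one, map_one]
  simpa using this.step hs1 i

theorem WW_zero (i : Fin d) : WW i (0 : R d) = 0 := by simp [WW]

theorem WW_sum {ι : Type*} (i : Fin d) (t : Finset ι) (f : ι → R d) :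
    WW i (∑ k ∈ t, f k) = ∑ k ∈ t, WW i (f k) := by
  simp only [WW, map_sum, Finset.sum_mul, Finset.sum_add_distrib]

theorem WW_ww_mul (i : Fin d) (f : R d) : WW i (ww * f) = ww * WW i f := by
  rw [mul_comm, WW_mul, dx_ww]; ring

/-- the gradient of a combination of Wick polynomials -/
theorem du_WWs (p : ℕ) (c : Pw d (p + 1) → ℝ) : ∃ γ : Fin d → Pw d p → ℝ,
    ∑ j, ∑ a, γ j a ^ 2 ≤ 4 ^ p * ∑ a, c a ^ 2 ∧ ∀ f : R d, (∀ j, du j f = 0) → ∀ j,
      du j (∑ a, c a • WWs (p + 1) a f) = ww * ∑ a, γ j a • WWs p a f := by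
  induction p with
  | zero =>
    refine ⟨fun j a => c (j, a), by rw [sum_Pw_succ]; simp, fun f hf j => ?_⟩
    rw [sum_Pw_succ]
    simp only [sum_Pw_zero, map_sum, Derivation.map_smul, WWs, du_WW, hf, WW_zero, zero_add]
    simp
  | succ p ih =>
    choose γ h1 h2 using fun i : Fin d => ih (fun a => c (i, a))
    refine ⟨fun j a => γ a.1 j a.2 + c (j, a), ?_, fun f hf j => ?_⟩
    · have e1 : ∑ j, ∑ a : Pw d (p + 1), (γ a.1 j a.2 + c (j, a)) ^ 2 ≤
          ∑ j, ∑ a : Pw d (p + 1), (2 * γ a.1 j a.2 ^ 2 + 2 * c (j, a) ^ 2) :=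
        Finset.sum_le_sum fun j _ => Finset.sum_le_sum fun a _ => by
          nlinarith [sq_nonneg (γ a.1 j a.2 - c (j, a))]
      simp only [Finset.sum_add_distrib, ← Finset.mul_sum] at e1
      have e2 : ∑ j, ∑ a : Pw d (p + 1), γ a.1 j a.2 ^ 2 ≤ 4 ^ p * ∑ a, c a ^ 2 := by
        simp only [sum_Pw_succ (p := p)]
        rw [Finset.sum_comm, sum_Pw_succ (p := p + 1), Finset.mul_sum]
        exact Finset.sum_le_sum fun i _ => h1 i
      have e3 : ∑ j, ∑ a : Pw d (p + 1), c (j, a) ^ 2 = ∑ a, c a ^ 2 :=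
        (sum_Pw_succ (p := p + 1) (fun a => c a ^ 2)).symm
      have e4 := sum_sq_nonneg c
      have e5 : (1 : ℝ) ≤ 4 ^ p := one_le_pow₀ (by norm_num)
      rw [e3] at e1
      rw [pow_succ]
      nlinarith
    · rw [sum_Pw_succ (p := p + 1)]
      have e1 : ∀ i, ∑ a : Pw d (p + 1), c (i, a) • WWs (p + 1 + 1) ((i, a) : Fin d × Pw d (p + 1)) f =
          WW i (∑ a, c (i, a) • WWs (p + 1) a f) := by
        intro i
        simp only [WW_sum, WW_smul, WWs_succ]
      simp only [e1, map_sum, du_WW, h2 _ f hf j, Finset.sum_add_distrib, Finset.sum_ite_eq',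
        Finset.mem_univ, if_true, WW_ww_mul, add_smul, mul_add]
      congr 1
      rw [sum_Pw_succ (p := p), ← Finset.mul_sum]
      simp only [WW_sum, WW_smul, WWs_succ]

theorem ev_gg (b : ℝ × ℝ) (Z : E d × E d) (s : ℝ) (x u : E d) (k : Fin d) :
    ev U b Z s x u (gg k) = gradient U u k := by simp only [gg, ev, aeval_X]

theorem du_gg (j k : Fin d) : du j (gg k) = 0 := by simp [du, gg, pderiv_X]

/-- Poincare inequality for formal elements that are affine in the gradient -/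
theorem Ex_poincare {ε : ℝ} (h : Pot 0 ε U) {s : ℝ} (hs : 0 < s) (hs1 : s ≤ 1) (x : E d)
    {P : Fin d → R d} {Q F : R d} (hP : ∀ k, P k ∈ GF d) (hQ : Q ∈ GF d)
    (hF : F = ∑ k, gg k * P k + Q) (h0 : Ex h hs x F = 0) :
    Ex h hs x (F ^ 2) ≤ 2 * ε ^ 2 * ∑ k, Ex h hs x (P k ^ 2) + 2 * ∑ j, Ex h hs x (du j F ^ 2) := by
  have hg : ∀ k, ContDiff ℝ 1 fun u => gradient U u k := fun k =>
    (EuclideanSpace.proj k : E d →L[ℝ] ℝ).contDiff.comp h.contDiff_grad
  have e0 : (fun u => ev U 0 0 s x u F) =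
      fun u => ∑ k, gradient U u k * ev U 0 0 s x u (P k) + ev U 0 0 s x u Q := by
    funext u
    simp only [hF, map_add, map_sum, map_mul, ev_gg]
  have hc : ContDiff ℝ 1 fun u => ev U 0 0 s x u F := by
    rw [e0]
    exact (ContDiff.sum fun k _ => (hg k).mul (contDiff_ev_u (hP k) 0 0 s x)).add
      (contDiff_ev_u hQ 0 0 s x)
  have hd : ∀ u v : E d, fderiv ℝ (fun u => ev U 0 0 s x u F) u v =
      ∑ k, (fderiv ℝ (gradient U) u v) k * ev U 0 0 s x u (P k) +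
        ∑ j, v j * ev U 0 0 s x u (du j F) := by
    intro u v
    have a1 : ∀ k, HasFDerivAt (fun u => gradient U u k)
        ((EuclideanSpace.proj k : E d →L[ℝ] ℝ).comp (fderiv ℝ (gradient U) u)) u := fun k =>
      (EuclideanSpace.proj k : E d →L[ℝ] ℝ).hasFDerivAt.comp u
        (h.contDiff_grad.differentiable one_ne_zero u).hasFDerivAt
    have a2 : ∀ {T : R d}, T ∈ GF d → HasFDerivAt (fun u => ev U 0 0 s x u T)
        (fderiv ℝ (fun u => ev U 0 0 s x u T) u) u := fun hT =>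
      ((contDiff_ev_u hT 0 0 s x).differentiable one_ne_zero u).hasFDerivAt
    have a3 := (HasFDerivAt.fun_sum (u := Finset.univ) fun k _ => (a1 k).fun_mul (a2 (hP k))).fun_add
      (a2 hQ)
    rw [e0, a3.fderiv]
    simp only [add_apply, sum_apply, smul_apply,
      ContinuousLinearMap.comp_apply, smul_eq_mul,
      fderiv_ev_u (hP _), fderiv_ev_u hQ, hF, map_add, map_sum, Derivation.leibniz, du_gg,
      map_mul, ev_gg, mul_zero, add_zero, Finset.sum_add_distrib, mul_add, Finset.mul_sum]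
    rw [Finset.sum_comm (f := fun j k => v j * (gradient U u k * ev U 0 0 s x u (du j (P k))))]
    have : ∀ k, (EuclideanSpace.proj k : E d →L[ℝ] ℝ) (fderiv ℝ (gradient U) u v) =
      (fderiv ℝ (gradient U) u v) k := fun k => rfl
    simp only [this, mul_comm, mul_left_comm]
    ring
  set T : R d := (2 * ε ^ 2) • ∑ k, P k ^ 2 + (2 : ℝ) • ∑ j, du j F ^ 2 with hT
  have hn : ∀ u, ‖fderiv ℝ (fun u => ev U 0 0 s x u F) u‖ ^ 2 ≤ ev U 0 0 s x u T := by
    intro u
    have b0 : ev U 0 0 s x u T = 2 * ε ^ 2 * ∑ k, ev U 0 0 s x u (P k) ^ 2 +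
        2 * ∑ j, ev U 0 0 s x u (du j F) ^ 2 := by
      simp only [hT, map_add, map_smul, map_sum, map_pow, smul_eq_mul]
    have b1 := sum_sq_nonneg fun k => ev U 0 0 s x u (P k)
    have b2 := sum_sq_nonneg fun j => ev U 0 0 s x u (du j F)
    have b3 : 0 ≤ ev U 0 0 s x u T := by rw [b0]; positivity
    rw [← Real.le_sqrt (norm_nonneg _) b3]
    refine ContinuousLinearMap.opNorm_le_bound _ (Real.sqrt_nonneg _) fun v => ?_
    rw [← sq_le_sq₀ (norm_nonneg _) (by positivity), mul_pow, Real.sq_sqrt b3, Real.norm_eq_abs,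
      sq_abs, hd, b0]
    have c1 := Finset.sum_mul_sq_le_sq_mul_sq Finset.univ
      (fun k => (fderiv ℝ (gradient U) u v) k) (fun k => ev U 0 0 s x u (P k))
    have c2 := Finset.sum_mul_sq_le_sq_mul_sq Finset.univ (fun j => v j)
      (fun j => ev U 0 0 s x u (du j F))
    rw [← EuclideanSpace.real_norm_sq_eq] at c1 c2
    have c3 : ‖fderiv ℝ (gradient U) u v‖ ≤ ε * ‖v‖ :=
      ((fderiv ℝ (gradient U) u).le_opNorm v).trans
        (mul_le_mul_of_nonneg_right (h.norm_fderiv_grad_le u) (norm_nonneg _))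
    have c4 : ‖fderiv ℝ (gradient U) u v‖ ^ 2 ≤ ε ^ 2 * ‖v‖ ^ 2 := by
      rw [← mul_pow]; exact pow_le_pow_left₀ (norm_nonneg _) c3 2
    have c5 := mul_le_mul_of_nonneg_right c4 b1
    nlinarith [sq_nonneg ((∑ k, (fderiv ℝ (gradient U) u v) k * ev U 0 0 s x u (P k)) -
      ∑ j, v j * ev U 0 0 s x u (du j F))]
  have hpg : PG fun u => ‖fderiv ℝ (fun u => ev U 0 0 s x u F) u‖ := by
    refine ((PG.const 1).add (pg_ev_u h T 0 0 s x)).of_le fun u => ?_
    have := hn u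
    rw [abs_norm]
    refine le_trans ?_ (le_abs_self _)
    nlinarith [sq_nonneg (‖fderiv ℝ (fun u => ev U 0 0 s x u F) u‖ - 1),
      sq_nonneg ‖fderiv ℝ (fun u => ev U 0 0 s x u F) u‖]
  have k1 := h.poincare_tilt hs x hc (pg_ev_u h F 0 0 s x) hpg
  have k2 : ∫ u, ‖fderiv ℝ (fun u => ev U 0 0 s x u F) u‖ ^ 2 ∂(tilt U s x) ≤ Ex h hs x T :=
    integral_mono_of_nonneg (Filter.Eventually.of_forall fun u => sq_nonneg _)
      (integrable_ev h hs x T) (Filter.Eventually.of_forall hn)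
  have k3 : 0 ≤ ∫ u, ‖fderiv ℝ (fun u => ev U 0 0 s x u F) u‖ ^ 2 ∂(tilt U s x) :=
    integral_nonneg fun u => sq_nonneg _
  rw [← Ex_apply h hs, h0] at k1
  have k4 : Ex h hs x (F ^ 2) = ∫ u, ev U 0 0 s x u F ^ 2 ∂(tilt U s x) := by
    simp only [Ex_apply, map_pow]
  simp only [hT, map_add, map_smul, map_sum, smul_eq_mul] at k2
  nlinarith

theorem Ex_ww_sq (h : Pot α β U) {s : ℝ} (hs : 0 < s) (hs2 : 1 / 2 ≤ s) (x : E d) (P : R d) :
    Ex h hs x ((ww * P) ^ 2) ≤ 4 * Ex h hs x (P ^ 2) := by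
  rw [mul_pow, mul_comm, Ex_mul_XO h hs x _ (pow_mem ww_mem_XO 2), map_pow (ev U 0 0 s x 0)]
  have e : ev U 0 0 s x 0 (ww : R d) = s⁻¹ := by simp only [ww, ev, aeval_X]
  have h1 : s⁻¹ ≤ 2 := by rw [inv_le_comm₀ hs (by norm_num)]; linarith
  have h2 : s⁻¹ ^ 2 ≤ 2 ^ 2 := pow_le_pow_left₀ (by positivity) h1 2
  rw [e]
  nlinarith [Ex_sq_nonneg h hs x P]

theorem L2_W (q : ℕ) : ∃ C : ℝ, 0 ≤ C ∧ ∀ (d : ℕ) (ε : ℝ) (U : E d → ℝ) (h : Pot 0 ε U) (s : ℝ)
    (hs : 0 < s), 1 / 2 ≤ s → s ≤ 1 → ∀ (x : E d) (c : Pw d q → ℝ),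
      Ex h hs x ((∑ a, c a • WWs q a 1) ^ 2) ≤ C * ∑ a, c a ^ 2 := by
  induction q with
  | zero =>
    refine ⟨1, zero_le_one, fun d ε U h s hs _ _ x c => ?_⟩
    simp [sum_Pw_zero, WWs, smul_pow, Ex_one]
  | succ q ih =>
    obtain ⟨C, hC, ih⟩ := ih
    refine ⟨8 * C * 4 ^ q, by positivity, fun d ε U h s hs hs2 hs1 x c => ?_⟩
    obtain ⟨γ, h1, h2⟩ := du_WWs q c
    have h3 := Ex_poincare h hs hs1 x (P := fun _ => 0) (F := ∑ a, c a • WWs (q + 1) a 1)
      (Q := ∑ a, c a • WWs (q + 1) a 1)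
      (fun _ => zero_mem _) (sum_mem fun a _ => Subalgebra.smul_mem _
        (WWs_mem_GF (q + 1) a (one_mem _)) (c a)) (by simp) (by
        rw [map_sum]
        refine Finset.sum_eq_zero fun a _ => ?_
        have : WWs (q + 1) a (1 : R d) = WWs q a.2 (WW a.1 1) := WWs_WW _ _ _ _
        rw [map_smul, this, Ex_WWs_zero hs1 (rep_WW_one h hs hs1 _), smul_zero])
    have h4 : ∑ j, Ex h hs x (du j (∑ a, c a • WWs (q + 1) a 1) ^ 2) ≤
        ∑ j, 4 * (C * ∑ a, γ j a ^ 2) := by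
      refine Finset.sum_le_sum fun j _ => ?_
      rw [h2 1 (fun j => by simp) j]
      exact (Ex_ww_sq h hs hs2 x _).trans
        (mul_le_mul_of_nonneg_left (ih d ε U h s hs hs2 hs1 x _) (by norm_num))
    rw [← Finset.mul_sum, ← Finset.mul_sum] at h4
    have h5 := mul_le_mul_of_nonneg_left h1 hC
    simp only [ne_eq, OfNat.ofNat_ne_zero, not_false_eq_true, zero_pow, map_zero,
      Finset.sum_const_zero, mul_zero, zero_add] at h3
    linarith

/-- the centred gradient raised along a tuple -/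
noncomputable def Phi (r : ℕ) (a : Fin d × Pw d r) : R d := WWs r a.2 (gg a.1 - G a.1)

theorem Ex_Phi (h : Pot α β U) {s : ℝ} (hs : 0 < s) (hs1 : s ≤ 1) (x : E d) (r : ℕ)
    (a : Fin d × Pw d r) : Ex h hs x (Phi r a) = 0 :=
  Ex_WWs_zero hs1 (rep_psi h hs _) _ _ _

theorem L2_Phi (r : ℕ) : ∃ C : ℝ, 0 ≤ C ∧ ∀ (d : ℕ) (ε : ℝ) (U : E d → ℝ) (h : Pot 0 ε U) (s : ℝ)
    (hs : 0 < s), 1 / 2 ≤ s → s ≤ 1 → ∀ (x : E d) (c : Fin d × Pw d r → ℝ),
      Ex h hs x ((∑ a, c a • Phi r a) ^ 2) ≤ C * ε ^ 2 * ∑ a, c a ^ 2 := by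
  have key : ∀ r : ℕ, ∃ C : ℝ, 0 ≤ C ∧ ∀ (d : ℕ) (ε : ℝ) (U : E d → ℝ) (h : Pot 0 ε U) (s : ℝ)
      (hs : 0 < s), 1 / 2 ≤ s → s ≤ 1 → ∀ (x : E d) (c : Fin d × Pw d r → ℝ),
      Ex h hs x ((∑ a, c a • Phi r a) ^ 2) ≤ C * ε ^ 2 * ∑ a, c a ^ 2 +
        2 * ∑ j, Ex h hs x (du j (∑ a, c a • Phi r a) ^ 2) := by
    intro r
    obtain ⟨C, hC, hW⟩ := L2_W r
    refine ⟨2 * C, by positivity, fun d ε U h s hs hs2 hs1 x c => ?_⟩
    have h3 := Ex_poincare h hs hs1 x (P := fun k => ∑ a, c (k, a) • WWs r a 1)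
      (Q := ∑ a : Fin d × Pw d r, c a • WWs r a.2 (-G a.1)) (F := ∑ a, c a • Phi r a)
      (fun k => sum_mem fun a _ => Subalgebra.smul_mem _ (WWs_mem_GF r a (one_mem _)) _)
      (sum_mem fun a _ => Subalgebra.smul_mem _
        (WWs_mem_GF r a.2 (neg_mem (XO_le_GF (G_mem_XO _)))) _) (by
        have e : ∀ a : Fin d × Pw d r, Phi r a = gg a.1 * WWs r a.2 1 + WWs r a.2 (-G a.1) := by
          intro a
          rw [Phi, sub_eq_add_neg, WWs_add, mul_comm, ← WWs_mul _ _ _ (fun i => dx_gg i _), one_mul]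
        simp only [e, smul_add, Finset.sum_add_distrib, Finset.mul_sum, mul_smul_comm]
        rw [Fintype.sum_prod_type]) (by
        rw [map_sum]
        exact Finset.sum_eq_zero fun a _ => by rw [map_smul, Ex_Phi h hs hs1, smul_zero])
    have h4 : ∑ k, Ex h hs x ((∑ a, c (k, a) • WWs r a 1) ^ 2) ≤ ∑ k, C * ∑ a, c (k, a) ^ 2 :=
      Finset.sum_le_sum fun k _ => hW d ε U h s hs hs2 hs1 x _
    rw [← Finset.mul_sum, ← Fintype.sum_prod_type (f := fun a : Fin d × Pw d r => c a ^ 2)] at h4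
    have h5 := mul_le_mul_of_nonneg_left h4 (sq_nonneg ε)
    linarith
  have hpsi : ∀ (d : ℕ) (k j : Fin d), du j (gg k - G k) = 0 := fun d k j => by
    rw [map_sub, du_gg, du_XO j (G_mem_XO k), sub_self]
  induction r with
  | zero =>
    obtain ⟨C, hC, h1⟩ := key 0
    refine ⟨C, hC, fun d ε U h s hs hs2 hs1 x c => ?_⟩
    have h2 := h1 d ε U h s hs hs2 hs1 x c
    have e : ∀ j, du j (∑ a, c a • Phi 0 a) = 0 := fun j => by
      simp only [map_sum, Derivation.map_smul, Phi, WWs, hpsi, smul_zero, Finset.sum_const_zero]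
    simpa [e] using h2
  | succ r ih =>
    obtain ⟨C, hC, h1⟩ := key (r + 1)
    obtain ⟨C', hC', ih⟩ := ih
    refine ⟨C + 8 * C' * 4 ^ r, by positivity, fun d ε U h s hs hs2 hs1 x c => ?_⟩
    have h2 := h1 d ε U h s hs hs2 hs1 x c
    choose γ g1 g2 using fun k : Fin d => du_WWs r (fun a => c (k, a))
    have e : ∀ j, du j (∑ a, c a • Phi (r + 1) a) =
        ww * ∑ a : Fin d × Pw d r, γ a.1 j a.2 • Phi r a := fun j => by
      rw [Fintype.sum_prod_type, Fintype.sum_prod_type, map_sum, Finset.mul_sum]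
      exact Finset.sum_congr rfl fun k _ => g2 k _ (hpsi d k) j
    have h4 : ∑ j, Ex h hs x (du j (∑ a, c a • Phi (r + 1) a) ^ 2) ≤
        ∑ j, 4 * (C' * ε ^ 2 * ∑ a : Fin d × Pw d r, γ a.1 j a.2 ^ 2) := by
      refine Finset.sum_le_sum fun j _ => ?_
      rw [e]
      exact (Ex_ww_sq h hs hs2 x _).trans
        (mul_le_mul_of_nonneg_left (ih d ε U h s hs hs2 hs1 x _) (by norm_num))
    rw [← Finset.mul_sum, ← Finset.mul_sum] at h4
    have h5 : ∑ j, ∑ a : Fin d × Pw d r, γ a.1 j a.2 ^ 2 ≤ 4 ^ r * ∑ a, c a ^ 2 := by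
      simp only [Fintype.sum_prod_type]
      rw [Finset.sum_comm, Finset.mul_sum]
      exact Finset.sum_le_sum fun k _ => g1 k
    have h6 := mul_le_mul_of_nonneg_left h5 (mul_nonneg hC' (sq_nonneg ε))
    linarith

end Vale.Agent.P347
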