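import Vale.Agent.P347.FormalDefs

/-! TASK Formal: algebraic identities in the formal ring. Commutators of derivations are
derivations (`⁅D₁, D₂⁆`), so check them on the atoms with `MvPolynomial.derivation_ext`. -/

open MvPolynomial

namespace Vale.Agent.P347

variable {d : ℕ}

theorem dx_M (i : Fin d) (L : Multiset (Fin d)) :
    dx i (M L) = (M (i ::ₘ L) - M {i} * M L) * ww := by
  unfold M
  by_cases h : L = 0
  · subst h; simp
  · rw [if_neg h]; simp only [dx, mkDerivation_X, M, if_neg h]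
theorem ds_M (L : Multiset (Fin d)) : ds (M L) = C (1 / 2) * (ww * ww) *
    ∑ j, (M (j ::ₘ j ::ₘ L) - M {j, j} * M L - 2 * xx j * (M (j ::ₘ L) - M {j} * M L)) := by
  by_cases h : L = 0
  · subst h
    have e' : ∀ j : Fin d, (j ::ₘ 0 : Multiset (Fin d)) = {j} := fun j => rfl
    have e0 : (M 0 : R d) = 1 := by simp [M]
    simp [e', e0]
  · conv_lhs => rw [M, if_neg h]
    simp only [ds, mkDerivation_X]
theorem dx_xx (i j : Fin d) : dx i (xx j) = if j = i then 1 else 0 := by simp only [dx, xx, mkDerivation_X]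
theorem dx_ww (i : Fin d) : dx i (ww : R d) = 0 := by simp only [dx, ww, mkDerivation_X]
theorem dx_uu (i j : Fin d) : dx i (uu j) = 0 := by simp only [dx, uu, mkDerivation_X]
theorem dx_gg (i j : Fin d) : dx i (gg j) = 0 := by simp only [dx, gg, mkDerivation_X]
theorem dx_bb (i : Fin d) (m : Fin 2) : dx i (bb m) = 0 := by simp only [dx, bb, mkDerivation_X]
theorem dx_zz (i j : Fin d) (m : Fin 2) : dx i (zz m j) = 0 := by simp only [dx, zz, mkDerivation_X]
theorem ds_xx (j : Fin d) : ds (xx j) = 0 := by simp only [ds, xx, mkDerivation_X]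
theorem ds_ww : ds (ww : R d) = -(ww * ww) := by
  conv_lhs => rw [ww]
  simp only [ds, mkDerivation_X]
theorem ds_uu (j : Fin d) : ds (uu j) = 0 := by simp only [ds, uu, mkDerivation_X]
theorem ds_gg (j : Fin d) : ds (gg j) = 0 := by simp only [ds, gg, mkDerivation_X]
theorem ds_bb (m : Fin 2) : ds (bb m : R d) = 0 := by simp only [ds, bb, mkDerivation_X]
theorem ds_zz (j : Fin d) (m : Fin 2) : ds (zz m j) = 0 := by simp only [ds, zz, mkDerivation_X]

theorem der_ite (D : Der d) (p : Prop) [Decidable p] : D (if p then 1 else 0) = 0 := by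
  split_ifs <;> simp

theorem der_two (D : Der d) : D 2 = 0 := by
  have : (2 : R d) = 1 + 1 := by norm_num
  rw [this, map_add]; simp

theorem two_half : (2 : R d) * C (1 / 2) = 1 := by
  have : (2 : R d) = C 2 := (map_ofNat C 2).symm
  rw [this, ← C_mul]; norm_num

theorem pair_comm' (i j : Fin d) : (i ::ₘ {j} : Multiset (Fin d)) = j ::ₘ {i} :=
  Multiset.cons_swap i j 0

/-- a commutator identity is checked on the atoms -/
theorem comm_ext' (D₁ D₂ D₃ : Der d) (h : ∀ a, D₁ (D₂ (X a)) = D₂ (D₁ (X a)) + D₃ (X a))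
    (f : R d) : D₁ (D₂ f) = D₂ (D₁ f) + D₃ f := by
  have : ⁅D₁, D₂⁆ = D₃ := by
    apply MvPolynomial.derivation_ext
    intro a
    rw [Derivation.commutator_apply, h]; ring
  rw [← this, Derivation.commutator_apply]; ring

theorem mom_zero_dx (i : Fin d) : dx i (X (Atom.mom 0) : R d) = 0 := by
  have e' : (i ::ₘ 0 : Multiset (Fin d)) = {i} := rfl
  have e0 : (M 0 : R d) = 1 := by simp [M]
  simp only [dx, mkDerivation_X, e', e0]; simp

theorem mom_zero_ds : ds (X (Atom.mom 0) : R d) = 0 := by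
  have h := ds_M (0 : Multiset (Fin d))
  have e0 : (M 0 : R d) = 1 := by simp [M]
  simp only [ds, mkDerivation_X]
  rw [← h, e0]; simp

theorem comm_ext (D₁ D₂ D₃ : Der d)
    (hb : ∀ m, D₁ (D₂ (bb m)) = D₂ (D₁ (bb m)) + D₃ (bb m))
    (hz : ∀ m i, D₁ (D₂ (zz m i)) = D₂ (D₁ (zz m i)) + D₃ (zz m i))
    (hx : ∀ i, D₁ (D₂ (xx i)) = D₂ (D₁ (xx i)) + D₃ (xx i))
    (hw : D₁ (D₂ ww) = D₂ (D₁ ww) + D₃ ww)
    (hm : ∀ L, D₁ (D₂ (X (Atom.mom L))) = D₂ (D₁ (X (Atom.mom L))) + D₃ (X (Atom.mom L)))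
    (hu : ∀ i, D₁ (D₂ (uu i)) = D₂ (D₁ (uu i)) + D₃ (uu i))
    (hg : ∀ i, D₁ (D₂ (gg i)) = D₂ (D₁ (gg i)) + D₃ (gg i)) (f : R d) :
    D₁ (D₂ f) = D₂ (D₁ f) + D₃ f := by
  refine comm_ext' D₁ D₂ D₃ (fun a => ?_) f
  cases a with
  | b m => exact hb m
  | z m i => exact hz m i
  | x i => exact hx i
  | w => exact hw
  | mom L => exact hm L
  | u i => exact hu i
  | g i => exact hg i

theorem dx_mom (i : Fin d) (L : Multiset (Fin d)) : dx i (X (Atom.mom L)) = dx i (M L) := by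
  rw [dx_M]; simp only [dx, mkDerivation_X]

theorem ds_mom (L : Multiset (Fin d)) : ds (X (Atom.mom L) : R d) = ds (M L) := by
  rw [ds_M]; simp only [ds, mkDerivation_X]

theorem dx_comm (i j : Fin d) (f : R d) : dx i (dx j f) = dx j (dx i f) := by
  refine comm_ext (dx i) (dx j) 0 ?_ ?_ ?_ ?_ ?_ ?_ ?_ f |>.trans (by simp)
  · intro m; simp [dx_bb]
  · intro m k; simp [dx_zz]
  · intro k; simp [dx_xx, der_ite]
  · simp [dx_ww]
  · intro L
    simp only [dx_mom, dx_M, Derivation.leibniz, map_sub, dx_ww, smul_eq_mul, Derivation.zero_apply,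
      Multiset.cons_swap i j, pair_comm' i j]
    ring
  · intro k; simp [dx_uu]
  · intro k; simp [dx_gg]
theorem H_eq (i j : Fin d) : H i j = ((if i = j then 1 else 0) - dx j (M {i})) * ww := by
  simp only [H, G, Derivation.leibniz, map_sub, dx_ww, dx_xx, smul_eq_mul]; ring
theorem H_symm (i j : Fin d) : H i j = H j i := by
  rw [H_eq, H_eq, dx_M, dx_M, pair_comm' i j]
  simp only [eq_comm (a := i)]; ring
theorem BB_add (f g : R d) : BB (f + g) = BB f + BB g := by
  simp only [BB, map_add, Finset.sum_add_distrib, mul_add]; ring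
theorem BB_smul (c : ℝ) (f : R d) : BB (c • f) = c • BB f := by
  simp only [BB, Derivation.map_smul, mul_smul_comm, ← Finset.smul_sum, smul_sub]
theorem BB_sum {ι : Type*} (s : Finset ι) (f : ι → R d) :
    BB (∑ i ∈ s, f i) = ∑ i ∈ s, BB (f i) := by
  classical
  induction s using Finset.induction_on with
  | empty => simp [BB]
  | insert a s ha ih => rw [Finset.sum_insert ha, Finset.sum_insert ha, BB_add, ih]
theorem BB_zero : BB (0 : R d) = 0 := by simp [BB]
theorem BB_eq (f : R d) : BB f = ∑ j, (dx j (dx j f) - 2 * (G j * dx j f)) - 2 * ds f := by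
  simp only [BB, Finset.sum_sub_distrib, ← Finset.mul_sum]; ring
theorem BB_mul (f g : R d) :
    BB (f * g) = BB f * g + f * BB g + 2 * ∑ j, dx j f * dx j g := by
  have e : ∀ j, dx j (dx j (f * g)) - 2 * (G j * dx j (f * g)) =
      (dx j (dx j f) - 2 * (G j * dx j f)) * g + f * (dx j (dx j g) - 2 * (G j * dx j g)) +
        2 * (dx j f * dx j g) := by
    intro j
    simp only [Derivation.leibniz, map_add, smul_eq_mul]; ring
  simp only [BB_eq, e, Finset.sum_add_distrib, ← Finset.sum_mul, ← Finset.mul_sum]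
  rw [Derivation.leibniz, smul_eq_mul, smul_eq_mul]
  ring
theorem BB_M (L : Multiset (Fin d)) : BB (M L) = 0 := by
  simp only [BB, dx_M, ds_M, Derivation.leibniz, map_sub, dx_ww, smul_eq_mul, G]
  rw [← mul_assoc, ← mul_assoc, two_half, Finset.mul_sum, Finset.mul_sum, ← Finset.sum_sub_distrib,
    ← Finset.sum_sub_distrib]
  refine Finset.sum_eq_zero (fun j _ => ?_)
  have e : (j ::ₘ {j} : Multiset (Fin d)) = {j, j} := rfl
  rw [e]; ring
/-- On `mom L` this is `BB (dx i (M L)) = 2 ∑ j, H i j * dx j (M L)`, from `BB_mul`, `BB_M`,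
`BB ww = 2 ww²`. -/
theorem ds_dx_comm (i : Fin d) (f : R d) : ds (dx i f) = dx i (ds f) := by
  refine comm_ext ds (dx i) 0 ?_ ?_ ?_ ?_ ?_ ?_ ?_ f |>.trans (by simp)
  · intro m; simp [dx_bb, ds_bb]
  · intro m k; simp [dx_zz, ds_zz]
  · intro k; simp [dx_xx, der_ite, ds_xx]
  · simp [dx_ww, ds_ww]
  · intro L
    have e1 : ∀ j : Fin d, (j ::ₘ j ::ₘ i ::ₘ L) = i ::ₘ j ::ₘ j ::ₘ L := fun j => by
      rw [Multiset.cons_swap j i, Multiset.cons_swap j i]
    have e2 : ∀ j : Fin d, (j ::ₘ j ::ₘ {i} : Multiset (Fin d)) = i ::ₘ {j, j} := fun j => by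
      rw [pair_comm' j i, Multiset.cons_swap j i]; rfl
    have e3 : ∀ j : Fin d, (j ::ₘ i ::ₘ L) = i ::ₘ j ::ₘ L := fun j => Multiset.cons_swap _ _ _
    have e4 : ∀ j : Fin d, (j ::ₘ {i} : Multiset (Fin d)) = i ::ₘ {j} := fun j => pair_comm' _ _
    have e5 : ∀ j : Fin d, dx i (M (j ::ₘ j ::ₘ L) - M {j, j} * M L -
        2 * xx j * (M (j ::ₘ L) - M {j} * M L)) =
        ((M (j ::ₘ j ::ₘ i ::ₘ L) - M {j, j} * M (i ::ₘ L) -
          2 * xx j * (M (j ::ₘ i ::ₘ L) - M {j} * M (i ::ₘ L))) -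
        (M (j ::ₘ j ::ₘ {i}) - M {j, j} * M {i} - 2 * xx j * (M (j ::ₘ {i}) - M {j} * M {i})) * M L -
        M {i} * (M (j ::ₘ j ::ₘ L) - M {j, j} * M L - 2 * xx j * (M (j ::ₘ L) - M {j} * M L))) * ww -
        2 * (if j = i then M (j ::ₘ L) - M {j} * M L else 0) := by
      intro j
      rw [e1, e2, e3, e4]
      simp only [Derivation.leibniz, map_sub, dx_M, dx_xx, der_two, smul_eq_mul]
      split_ifs <;> ring
    rw [dx_mom, ds_mom, ds_M L, Derivation.leibniz, map_sum]
    simp only [e5, Finset.sum_sub_distrib, ← Finset.sum_mul, ← Finset.mul_sum,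
      Finset.sum_ite_eq', Finset.mem_univ, if_true]
    simp only [dx_M, ds_M, Derivation.leibniz, map_sub, ds_ww, dx_ww, smul_eq_mul,
      Derivation.zero_apply, MvPolynomial.derivation_C, Finset.sum_sub_distrib,
      ← Finset.sum_mul]
    linear_combination (ww * ww * (M (i ::ₘ L) - M {i} * M L)) * two_half
  · intro k; simp [dx_uu, ds_uu]
  · intro k; simp [dx_gg, ds_gg]
theorem BB_G (i : Fin d) : BB (G i) = 0 := by
  have h1 : BB (xx i) = -(2 * G i) := by
    simp [BB, dx_xx, der_ite, ds_xx, eq_comm (a := i)]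
  have h2 : BB (ww : R d) = 2 * (ww * ww) := by simp [BB, dx_ww, ds_ww]
  have h3 : BB (xx i - M {i}) = -(2 * G i) := by
    have := BB_add (xx i - M {i}) (M {i})
    rw [sub_add_cancel, BB_M, h1, add_zero] at this
    exact this.symm
  rw [G, BB_mul, h3, h2]
  simp only [dx_ww, mul_zero, Finset.sum_const_zero, G]
  ring
theorem BB_dx (i : Fin d) (f : R d) :
    BB (dx i f) = dx i (BB f) + 2 * ∑ j, H i j * dx j f := by
  have e : ∀ j, dx i (dx j (dx j f) - 2 * (G j * dx j f)) =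
      (dx j (dx j (dx i f)) - 2 * (G j * dx j (dx i f))) - 2 * (H i j * dx j f) := by
    intro j
    rw [H_symm i j]
    simp only [Derivation.leibniz, map_sub, der_two, smul_eq_mul, dx_comm i j, H]; ring
  rw [BB_eq, BB_eq, map_sub, map_sum]
  simp only [e]
  rw [Finset.sum_sub_distrib _ (fun j => 2 * (H i j * dx j f)), ← Finset.mul_sum, ds_dx_comm]
  simp only [Derivation.leibniz, der_two, smul_eq_mul]
  ring
theorem BB_H (i k : Fin d) : BB (H i k) = 2 * ∑ j, H i j * H j k := by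
  have e : ∀ j, dx j (G i) = H i j := fun j => rfl
  have h := BB_dx k (G i)
  simp only [e, BB_G, map_zero, zero_add] at h
  rw [h]
  exact congrArg _ (Finset.sum_congr rfl (fun j _ => by rw [H_symm j k, mul_comm]))

theorem M_mem_XO (L : Multiset (Fin d)) : M L ∈ XO d := by
  unfold M
  split_ifs
  · exact one_mem _
  · exact X_mem_supported.2 trivial
theorem ww_mem_XO : (ww : R d) ∈ XO d := X_mem_supported.2 trivial
theorem xx_mem_XO (i : Fin d) : xx i ∈ XO d := X_mem_supported.2 trivial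
theorem G_mem_XO (i : Fin d) : G i ∈ XO d := mul_mem (sub_mem (xx_mem_XO i) (M_mem_XO _)) ww_mem_XO
theorem ite_mem' (S : Subalgebra ℝ (R d)) (p : Prop) [Decidable p] :
    (if p then 1 else 0 : R d) ∈ S := by
  split_ifs
  · exact one_mem _
  · exact zero_mem _

theorem two_mem (S : Subalgebra ℝ (R d)) : (2 : R d) ∈ S := by
  have : (2 : R d) = 1 + 1 := by norm_num
  rw [this]; exact add_mem (one_mem _) (one_mem _)

theorem der_mem (D : Der d) (s : Set (Atom d)) (S : Subalgebra ℝ (R d)) (h1 : supported ℝ s ≤ S)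
    (h2 : ∀ a ∈ s, D (X a) ∈ S) {f : R d} (hf : f ∈ supported ℝ s) : D f ∈ S := by
  rw [supported_eq_adjoin_X] at hf h1
  induction hf using Algebra.adjoin_induction with
  | mem x hx => obtain ⟨a, ha, rfl⟩ := hx; exact h2 a ha
  | algebraMap r => rw [Derivation.map_algebraMap]; exact zero_mem _
  | add x y _ _ hx hy => rw [map_add]; exact add_mem hx hy
  | mul x y h3 h4 hx hy =>
    rw [Derivation.leibniz, smul_eq_mul, smul_eq_mul]
    exact add_mem (mul_mem (h1 h3) hy) (mul_mem (h1 h4) hx)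

theorem der_zero (D : Der d) (s : Set (Atom d)) (h2 : ∀ a ∈ s, D (X a) = 0) {f : R d}
    (hf : f ∈ supported ℝ s) : D f = 0 := by
  rw [supported_eq_adjoin_X] at hf
  induction hf using Algebra.adjoin_induction with
  | mem x hx => obtain ⟨a, ha, rfl⟩ := hx; exact h2 a ha
  | algebraMap r => rw [Derivation.map_algebraMap]
  | add x y _ _ hx hy => rw [map_add, hx, hy, add_zero]
  | mul x y h3 h4 hx hy => rw [Derivation.leibniz, hx, hy]; simp

theorem dx_mem_XO (i : Fin d) {f : R d} (hf : f ∈ XO d) : dx i f ∈ XO d := by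
  refine der_mem (dx i) _ (XO d) le_rfl (fun a ha => ?_) hf
  cases a with
  | x j => exact (dx_xx i j).symm ▸ ite_mem' _ _
  | w => exact (dx_ww i).symm ▸ zero_mem _
  | mom L =>
    rw [dx_mom, dx_M]
    exact mul_mem (sub_mem (M_mem_XO _) (mul_mem (M_mem_XO _) (M_mem_XO _))) ww_mem_XO
  | _ => exact ha.elim
theorem ds_mem_XO {f : R d} (hf : f ∈ XO d) : ds f ∈ XO d := by
  refine der_mem ds _ (XO d) le_rfl (fun a ha => ?_) hf
  cases a with
  | x j => exact (ds_xx j).symm ▸ zero_mem _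
  | w => exact ds_ww.symm ▸ neg_mem (mul_mem ww_mem_XO ww_mem_XO)
  | mom L =>
    rw [ds_mom, ds_M]
    refine mul_mem (mul_mem ((XO d).algebraMap_mem _) (mul_mem ww_mem_XO ww_mem_XO))
      (sum_mem fun j _ => ?_)
    exact sub_mem (sub_mem (M_mem_XO _) (mul_mem (M_mem_XO _) (M_mem_XO _)))
      (mul_mem (mul_mem (two_mem _) (xx_mem_XO _))
        (sub_mem (M_mem_XO _) (mul_mem (M_mem_XO _) (M_mem_XO _))))
  | _ => exact ha.elim
theorem H_mem_XO (i j : Fin d) : H i j ∈ XO d := dx_mem_XO j (G_mem_XO i)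
theorem BB_mem_XO {f : R d} (hf : f ∈ XO d) : BB f ∈ XO d := by
  refine sub_mem (sub_mem (sum_mem fun j _ => dx_mem_XO j (dx_mem_XO j hf))
    (mul_mem (two_mem _) (ds_mem_XO hf))) (mul_mem (two_mem _) (sum_mem fun j _ => ?_))
  exact mul_mem (G_mem_XO j) (dx_mem_XO j hf)
theorem dxs_mem_XO (p : ℕ) (a : Pw d p) {f : R d} (hf : f ∈ XO d) : dxs p a f ∈ XO d := by
  induction p with
  | zero => exact hf
  | succ p ih => exact dx_mem_XO _ (ih a.2)
theorem TT_mem_XO (p q : ℕ) (a : Fin d × Pw d p) (c : Fin d × Pw d q) : TT p q a c ∈ XO d := by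
  exact dxs_mem_XO _ _ (dxs_mem_XO _ _ (H_mem_XO _ _))
theorem dx_dxs (i : Fin d) (p : ℕ) (a : Pw d p) (f : R d) :
    dx i (dxs p a f) = dxs p a (dx i f) := by
  induction p with
  | zero => rfl
  | succ p ih =>
    show dx i (dx a.1 (dxs p a.2 f)) = dx a.1 (dxs p a.2 (dx i f))
    rw [dx_comm, ih]
theorem rawZ_XO (m : Fin 2) (i : Fin d) {f : R d} (hf : f ∈ XO d) : rawZ m i f = 0 := by
  refine der_zero _ _ (fun a ha => ?_) hf
  cases a with
  | x j => simp [rawZ, pderiv_X]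
  | w => simp [rawZ, pderiv_X]
  | mom L => simp [rawZ, pderiv_X]
  | _ => exact ha.elim
theorem rawb_XO (m : Fin 2) {f : R d} (hf : f ∈ XO d) : rawb m f = 0 := by
  refine der_zero _ _ (fun a ha => ?_) hf
  cases a with
  | x j => simp [rawb, pderiv_X]
  | w => simp [rawb, pderiv_X]
  | mom L => simp [rawb, pderiv_X]
  | _ => exact ha.elim
theorem du_XO (j : Fin d) {f : R d} (hf : f ∈ XO d) : du j f = 0 := by
  refine der_zero _ _ (fun a ha => ?_) hf
  cases a with
  | x j => simp [du, pderiv_X]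
  | w => simp [du, pderiv_X]
  | mom L => simp [du, pderiv_X]
  | _ => exact ha.elim
theorem XO_le_GF : XO d ≤ GF d := by
  apply supported_mono
  intro a ha
  cases a with
  | g i => exact ha.elim
  | _ => trivial
theorem uu_mem_GF (i : Fin d) : uu i ∈ GF d := X_mem_supported.2 trivial
theorem dx_mem_GF (i : Fin d) {f : R d} (hf : f ∈ GF d) : dx i f ∈ GF d := by
  refine der_mem (dx i) _ (GF d) le_rfl (fun a ha => ?_) hf
  cases a with
  | x j => exact XO_le_GF (dx_mem_XO i (xx_mem_XO j))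
  | w => exact XO_le_GF (dx_mem_XO i ww_mem_XO)
  | mom L => rw [dx_mom]; exact XO_le_GF (dx_mem_XO i (M_mem_XO L))
  | b m => exact (dx_bb i m).symm ▸ zero_mem _
  | z m j => exact (dx_zz i j m).symm ▸ zero_mem _
  | u j => exact (dx_uu i j).symm ▸ zero_mem _
  | g j => exact ha.elim
theorem du_mem_GF (i : Fin d) {f : R d} (hf : f ∈ GF d) : du i f ∈ GF d := by
  refine der_mem (du i) _ (GF d) le_rfl (fun a _ => ?_) hf
  rw [du, pderiv_X, Pi.single_apply]
  exact ite_mem' _ _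
theorem WW_mem_GF (i : Fin d) {f : R d} (hf : f ∈ GF d) : WW i f ∈ GF d := by
  exact add_mem (dx_mem_GF i hf) (mul_mem hf (mul_mem (sub_mem (uu_mem_GF i)
    (XO_le_GF (M_mem_XO _))) (XO_le_GF ww_mem_XO)))

theorem dZ_apply (m : Fin 2) (i : Fin d) (f : R d) : dZ m i f = rawZ m i f + bb m * dx i f := by
  simp [dZ]

theorem der_sum {ι : Type*} (s : Finset ι) (D : ι → Der d) (f : R d) :
    (∑ j ∈ s, D j) f = ∑ j ∈ s, D j f := by
  classical
  induction s using Finset.induction_on with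
  | empty => simp
  | insert a s ha ih => rw [Finset.sum_insert ha, Finset.sum_insert ha, Derivation.add_apply, ih]

theorem db_apply (m : Fin 2) (f : R d) :
    db m f = rawb m f + ∑ j, zz m j * dx j f - 2 * bb m * ds f := by
  simp [db, der_sum]

theorem DD_apply (m : Fin 2) (f : R d) : DD m f = db m f - ∑ j, G j * dZ m j f := by
  simp [DD, der_sum]

theorem AA_apply (f : R d) :
    AA f = ∑ j, DH 0 j * dZ 1 j f - ∑ j, DH 1 j * dZ 0 j f := by
  simp [AA, der_sum]

theorem dZ_XO (m : Fin 2) (i : Fin d) {f : R d} (hf : f ∈ XO d) :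
    dZ m i f = bb m * dx i f := by rw [dZ_apply, rawZ_XO m i hf, zero_add]
theorem DD_XO (m : Fin 2) {f : R d} (hf : f ∈ XO d) :
    DD m f = ∑ j, del m j (dx j f) + bb m * BB f := by
  have e : ∀ j, del m j (dx j f) = zz m j * dx j f - G j * (bb m * dx j f) -
      bb m * (dx j (dx j f) - 2 * (G j * dx j f)) := by
    intro j
    rw [del, dZ_XO m j (dx_mem_XO j hf)]; ring
  rw [DD_apply, db_apply, rawb_XO m hf, BB_eq]
  simp only [e, dZ_XO m _ hf]
  rw [Finset.sum_sub_distrib, Finset.sum_sub_distrib, ← Finset.mul_sum]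
  ring
theorem DD_G (m : Fin 2) (j : Fin d) : DD m (G j) = DH m j := by
  rw [DD_XO m (G_mem_XO j), BB_G, mul_zero, add_zero, DH]
  refine Finset.sum_congr rfl (fun i _ => ?_)
  rw [H_symm i j, H]
theorem dZ_bb (m m' : Fin 2) (i : Fin d) : dZ m i (bb m') = 0 := by
  rw [dZ_apply, dx_bb]; simp [rawZ, bb, pderiv_X]
theorem dZ_zz (m m' : Fin 2) (i j : Fin d) :
    dZ m i (zz m' j) = if m = m' ∧ i = j then 1 else 0 := by
  rw [dZ_apply, dx_zz]
  simp [rawZ, zz, pderiv_X, Pi.single_apply, eq_comm]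
theorem DD_bb (m m' : Fin 2) : DD m (bb m' : R d) = if m = m' then 1 else 0 := by
  rw [DD_apply, db_apply]
  simp only [dZ_bb, dx_bb, ds_bb]
  simp [rawb, bb, pderiv_X, Pi.single_apply, eq_comm]
theorem DD_zz (m m' : Fin 2) (j : Fin d) : DD m (zz m' j) = if m = m' then -G j else 0 := by
  rw [DD_apply, db_apply]
  simp only [dZ_zz, dx_zz, ds_zz]
  by_cases h : m = m' <;> simp [rawb, zz, pderiv_X, h]
theorem mom_mem_XO (L : Multiset (Fin d)) : (X (Atom.mom L) : R d) ∈ XO d :=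
  X_mem_supported.2 trivial

theorem comm_XO (D₁ D₂ D₃ : Der d)
    (hb : ∀ m, D₁ (D₂ (bb m)) = D₂ (D₁ (bb m)) + D₃ (bb m))
    (hz : ∀ m i, D₁ (D₂ (zz m i)) = D₂ (D₁ (zz m i)) + D₃ (zz m i))
    (hx : ∀ f ∈ XO d, D₁ (D₂ f) = D₂ (D₁ f) + D₃ f)
    (hu : ∀ i, D₁ (D₂ (uu i)) = D₂ (D₁ (uu i)) + D₃ (uu i))
    (hg : ∀ i, D₁ (D₂ (gg i)) = D₂ (D₁ (gg i)) + D₃ (gg i)) (f : R d) :
    D₁ (D₂ f) = D₂ (D₁ f) + D₃ f :=
  comm_ext D₁ D₂ D₃ hb hz (fun i => hx _ (xx_mem_XO i)) (hx _ ww_mem_XO)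
    (fun L => hx _ (mom_mem_XO L)) hu hg f

theorem dZ_uu (m : Fin 2) (i j : Fin d) : dZ m i (uu j) = 0 := by
  rw [dZ_apply, dx_uu]; simp [rawZ, uu, pderiv_X]
theorem dZ_gg (m : Fin 2) (i j : Fin d) : dZ m i (gg j) = 0 := by
  rw [dZ_apply, dx_gg]; simp [rawZ, gg, pderiv_X]
theorem DD_uu (m : Fin 2) (j : Fin d) : DD m (uu j) = 0 := by
  rw [DD_apply, db_apply]
  simp only [dZ_uu, dx_uu, ds_uu]
  simp [rawb, uu, pderiv_X]
theorem DD_gg (m : Fin 2) (j : Fin d) : DD m (gg j) = 0 := by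
  rw [DD_apply, db_apply]
  simp only [dZ_gg, dx_gg, ds_gg]
  simp [rawb, gg, pderiv_X]
theorem dZ_comm (m m' : Fin 2) (i j : Fin d) (f : R d) :
    dZ m i (dZ m' j f) = dZ m' j (dZ m i f) := by
  refine comm_XO (dZ m i) (dZ m' j) 0 ?_ ?_ ?_ ?_ ?_ f |>.trans (by simp)
  · intro m; simp [dZ_bb]
  · intro m k; simp only [dZ_zz, der_ite]; simp
  · intro f hf
    simp only [dZ_XO _ _ hf, Derivation.leibniz, dZ_XO _ _ (dx_mem_XO _ hf), dZ_bb, dx_comm i j,
      smul_eq_mul, Derivation.zero_apply]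
    ring
  · intro k; simp [dZ_uu]
  · intro k; simp [dZ_gg]
theorem del_add (m : Fin 2) (i : Fin d) (f g : R d) :
    del m i (f + g) = del m i f + del m i g := by simp only [del, map_add]; ring
theorem del_smul (m : Fin 2) (i : Fin d) (c : ℝ) (f : R d) :
    del m i (c • f) = c • del m i f := by
  simp only [del, Derivation.map_smul, mul_smul_comm, smul_sub]
theorem del_sum {ι : Type*} (m : Fin 2) (i : Fin d) (s : Finset ι) (f : ι → R d) :
    del m i (∑ k ∈ s, f k) = ∑ k ∈ s, del m i (f k) := by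
  simp only [del, map_sum, Finset.mul_sum, Finset.sum_sub_distrib]
theorem del_mul (m : Fin 2) (i : Fin d) (f g : R d) :
    del m i (f * g) = del m i f * g - f * dZ m i g := by
  simp only [del, Derivation.leibniz, smul_eq_mul]; ring
theorem del_bb_mul (m m' : Fin 2) (i : Fin d) (f : R d) :
    del m i (bb m' * f) = bb m' * del m i f := by
  simp only [del, Derivation.leibniz, smul_eq_mul, dZ_bb]; ring
theorem dZ_del (m m' : Fin 2) (i j : Fin d) (f : R d) :
    dZ m i (del m' j f) = del m' j (dZ m i f) +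
      ((if m = m' ∧ i = j then 1 else 0) + bb m * bb m' * H i j) * f := by
  simp only [del, Derivation.leibniz, smul_eq_mul, map_sub, map_add, dZ_zz, dZ_bb,
    dZ_XO _ _ (G_mem_XO _), dZ_comm m m' i j]
  rw [H_symm i j, H]; ring
theorem del_comm (m m' : Fin 2) (i j : Fin d) (f : R d) :
    del m i (del m' j f) = del m' j (del m i f) := by
  have e : (if m' = m ∧ j = i then 1 else 0 : R d) = if m = m' ∧ i = j then 1 else 0 := by
    simp only [eq_comm]
  rw [del, dZ_del, del.eq_1 m' j (del m i f), dZ_del, e, H_symm j i]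
  simp only [del, dZ_comm m m' i j]
  ring
theorem DD_dZ (m m' : Fin 2) (i : Fin d) (f : R d) :
    DD m (dZ m' i f) = dZ m' i (DD m f) + bb m' * ∑ j, H i j * dZ m j f := by
  have key := comm_XO (DD m) (dZ m' i) (∑ j, (bb m' * H i j : R d) • dZ m j) ?_ ?_ ?_ ?_ ?_ f
  · rw [key, der_sum, Finset.mul_sum]
    simp only [Derivation.smul_apply, smul_eq_mul, mul_assoc]
  · intro k; simp only [dZ_bb, DD_bb, der_ite, der_sum, Derivation.smul_apply]; simp
  · intro k j
    simp only [dZ_zz, DD_zz, der_ite, der_sum, Derivation.smul_apply]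
    by_cases h : m = k
    · have e : dx i (G j) = H i j := (H_symm i j).symm
      simp [h, dZ_XO _ _ (G_mem_XO _), e]
    · simp [h]
  · intro f hf
    have e : ∀ j, dZ m' i (del m j (dx j f)) = bb m' * del m j (dx j (dx i f)) +
        (if j = i then (if m = m' then 1 else 0) * dx j f else 0) +
        bb m' * bb m * (H i j * dx j f) := by
      intro j
      rw [dZ_del, dZ_XO _ _ (dx_mem_XO _ hf), del_bb_mul, dx_comm i j]
      have e3 : (if m' = m ∧ i = j then 1 else 0 : R d) * dx j f =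
          (if j = i then (if m = m' then 1 else 0) * dx j f else 0) := by
        by_cases h1 : j = i
        · subst h1; simp [eq_comm]
        · rw [if_neg h1, if_neg (fun h => h1 h.2.symm), zero_mul]
      rw [add_mul, e3]; ring
    rw [dZ_XO _ _ hf, Derivation.leibniz, DD_bb, DD_XO m (dx_mem_XO i hf), DD_XO m hf, map_add,
      map_sum, Derivation.leibniz, dZ_bb, dZ_XO _ _ (BB_mem_XO hf), BB_dx, der_sum]
    simp only [e, Finset.sum_add_distrib, ← Finset.mul_sum, Finset.sum_ite_eq', Finset.mem_univ,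
      if_true, Derivation.smul_apply, smul_eq_mul, dZ_XO _ _ hf]
    have e2 : ∑ j, bb m' * H i j * (bb m * dx j f) = bb m' * bb m * ∑ j, H i j * dx j f := by
      rw [Finset.mul_sum]; exact Finset.sum_congr rfl (fun j _ => by ring)
    rw [e2]; ring
  · intro k; simp [dZ_uu, DD_uu, der_sum]
  · intro k; simp [dZ_gg, DD_gg, der_sum]
theorem DD_del (m m' : Fin 2) (i : Fin d) (f : R d) :
    DD m (del m' i f) = del m' i (DD m f) + bb m' * ∑ j, del m j (H i j * f) := by
  have e : ∑ j, del m j (H i j * f) = DH m i * f - ∑ j, H i j * dZ m j f := by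
    simp only [del_mul, Finset.sum_sub_distrib, DH, Finset.sum_mul, H_symm i]
  rw [e]
  simp only [del, Derivation.leibniz, smul_eq_mul, map_sub, map_add, DD_zz, DD_bb, DD_G, DD_dZ]
  split_ifs <;> ring
theorem AA_eq (f : R d) :
    AA f = ∑ i, del 0 i (∑ j, H i j * dZ 1 j f) - ∑ i, del 1 i (∑ j, H i j * dZ 0 j f) := by
  have e : ∀ m m' : Fin 2, ∑ i, del m i (∑ j, H i j * dZ m' j f) =
      ∑ j, DH m j * dZ m' j f - ∑ i, ∑ j, H i j * dZ m i (dZ m' j f) := by
    intro m m'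
    simp only [del_sum, del_mul, Finset.sum_sub_distrib, DH, Finset.sum_mul]
    rw [Finset.sum_comm]
  have e2 : ∑ i, ∑ j, H i j * dZ 1 i (dZ 0 j f) = ∑ i, ∑ j, H i j * dZ 0 i (dZ 1 j f) := by
    rw [Finset.sum_comm]
    exact Finset.sum_congr rfl fun i _ => Finset.sum_congr rfl fun j _ => by
      rw [H_symm j i, dZ_comm]
  rw [e, e, e2, AA_apply]; ring
theorem XX_apply (α : ℝ × ℝ) (l : ℝ) (f : R d) :
    XX α l f = α.1 • DD 0 f + α.2 • DD 1 f + l • AA f := by simp [XX]
theorem XX_zz0 (α : ℝ × ℝ) (l : ℝ) (j : Fin d) :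
    XX α l (zz 0 j) = -(α.1 • G j) - l • DH 1 j := by
  rw [XX_apply, AA_apply]; simp [DD_zz, dZ_zz, sub_eq_add_neg]
theorem XX_zz1 (α : ℝ × ℝ) (l : ℝ) (j : Fin d) :
    XX α l (zz 1 j) = -(α.2 • G j) + l • DH 0 j := by
  rw [XX_apply, AA_apply]; simp [DD_zz, dZ_zz]
theorem XX_G (α : ℝ × ℝ) (l : ℝ) (j : Fin d) :
    XX α l (G j) = α.1 • DH 0 j + α.2 • DH 1 j + l • AA (G j) := by
  rw [XX_apply, DD_G, DD_G]
/-- the flow splits into a derivative in `b` and a vector field in `Z` -/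
theorem XX_split (α : ℝ × ℝ) (l : ℝ) (f : R d) :
    XX α l f = α.1 • db 0 f + α.2 • db 1 f + ∑ m, ∑ j, XX α l (zz m j) * dZ m j f := by
  rw [Fin.sum_univ_two, XX_apply, DD_apply, DD_apply, AA_apply]
  simp only [XX_zz0, XX_zz1, smul_eq_C_mul, sub_mul, add_mul, neg_mul, mul_assoc,
    Finset.sum_sub_distrib, Finset.sum_add_distrib, Finset.sum_neg_distrib, ← Finset.mul_sum]
  ring
/-- the continuity equation -/
theorem XX_div (α : ℝ × ℝ) (l : ℝ) :
    ∑ m, ∑ j, del m j (XX α l (zz m j)) = α.1 • (Lam 0 : R d) + α.2 • Lam 1 := by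
  have e0 : ∀ (m : Fin 2) (j : Fin d) (f : R d), del m j (-f) = -del m j f := by
    intro m j f; simp only [del, map_neg]; ring
  have e1 : ∀ m : Fin 2, (Lam m : R d) = -∑ j, del m j (G j) := by
    intro m
    have : ∀ j : Fin d, del m j (G j) = zz m j * G j + bb m * (G j * G j - H j j) := by
      intro j; rw [del, dZ_XO _ _ (G_mem_XO _), H]; ring
    simp only [this, Finset.sum_add_distrib, ← Finset.mul_sum, Finset.sum_sub_distrib, Lam]
    ring
  have e2 : ∑ j, del 0 j (DH 1 j : R d) = ∑ j, del 1 j (DH 0 j) := by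
    simp only [DH, del_sum]
    rw [Finset.sum_comm]
    exact Finset.sum_congr rfl fun i _ => Finset.sum_congr rfl fun j _ => by
      rw [H_symm j i, del_comm]
  rw [Fin.sum_univ_two, e1, e1]
  simp only [XX_zz0, XX_zz1, sub_eq_add_neg, del_add, e0, del_smul, Finset.sum_add_distrib,
    Finset.sum_neg_distrib, ← Finset.smul_sum, e2, smul_neg]
  ring

theorem WW_add (i : Fin d) (f g : R d) : WW i (f + g) = WW i f + WW i g := by simp only [WW, map_add]; ring
theorem WW_smul (i : Fin d) (c : ℝ) (f : R d) : WW i (c • f) = c • WW i f := by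
  simp only [WW, Derivation.map_smul, smul_mul_assoc, smul_add]
theorem WW_mul (i : Fin d) (f g : R d) : WW i (f * g) = WW i f * g + f * dx i g := by
  simp only [WW, Derivation.leibniz, smul_eq_mul]; ring
theorem WW_comm (i j : Fin d) (f : R d) : WW i (WW j f) = WW j (WW i f) := by
  simp only [WW, Derivation.leibniz, smul_eq_mul, map_add, map_sub, dx_uu, dx_ww, dx_M,
    dx_comm i j, pair_comm' i j]
  ring
theorem dx_WW (i j : Fin d) (f : R d) :
    dx i (WW j f) = WW j (dx i f) - ((if i = j then ww else 0) - H i j) * f := by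
  rw [H_eq]
  simp only [WW, Derivation.leibniz, smul_eq_mul, map_add, map_sub, dx_uu, dx_ww, dx_M,
    dx_comm i j, pair_comm' i j]
  split_ifs <;> ring
theorem du_uu (j i : Fin d) : du j (uu i) = if i = j then 1 else 0 := by
  simp [du, uu, pderiv_X, Pi.single_apply]
theorem du_WW (i j : Fin d) (f : R d) :
    du j (WW i f) = WW i (du j f) + (if i = j then ww * f else 0) := by
  have e : du j (dx i f) = dx i (du j f) := by
    refine comm_XO (du j) (dx i) 0 ?_ ?_ ?_ ?_ ?_ f |>.trans (by simp)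
    · intro m; rw [dx_bb]; simp [du, bb, pderiv_X]
    · intro m k; rw [dx_zz]; simp [du, zz, pderiv_X]
    · intro f hf; simp [du_XO _ hf, du_XO _ (dx_mem_XO i hf)]
    · intro k; rw [dx_uu, du_uu, der_ite]; simp
    · intro k; rw [dx_gg]; simp [du, gg, pderiv_X]
  simp only [WW, Derivation.leibniz, smul_eq_mul, map_add, map_sub, e, du_uu,
    du_XO _ (M_mem_XO _), du_XO _ ww_mem_XO]
  split_ifs <;> ring

end Vale.Agent.P347
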