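import Vale.Agent.P347.Basic

/-! The formal polynomial ring of the P347 project, its derivations and its evaluation. -/

open MeasureTheory ProbabilityTheory MvPolynomial

namespace Vale.Agent.P347

/-- atoms: `b m`, `z m i` state variables; `x i` the centre; `w = 1/s`; `mom L` the moment
`E ∏_{i ∈ L} u_i` of the tilted law; `u i` the integration variable; `g i = ∂_i U (u)` -/
inductive Atom (d : ℕ) : Type
  | b (m : Fin 2) : Atom d
  | z (m : Fin 2) (i : Fin d) : Atom d
  | x (i : Fin d) : Atom d
  | w : Atom d
  | mom (L : Multiset (Fin d)) : Atom d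
  | u (i : Fin d) : Atom d
  | g (i : Fin d) : Atom d
  deriving DecidableEq

abbrev R (d : ℕ) : Type := MvPolynomial (Atom d) ℝ

abbrev Der (d : ℕ) : Type := Derivation ℝ (R d) (R d)

variable {d : ℕ}

noncomputable def bb (m : Fin 2) : R d := X (Atom.b m)
noncomputable def zz (m : Fin 2) (i : Fin d) : R d := X (Atom.z m i)
noncomputable def xx (i : Fin d) : R d := X (Atom.x i)
noncomputable def ww : R d := X Atom.w
noncomputable def uu (i : Fin d) : R d := X (Atom.u i)
noncomputable def gg (i : Fin d) : R d := X (Atom.g i)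

/-- formal moment, equal to `1` for the empty multiset -/
noncomputable def M (L : Multiset (Fin d)) : R d := if L = 0 then 1 else X (Atom.mom L)

/-- derivative in the centre `x i` -/
noncomputable def dx (i : Fin d) : Der d :=
  mkDerivation ℝ fun a => match a with
    | Atom.x j => if j = i then 1 else 0
    | Atom.mom L => (M (i ::ₘ L) - M {i} * M L) * ww
    | _ => 0

/-- derivative in the level `s` -/
noncomputable def ds : Der d :=
  mkDerivation ℝ fun a => match a with
    | Atom.w => -(ww * ww)
    | Atom.mom L => C (1 / 2) * (ww * ww) *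
        ∑ j, (M (j ::ₘ j ::ₘ L) - M {j, j} * M L - 2 * xx j * (M (j ::ₘ L) - M {j} * M L))
    | _ => 0

/-- derivative in the integration variable `u j` (meaningful on `g`-free elements) -/
noncomputable def du (j : Fin d) : Der d := pderiv (Atom.u j)

noncomputable def rawZ (m : Fin 2) (i : Fin d) : Der d := pderiv (Atom.z m i)
noncomputable def rawb (m : Fin 2) : Der d := pderiv (Atom.b m)

/-- effective gradient -/
noncomputable def G (i : Fin d) : R d := (xx i - M {i}) * ww

/-- effective Hessian -/
noncomputable def H (i j : Fin d) : R d := dx j (G i)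

/-- derivative in `Z m i` at fixed `b` (the centre is `y + b · Z`) -/
noncomputable def dZ (m : Fin 2) (i : Fin d) : Der d := rawZ m i + (bb m : R d) • dx i

/-- derivative in `b m` at fixed `Z` (the level is `1 - |b|²`) -/
noncomputable def db (m : Fin 2) : Der d :=
  rawb m + ∑ j, (zz m j : R d) • dx j - (2 * bb m : R d) • ds

/-- the connection `𝓓_m = ∂_{b m} - G · ∇_{Z m}` -/
noncomputable def DD (m : Fin 2) : Der d := db m - ∑ j, (G j : R d) • dZ m j

/-- adjoint of `dZ m i` in `L²(Π_b)` -/
noncomputable def del (m : Fin 2) (i : Fin d) (f : R d) : R d :=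
  (zz m i + bb m * G i) * f - dZ m i f

/-- `DH m j = 𝓓_m G_j = ∑ i, δ_{m i} H_{i j}` -/
noncomputable def DH (m : Fin 2) (j : Fin d) : R d := ∑ i, del m i (H i j)

/-- the curvature field -/
noncomputable def AA : Der d := ∑ j, (DH 0 j : R d) • dZ 1 j - ∑ j, (DH 1 j : R d) • dZ 0 j

/-- the general flow `α · 𝓓 + l 𝓐` -/
noncomputable def XX (α : ℝ × ℝ) (l : ℝ) : Der d := α.1 • DD 0 + α.2 • DD 1 + l • AA

/-- the second order operator `Δ - 2 ∂_s - 2 G · ∇` -/
noncomputable def BB (f : R d) : R d :=
  ∑ j, dx j (dx j f) - 2 * ds f - 2 * ∑ j, G j * dx j f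

/-- logarithmic derivative of the density of `Π_b` in `b m` -/
noncomputable def Lam (m : Fin 2) : R d :=
  -(∑ j, zz m j * G j) - bb m * (∑ j, G j * G j - ∑ j, H j j)

/-- Wick raising operator -/
noncomputable def WW (i : Fin d) (f : R d) : R d := dx i f + f * ((uu i - M {i}) * ww)

/-- the subalgebra of elements depending on `(s, x)` only -/
noncomputable def XO (d : ℕ) : Subalgebra ℝ (R d) :=
  supported ℝ {a : Atom d | match a with
    | Atom.x _ => True | Atom.w => True | Atom.mom _ => True | _ => False}

/-- the subalgebra of `g`-free elements -/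
noncomputable def GF (d : ℕ) : Subalgebra ℝ (R d) :=
  supported ℝ {a : Atom d | match a with | Atom.g _ => False | _ => True}

/-- `p`-tuples of coordinates as iterated pairs -/
def Pw (d : ℕ) : ℕ → Type
  | 0 => Unit
  | p + 1 => Fin d × Pw d p

instance instFintypePw (d : ℕ) : (p : ℕ) → Fintype (Pw d p)
  | 0 => inferInstanceAs (Fintype Unit)
  | p + 1 => @instFintypeProd (Fin d) (Pw d p) _ (instFintypePw d p)

/-- iterated `dx` along a tuple -/
noncomputable def dxs : (p : ℕ) → Pw d p → R d → R d
  | 0, _, f => f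
  | p + 1, a, f => dx a.1 (dxs p a.2 f)

/-- the flattened derivative tensor of the effective Hessian -/
noncomputable def TT (p q : ℕ) (a : Fin d × Pw d p) (c : Fin d × Pw d q) : R d :=
  dxs p a.2 (dxs q c.2 (H a.1 c.1))

/-- evaluation at independent values of all variables -/
noncomputable def ev (U : E d → ℝ) (b : ℝ × ℝ) (Z : E d × E d) (s : ℝ) (x u : E d) :
    R d →ₐ[ℝ] ℝ :=
  aeval fun a => match a with
    | Atom.b m => sel m b
    | Atom.z m i => sel m Z i
    | Atom.x i => x i
    | Atom.w => s⁻¹
    | Atom.mom L => ∫ v, (L.map fun i => v i).prod ∂(tilt U s x)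
    | Atom.u i => u i
    | Atom.g i => gradient U u i

/-- evaluation at a state: level `1 - |b|²`, centre `y + b · Z` -/
noncomputable def evS (U : E d → ℝ) (y : E d) (b : ℝ × ℝ) (Z : E d × E d) : R d →ₐ[ℝ] ℝ :=
  ev U b Z (lev b) (pt y b Z) 0

/-- vector valued evaluation -/
noncomputable def evV (U : E d → ℝ) (y : E d) (b : ℝ × ℝ) (Z : E d × E d) (P : Fin d → R d) :
    E d :=
  WithLp.toLp 2 fun i => evS U y b Z (P i)

end Vale.Agent.P347
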