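import Vale.Agent.P347.IdealA

/-! TASK Ideal: accuracy of the templates for the true force. See PROOF.md, section I. -/

open MeasureTheory ProbabilityTheory

namespace Vale.Agent.P347

theorem gfun_glip {d : ℕ} {ε : ℝ} {U : E d → ℝ} (h : Pot 0 ε U) (y : E d) :
    GLip ε (gfun U y) := by
  intro b hb Z Z'
  have hl := Idl.lev_ge hb
  refine (h.Gt_lip (s := lev b) (by linarith) _ _).trans ?_
  rw [mul_assoc]
  refine mul_le_mul_of_nonneg_left ?_ h.le
  have e : pt y b Z - pt y b Z' = b.1 • (Z - Z').1 + b.2 • (Z - Z').2 := by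
    simp only [pt, Prod.fst_sub, Prod.snd_sub, smul_sub]; abel
  rw [e, add_mul]
  refine (norm_add_le _ _).trans (add_le_add ?_ ?_)
  · rw [norm_smul, Real.norm_eq_abs]
    exact mul_le_mul_of_nonneg_left (norm_fst_le _) (abs_nonneg _)
  · rw [norm_smul, Real.norm_eq_abs]
    exact mul_le_mul_of_nonneg_left (norm_snd_le _) (abs_nonneg _)

namespace Idl

variable {d K : ℕ} {ε : ℝ} {U : E d → ℝ} {Qd : Quad K} {c h δ : ℝ} {y : E d} {J : ℕ}

theorem gfun_zero (y : E d) (Z : E d × E d) : gfun U y 0 Z = Gt U 1 y := by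
  simp [gfun, lev, pt]

theorem tay_succ {F : Type*} [AddCommGroup F] [Module ℝ F] (n : ℕ) (s : ℝ) (f : ℕ → F) :
    tay (n + 1) s f = tay n s f + (s ^ (n + 1) / ((n + 1).factorial : ℝ)) • f (n + 1) := by
  rw [tay, Finset.sum_range_succ, tay]

theorem tay_lin {F : Type*} [AddCommGroup F] [Module ℝ F] (n : ℕ) (s p r : ℝ) (f g : ℕ → F) :
    (tay n s fun m => p • f m - r • g m) = p • tay n s f - r • tay n s g := by
  simp only [tay, smul_sub, Finset.sum_sub_distrib, Finset.smul_sum, smul_comm p, smul_comm r]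

theorem cases_eq {F : Type*} (f : ℕ → F) :
    (fun m : ℕ => (Nat.casesOn m (f 0) fun m => f (m + 1) : F)) = f := by
  funext m
  cases m <;> rfl

theorem qd_tay' {F : Type*} [AddCommGroup F] [Module ℝ F] (hK : 1 ≤ K) (Qd : Quad K) (h : ℝ)
    (f : ℕ → F) :
    f 0 + h • ∑ k, Qd.a (Fin.last K) k • tay K (h * nd K k) (fun m => f (m + 1)) =
      tay (K + 1) h f := by
  have := qd_tay Qd h (fun m => f (m + 1)) (f 0) (Fin.last K)
  rw [cases_eq, nd_last hK, mul_one] at this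
  exact this

theorem lip_int {X F : Type*} [MeasurableSpace X] [NormedAddCommGroup F] {μ : Measure X}
    [IsFiniteMeasure μ] {L : ℝ} {ψ : F → ℝ} (hψ : LipR L ψ) {f g : X → F}
    (hf : Integrable f μ) (hg : Integrable g μ) :
    |∫ x, ψ (f x) ∂μ - ∫ x, ψ (g x) ∂μ| ≤ L * ∫ x, ‖f x - g x‖ ∂μ := by
  have hψ' : LipV L ψ := hψ
  have h1 : Integrable (fun x => ψ (f x)) μ := int_comp_lip hψ' hf
  have h2 : Integrable (fun x => ψ (g x)) μ := int_comp_lip hψ' hg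
  rw [← integral_sub h1 h2, ← integral_const_mul, ← Real.norm_eq_abs]
  exact norm_integral_le_of_norm_le ((hf.sub hg).norm.const_mul L)
    (ae_of_all _ fun x => hψ _ _)

theorem norm_le_abs (b : ℝ × ℝ) : ‖b‖ ≤ |b.1| + |b.2| := by
  rw [Prod.norm_def]
  exact max_le (le_add_of_nonneg_right (abs_nonneg _)) (le_add_of_nonneg_left (abs_nonneg _))

theorem norm_eb (m : Fin 2) : ‖eb m‖ ≤ 1 := by
  fin_cases m <;> simp [eb, sel, Prod.norm_def]

theorem XX_eb (m : Fin 2) : (fun j : Fin d => XX (eb m) 0 (G j)) = DH m := by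
  funext j
  rw [XX_G]
  fin_cases m <;> simp [eb, sel]

theorem main_node (s : ℝ) : (0 : ℝ × ℝ) + s • ((1, 0) : ℝ × ℝ) = (s, 0) := by simp

theorem norm_e0 : ‖((1, 0) : ℝ × ℝ)‖ ≤ 1 := by simp [Prod.norm_def]

theorem one_le_c2 (Qd : Quad K) {c : ℝ} (hc : 1 ≤ c) : c ≤ c2 Qd c := by
  have hΛ := Qd.one_le
  have hk : (0 : ℝ) ≤ K := Nat.cast_nonneg K
  have h1 : c ≤ c * (10 * (K + 1) + 16 + 12 * (5 * Qd.Λ + 1)) :=
    le_mul_of_one_le_right (by linarith) (by linarith)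
  exact h1.trans (le_mul_of_one_le_left (by linarith) (by linarith))

attribute [local irreducible] jet PiM evS evV XX gfun tay pic nd c2

namespace Ctx

theorem g_lip (H : Ctx Qd c ε U y h δ J) {b : ℝ × ℝ} (hb : ‖b‖ ≤ 1 / 2) :
    LipV 1 (gfun U y b) := by
  refine lip_mono ?_ (gfun_glip H.pot y b hb)
  have h1 : |b.1| ≤ 1 / 2 := (norm_fst_le b).trans hb
  have h2 : |b.2| ≤ 1 / 2 := (norm_snd_le b).trans hb
  have := H.ε0
  have := H.hε
  nlinarith [abs_nonneg b.1, abs_nonneg b.2]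

theorem s5 (H : Ctx Qd c ε U y h δ J) : h * Qd.Λ * (5 * Qd.Λ) ≤ 1 / 2 := by
  have := H.hs; nlinarith

theorem κ0 (H : Ctx Qd c ε U y h δ J) : 1 ≤ c2 Qd c := H.hc.trans (one_le_c2 Qd H.hc)

/-- the flow estimate for the observable `G` -/
theorem flow_G (H : Ctx Qd c ε U y h δ J) {b a : ℝ × ℝ} {l η : ℝ} (hb : ‖b‖ ≤ h)
    (ha : ‖a‖ ≤ 1) (hl : |l| * ε ≤ 1) (hη0 : 0 ≤ η) (v : ℝ × ℝ → E d × E d → E d × E d)
    (hv : ∀ j, LipV (5 * Qd.Λ) (v (b + (h * nd K j) • a)))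
    (hη : ∀ j (m : Fin 2), ∫ Z, ‖sel m (v (b + (h * nd K j) • a) Z)
      - evV U y (b + (h * nd K j) • a) Z (fun i => XX a l (zz m i))‖
        ∂(PiM U y (b + (h * nd K j) • a)) ≤ η) (i : Fin (K + 1)) :
    (∫ Z, ‖pic Qd h a v b Z J i - (tay K (h * nd K i) fun m => jet U y a l (zz 0) m b Z,
        tay K (h * nd K i) fun m => jet U y a l (zz 1) m b Z)‖ ∂(PiM U y b)
      ≤ c2 Qd c * (δ + η)) ∧
    (∫ Z, ‖gfun U y (b + (h * nd K i) • a) (pic Qd h a v b Z J i)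
        - tay K (h * nd K i) fun m => jet U y a l G m b Z‖ ∂(PiM U y b)
      ≤ c2 Qd c * (δ + η)) := by
  have hΛ := Qd.one_le
  have hc := H.hc
  have hn := fun j => H.norm_node hb ha (H.nd0 j) (H.nd1 j)
  have := H.flow_est (ηo := 0) hb ha hl hη0 v (gfun U y) G hv
    (fun j => lip_mono (by linarith) (H.g_lip (hn j)))
    (fun b' hb' => (H.jG hb' ha hl (n := K) (by omega)).trans (by
      have : 0 ≤ c * √d := by positivity
      linarith)) hη
    (fun j => by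
      have := lev_ge (hn j)
      simp only [evV_G H.pot y (b := b + (h * nd K j) • a) (by linarith), sub_self, norm_zero,
        integral_zero, le_refl]) i
  rwa [zero_add] at this

theorem fd_est (H : Ctx Qd c ε U y h δ J) {b a : ℝ × ℝ} {l η : ℝ} (hb : ‖b‖ ≤ h)
    (ha : ‖a‖ ≤ 1) (hl : |l| * ε ≤ 1) (hη0 : 0 ≤ η) (v : ℝ × ℝ → E d × E d → E d × E d)
    (hv : ∀ j, LipV (5 * Qd.Λ) (v (b + (h * nd K j) • a)))
    (hη : ∀ j (m : Fin 2), ∫ Z, ‖sel m (v (b + (h * nd K j) • a) Z)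
      - evV U y (b + (h * nd K j) • a) Z (fun i => XX a l (zz m i))‖
        ∂(PiM U y (b + (h * nd K j) • a)) ≤ η) :
    ∫ Z, ‖fd Qd h J a v (gfun U y) b Z - evV U y b Z (fun j => XX a l (G j))‖ ∂(PiM U y b)
      ≤ Qd.Λ * c2 Qd c / h * (δ + η) := by
  have hΛ := Qd.one_le
  have hh := H.hh
  have hκ := H.κ0
  have hδ := H.δ0
  have hn := fun j => H.norm_node hb ha (H.nd0 j) (H.nd1 j)
  have e : ∀ Z, fd Qd h J a v (gfun U y) b Z - evV U y b Z (fun j => XX a l (G j)) =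
      h⁻¹ • ∑ i, Qd.c i • (gfun U y (b + (h * nd K i) • a) (pic Qd h a v b Z J i)
        - tay K (h * nd K i) fun m => jet U y a l G m b Z) := by
    intro Z
    have := fd_tay H.hK Qd hh fun m => jet U y a l G m b Z
    simp only [jet_succ, jet_zero] at this
    rw [← this, fd]
    simp only [smul_sub, Finset.sum_sub_distrib]
  simp only [e]
  have hi : ∀ i, Integrable (fun Z => gfun U y (b + (h * nd K i) • a) (pic Qd h a v b Z J i)
      - tay K (h * nd K i) fun m => jet U y a l G m b Z) (PiM U y b) := fun i =>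
    (int_lip H.pot y b (lip_comp zero_le_one (H.g_lip (hn i))
      (pic_lip Qd hh.le (by linarith) a v b hv H.s5 J i))).sub
      (integrable_tay H.pot y a l G K _ (H.lev_b hb))
  have := int_smul_le h⁻¹ (int_wsum_le hi Qd.c (by positivity) Qd.hc
    fun i => (H.flow_G hb ha hl hη0 v hv hη i).2)
  refine this.trans (le_of_eq ?_)
  rw [abs_of_pos (inv_pos.mpr hh)]
  ring

theorem Dhat_est (H : Ctx Qd c ε U y h δ J) (m : Fin 2) {b : ℝ × ℝ} (hb : |b.1| + |b.2| ≤ h) :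
    ∫ Z, ‖Dhat Qd h J (gfun U y) m b Z - evV U y b Z (DH m)‖ ∂(PiM U y b)
      ≤ Qd.Λ * c2 Qd c / h * δ := by
  have hΛ := Qd.one_le
  have hb' := (norm_le_abs b).trans hb
  have ha := norm_eb m
  have hn := fun j => H.norm_node hb' ha (H.nd0 j) (H.nd1 j)
  have := H.fd_est (l := 0) (η := 0) hb' ha (by simp) le_rfl (v0 (gfun U y) (eb m))
    (fun j Z Z' => by
      have h1 : |(eb m).1| ≤ 1 := (norm_fst_le _).trans ha
      have h2 : |(eb m).2| ≤ 1 := (norm_snd_le _).trans ha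
      have h3 := H.g_lip (hn j) Z Z'
      have h4 := norm_nonneg (Z - Z')
      have h5 := norm_nonneg (gfun U y (b + (h * nd K j) • eb m) Z -
        gfun U y (b + (h * nd K j) • eb m) Z')
      simp only [v0, Prod.mk_sub_mk, Prod.norm_mk, neg_sub_neg, ← smul_sub, norm_smul,
        Real.norm_eq_abs, norm_sub_rev (gfun U y _ Z')]
      refine max_le ?_ ?_ <;> nlinarith)
    (fun j m' => by
      have hl := lev_ge (hn j)
      have e : ∀ Z, sel m' (v0 (gfun U y) (eb m) (b + (h * nd K j) • eb m) Z) =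
          evV U y (b + (h * nd K j) • eb m) Z (fun i => XX (eb m) 0 (zz m' i)) := by
        intro Z
        fin_cases m'
        · change _ = evV U y _ Z (fun i => XX (eb m) 0 (zz 0 i))
          simp only [XX_zz0, zero_smul, sub_zero, ← neg_smul, evV_smul,
            evV_G H.pot y (b := b + (h * nd K j) • eb m) (by linarith), v0]
          rfl
        · change _ = evV U y _ Z (fun i => XX (eb m) 0 (zz 1 i))
          simp only [XX_zz1, zero_smul, add_zero, ← neg_smul, evV_smul,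
            evV_G H.pot y (b := b + (h * nd K j) • eb m) (by linarith), v0]
          rfl
      simp only [e, sub_self, norm_zero, integral_zero, le_refl])
  rw [add_zero, XX_eb] at this
  exact this

theorem vf_est (H : Ctx Qd c ε U y h δ J) (a : ℝ × ℝ) (l : ℝ) {b : ℝ × ℝ}
    (hb : |b.1| + |b.2| ≤ h) (m : Fin 2) :
    ∫ Z, ‖sel m (vf Qd h J (gfun U y) a l b Z) - evV U y b Z (fun i => XX a l (zz m i))‖
      ∂(PiM U y b) ≤ |l| * (Qd.Λ * c2 Qd c / h * δ) := by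
  have hl := H.lev_b ((norm_le_abs b).trans hb)
  fin_cases m
  · have e : ∀ Z, sel 0 (vf Qd h J (gfun U y) a l b Z) - evV U y b Z (fun i => XX a l (zz 0 i))
        = (-l) • (Dhat Qd h J (gfun U y) 1 b Z - evV U y b Z (DH 1)) := by
      intro Z
      simp only [XX_zz0, sub_eq_add_neg, ← neg_smul, evV_smul, evV_add,
        evV_G H.pot y (b := b) (by linarith), vf, sel_zero]
      module
    have := int_smul_le (-l) (H.Dhat_est 1 hb)
    rw [abs_neg] at this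
    simp only [← e] at this
    exact this
  · have e : ∀ Z, sel 1 (vf Qd h J (gfun U y) a l b Z) - evV U y b Z (fun i => XX a l (zz 1 i))
        = l • (Dhat Qd h J (gfun U y) 0 b Z - evV U y b Z (DH 0)) := by
      intro Z
      simp only [XX_zz1, sub_eq_add_neg, ← neg_smul, evV_smul, evV_add,
        evV_G H.pot y (b := b) (by linarith), vf, sel_one]
      module
    have := int_smul_le l (H.Dhat_est 0 hb)
    simp only [← e] at this
    exact this

theorem Ahat_est (H : Ctx Qd c ε U y h δ J) {l' : ℝ} (hl : |l'| * ε ≤ 1) {b : ℝ × ℝ}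
    (hb : |b.1| + |b.2| ≤ h) :
    ∫ Z, ‖Ahat Qd h J (gfun U y) l' b Z - evV U y b Z (fun j => l' • AA (G j))‖ ∂(PiM U y b)
      ≤ Qd.Λ * c2 Qd c / h * (δ + |l'| * (Qd.Λ * c2 Qd c / h * δ)) := by
  have hΛ := Qd.one_le
  have hh := H.hh
  have hκ := H.κ0
  have hδ := H.δ0
  have := H.fd_est (a := 0) (l := l') (η := |l'| * (Qd.Λ * c2 Qd c / h * δ))
    ((norm_le_abs b).trans hb) (by simp) hl (by positivity) (vf Qd h J (gfun U y) 0 l')
    (fun j => by
      rw [smul_zero, add_zero]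
      exact vf_lip Qd J hh H.hs H.ε0 (by linarith [H.hε]) (gfun_glip H.pot y) (by simp) hl hb)
    (fun j m => by
      rw [smul_zero, add_zero]
      exact H.vf_est 0 l' hb m)
  simp only [XX_G, Prod.fst_zero, Prod.snd_zero, zero_smul, zero_add] at this
  exact this

theorem node_abs (H : Ctx Qd c ε U y h δ J) (j : Fin (K + 1)) :
    |((0 : ℝ × ℝ) + (h * nd K j) • ((1, 0) : ℝ × ℝ)).1| +
      |((0 : ℝ × ℝ) + (h * nd K j) • ((1, 0) : ℝ × ℝ)).2| ≤ h := by
  rw [main_node, abs_of_nonneg (H.nd0 j), abs_zero, add_zero]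
  exact H.nd1 j

theorem main_lip (H : Ctx Qd c ε U y h δ J) {l : ℝ} (hl : |l| * ε ≤ 1) (j : Fin (K + 1)) :
    LipV (5 * Qd.Λ) (vf Qd h J (gfun U y) (1, 0) l (0 + (h * nd K j) • ((1, 0) : ℝ × ℝ))) :=
  vf_lip Qd J H.hh H.hs H.ε0 (by linarith [H.hε]) (gfun_glip H.pot y) norm_e0 hl (H.node_abs j)

theorem zero_le (H : Ctx Qd c ε U y h δ J) : ‖(0 : ℝ × ℝ)‖ ≤ h := by
  rw [norm_zero]; exact H.hh.le

theorem step_est (H : Ctx Qd c ε U y h δ J) {ψ : E d → ℝ} (hψ : LipR 1 ψ) :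
    |∫ Z, ψ (y + h • (Zend Qd h J (gfun U y) 0 Z).1) ∂(PiM U y 0)
      - ∫ Z, ψ (y + h • Z.1) ∂(PiM U y (h, 0))| ≤ 5 * c2 Qd c * δ := by
  have hh := H.hh
  have h1 := H.h20
  have hκ := H.κ0
  have hδ := H.δ0
  have hc := H.hc
  have hcκ := one_le_c2 Qd H.hc
  have hl : |(0 : ℝ)| * ε ≤ 1 := by simp
  have hlev := H.lev_b H.zero_le
  have := isProb_PiM H.pot y (b := 0) (by linarith)
  have E1 := (H.flow_G (η := 0) H.zero_le norm_e0 hl le_rfl _ (H.main_lip hl)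
    (fun j m => (H.vf_est (1, 0) 0 (H.node_abs j) m).trans (by simp)) (Fin.last K)).1
  rw [nd_last H.hK, mul_one, add_zero] at E1
  have hψ1 : LipR h fun w : E d × E d => ψ (y + h • w.1) := by
    intro w w'
    refine (hψ _ _).trans ?_
    rw [one_mul, add_sub_add_left_eq_sub, ← smul_sub, norm_smul, Real.norm_of_nonneg hh.le]
    exact mul_le_mul_of_nonneg_left (norm_fst_le (w - w')) hh.le
  have hψ2 : LipR h fun w : Fin 1 → E d => ψ (y + h • w 0) := by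
    intro w w'
    refine (hψ _ _).trans ?_
    rw [one_mul, add_sub_add_left_eq_sub, ← smul_sub, norm_smul, Real.norm_of_nonneg hh.le]
    exact mul_le_mul_of_nonneg_left (norm_le_pi_norm (w - w') 0) hh.le
  have A := lip_int hψ1 (int_lip H.pot y 0 (Zend_lip Qd J hh H.hs H.ε0 (by linarith [H.hε])
    (gfun_glip H.pot y) hl)) ((integrable_tay H.pot y (1, 0) 0 (zz 0) K h hlev).prodMk
      (integrable_tay H.pot y (1, 0) 0 (zz 1) K h hlev))
  have hlv : ∀ t, 0 ≤ t → t ≤ h → 1 / 2 ≤ lev (0 + t • ((1, 0) : ℝ × ℝ)) := fun t t0 t1 =>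
    lev_ge (H.norm_node H.zero_le norm_e0 t0 t1)
  obtain ⟨K', hK'⟩ : ∃ K', K + 1 = K' + 2 := ⟨K - 1, by have := H.hK; omega⟩
  have T := transport H.pot y 0 (1, 0) 0 ![zz 0] K (B := 4 * (c * √d)) hh.le hh.le hlv
    (fun t t0 t1 => by
      rw [Fin.sum_univ_one]
      simp only [Matrix.cons_val_zero]
      have b0 := H.jz (hlv t t0 t1) norm_e0 hl 0 (n := K') (by omega)
      rwa [← hK'] at b0) hψ2
  simp only [Matrix.cons_val_zero, jet_zero, evV_zz, sel_zero, main_node] at T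
  have A2 : h * ∫ Z, ‖Zend Qd h J (gfun U y) 0 Z -
      (tay K h fun m => jet U y (1, 0) 0 (zz 0) m 0 Z,
        tay K h fun m => jet U y (1, 0) 0 (zz 1) m 0 Z)‖ ∂(PiM U y 0) ≤ c2 Qd c * δ :=
    (mul_le_mul_of_nonneg_left E1 hh.le).trans (by
      have : 0 ≤ c2 Qd c * δ := by positivity
      nlinarith)
  have T2 : h * h ^ (K + 1) * (4 * (c * √d)) ≤ 4 * c2 Qd c * δ := by
    have e : h * h ^ (K + 1) * (4 * (c * √d)) = 4 * (h * c) * (h ^ (K + 1) * √d) := by ring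
    rw [e]
    refine mul_le_mul ?_ H.δ2 (by positivity) (by positivity)
    nlinarith
  have := abs_sub_le (∫ Z, ψ (y + h • (Zend Qd h J (gfun U y) 0 Z).1) ∂(PiM U y 0))
    (∫ Z, ψ (y + h • tay K h fun m => jet U y (1, 0) 0 (zz 0) m 0 Z) ∂(PiM U y 0))
    (∫ Z, ψ (y + h • Z.1) ∂(PiM U y (h, 0)))
  linarith

end Ctx

theorem main_alg {F ι : Type*} [AddCommGroup F] [Module ℝ F] [Fintype ι] (w : ι → ℝ)
    (h l r : ℝ) (z g g0 tz tg rem : F) (T1 TG TQ Ah : ι → F)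
    (h1 : ∀ k, T1 k = l • TG k - r • TQ k) (h2 : z + h • ∑ k, w k • T1 k = tz)
    (h3 : g0 + h • ∑ k, w k • TG k = tg + rem) :
    z + l • g - r • (h • ∑ k, w k • Ah k) - (tz + l • g0) =
      l • (g - tg) + (-l) • rem + (-(r * h)) • ∑ k, w k • (Ah k - TQ k) := by
  have e : ∑ k, w k • T1 k = l • ∑ k, w k • TG k - r • ∑ k, w k • TQ k := by
    simp only [h1, smul_sub, Finset.sum_sub_distrib, Finset.smul_sum, smul_comm l, smul_comm r]
  have e2 : ∑ k, w k • (Ah k - TQ k) = ∑ k, w k • Ah k - ∑ k, w k • TQ k := by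
    simp only [smul_sub, Finset.sum_sub_distrib]
  have h4 : tg = g0 + h • ∑ k, w k • TG k - rem := by rw [h3]; abel
  rw [e2, h4, ← h2, e]
  module

theorem main_num {X κ c δ p p' r t : ℝ} (hκ : κ ≤ X) (hc : c ≤ κ) (hc1 : 1 ≤ c) (hδ : 0 ≤ δ)
    (hp : 0 ≤ p) (hp' : 0 ≤ p') (hr : 0 ≤ r) (ht0 : 0 ≤ t) (ht : t ≤ 1) :
    p * (κ * (δ + p * (X * δ))) + p * (3 * c * δ) +
      r * (t * (X * (δ + p' * (X * δ)) + κ * (δ + p * (X * δ)))) + p * (c * δ)
      ≤ (p + r) * (5 * X ^ 2) * (1 + p + p') * δ := by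
  have hX : 1 ≤ X := by linarith
  have hXX : X ≤ X ^ 2 := by nlinarith
  obtain ⟨W, hW⟩ : ∃ W, W = X ^ 2 * (1 + p + p') * δ := ⟨_, rfl⟩
  have a0 : 0 ≤ X ^ 2 * δ := by positivity
  have a1 : X * δ ≤ X ^ 2 * δ := mul_le_mul_of_nonneg_right hXX hδ
  have a2 : W = X ^ 2 * δ + p * (X ^ 2 * δ) + p' * (X ^ 2 * δ) := by rw [hW]; ring
  have a3 : 0 ≤ p * (X ^ 2 * δ) := by positivity
  have a4 : 0 ≤ p' * (X ^ 2 * δ) := by positivity
  have b1 : κ * (δ + p * (X * δ)) ≤ W := by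
    have : κ * (δ + p * (X * δ)) ≤ X * (δ + p * (X * δ)) :=
      mul_le_mul_of_nonneg_right hκ (by positivity)
    nlinarith
  have b2 : X * (δ + p' * (X * δ)) ≤ W := by nlinarith
  have b3 : c * δ ≤ W := by
    have : c * δ ≤ X * δ := mul_le_mul_of_nonneg_right (by linarith) hδ
    linarith
  have hW0 : 0 ≤ W := by linarith
  have b4 : t * (X * (δ + p' * (X * δ)) + κ * (δ + p * (X * δ))) ≤ 5 * W := by
    have : t * (X * (δ + p' * (X * δ)) + κ * (δ + p * (X * δ))) ≤ t * (2 * W) :=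
      mul_le_mul_of_nonneg_left (by linarith) ht0
    nlinarith
  have e : (p + r) * (5 * X ^ 2) * (1 + p + p') * δ = p * (5 * W) + r * (5 * W) := by
    rw [hW]; ring
  rw [e]
  have c1 := mul_le_mul_of_nonneg_left b4 hr
  have c2 := mul_le_mul_of_nonneg_left
    (show κ * (δ + p * (X * δ)) + 3 * c * δ + c * δ ≤ 5 * W by linarith) hp
  nlinarith

theorem jet_zz1 (y : E d) (l l' : ℝ) (hl' : l' ≠ 0) (m : ℕ) (b : ℝ × ℝ) (Z : E d × E d) :
    jet U y (1, 0) l (zz 1) (m + 1) b Z = l • jet U y (1, 0) l G (m + 1) b Z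
      - (l ^ 2 / l') • jet U y (1, 0) l (fun j => l' • AA (G j)) m b Z := by
  rw [jet_succ, jet_succ, sub_eq_add_neg, ← neg_smul, ← jet_smul, ← jet_smul, ← jet_add]
  congr 1
  funext j
  rw [XX_zz1, XX_G, smul_smul]
  have : -(l ^ 2 / l') * l' = -(l * l) := by field_simp
  rw [this]
  simp only [zero_smul, one_smul]
  module

theorem Ctx.main_est (H : Ctx Qd c ε U y h δ J) {l l' : ℝ} (hl : |l| * ε ≤ 1)
    (hl' : |l'| * ε ≤ 1) (hl0 : l' ≠ 0) {ψ : E d → ℝ} (hψ : LipR 1 ψ) :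
    |∫ Z, ψ (Z.2 + l • gfun U y (h, 0) (Zend Qd h J (gfun U y) l Z)
        - (l ^ 2 / l') • corr Qd h J (gfun U y) l l' Z) ∂(PiM U y 0)
      - ∫ ξ, ψ (ξ + l • Gt U 1 y) ∂(gam d)|
      ≤ (|l| + l ^ 2 / |l'|) * (5 * (Qd.Λ * c2 Qd c / h) ^ 2) * (1 + |l| + |l'|) * δ := by
  have hh := H.hh
  have h1 := H.h20
  have hΛ := Qd.one_le
  have hκ := H.κ0
  have hδ := H.δ0
  have hc := H.hc
  have hε := H.hε
  have hε0 := H.ε0
  have hcκ := one_le_c2 Qd H.hc
  have hlev := H.lev_b H.zero_le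
  have := isProb_PiM H.pot y (b := 0) (by linarith)
  obtain ⟨X, hX⟩ : ∃ X, X = Qd.Λ * c2 Qd c / h := ⟨_, rfl⟩
  have hκX : c2 Qd c ≤ X := by
    rw [hX, le_div_iff₀ hh]
    nlinarith
  have hX0 : 0 ≤ X := by linarith
  have hf := fun j m => H.vf_est (1, 0) l (H.node_abs j) m
  have E1 := (H.flow_G H.zero_le norm_e0 hl (by positivity) _ (H.main_lip hl) hf (Fin.last K)).2
  rw [nd_last H.hK, mul_one, main_node, ← hX] at E1
  have hAl : ∀ j, LipV (5 * Qd.Λ)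
      (Ahat Qd h J (gfun U y) l' (0 + (h * nd K j) • ((1, 0) : ℝ × ℝ))) := fun j =>
    lip_mono (by nlinarith) (Ahat_lip Qd J hh H.hs hε0 (by linarith) (gfun_glip H.pot y) hl'
      (H.node_abs j))
  have E2 := fun i => (H.flow_est H.zero_le norm_e0 hl (by positivity) _
    (Ahat Qd h J (gfun U y) l') (fun j => l' • AA (G j)) (H.main_lip hl) hAl
    (fun b' hb' => (H.jb b' (1, 0) l l' hb' norm_e0 hl hl' (K + 1) (by omega)).2.trans (by
      have : 0 ≤ c * √d := by positivity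
      linarith)) hf (fun j => H.Ahat_est hl' (H.node_abs j)) i).2
  rw [← hX] at E2
  have E3 : ∫ Z, ‖(h ^ (K + 1) / ((K + 1).factorial : ℝ)) • jet U y (1, 0) l G (K + 1) 0 Z‖
      ∂(PiM U y 0) ≤ 3 * c * δ := by
    refine (int_smul_le _ (H.jG hlev norm_e0 hl (n := K) (by omega))).trans ?_
    have f1 : (1 : ℝ) ≤ (K + 1).factorial := by exact_mod_cast Nat.factorial_pos (K + 1)
    have f2 : |h ^ (K + 1) / ((K + 1).factorial : ℝ)| ≤ h ^ (K + 1) := by
      rw [abs_of_nonneg (by positivity)]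
      exact div_le_self (by positivity) f1
    refine (mul_le_mul_of_nonneg_right f2 (by positivity)).trans ?_
    have e : h ^ (K + 1) * (3 * (c * √d)) = 3 * c * (h ^ (K + 1) * √d) := by ring
    rw [e]
    exact mul_le_mul_of_nonneg_left H.δ2 (by positivity)
  have hZ := Zend_lip Qd J hh H.hs hε0 (by linarith) (gfun_glip H.pot y) hl
  have hg : LipV 1 (gfun U y (h, 0)) := H.g_lip (by
    refine (norm_le_abs _).trans ?_
    simp only [abs_zero, abs_of_pos hh]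
    linarith)
  have i1 : Integrable (fun Z => gfun U y (h, 0) (Zend Qd h J (gfun U y) l Z)) (PiM U y 0) :=
    int_lip H.pot y 0 (lip_comp zero_le_one hg hZ)
  have i2 : Integrable (corr Qd h J (gfun U y) l l') (PiM U y 0) :=
    int_lip H.pot y 0 (corr_lip Qd J hh H.hs hε0 (by linarith) (gfun_glip H.pot y) hl hl')
  have i3 : Integrable (fun Z : E d × E d => Z.2) (PiM U y 0) :=
    int_lip H.pot y 0 (L := 1) fun Z Z' => by
      rw [one_mul]; exact norm_snd_le (Z - Z')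
  have i4 : ∀ i, Integrable (fun Z => Ahat Qd h J (gfun U y) l'
      (0 + (h * nd K i) • ((1, 0) : ℝ × ℝ))
      (pic Qd h (1, 0) (vf Qd h J (gfun U y) (1, 0) l) 0 Z J i) -
      tay K (h * nd K i) fun m => jet U y (1, 0) l (fun j => l' • AA (G j)) m 0 Z)
      (PiM U y 0) := fun i =>
    (int_lip H.pot y 0 (lip_comp (by linarith) (hAl i)
      (pic_lip Qd hh.le (by linarith) _ _ _ (H.main_lip hl) H.s5 J i))).sub
      (integrable_tay H.pot y _ l _ K _ hlev)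
  have i5 : Integrable (fun Z => gfun U y (h, 0) (Zend Qd h J (gfun U y) l Z) -
      tay K h fun m => jet U y (1, 0) l G m 0 Z) (PiM U y 0) :=
    i1.sub (integrable_tay H.pot y _ l _ K _ hlev)
  have i6 : Integrable (fun Z => (h ^ (K + 1) / ((K + 1).factorial : ℝ)) •
      jet U y (1, 0) l G (K + 1) 0 Z) (PiM U y 0) :=
    (integrable_jet H.pot y _ l G (K + 1) hlev).smul (h ^ (K + 1) / ((K + 1).factorial : ℝ))
  have iA : Integrable (fun Z => Z.2 + l • gfun U y (h, 0) (Zend Qd h J (gfun U y) l Z)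
      - (l ^ 2 / l') • corr Qd h J (gfun U y) l l' Z) (PiM U y 0) :=
    (i3.add (i1.smul l)).sub (i2.smul (l ^ 2 / l'))
  have iB : Integrable (fun Z => (tay (K + 1) h fun m => jet U y (1, 0) l (zz 1) m 0 Z) +
      l • Gt U 1 y) (PiM U y 0) :=
    (integrable_tay H.pot y _ l _ (K + 1) _ hlev).add (integrable_const _)
  have A := lip_int hψ iA iB
  have e : ∀ Z : E d × E d, Z.2 + l • gfun U y (h, 0) (Zend Qd h J (gfun U y) l Z)
      - (l ^ 2 / l') • corr Qd h J (gfun U y) l l' Z -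
      ((tay (K + 1) h fun m => jet U y (1, 0) l (zz 1) m 0 Z) + l • Gt U 1 y) =
      l • (gfun U y (h, 0) (Zend Qd h J (gfun U y) l Z) -
        tay K h fun m => jet U y (1, 0) l G m 0 Z) +
      (-l) • ((h ^ (K + 1) / ((K + 1).factorial : ℝ)) • jet U y (1, 0) l G (K + 1) 0 Z) +
      (-(l ^ 2 / l' * h)) • ∑ i, Qd.a (Fin.last K) i • (Ahat Qd h J (gfun U y) l'
        (0 + (h * nd K i) • ((1, 0) : ℝ × ℝ))
        (pic Qd h (1, 0) (vf Qd h J (gfun U y) (1, 0) l) 0 Z J i) -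
        tay K (h * nd K i) fun m => jet U y (1, 0) l (fun j => l' • AA (G j)) m 0 Z) := by
    intro Z
    have q1 := qd_tay' H.hK Qd h fun m => jet U y (1, 0) l (zz 1) m 0 Z
    have q2 := qd_tay' H.hK Qd h fun m => jet U y (1, 0) l G m 0 Z
    rw [tay_succ] at q2
    simp only [jet_zero, evV_zz, sel_one, evV_G H.pot y (b := 0) (by linarith), gfun_zero]
      at q1 q2
    refine main_alg _ h l (l ^ 2 / l') _ _ _ _ _ _ _ _ _ _ (fun k => ?_) q1 q2
    simp only [jet_zz1 y l l' hl0, tay_lin]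
  simp only [e, one_mul] at A
  have W := int_wsum_le i4 (Qd.a (Fin.last K)) (by positivity) (Qd.ha _) E2
  have S := int_add_le ((i5.smul l).add (i6.smul (-l)))
    ((integrable_finsetSum Finset.univ fun i _ => (i4 i).smul (Qd.a (Fin.last K) i)).smul
      (-(l ^ 2 / l' * h)))
    (int_add_le (i5.smul l) (i6.smul (-l)) (int_smul_le l E1) (int_smul_le (-l) E3))
    (int_smul_le (-(l ^ 2 / l' * h)) W)
  have A2 := A.trans S
  have hψ2 : LipR 1 fun w : Fin 1 → E d => ψ (w 0 + l • Gt U 1 y) := by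
    intro w w'
    refine (hψ _ _).trans ?_
    rw [add_sub_add_right_eq_sub]
    exact mul_le_mul_of_nonneg_left (norm_le_pi_norm (w - w') 0) zero_le_one
  have hψ3 : LipR 1 fun w : E d => ψ (w + l • Gt U 1 y) := by
    intro w w'
    refine (hψ _ _).trans ?_
    rw [add_sub_add_right_eq_sub]
  have hlv : ∀ t, 0 ≤ t → t ≤ h → 1 / 2 ≤ lev (0 + t • ((1, 0) : ℝ × ℝ)) := fun t t0 t1 =>
    lev_ge (H.norm_node H.zero_le norm_e0 t0 t1)
  have T := transport H.pot y 0 (1, 0) l ![zz 1] (K + 1) (B := |l| * (c * √d)) hh.le zero_le_one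
    hlv (fun t t0 t1 => by
      rw [Fin.sum_univ_one]
      simp only [Matrix.cons_val_zero]
      have b0 := int_smul_le l ((H.jb _ (1, 0) l 1 (hlv t t0 t1) norm_e0 hl
        (H.abs_ε (by simp)) (K + 1) (by omega)).1 0)
      refine le_of_eq_of_le ?_ b0
      refine integral_congr_ae (ae_of_all _ fun Z => ?_)
      simp only [← jet_smul]
      rw [jet_succ]
      simp only [XX_zz1, zero_smul, neg_zero, zero_add, one_smul]) hψ2
  simp only [Matrix.cons_val_zero, jet_zero, evV_zz, sel_one, main_node] at T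
  rw [integral_PiM_snd H.pot y (r := h) (by nlinarith) hψ3.continuous hψ3.pg] at T
  have T2 : 1 * h ^ (K + 1 + 1) * (|l| * (c * √d)) ≤ |l| * (c * δ) := by
    have e : 1 * h ^ (K + 1 + 1) * (|l| * (c * √d)) = |l| * (c * (h * (h ^ (K + 1) * √d))) := by
      ring
    rw [e]
    refine mul_le_mul_of_nonneg_left (mul_le_mul_of_nonneg_left ?_ (by linarith)) (abs_nonneg l)
    have := H.δ2
    have : 0 ≤ h ^ (K + 1) * √d := by positivity
    nlinarith
  have N := main_num (X := X) (p := |l|) (p' := |l'|) (r := l ^ 2 / |l'|) (t := h * Qd.Λ) hκX hcκ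
    hc hδ (abs_nonneg _) (abs_nonneg _) (by positivity) (by positivity) (by linarith [H.hΛ])
  have e3 : |-(l ^ 2 / l' * h)| = l ^ 2 / |l'| * h := by
    rw [abs_neg, abs_mul, abs_div, abs_of_pos hh, abs_of_nonneg (sq_nonneg l)]
  rw [e3, abs_neg] at A2
  rw [← hX]
  refine (abs_sub_le _ _ _).trans ((add_le_add A2 (T.trans T2)).trans (le_of_eq_of_le ?_ N))
  ring

theorem mk_ctx (hK : 1 ≤ K) (Qd : Quad K) {c : ℝ} (hc : 1 ≤ c) (hU : Pot 0 ε U) (hε : ε ≤ 1 / 2)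
    (y : E d) (hjb : JB K c ε U y) {h : ℝ} (hh : 0 < h)
    (hC : 20 * Qd.Λ ^ 2 * c2 Qd c ^ 2 * h ≤ 1) (J : ℕ) :
    Ctx Qd c ε U y h ((20 * Qd.Λ ^ 2 * c2 Qd c ^ 2 * h) ^ J * (‖y‖ + √d) + h ^ (K + 1) * √d) J := by
  have hκ : 1 ≤ c2 Qd c := hc.trans (one_le_c2 Qd hc)
  have hΛ := Qd.one_le
  have h1 : 20 * Qd.Λ ^ 2 * h ≤ 20 * Qd.Λ ^ 2 * c2 Qd c ^ 2 * h :=
    mul_le_mul_of_nonneg_right (le_mul_of_one_le_right (by positivity) (one_le_pow₀ hκ)) hh.le
  refine ⟨hK, hU, hε, hc, hjb, hh, h1.trans hC, ?_, ?_⟩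
  · refine le_trans ?_ (le_add_of_nonneg_right (by positivity))
    refine mul_le_mul_of_nonneg_right (pow_le_pow_left₀ (by positivity) (le_trans ?_ h1) J)
      (by positivity)
    have : 0 ≤ Qd.Λ ^ 2 * h := by positivity
    nlinarith
  · exact le_add_of_nonneg_left (by positivity)

end Idl

open Idl in
theorem ideal_main {K : ℕ} (hK : 1 ≤ K) (Qd : Quad K) : ∃ C : ℝ, 20 * Qd.Λ ^ 2 ≤ C ∧
    ∀ (J d : ℕ) (ε : ℝ) (U : E d → ℝ), Pot 0 ε U → ε ≤ 1 / 2 →
    ∀ (y : E d) (h l l' : ℝ), 0 < h → C * h ≤ 1 → |l| * ε ≤ 1 → |l'| * ε ≤ 1 → l' ≠ 0 →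
    ∀ ψ : E d → ℝ, LipR 1 ψ →
      |∫ Z, ψ (Z.2 + l • gfun U y (h, 0) (Zend Qd h J (gfun U y) l Z)
            - (l ^ 2 / l') • corr Qd h J (gfun U y) l l' Z) ∂((gam d).prod (gam d))
        - ∫ ξ, ψ (ξ + l • Gt U 1 y) ∂(gam d)|
      ≤ (|l| + l ^ 2 / |l'|) * (C / h ^ 2) * (1 + |l| + |l'|) *
          ((C * h) ^ J * (‖y‖ + √d) + h ^ (K + 1) * √d) := by
  obtain ⟨c, hc, hJB⟩ := exists_JB K
  have hκ : 1 ≤ c2 Qd c := hc.trans (one_le_c2 Qd hc)
  refine ⟨20 * Qd.Λ ^ 2 * c2 Qd c ^ 2,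
    le_mul_of_one_le_right (by positivity) (one_le_pow₀ hκ), ?_⟩
  intro J d ε U hU hε y h l l' hh hC hl hl' hl0 ψ hψ
  have H := mk_ctx hK Qd hc hU hε y (hJB d ε U hU hε y) hh hC J
  have := H.main_est hl hl' hl0 hψ
  rw [PiM_zero hU] at this
  refine this.trans (mul_le_mul_of_nonneg_right (mul_le_mul_of_nonneg_right
    (mul_le_mul_of_nonneg_left ?_ (by positivity)) (by positivity)) H.δ0)
  rw [div_pow, ← mul_div_assoc]
  refine div_le_div_of_nonneg_right ?_ (by positivity)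
  have : 0 ≤ (Qd.Λ * c2 Qd c) ^ 2 := by positivity
  nlinarith

open Idl in
theorem ideal_step {K : ℕ} (hK : 1 ≤ K) (Qd : Quad K) : ∃ C : ℝ, 20 * Qd.Λ ^ 2 ≤ C ∧
    ∀ (J d : ℕ) (ε : ℝ) (U : E d → ℝ), Pot 0 ε U → ε ≤ 1 / 2 →
    ∀ (y : E d) (h : ℝ), 0 < h → C * h ≤ 1 →
    ∀ ψ : E d → ℝ, LipR 1 ψ →
      |∫ Z, ψ (y + h • (Zend Qd h J (gfun U y) 0 Z).1) ∂((gam d).prod (gam d))
        - ∫ Z, ψ (y + h • Z.1) ∂(PiM U y (h, 0))|
      ≤ (C / h ^ 2) * ((C * h) ^ J * (‖y‖ + √d) + h ^ (K + 1) * √d) := by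
  obtain ⟨c, hc, hJB⟩ := exists_JB K
  have hκ : 1 ≤ c2 Qd c := hc.trans (one_le_c2 Qd hc)
  have hΛ := Qd.one_le
  refine ⟨20 * Qd.Λ ^ 2 * c2 Qd c ^ 2,
    le_mul_of_one_le_right (by positivity) (one_le_pow₀ hκ), ?_⟩
  intro J d ε U hU hε y h hh hC ψ hψ
  have H := mk_ctx hK Qd hc hU hε y (hJB d ε U hU hε y) hh hC J
  have := H.step_est hψ
  rw [PiM_zero hU] at this
  refine this.trans (mul_le_mul_of_nonneg_right ?_ H.δ0)
  rw [le_div_iff₀ (by positivity)]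
  have h1 := H.h20
  have h2 : h ^ 2 ≤ 1 := by nlinarith
  have h3 : c2 Qd c ≤ c2 Qd c ^ 2 := by nlinarith
  have h4 : 1 ≤ Qd.Λ ^ 2 := one_le_pow₀ hΛ
  nlinarith [mul_le_mul_of_nonneg_left h2 (show 0 ≤ 5 * c2 Qd c by linarith),
    mul_le_mul_of_nonneg_right h4 (sq_nonneg (c2 Qd c))]

end Vale.Agent.P347
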