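import Vale.Agent.P347.JetMat

/-! TASK Jet: dimension-explicit `L²(Π_b)` bounds for all jets. See PROOF.md, section F. -/

open MeasureTheory ProbabilityTheory MvPolynomial

namespace Vale.Agent.P347

theorem Ctx.lev_pos (θ : Ctx) : 0 < lev θ.b := by linarith [θ.hb]

/-- expectation under `Π_b` as a linear functional on the formal ring -/
noncomputable def Ctx.EE (θ : Ctx) : R θ.d →ₗ[ℝ] ℝ where
  toFun P := ∫ Z, θ.ev Z P ∂(PiM θ.U θ.y θ.b)
  map_add' P P' := by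
    simp only [map_add]
    exact integral_add (integrable_evS θ.hU θ.y θ.lev_pos P) (integrable_evS θ.hU θ.y θ.lev_pos P')
  map_smul' c P := by
    simp only [map_smul, smul_eq_mul, RingHom.id_apply]
    exact integral_const_mul _ _

theorem Ctx.EE_mono (θ : Ctx) {P P' : R θ.d} (h : ∀ Z, θ.ev Z P ≤ θ.ev Z P') :
    θ.EE P ≤ θ.EE P' :=
  integral_mono (integrable_evS θ.hU θ.y θ.lev_pos P) (integrable_evS θ.hU θ.y θ.lev_pos P') h

theorem Ctx.EE_one (θ : Ctx) : θ.EE 1 = 1 := by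
  have := isProb_PiM θ.hU θ.y θ.lev_pos.le
  change ∫ Z, θ.ev Z 1 ∂(PiM θ.U θ.y θ.b) = 1
  simp

theorem Ctx.EE_sq_nonneg (θ : Ctx) (P : R θ.d) : 0 ≤ θ.EE (P ^ 2) := by
  have := θ.EE_mono (P := 0) (P' := P ^ 2) fun Z => by
    rw [map_zero, map_pow]; exact sq_nonneg _
  rwa [map_zero] at this

theorem Ctx.EE_del (θ : Ctx) (m : Fin 2) (i : Fin θ.d) (P P' : R θ.d) :
    θ.EE (del m i P * P') = θ.EE (P * dZ m i P') :=
  integral_del_mul θ.hU θ.y θ.lev_pos m i P P'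

theorem Ctx.EE_mul_le (θ : Ctx) (P P' : R θ.d) :
    2 * θ.EE (P * P') ≤ θ.EE (P ^ 2) + θ.EE (P' ^ 2) := by
  have h := θ.EE_sq_nonneg (P - P')
  have e : (P - P') ^ 2 = P ^ 2 + P' ^ 2 - (P * P' + P * P') := by ring
  rw [e, map_sub, map_add, map_add] at h
  linarith

theorem Ctx.ev_bb_sq (θ : Ctx) (Z : E θ.d × E θ.d) (m : Fin 2) : θ.ev Z (bb m) ^ 2 ≤ 1 := by
  have h1 : θ.ev Z (bb m) = sel m θ.b := by
    simp only [Ctx.ev, evS, P347.ev, bb, aeval_X]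
  have h2 := θ.hb
  unfold lev at h2
  rw [h1]
  fin_cases m
  · simp only [sel]
    simp
    nlinarith [sq_nonneg θ.b.2, sq_abs θ.b.1, abs_nonneg θ.b.1]
  · simp only [sel]
    simp
    nlinarith [sq_nonneg θ.b.1, sq_abs θ.b.2, abs_nonneg θ.b.2]

/-- the `L²` bound for a vector family -/
def VB {ι : Ctx → Type} [∀ θ, Fintype (ι θ)] (h : ∀ θ, ι θ → R θ.d) : Prop :=
  ∃ K : ℝ, ∀ θ : Ctx, ∑ i, θ.EE (h θ i ^ 2) ≤ K * θ.d

/-- the class of vector families with at most `n` nested divergences -/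
inductive VC : ℕ → {ι : Ctx → Type} → [∀ θ, Fintype (ι θ)] → (∀ θ, ι θ → R θ.d) → Prop
  | id (n : ℕ) : VC n fun θ (p : Fin θ.d × Fin θ.d) => if p.1 = p.2 then 1 else 0
  | zero (n : ℕ) (ι : Ctx → Type) [∀ θ, Fintype (ι θ)] : VC n fun θ (_ : ι θ) => 0
  | del {n : ℕ} {ι : Ctx → Type} [∀ θ, Fintype (ι θ)] (m : Fin 2)
      {h : ∀ θ, Fin θ.d × ι θ → R θ.d} :
      VC n h → VC (n + 1) fun θ a => ∑ i, del m i (h θ (i, a))
  | mat {n : ℕ} {ι κ : Ctx → Type} [∀ θ, Fintype (ι θ)] [∀ θ, Fintype (κ θ)]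
      {A : ∀ θ, ι θ → κ θ → R θ.d} {h : ∀ θ, κ θ → R θ.d} :
      OC A → VC n h → VC n fun θ i => ∑ k, A θ i k * h θ k
  | bb {n : ℕ} {ι : Ctx → Type} [∀ θ, Fintype (ι θ)] (m : Fin 2) {h : ∀ θ, ι θ → R θ.d} :
      VC n h → VC n fun θ i => bb m * h θ i
  | add {n : ℕ} {ι : Ctx → Type} [∀ θ, Fintype (ι θ)] {h g : ∀ θ, ι θ → R θ.d} :
      VC n h → VC n g → VC n fun θ i => h θ i + g θ i
  | smul {n : ℕ} {ι : Ctx → Type} [∀ θ, Fintype (ι θ)] (c : Ctx → ℝ) (hc : ∀ θ, |c θ| ≤ 1)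
      {h : ∀ θ, ι θ → R θ.d} : VC n h → VC n fun θ i => c θ • h θ i
  | reidx {n : ℕ} {ι ι' : Ctx → Type} [∀ θ, Fintype (ι θ)] [∀ θ, Fintype (ι' θ)]
      {h : ∀ θ, ι θ → R θ.d} (e : ∀ θ, ι' θ → ι θ) (he : ∀ θ, Function.Injective (e θ)) :
      VC n h → VC n fun θ i => h θ (e θ i)
  | mono {n : ℕ} {ι : Ctx → Type} [∀ θ, Fintype (ι θ)] {h : ∀ θ, ι θ → R θ.d} :
      VC n h → VC (n + 1) h

section VC

variable {n : ℕ} {ι κ σ : Ctx → Type} [∀ θ, Fintype (ι θ)] [∀ θ, Fintype (κ θ)]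
  [∀ θ, Fintype (σ θ)]

theorem VC.congr {h g : ∀ θ, ι θ → R θ.d} (hh : VC n h) (hg : ∀ θ i, g θ i = h θ i) :
    VC n g := by
  have : g = h := by funext θ i; exact hg θ i
  rwa [this]

theorem VC.matL {A : ∀ θ, ι θ → κ θ → R θ.d} {h : ∀ θ, σ θ × κ θ → R θ.d} (hA : OC A)
    (hh : VC n h) : VC n fun θ (i : σ θ × ι θ) => ∑ k, A θ i.2 k * h θ (i.1, k) := by
  classical
  refine (VC.mat (hA.kron σ) hh).congr fun θ i => ?_
  rw [Fintype.sum_prod_type, Finset.sum_comm]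
  refine Finset.sum_congr rfl fun j _ => ?_
  simp

theorem VC.matR {A : ∀ θ, ι θ → κ θ → R θ.d} {h : ∀ θ, κ θ × σ θ → R θ.d} (hA : OC A)
    (hh : VC n h) : VC n fun θ (i : ι θ × σ θ) => ∑ k, A θ i.1 k * h θ (k, i.2) :=
  (VC.matL hA (hh.reidx (fun θ (x : σ θ × κ θ) => (x.2, x.1)) fun _ => inj_swap)).reidx
    (fun θ (x : ι θ × σ θ) => (x.2, x.1)) fun _ => inj_swap

theorem VC.ite {h : ∀ θ, ι θ → R θ.d} (hh : VC n h) (p : Prop) [Decidable p] :
    VC n fun θ i => if p then h θ i else 0 := by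
  by_cases hp : p
  · exact hh.congr fun θ i => if_pos hp
  · exact (VC.zero n ι).congr fun θ i => if_neg hp

theorem VC.sub {h g : ∀ θ, ι θ → R θ.d} (hh : VC n h) (hg : VC n g) :
    VC n fun θ i => h θ i - g θ i :=
  (hh.add (hg.smul (fun _ => -1) fun _ => by simp)).congr fun θ i => by
    rw [neg_one_smul, sub_eq_add_neg]

theorem VC.comm (m m' : Fin 2) {h : ∀ θ, Fin θ.d × ι θ → R θ.d} (hh : VC n h) :
    VC n fun θ (i : Fin θ.d × ι θ) => ∑ j, ((if m = m' ∧ i.1 = j then 1 else 0) +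
      P347.bb m * P347.bb m' * H i.1 j) * h θ (j, i.2) := by
  refine ((hh.ite (m = m')).add (((VC.matR OC.H1 hh).bb m').bb m)).congr fun θ i => ?_
  simp only [add_mul, Finset.sum_add_distrib, Finset.mul_sum, mul_assoc]
  congr 1
  by_cases hm : m = m'
  · simp [hm]
  · simp [hm]

theorem VC.D (m : Fin 2) {h : ∀ θ, ι θ → R θ.d} (hh : VC n h) :
    VC n fun θ (i : Fin θ.d × ι θ) => dZ m i.1 (h θ i.2) := by
  induction hh with
  | id n => exact (VC.zero n _).congr fun θ i => der_ite _ _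
  | zero n ι => exact (VC.zero n _).congr fun θ i => map_zero _
  | del m' hh ih =>
    refine (((ih.reidx (fun θ (x : Fin θ.d × Fin θ.d × _) => (x.2.1, x.1, x.2.2))
      fun _ => inj_rot).del m').add (hh.comm m m').mono).congr fun θ i => ?_
    rw [map_sum, ← Finset.sum_add_distrib]
    exact Finset.sum_congr rfl fun j _ => dZ_del _ _ _ _ _
  | mat hA hh ih =>
    refine (((VC.mat hA.dF hh).bb m).add (VC.matL hA ih)).congr fun θ i => ?_
    rw [map_sum, Finset.mul_sum, ← Finset.sum_add_distrib]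
    refine Finset.sum_congr rfl fun j _ => ?_
    rw [Derivation.leibniz, smul_eq_mul, smul_eq_mul, dZ_XO _ _ (hA.mem_XO _ _ _)]
    ring
  | bb m' hh ih =>
    refine (ih.bb m').congr fun θ i => ?_
    rw [Derivation.leibniz, smul_eq_mul, smul_eq_mul, dZ_bb, mul_zero, add_zero]
  | add _ _ ih ih' => exact (ih.add ih').congr fun θ i => map_add _ _ _
  | smul c hc _ ih => exact (ih.smul c hc).congr fun θ i => Derivation.map_smul _ _ _
  | reidx e he _ ih =>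
    exact ih.reidx (fun θ (x : Fin θ.d × _) => (x.1, e θ x.2)) fun θ => inj_map (he θ)
  | mono _ ih => exact ih.mono

theorem VC.DD (m : Fin 2) {h : ∀ θ, ι θ → R θ.d} (hh : VC n h) :
    VC (n + 1) fun θ i => DD m (h θ i) := by
  induction hh with
  | id n => exact (VC.zero _ _).congr fun θ i => der_ite _ _
  | zero n ι => exact (VC.zero _ _).congr fun θ i => map_zero _
  | del m' hh ih =>
    refine ((ih.del m').add (((VC.matR OC.H1 hh).del m).bb m').mono).congr fun θ i => ?_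
    rw [map_sum]
    simp only [DD_del, Finset.sum_add_distrib, del_sum]
    rw [← Finset.mul_sum, Finset.sum_comm]
    simp only [H_symm]
  | mat hA hh ih =>
    refine (((((VC.mat hA.dF hh).del m).add (VC.mat hA.dC (hh.D m)).mono).add
      ((VC.mat hA.BB hh).bb m).mono).add (VC.mat hA ih)).congr fun θ i => ?_
    rw [map_sum, Fintype.sum_prod_type]
    simp only [del_sum]
    rw [← Finset.sum_add_distrib]
    simp only [← Finset.sum_add_distrib]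
    rw [Finset.sum_comm, Finset.mul_sum, ← Finset.sum_add_distrib, ← Finset.sum_add_distrib]
    refine Finset.sum_congr rfl fun j _ => ?_
    rw [Derivation.leibniz, smul_eq_mul, smul_eq_mul, DD_XO _ (hA.mem_XO _ _ _)]
    simp only [del_mul, sub_add_cancel]
    rw [← Finset.sum_mul]
    ring
  | bb m' hh ih =>
    refine ((ih.bb m').add (hh.ite (m = m')).mono).congr fun θ i => ?_
    rw [Derivation.leibniz, smul_eq_mul, smul_eq_mul, DD_bb]
    simp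
  | add _ _ ih ih' => exact (ih.add ih').congr fun θ i => map_add _ _ _
  | smul c hc _ ih => exact (ih.smul c hc).congr fun θ i => Derivation.map_smul _ _ _
  | reidx e he _ ih => exact ih.reidx e he
  | mono _ ih => exact ih.mono

theorem VC.AA (c : Ctx → ℝ) (hc : ∀ θ, |c θ| * θ.ε ≤ 1) {h : ∀ θ, ι θ → R θ.d} (hh : VC n h) :
    VC (n + 1) fun θ i => c θ • AA (h θ i) := by
  refine (((VC.matR (OC.H c hc) (hh.D 1)).del 0).sub
    ((VC.matR (OC.H c hc) (hh.D 0)).del 1)).congr fun θ i => ?_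
  rw [AA_eq, smul_sub, Finset.smul_sum, Finset.smul_sum]
  simp only [← del_smul, Finset.smul_sum, smul_mul_assoc]

theorem VC.XX {h : ∀ θ, ι θ → R θ.d} (hh : VC n h) :
    VC (n + 1) fun θ i => XX θ.a θ.l (h θ i) :=
  ((((hh.DD 0).smul (fun θ => θ.a.1) fun θ => (norm_fst_le θ.a).trans θ.ha).add
    ((hh.DD 1).smul (fun θ => θ.a.2) fun θ => (norm_snd_le θ.a).trans θ.ha)).add
    (hh.AA (fun θ => θ.l) fun θ => θ.hl)).congr fun _ _ => XX_apply _ _ _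

theorem VC.XX_iter {h : ∀ θ, ι θ → R θ.d} (hh : VC n h) (k : ℕ) :
    VC (n + k) fun θ i => (P347.XX θ.a θ.l)^[k] (h θ i) := by
  induction k with
  | zero => exact hh
  | succ k ih => exact ih.XX.congr fun θ i => Function.iterate_succ_apply' _ _ _

theorem VB.of_pt {h : ∀ θ, ι θ → R θ.d} {g : ∀ θ, κ θ → R θ.d} (hg : VB g) (K : ℝ) (hK : 0 ≤ K)
    (hpt : ∀ (θ : Ctx) Z, ∑ i, θ.ev Z (h θ i) ^ 2 ≤ K * ∑ k, θ.ev Z (g θ k) ^ 2) : VB h := by
  obtain ⟨K', hK'⟩ := hg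
  refine ⟨K * K', fun θ => ?_⟩
  have h1 := θ.EE_mono (P := ∑ i, h θ i ^ 2) (P' := K • ∑ k, g θ k ^ 2) fun Z => by
    simpa only [map_sum, map_pow, map_smul, smul_eq_mul] using hpt θ Z
  rw [map_smul, map_sum, map_sum, smul_eq_mul] at h1
  rw [mul_assoc]
  exact h1.trans (mul_le_mul_of_nonneg_left (hK' θ) hK)

theorem VB.add {h g : ∀ θ, ι θ → R θ.d} (hh : VB h) (hg : VB g) :
    VB fun θ i => h θ i + g θ i := by
  obtain ⟨K, hK⟩ := hh
  obtain ⟨K', hK'⟩ := hg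
  refine ⟨2 * K + 2 * K', fun θ => ?_⟩
  have h1 : ∑ i, θ.EE ((h θ i + g θ i) ^ 2) ≤
      ∑ i, (2 * θ.EE (h θ i ^ 2) + 2 * θ.EE (g θ i ^ 2)) := by
    refine Finset.sum_le_sum fun i _ => ?_
    have e : (h θ i + g θ i) ^ 2 = h θ i ^ 2 + g θ i ^ 2 + (h θ i * g θ i + h θ i * g θ i) := by
      ring
    rw [e, map_add, map_add, map_add]
    linarith [θ.EE_mul_le (h θ i) (g θ i)]
  rw [Finset.sum_add_distrib, ← Finset.mul_sum, ← Finset.mul_sum] at h1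
  linarith [hK θ, hK' θ]

theorem Ctx.EE_del_sq (θ : Ctx) (m : Fin 2) (f : Fin θ.d → R θ.d) :
    θ.EE ((∑ i, del m i (f i)) ^ 2) ≤ ∑ j, ∑ i, θ.EE (dZ m j (f i) ^ 2) +
      (∑ i, θ.EE (f i ^ 2) + ∑ i, θ.EE ((∑ j, ((if m = m ∧ i = j then 1 else 0) +
        bb m * bb m * H i j) * f j) ^ 2)) := by
  have h1 : θ.EE ((∑ i, del m i (f i)) ^ 2) = ∑ i, ∑ j, θ.EE (dZ m i (f j) * dZ m j (f i)) +
      ∑ i, θ.EE (f i * ∑ j, ((if m = m ∧ i = j then 1 else 0) + bb m * bb m * H i j) * f j) := by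
    rw [sq, Finset.sum_mul, map_sum, ← Finset.sum_add_distrib]
    refine Finset.sum_congr rfl fun i _ => ?_
    rw [θ.EE_del, map_sum]
    simp only [dZ_del]
    rw [Finset.sum_add_distrib, mul_add, map_add, Finset.mul_sum, map_sum, add_left_inj]
    refine Finset.sum_congr rfl fun j _ => ?_
    rw [mul_comm (f i), θ.EE_del]
  have h2 : 2 * ∑ i, ∑ j, θ.EE (dZ m i (f j) * dZ m j (f i)) ≤
      ∑ i, ∑ j, θ.EE (dZ m i (f j) ^ 2) + ∑ i, ∑ j, θ.EE (dZ m j (f i) ^ 2) := by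
    rw [Finset.mul_sum, ← Finset.sum_add_distrib]
    refine Finset.sum_le_sum fun i _ => ?_
    rw [Finset.mul_sum, ← Finset.sum_add_distrib]
    exact Finset.sum_le_sum fun j _ => θ.EE_mul_le _ _
  rw [Finset.sum_comm (f := fun i j => θ.EE (dZ m j (f i) ^ 2))] at h2
  have h3 : 2 * ∑ i, θ.EE (f i * ∑ j, ((if m = m ∧ i = j then 1 else 0) +
      bb m * bb m * H i j) * f j) ≤ ∑ i, θ.EE (f i ^ 2) + ∑ i, θ.EE ((∑ j,
        ((if m = m ∧ i = j then 1 else 0) + bb m * bb m * H i j) * f j) ^ 2) := by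
    rw [Finset.mul_sum, ← Finset.sum_add_distrib]
    exact Finset.sum_le_sum fun i _ => θ.EE_mul_le _ _
  have h4 : 0 ≤ ∑ i, θ.EE (f i ^ 2) := Finset.sum_nonneg fun _ _ => θ.EE_sq_nonneg _
  have h5 : 0 ≤ ∑ i, θ.EE ((∑ j, ((if m = m ∧ i = j then 1 else 0) +
      bb m * bb m * H i j) * f j) ^ 2) := Finset.sum_nonneg fun _ _ => θ.EE_sq_nonneg _
  linarith

theorem VB.del (m : Fin 2) {h : ∀ θ, Fin θ.d × ι θ → R θ.d} (h0 : VB h)
    (h1 : VB fun θ (i : Fin θ.d × Fin θ.d × ι θ) => dZ m i.1 (h θ i.2))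
    (h2 : VB fun θ (i : Fin θ.d × ι θ) => ∑ j, ((if m = m ∧ i.1 = j then 1 else 0) +
      bb m * bb m * H i.1 j) * h θ (j, i.2)) :
    VB fun θ a => ∑ i, del m i (h θ (i, a)) := by
  obtain ⟨K0, hK0⟩ := h0
  obtain ⟨K1, hK1⟩ := h1
  obtain ⟨K2, hK2⟩ := h2
  refine ⟨K1 + (K0 + K2), fun θ => ?_⟩
  have e0 := hK0 θ
  have e1 := hK1 θ
  have e2 := hK2 θ
  rw [Fintype.sum_prod_type_right] at e0 e2
  rw [Fintype.sum_prod_type] at e1
  simp only [Fintype.sum_prod_type_right] at e1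
  rw [Finset.sum_comm] at e1
  have e3 := Finset.sum_le_sum fun (a : ι θ) (_ : a ∈ Finset.univ) =>
    θ.EE_del_sq m fun i => h θ (i, a)
  rw [Finset.sum_add_distrib, Finset.sum_add_distrib] at e3
  linarith

theorem VC.bound_aux (N : ℕ)
    (IH : ∀ n, n < N → ∀ (ι : Ctx → Type) [∀ θ, Fintype (ι θ)] (h : ∀ θ, ι θ → R θ.d),
      VC n h → VB h) {h : ∀ θ, ι θ → R θ.d} (hh : VC n h) (hn : n ≤ N) : VB h := by
  induction hh with
  | id n =>
    refine ⟨1, fun θ => le_of_eq ?_⟩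
    rw [Fintype.sum_prod_type]
    simp [apply_ite, θ.EE_one]
  | zero n ι => exact ⟨0, fun θ => by simp⟩
  | del m hh _ =>
    exact VB.del m (IH _ hn _ _ hh) (IH _ hn _ _ (hh.D m)) (IH _ hn _ _ (hh.comm m m))
  | mat hA _ ih =>
    obtain ⟨K, hK, h1⟩ := hA.bound
    refine (ih hn).of_pt K hK fun θ Z => ?_
    simp only [map_sum, map_mul]
    exact h1 θ Z _
  | bb m _ ih =>
    refine (ih hn).of_pt 1 zero_le_one fun θ Z => ?_
    rw [one_mul]
    refine Finset.sum_le_sum fun i _ => ?_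
    rw [map_mul, mul_pow]
    exact mul_le_of_le_one_left (sq_nonneg _) (θ.ev_bb_sq Z m)
  | add _ _ ih ih' => exact (ih hn).add (ih' hn)
  | smul c hc _ ih =>
    refine (ih hn).of_pt 1 zero_le_one fun θ Z => ?_
    rw [one_mul]
    refine Finset.sum_le_sum fun i _ => ?_
    rw [map_smul, smul_eq_mul, mul_pow]
    exact mul_le_of_le_one_left (sq_nonneg _) ((sq_le_one_iff_abs_le_one _).2 (hc θ))
  | reidx e he _ ih =>
    refine (ih hn).of_pt 1 zero_le_one fun θ Z => ?_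
    rw [one_mul]
    exact sum_inj_le (he θ) (fun k => θ.ev Z _ ^ 2) fun _ => sq_nonneg _
  | mono _ ih => exact ih (Nat.le_of_succ_le hn)

theorem VC.bound {h : ∀ θ, ι θ → R θ.d} (hh : VC n h) : VB h := by
  have key : ∀ N, ∀ n, n < N → ∀ (ι : Ctx → Type) [∀ θ, Fintype (ι θ)] (h : ∀ θ, ι θ → R θ.d),
      VC n h → VB h := by
    intro N
    induction N with
    | zero => intro n hn; omega
    | succ N ih => exact fun n hn ι _ h hh => VC.bound_aux N ih hh (Nat.lt_succ_iff.1 hn)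
  exact key (n + 1) n (Nat.lt_succ_self n) ι h hh

theorem VC.Hm (c : Ctx → ℝ) (hc : ∀ θ, |c θ| * θ.ε ≤ 1) :
    VC n fun θ (i : Fin θ.d × Fin θ.d) => c θ • H i.1 i.2 :=
  (VC.matR (OC.H c hc) (VC.id n)).congr fun θ i => by simp

end VC

theorem vc_DH (m : Fin 2) : VC 1 fun θ (j : Fin θ.d) => θ.l' • DH m j :=
  ((VC.Hm (n := 0) (fun θ => θ.l') fun θ => θ.hl').del m).congr fun θ j => by
    simp only [DH, Finset.smul_sum, del_smul]

theorem vc_AG : VC 1 fun θ (j : Fin θ.d) => θ.l' • AA (G j) := by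
  have h1 : ∀ m, VC 0 fun θ (i : Fin θ.d × Fin θ.d) => dZ m i.1 (G i.2) := fun m =>
    ((VC.Hm (n := 0) (fun _ => 1) fun θ => by rw [abs_one, one_mul]; linarith [θ.hε]).bb m).congr
      fun θ i => by rw [dZ_XO _ _ (G_mem_XO _), one_smul, H_symm]; rfl
  refine (((VC.matR (OC.H (fun θ => θ.l') fun θ => θ.hl') (h1 1)).del 0).sub
    ((VC.matR (OC.H (fun θ => θ.l') fun θ => θ.hl') (h1 0)).del 1)).congr fun θ i => ?_
  rw [AA_eq, smul_sub, Finset.smul_sum, Finset.smul_sum]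
  simp only [← del_smul, Finset.smul_sum, smul_mul_assoc]

theorem jet_DH (n : ℕ) : ∃ C : ℝ, ∀ (d : ℕ) (ε : ℝ) (U : E d → ℝ), Pot 0 ε U → ε ≤ 1 / 2 →
    ∀ (y : E d) (b a : ℝ × ℝ) (l l' : ℝ), 1 / 2 ≤ lev b → ‖a‖ ≤ 1 → |l| * ε ≤ 1 → |l'| * ε ≤ 1 →
    ∀ m : Fin 2,
      ∑ j, ∫ Z, (evS U y b Z ((XX a l)^[n] (l' • DH m j))) ^ 2 ∂(PiM U y b) ≤ C * d := by
  choose K hK using fun m => ((vc_DH m).XX_iter n).bound
  refine ⟨max (K 0) (K 1), fun d ε U hU hε y b a l l' hb ha hl hl' m => ?_⟩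
  have h1 := hK m ⟨d, ε, U, hU, hε, y, b, a, l, l', hb, ha, hl, hl'⟩
  have h2 : K m ≤ max (K 0) (K 1) := by
    fin_cases m
    · exact le_max_left _ _
    · exact le_max_right _ _
  refine le_trans (le_of_eq ?_) (h1.trans (mul_le_mul_of_nonneg_right h2 (Nat.cast_nonneg d)))
  refine Finset.sum_congr rfl fun j _ => ?_
  simp only [← map_pow]
  rfl

theorem jet_AG (n : ℕ) : ∃ C : ℝ, ∀ (d : ℕ) (ε : ℝ) (U : E d → ℝ), Pot 0 ε U → ε ≤ 1 / 2 →
    ∀ (y : E d) (b a : ℝ × ℝ) (l l' : ℝ), 1 / 2 ≤ lev b → ‖a‖ ≤ 1 → |l| * ε ≤ 1 → |l'| * ε ≤ 1 →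
      ∑ j, ∫ Z, (evS U y b Z ((XX a l)^[n] (l' • AA (G j)))) ^ 2 ∂(PiM U y b) ≤ C * d := by
  obtain ⟨K, hK⟩ := (vc_AG.XX_iter n).bound
  refine ⟨K, fun d ε U hU hε y b a l l' hb ha hl hl' => ?_⟩
  have h1 := hK ⟨d, ε, U, hU, hε, y, b, a, l, l', hb, ha, hl, hl'⟩
  refine le_trans (le_of_eq ?_) h1
  refine Finset.sum_congr rfl fun j _ => ?_
  simp only [← map_pow]
  rfl

end Vale.Agent.P347
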