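import Vale.Agent.P347.Colloc
import Vale.Agent.P347.Jet

/-! Auxiliary lemmas for `Ideal.lean`: jets, their `L¹` bounds and the abstract flow estimate. -/

open MeasureTheory ProbabilityTheory

namespace Vale.Agent.P347.Idl

variable {d K : ℕ} {ε : ℝ} {U : E d → ℝ}

theorem iter_add (a : ℝ × ℝ) (l : ℝ) (n : ℕ) (f g : R d) :
    (XX a l)^[n] (f + g) = (XX a l)^[n] f + (XX a l)^[n] g := by
  induction n generalizing f g with
  | zero => rfl
  | succ n ih => simp only [Function.iterate_succ_apply, map_add, ih]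

theorem iter_smul (a : ℝ × ℝ) (l : ℝ) (n : ℕ) (c : ℝ) (f : R d) :
    (XX a l)^[n] (c • f) = c • (XX a l)^[n] f := by
  induction n generalizing f with
  | zero => rfl
  | succ n ih => simp only [Function.iterate_succ_apply, Derivation.map_smul, ih]

theorem jet_add (y : E d) (a : ℝ × ℝ) (l : ℝ) (P Q : Fin d → R d) (n : ℕ) (b : ℝ × ℝ)
    (Z : E d × E d) :
    jet U y a l (fun i => P i + Q i) n b Z = jet U y a l P n b Z + jet U y a l Q n b Z := by
  ext i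
  simp only [jet, evV, iter_add, map_add, PiLp.add_apply]

theorem jet_smul (y : E d) (a : ℝ × ℝ) (l c : ℝ) (P : Fin d → R d) (n : ℕ) (b : ℝ × ℝ)
    (Z : E d × E d) :
    jet U y a l (fun i => c • P i) n b Z = c • jet U y a l P n b Z := by
  ext i
  simp [jet, evV, iter_smul]

theorem jet_succ (y : E d) (a : ℝ × ℝ) (l : ℝ) (P : Fin d → R d) (n : ℕ) (b : ℝ × ℝ)
    (Z : E d × E d) :
    jet U y a l P (n + 1) b Z = jet U y a l (fun i => XX a l (P i)) n b Z := rfl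

theorem jet_zero (y : E d) (a : ℝ × ℝ) (l : ℝ) (P : Fin d → R d) (b : ℝ × ℝ)
    (Z : E d × E d) : jet U y a l P 0 b Z = evV U y b Z P := rfl

theorem integrable_jet (hU : Pot 0 ε U) (y : E d) (a : ℝ × ℝ) (l : ℝ) (P : Fin d → R d) (n : ℕ)
    {b : ℝ × ℝ} (hb : 1 / 2 ≤ lev b) : Integrable (jet U y a l P n b) (PiM U y b) :=
  integrable_PiM hU y b (continuous_evV hU _ y (by linarith)) (pg_evV hU _ y (by linarith))

theorem norm_jet_sq (y : E d) (a : ℝ × ℝ) (l : ℝ) (P : Fin d → R d) (n : ℕ) (b : ℝ × ℝ)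
    (Z : E d × E d) :
    ‖jet U y a l P n b Z‖ ^ 2 = ∑ j, (evS U y b Z ((XX a l)^[n] (P j))) ^ 2 := by
  rw [EuclideanSpace.real_norm_sq_eq]
  rfl

theorem evV_add (y : E d) (P Q : Fin d → R d) (b : ℝ × ℝ) (Z : E d × E d) :
    evV U y b Z (fun i => P i + Q i) = evV U y b Z P + evV U y b Z Q :=
  jet_add y 0 0 P Q 0 b Z

theorem evV_smul (y : E d) (c : ℝ) (P : Fin d → R d) (b : ℝ × ℝ) (Z : E d × E d) :
    evV U y b Z (fun i => c • P i) = c • evV U y b Z P :=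
  jet_smul y 0 0 c P 0 b Z

attribute [local irreducible] jet PiM evS evV XX gfun

theorem integrable_tay (hU : Pot 0 ε U) (y : E d) (a : ℝ × ℝ) (l : ℝ) (P : Fin d → R d) (n : ℕ)
    (s : ℝ) {b : ℝ × ℝ} (hb : 1 / 2 ≤ lev b) :
    Integrable (fun Z => tay n s fun m => jet U y a l P m b Z) (PiM U y b) := by
  unfold tay
  exact integrable_finsetSum _ fun m _ =>
    (integrable_jet hU y a l P m hb).smul (s ^ m / (m.factorial : ℝ))

theorem int_lip (hU : Pot 0 ε U) (y : E d) (b : ℝ × ℝ) {F : Type*} [NormedAddCommGroup F] {L : ℝ}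
    {f : E d × E d → F} (hf : LipV L f) : Integrable f (PiM U y b) :=
  integrable_PiM hU y b hf.continuous hf.pg

theorem lip_comp {X Y W : Type*} [NormedAddCommGroup X] [NormedAddCommGroup Y]
    [NormedAddCommGroup W] {L L' : ℝ} (hL : 0 ≤ L) {f : Y → W} {g : X → Y} (hf : LipV L f)
    (hg : LipV L' g) : LipV (L * L') fun x => f (g x) := fun x x' =>
  (hf _ _).trans (by rw [mul_assoc]; exact mul_le_mul_of_nonneg_left (hg x x') hL)

theorem lip_mono {X Y : Type*} [NormedAddCommGroup X] [NormedAddCommGroup Y] {L L' : ℝ}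
    (hL : L ≤ L') {f : X → Y} (hf : LipV L f) : LipV L' f := fun x x' =>
  (hf x x').trans (mul_le_mul_of_nonneg_right hL (norm_nonneg _))

theorem int_comp_lip {X Y W : Type*} [MeasurableSpace X] [NormedAddCommGroup Y]
    [NormedAddCommGroup W] {μ : Measure X} [IsFiniteMeasure μ] {L : ℝ} {q : Y → W}
    (hq : LipV L q) {f : X → Y} (hf : Integrable f μ) : Integrable (fun x => q (f x)) μ := by
  refine ((integrable_const ‖q 0‖).add (hf.norm.const_mul L)).mono'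
    (hq.continuous.comp_aestronglyMeasurable hf.1) (ae_of_all _ fun x => ?_)
  have h1 := hq (f x) 0
  rw [sub_zero] at h1
  have h2 := norm_sub_norm_le (q (f x)) (q 0)
  simp only [Pi.add_apply]
  linarith

theorem L1_le {X : Type*} [MeasurableSpace X] {μ : Measure X} [IsProbabilityMeasure μ]
    {g : X → ℝ} (h1 : Integrable g μ) (h2 : Integrable (fun x => g x ^ 2) μ) {S : ℝ}
    (hS : 0 ≤ S) (h : ∫ x, g x ^ 2 ∂μ ≤ S ^ 2) : ∫ x, g x ∂μ ≤ S := by
  set t := ∫ x, g x ∂μ with ht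
  have h3 : 0 ≤ ∫ x, (g x ^ 2 - 2 * t * g x + t ^ 2) ∂μ :=
    integral_nonneg fun x => by
      have := sq_nonneg (g x - t)
      simp only [Pi.zero_apply]
      nlinarith
  have h4 : Integrable (fun x => g x ^ 2 - 2 * t * g x) μ := h2.sub (h1.const_mul _)
  rw [integral_add h4 (integrable_const _),
    integral_sub h2 (h1.const_mul _), integral_const_mul, integral_const, ← ht] at h3
  simp only [probReal_univ, smul_eq_mul, one_mul] at h3
  exact (abs_le_of_sq_le_sq' (by nlinarith) hS).2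

theorem jet_L1 (hU : Pot 0 ε U) (y : E d) (a : ℝ × ℝ) (l : ℝ) (P : Fin d → R d) (n : ℕ)
    {b : ℝ × ℝ} (hb : 1 / 2 ≤ lev b) {C c : ℝ} (hc : 1 ≤ c) (hC : C ≤ c)
    (h : ∑ j, ∫ Z, (evS U y b Z ((XX a l)^[n] (P j))) ^ 2 ∂(PiM U y b) ≤ C * d) :
    ∫ Z, ‖jet U y a l P n b Z‖ ∂(PiM U y b) ≤ c * √d := by
  have := isProb_PiM hU y (b := b) (by linarith)
  have hi : ∀ j, Integrable (fun Z => (evS U y b Z ((XX a l)^[n] (P j))) ^ 2) (PiM U y b) := by
    intro j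
    have := integrable_evS hU y (b := b) (by linarith) (((XX a l)^[n] (P j)) ^ 2)
    simp only [map_pow] at this
    exact this
  have he := norm_jet_sq (U := U) y a l P n b
  refine L1_le (integrable_jet hU y a l P n hb).norm ?_ (by positivity) ?_
  · simp only [he]
    exact integrable_finsetSum _ fun j _ => hi j
  · simp only [he]
    rw [integral_finsetSum _ fun j _ => hi j, mul_pow, Real.sq_sqrt (Nat.cast_nonneg d)]
    refine h.trans (mul_le_mul_of_nonneg_right ?_ (Nat.cast_nonneg d))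
    nlinarith

/-- `L¹` bounds for the basic jets -/
def JB (K : ℕ) (c ε : ℝ) (U : E d → ℝ) (y : E d) : Prop :=
  ∀ (b a : ℝ × ℝ) (l l' : ℝ), 1 / 2 ≤ lev b → ‖a‖ ≤ 1 → |l| * ε ≤ 1 → |l'| * ε ≤ 1 →
    ∀ n ≤ K + 2,
      (∀ m, ∫ Z, ‖jet U y a l (fun j => l' • DH m j) n b Z‖ ∂(PiM U y b) ≤ c * √d) ∧
      ∫ Z, ‖jet U y a l (fun j => l' • AA (G j)) n b Z‖ ∂(PiM U y b) ≤ c * √d

theorem exists_JB (K : ℕ) : ∃ c : ℝ, 1 ≤ c ∧ ∀ (d : ℕ) (ε : ℝ) (U : E d → ℝ), Pot 0 ε U →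
    ε ≤ 1 / 2 → ∀ y : E d, JB K c ε U y := by
  choose C hC using jet_DH
  choose C' hC' using jet_AG
  have h0 : 0 ≤ ∑ n ∈ Finset.range (K + 3), (|C n| + |C' n|) :=
    Finset.sum_nonneg fun n _ => by positivity
  refine ⟨1 + ∑ n ∈ Finset.range (K + 3), (|C n| + |C' n|), by linarith, ?_⟩
  intro d ε U hU hε y b a l l' hb ha hl hl' n hn
  have h1 : |C n| + |C' n| ≤ ∑ n ∈ Finset.range (K + 3), (|C n| + |C' n|) :=
    Finset.single_le_sum (f := fun n => |C n| + |C' n|) (fun n _ => by positivity)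
      (Finset.mem_range.mpr (by omega))
  have h2 := le_abs_self (C n)
  have h3 := le_abs_self (C' n)
  have h4 := abs_nonneg (C n)
  have h5 := abs_nonneg (C' n)
  exact ⟨fun m => jet_L1 hU y a l _ n hb (by linarith) (by linarith)
      (hC n d ε U hU hε y b a l l' hb ha hl hl' m),
    jet_L1 hU y a l _ n hb (by linarith) (by linarith)
      (hC' n d ε U hU hε y b a l l' hb ha hl hl')⟩

theorem int_add_le {X F : Type*} [MeasurableSpace X] [NormedAddCommGroup F] {μ : Measure X}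
    {f g : X → F} (hf : Integrable f μ) (hg : Integrable g μ) {A B : ℝ}
    (hA : ∫ x, ‖f x‖ ∂μ ≤ A) (hB : ∫ x, ‖g x‖ ∂μ ≤ B) : ∫ x, ‖f x + g x‖ ∂μ ≤ A + B := by
  refine le_trans ?_ (add_le_add hA hB)
  rw [← integral_add hf.norm hg.norm]
  exact integral_mono (hf.add hg).norm (hf.norm.add hg.norm) fun x => norm_add_le _ _

theorem int_smul_le {X F : Type*} [MeasurableSpace X] [NormedAddCommGroup F] [NormedSpace ℝ F]
    {μ : Measure X} {f : X → F} (c : ℝ) {A : ℝ}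
    (hA : ∫ x, ‖f x‖ ∂μ ≤ A) : ∫ x, ‖c • f x‖ ∂μ ≤ |c| * A := by
  simp only [norm_smul, Real.norm_eq_abs, integral_const_mul]
  exact mul_le_mul_of_nonneg_left hA (abs_nonneg c)

theorem int_pair_le {X F : Type*} [MeasurableSpace X] [NormedAddCommGroup F] {μ : Measure X}
    {f g : X → F} (hf : Integrable f μ) (hg : Integrable g μ) {A B : ℝ}
    (hA : ∫ x, ‖f x‖ ∂μ ≤ A) (hB : ∫ x, ‖g x‖ ∂μ ≤ B) : ∫ x, ‖(f x, g x)‖ ∂μ ≤ A + B := by
  refine le_trans ?_ (add_le_add hA hB)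
  rw [← integral_add hf.norm hg.norm]
  refine integral_mono (hf.prodMk hg).norm (hf.norm.add hg.norm) fun x => ?_
  simp only [Prod.norm_mk]
  exact max_le (le_add_of_nonneg_right (norm_nonneg _)) (le_add_of_nonneg_left (norm_nonneg _))

theorem int_wsum_le {X F ι : Type*} [MeasurableSpace X] [NormedAddCommGroup F] [NormedSpace ℝ F]
    [Fintype ι] {μ : Measure X} {f : ι → X → F} (hf : ∀ i, Integrable (f i) μ) (w : ι → ℝ)
    {A Λ : ℝ} (hA0 : 0 ≤ A) (hw : ∑ i, |w i| ≤ Λ) (hA : ∀ i, ∫ x, ‖f i x‖ ∂μ ≤ A) :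
    ∫ x, ‖∑ i, w i • f i x‖ ∂μ ≤ Λ * A := by
  have h1 : ∀ i, Integrable (fun x => w i • f i x) μ := fun i => (hf i).smul (w i)
  calc ∫ x, ‖∑ i, w i • f i x‖ ∂μ ≤ ∫ x, ∑ i, ‖w i • f i x‖ ∂μ :=
        integral_mono (integrable_finsetSum _ fun i _ => h1 i).norm
          (integrable_finsetSum _ fun i _ => (h1 i).norm) fun x => norm_sum_le _ _
    _ = ∑ i, ∫ x, ‖w i • f i x‖ ∂μ := integral_finsetSum _ fun i _ => (h1 i).norm
    _ ≤ ∑ i, |w i| * A := Finset.sum_le_sum fun i _ => int_smul_le _ (hA i)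
    _ ≤ Λ * A := by
        rw [← Finset.sum_mul]
        exact mul_le_mul_of_nonneg_right hw hA0

theorem lev_ge {b : ℝ × ℝ} (hb : ‖b‖ ≤ 1 / 2) : 1 / 2 ≤ lev b := by
  have h1 : |b.1| ≤ 1 / 2 := (norm_fst_le b).trans hb
  have h2 : |b.2| ≤ 1 / 2 := (norm_snd_le b).trans hb
  have h3 := sq_abs b.1
  have h4 := sq_abs b.2
  unfold lev
  nlinarith [abs_nonneg b.1, abs_nonneg b.2]

theorem XX_zz (a : ℝ × ℝ) (ha : ‖a‖ ≤ 1) (l : ℝ) (m : Fin 2) :
    ∃ (a' l' : ℝ) (m' : Fin 2), |a'| ≤ 1 ∧ |l'| = |l| ∧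
      (fun j : Fin d => XX a l (zz m j)) = fun j => a' • G j + l' • DH m' j := by
  have h1 : |a.1| ≤ 1 := (norm_fst_le a).trans ha
  have h2 : |a.2| ≤ 1 := (norm_snd_le a).trans ha
  fin_cases m
  · refine ⟨-a.1, -l, 1, by rwa [abs_neg], abs_neg l, funext fun j => ?_⟩
    change XX a l (zz 0 j) = _
    rw [XX_zz0, neg_smul, neg_smul, sub_eq_add_neg]
  · refine ⟨-a.2, l, 0, by rwa [abs_neg], rfl, funext fun j => ?_⟩
    change XX a l (zz 1 j) = _
    rw [XX_zz1, neg_smul]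

/-- the standing assumptions -/
structure Ctx (Qd : Quad K) (c ε : ℝ) (U : E d → ℝ) (y : E d) (h δ : ℝ) (J : ℕ) : Prop where
  hK : 1 ≤ K
  pot : Pot 0 ε U
  hε : ε ≤ 1 / 2
  hc : 1 ≤ c
  jb : JB K c ε U y
  hh : 0 < h
  hs : 20 * Qd.Λ ^ 2 * h ≤ 1
  δ1 : (h * Qd.Λ * (5 * Qd.Λ)) ^ J * (‖y‖ + √d) ≤ δ
  δ2 : h ^ (K + 1) * √d ≤ δ

variable {Qd : Quad K} {c h δ : ℝ} {y : E d} {J : ℕ}

namespace Ctx

theorem ε0 (H : Ctx Qd c ε U y h δ J) : 0 ≤ ε := H.pot.le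

theorem hΛ (H : Ctx Qd c ε U y h δ J) : h * Qd.Λ ≤ 1 / 20 := by
  have h1 := Qd.one_le
  have h2 := H.hs
  have h3 := H.hh
  nlinarith [mul_nonneg h3.le (mul_nonneg (zero_le_one.trans h1) (sub_nonneg.mpr h1))]

theorem h20 (H : Ctx Qd c ε U y h δ J) : h ≤ 1 / 20 := by
  have h1 := Qd.one_le
  have h2 := H.hΛ
  have h3 := H.hh
  nlinarith

theorem δ0 (H : Ctx Qd c ε U y h δ J) : 0 ≤ δ := by
  have h3 := H.hh
  exact le_trans (by positivity) H.δ2

theorem abs_ε (H : Ctx Qd c ε U y h δ J) {t : ℝ} (ht : |t| ≤ 1) : |t| * ε ≤ 1 := by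
  have := H.ε0
  have := H.hε
  nlinarith [abs_nonneg t]

theorem norm_node (H : Ctx Qd c ε U y h δ J) {b a : ℝ × ℝ} (hb : ‖b‖ ≤ h) (ha : ‖a‖ ≤ 1) {s : ℝ}
    (h0 : 0 ≤ s) (h1 : s ≤ h) : ‖b + s • a‖ ≤ 1 / 2 := by
  have := H.h20
  refine (norm_add_le _ _).trans ?_
  rw [norm_smul, Real.norm_of_nonneg h0]
  nlinarith [norm_nonneg a]

theorem lev_b (H : Ctx Qd c ε U y h δ J) {b : ℝ × ℝ} (hb : ‖b‖ ≤ h) : 1 / 2 ≤ lev b :=
  lev_ge (by linarith [H.h20])

theorem nd0 (H : Ctx Qd c ε U y h δ J) (j : Fin (K + 1)) : 0 ≤ h * nd K j :=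
  mul_nonneg H.hh.le (nd_nonneg j)

theorem nd1 (H : Ctx Qd c ε U y h δ J) (j : Fin (K + 1)) : h * nd K j ≤ h := by
  have := nd_le_one j
  have := H.hh
  nlinarith

theorem jG (H : Ctx Qd c ε U y h δ J) {b a : ℝ × ℝ} {l : ℝ} (hb : 1 / 2 ≤ lev b) (ha : ‖a‖ ≤ 1)
    (hl : |l| * ε ≤ 1) {n : ℕ} (hn : n ≤ K + 2) :
    ∫ Z, ‖jet U y a l G (n + 1) b Z‖ ∂(PiM U y b) ≤ 3 * (c * √d) := by
  have h1 : |a.1| ≤ 1 := (norm_fst_le a).trans ha
  have h2 : |a.2| ≤ 1 := (norm_snd_le a).trans ha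
  have e : ∀ Z, jet U y a l G (n + 1) b Z = jet U y a l (fun j => a.1 • DH 0 j) n b Z +
      jet U y a l (fun j => a.2 • DH 1 j) n b Z + jet U y a l (fun j => l • AA (G j)) n b Z := by
    intro Z
    rw [jet_succ, ← jet_add, ← jet_add]
    simp only [XX_G]
  simp only [e]
  have i := fun P => integrable_jet H.pot y a l P n hb
  have := int_add_le ((i _).add (i _)) (i _) (int_add_le (i _) (i _)
    ((H.jb b a l a.1 hb ha hl (H.abs_ε h1) n hn).1 0)
    ((H.jb b a l a.2 hb ha hl (H.abs_ε h2) n hn).1 1)) (H.jb b a l l hb ha hl hl n hn).2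
  refine le_of_eq_of_le rfl (this.trans (le_of_eq (by ring)))

theorem jz (H : Ctx Qd c ε U y h δ J) {b a : ℝ × ℝ} {l : ℝ} (hb : 1 / 2 ≤ lev b) (ha : ‖a‖ ≤ 1)
    (hl : |l| * ε ≤ 1) (m : Fin 2) {n : ℕ} (hn : n ≤ K + 1) :
    ∫ Z, ‖jet U y a l (zz m) (n + 2) b Z‖ ∂(PiM U y b) ≤ 4 * (c * √d) := by
  obtain ⟨a', l', m', h1, h2, e⟩ := XX_zz (d := d) a ha l m
  have e' : ∀ Z, jet U y a l (zz m) (n + 2) b Z = a' • jet U y a l G (n + 1) b Z +
      jet U y a l (fun j => l' • DH m' j) (n + 1) b Z := by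
    intro Z
    rw [jet_succ, e, jet_add, jet_smul]
  simp only [e']
  have i := fun P => integrable_jet H.pot y a l P (n + 1) hb
  have := int_add_le ((i G).smul a') (i _) (int_smul_le a' (H.jG hb ha hl (n := n) (by omega)))
    ((H.jb b a l l' hb ha hl (by rwa [h2]) (n + 1) (by omega)).1 m')
  refine le_of_eq_of_le rfl (this.trans ?_)
  have hc := H.hc
  have : 0 ≤ c * √d := by positivity
  nlinarith

theorem jz1 (H : Ctx Qd c ε U y h δ J) {b a : ℝ × ℝ} {l : ℝ} (hb : 1 / 2 ≤ lev b) (ha : ‖a‖ ≤ 1)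
    (hl : |l| * ε ≤ 1) (m : Fin 2) {n : ℕ} (hn : n ≤ K) :
    ∫ Z, ‖jet U y a l (zz m) (n + 1) b Z‖ ∂(PiM U y b) ≤ 5 * c * (‖y‖ + √d) := by
  have hc := H.hc
  have h0 : 0 ≤ √(d : ℝ) := Real.sqrt_nonneg _
  have h0' := norm_nonneg y
  cases n with
  | succ n =>
    refine (H.jz hb ha hl m (n := n) (by omega)).trans ?_
    nlinarith [mul_nonneg (zero_le_one.trans hc) h0, mul_nonneg (zero_le_one.trans hc) h0']
  | zero =>
    obtain ⟨a', l', m', h1, h2, e⟩ := XX_zz (d := d) a ha l m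
    have e' : ∀ Z, jet U y a l (zz m) (0 + 1) b Z = a' • jet U y a l G 0 b Z +
        jet U y a l (fun j => l' • DH m' j) 0 b Z := by
      intro Z
      rw [jet_succ, e, jet_add, jet_smul]
    simp only [e']
    have i := fun P => integrable_jet H.pot y a l P 0 hb
    have hg : ∫ Z, ‖jet U y a l G 0 b Z‖ ∂(PiM U y b) ≤ 4 * (‖y‖ + √d) := by
      simp only [jet_zero, evV_G H.pot y (b := b) (by linarith)]
      exact integral_norm_gfun_le ε H.pot H.hε y hb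
    have := int_add_le ((i G).smul a') (i _) (int_smul_le a' hg)
      ((H.jb b a l l' hb ha hl (by rwa [h2]) 0 (by omega)).1 m')
    refine le_of_eq_of_le rfl (this.trans ?_)
    nlinarith [mul_nonneg (sub_nonneg.mpr hc) h0, mul_nonneg (sub_nonneg.mpr hc) h0',
      mul_nonneg (sub_nonneg.mpr h1) (add_nonneg h0' h0)]

/-- transport of the error of an observable to the initial time -/
theorem transport_obs (H : Ctx Qd c ε U y h δ J) {b a : ℝ × ℝ} {l s L η : ℝ} (hb : ‖b‖ ≤ h)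
    (ha : ‖a‖ ≤ 1) (hl : |l| * ε ≤ 1) (h0 : 0 ≤ s) (h1 : s ≤ h) (hL : 0 ≤ L)
    (Q : Fin d → R d)
    (hQ : ∀ b', 1 / 2 ≤ lev b' →
      ∫ Z, ‖jet U y a l Q (K + 1) b' Z‖ ∂(PiM U y b') ≤ 4 * (c * √d))
    {q : E d × E d → E d} (hq : LipV L q)
    (hη : ∫ Z, ‖q Z - evV U y (b + s • a) Z Q‖ ∂(PiM U y (b + s • a)) ≤ η) :
    ∫ Z, ‖q (tay K s fun m => jet U y a l (zz 0) m b Z, tay K s fun m => jet U y a l (zz 1) m b Z)
      - tay K s fun m => jet U y a l Q m b Z‖ ∂(PiM U y b) ≤ η + (L + 1) * (12 * c) * δ := by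
  have hlev : ∀ t, 0 ≤ t → t ≤ s → 1 / 2 ≤ lev (b + t • a) := fun t t0 t1 =>
    lev_ge (H.norm_node hb ha t0 (t1.trans h1))
  obtain ⟨K', hK'⟩ : ∃ K', K + 1 = K' + 2 := ⟨K - 1, by have := H.hK; omega⟩
  have hψ : LipR (L + 1) fun w : Fin 3 → E d => ‖q (w 0, w 1) - w 2‖ := by
    intro w w'
    refine (abs_norm_sub_norm_le _ _).trans ?_
    have e : q (w 0, w 1) - w 2 - (q (w' 0, w' 1) - w' 2)
        = (q (w 0, w 1) - q (w' 0, w' 1)) - (w - w') 2 := by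
      simp only [Pi.sub_apply]; abel
    rw [e]
    refine (norm_sub_le _ _).trans ?_
    have a1 := hq (w 0, w 1) (w' 0, w' 1)
    have a2 : ‖(w 0, w 1) - (w' 0, w' 1)‖ ≤ ‖w - w'‖ := by
      rw [Prod.mk_sub_mk, Prod.norm_mk]
      exact max_le (norm_le_pi_norm (w - w') 0) (norm_le_pi_norm (w - w') 1)
    have a3 := norm_le_pi_norm (w - w') 2
    nlinarith [mul_le_mul_of_nonneg_left a2 hL]
  have T := transport H.pot y b a l ![zz 0, zz 1, Q] K (B := 12 * (c * √d)) h0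
    (by linarith : 0 ≤ L + 1) hlev (fun t t0 t1 => by
      rw [Fin.sum_univ_three]
      simp only [Matrix.cons_val_zero, Matrix.cons_val_one, Matrix.cons_val]
      have b0 := H.jz (hlev t t0 t1) ha hl 0 (n := K') (by omega)
      have b1 := H.jz (hlev t t0 t1) ha hl 1 (n := K') (by omega)
      rw [← hK'] at b0 b1
      linarith [hQ _ (hlev t t0 t1)]) hψ
  simp only [Matrix.cons_val_zero, Matrix.cons_val_one, Matrix.cons_val, jet_zero, evV_zz,
    sel_zero, sel_one, Prod.mk.eta] at T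
  have T2 := (abs_le.mp T).2
  have hc := H.hc
  have h3 : s ^ (K + 1) * √d ≤ δ :=
    (mul_le_mul_of_nonneg_right (pow_le_pow_left₀ h0 h1 _) (Real.sqrt_nonneg _)).trans H.δ2
  have h4 : (L + 1) * s ^ (K + 1) * (12 * (c * √d)) ≤ (L + 1) * (12 * c) * δ := by
    have : (L + 1) * s ^ (K + 1) * (12 * (c * √d)) = (L + 1) * (12 * c) * (s ^ (K + 1) * √d) := by
      ring
    rw [this]
    exact mul_le_mul_of_nonneg_left h3 (by positivity)
  linarith

end Ctx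

/-- the jets of the exact field -/
noncomputable def jv (U : E d → ℝ) (y : E d) (a : ℝ × ℝ) (l : ℝ) (b : ℝ × ℝ) (m : ℕ)
    (Z : E d × E d) : E d × E d :=
  (jet U y a l (zz 0) (m + 1) b Z, jet U y a l (zz 1) (m + 1) b Z)

theorem tay_pair {F : Type*} [AddCommGroup F] [Module ℝ F] (n : ℕ) (s : ℝ) (f g : ℕ → F) :
    (tay n s fun m => (f m, g m)) = (tay n s f, tay n s g) := by
  refine Prod.ext ?_ ?_
  · simp only [tay, Prod.fst_sum, Prod.smul_fst]
  · simp only [tay, Prod.snd_sum, Prod.smul_snd]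

theorem tay_jv (y : E d) (a : ℝ × ℝ) (l : ℝ) (b : ℝ × ℝ) (n : ℕ) (s : ℝ) (Z : E d × E d) :
    (tay n s fun m => Nat.casesOn m Z fun m => jv U y a l b m Z) =
      (tay n s fun m => jet U y a l (zz 0) m b Z, tay n s fun m => jet U y a l (zz 1) m b Z) := by
  rw [← tay_pair]
  congr 1
  funext m
  cases m with
  | zero => simp only [jet_zero, evV_zz, sel_zero, sel_one]; rfl
  | succ m => rfl

theorem tay_jv' (y : E d) (a : ℝ × ℝ) (l : ℝ) (b : ℝ × ℝ) (n : ℕ) (s : ℝ) (Z : E d × E d) :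
    (tay n s fun m => Nat.rec (motive := fun _ => E d × E d) Z (fun m _ => jv U y a l b m Z) m) =
      (tay n s fun m => jet U y a l (zz 0) m b Z, tay n s fun m => jet U y a l (zz 1) m b Z) :=
  tay_jv y a l b n s Z

attribute [local irreducible] tay pic nd

/-- the constant of the flow estimate -/
noncomputable def c2 (Qd : Quad K) (c : ℝ) : ℝ :=
  (5 * Qd.Λ + 1) * (c * (10 * (K + 1) + 16 + 12 * (5 * Qd.Λ + 1)))

theorem flow_num {Λ c k h δ η ηo p r Y D : ℝ} (hΛ : 1 ≤ Λ) (hc : 1 ≤ c) (hk : 0 ≤ k)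
    (hh : h * Λ ≤ 1 / 20) (hδ : 0 ≤ δ) (hη : 0 ≤ η)
    (h1 : p * Y ≤ δ) (h2 : r * D ≤ δ) :
    p * ((k + 1) * (5 * c * Y + 5 * c * Y)) +
        2 * h * Λ * (η + (5 * Λ + 1) * (12 * c) * δ + (η + (5 * Λ + 1) * (12 * c) * δ)) +
        2 * r * (4 * (c * D) + 4 * (c * D))
      ≤ (5 * Λ + 1) * (c * (10 * (k + 1) + 16 + 12 * (5 * Λ + 1))) * (δ + η) ∧
    ηo + (5 * Λ + 1) * (12 * c) * δ + 5 * Λ * (p * ((k + 1) * (5 * c * Y + 5 * c * Y)) +
        2 * h * Λ * (η + (5 * Λ + 1) * (12 * c) * δ + (η + (5 * Λ + 1) * (12 * c) * δ)) +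
        2 * r * (4 * (c * D) + 4 * (c * D)))
      ≤ ηo + (5 * Λ + 1) * (c * (10 * (k + 1) + 16 + 12 * (5 * Λ + 1))) * (δ + η) := by
  obtain ⟨c₁, hc₁⟩ : ∃ c₁, c₁ = c * (10 * (k + 1) + 16 + 12 * (5 * Λ + 1)) := ⟨_, rfl⟩
  obtain ⟨t, ht⟩ : ∃ t, t = (5 * Λ + 1) * (12 * c) := ⟨_, rfl⟩
  have ht0 : 0 ≤ t := by rw [ht]; positivity
  have e1 : c₁ = 10 * (k + 1) * c + 16 * c + t := by rw [hc₁, ht]; ring
  have a1 : p * ((k + 1) * (5 * c * Y + 5 * c * Y)) ≤ 10 * (k + 1) * c * δ := by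
    have : p * ((k + 1) * (5 * c * Y + 5 * c * Y)) = 10 * (k + 1) * c * (p * Y) := by ring
    rw [this]
    exact mul_le_mul_of_nonneg_left h1 (by positivity)
  have a2 : 2 * r * (4 * (c * D) + 4 * (c * D)) ≤ 16 * c * δ := by
    have : 2 * r * (4 * (c * D) + 4 * (c * D)) = 16 * c * (r * D) := by ring
    rw [this]
    exact mul_le_mul_of_nonneg_left h2 (by positivity)
  have a3 : 2 * h * Λ * (η + t * δ + (η + t * δ)) ≤ η + t * δ := by
    have : 0 ≤ η + t * δ := by positivity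
    nlinarith
  rw [← hc₁, ← ht]
  have a4 : p * ((k + 1) * (5 * c * Y + 5 * c * Y)) + 2 * h * Λ * (η + t * δ + (η + t * δ)) +
      2 * r * (4 * (c * D) + 4 * (c * D)) ≤ η + c₁ * δ := by
    rw [e1]; linarith
  have a5 : 1 ≤ c₁ := by
    have : 0 ≤ 10 * (k + 1) * c := by positivity
    linarith
  have a6 : t ≤ c₁ := by
    have : 0 ≤ 10 * (k + 1) * c := by positivity
    linarith
  have a7 : t * δ ≤ c₁ * δ := mul_le_mul_of_nonneg_right a6 hδ
  have a8 : η ≤ c₁ * η := le_mul_of_one_le_left hη a5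
  have a9 : 0 ≤ c₁ * δ := by positivity
  have a10 : 0 ≤ c₁ * η := by positivity
  constructor
  · refine a4.trans ?_
    nlinarith
  · have := mul_le_mul_of_nonneg_left a4 (by linarith : 0 ≤ 5 * Λ)
    nlinarith

/-- error of the collocation scheme along one flow -/
theorem Ctx.flow_est (H : Ctx Qd c ε U y h δ J) {b a : ℝ × ℝ} {l η ηo : ℝ} (hb : ‖b‖ ≤ h)
    (ha : ‖a‖ ≤ 1) (hl : |l| * ε ≤ 1) (hη0 : 0 ≤ η)
    (v : ℝ × ℝ → E d × E d → E d × E d) (q : ℝ × ℝ → E d × E d → E d) (Q : Fin d → R d)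
    (hv : ∀ j, LipV (5 * Qd.Λ) (v (b + (h * nd K j) • a)))
    (hq : ∀ j, LipV (5 * Qd.Λ) (q (b + (h * nd K j) • a)))
    (hQ : ∀ b', 1 / 2 ≤ lev b' →
      ∫ Z, ‖jet U y a l Q (K + 1) b' Z‖ ∂(PiM U y b') ≤ 4 * (c * √d))
    (hη : ∀ j (m : Fin 2), ∫ Z, ‖sel m (v (b + (h * nd K j) • a) Z)
      - evV U y (b + (h * nd K j) • a) Z (fun i => XX a l (zz m i))‖
        ∂(PiM U y (b + (h * nd K j) • a)) ≤ η)
    (hηo : ∀ j, ∫ Z, ‖q (b + (h * nd K j) • a) Z - evV U y (b + (h * nd K j) • a) Z Q‖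
        ∂(PiM U y (b + (h * nd K j) • a)) ≤ ηo) (i : Fin (K + 1)) :
    (∫ Z, ‖pic Qd h a v b Z J i - (tay K (h * nd K i) fun m => jet U y a l (zz 0) m b Z,
        tay K (h * nd K i) fun m => jet U y a l (zz 1) m b Z)‖ ∂(PiM U y b)
      ≤ c2 Qd c * (δ + η)) ∧
    (∫ Z, ‖q (b + (h * nd K i) • a) (pic Qd h a v b Z J i)
        - tay K (h * nd K i) fun m => jet U y a l Q m b Z‖ ∂(PiM U y b)
      ≤ ηo + c2 Qd c * (δ + η)) := by
  have hΛ := Qd.one_le
  have hc := H.hc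
  have hδ := H.δ0
  have hlev := H.lev_b hb
  have := isProb_PiM H.pot y (b := b) (by linarith)
  have ij := fun P n => integrable_jet H.pot y a l P n hlev
  have it := fun P s => integrable_tay H.pot y a l P K s hlev
  obtain ⟨K', hK'⟩ : ∃ K', K + 1 = K' + 2 := ⟨K - 1, by have := H.hK; omega⟩
  have hsel : ∀ j (m : Fin 2), LipV (5 * Qd.Λ) fun Z => sel m (v (b + (h * nd K j) • a) Z) := by
    intro j m Z Z'
    refine le_trans ?_ (hv j Z Z')
    fin_cases m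
    · exact norm_fst_le (v (b + (h * nd K j) • a) Z - v (b + (h * nd K j) • a) Z')
    · exact norm_snd_le (v (b + (h * nd K j) • a) Z - v (b + (h * nd K j) • a) Z')
  have hT : ∀ j (m : Fin 2), ∫ Z, ‖sel m (v (b + (h * nd K j) • a)
      (tay K (h * nd K j) fun m => jet U y a l (zz 0) m b Z,
        tay K (h * nd K j) fun m => jet U y a l (zz 1) m b Z))
      - tay K (h * nd K j) fun n => jet U y a l (fun i => XX a l (zz m i)) n b Z‖ ∂(PiM U y b)
        ≤ η + (5 * Qd.Λ + 1) * (12 * c) * δ := by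
    intro j m
    have := H.transport_obs hb ha hl (H.nd0 j) (H.nd1 j) (by linarith : 0 ≤ 5 * Qd.Λ)
      (fun i => XX a l (zz m i)) (fun b' hb' => by
        simp only [← jet_succ]
        exact H.jz hb' ha hl m (n := K) (by omega)) (hsel j m) (hη j m)
    exact this
  have hs' : h * Qd.Λ * (5 * Qd.Λ) ≤ 1 / 2 := by have := H.hs; nlinarith
  have hid : Integrable (fun Z => Z) (PiM U y b) :=
    int_lip H.pot y b (L := 1) fun Z Z' => by rw [one_mul]
  have hjv : ∀ m, Integrable (jv U y a l b m) (PiM U y b) := fun m => (ij _ _).prodMk (ij _ _)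
  have hB₁ : ∀ m, m ≤ K → ∫ Z, ‖jv U y a l b m Z‖ ∂(PiM U y b)
      ≤ 5 * c * (‖y‖ + √d) + 5 * c * (‖y‖ + √d) := fun m hm =>
    int_pair_le (ij _ _) (ij _ _) (H.jz1 hlev ha hl 0 hm) (H.jz1 hlev ha hl 1 hm)
  have hBK : ∫ Z, ‖jv U y a l b K Z‖ ∂(PiM U y b) ≤ 4 * (c * √d) + 4 * (c * √d) := by
    have b0 := H.jz hlev ha hl 0 (n := K') (by omega)
    have b1 := H.jz hlev ha hl 1 (n := K') (by omega)
    rw [← hK'] at b0 b1
    exact int_pair_le (ij _ _) (ij _ _) b0 b1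
  have hTv : ∀ j, ∫ Z, ‖v (b + (h * nd K j) • a)
      (tay K (h * nd K j) fun m => Nat.casesOn m Z fun m => jv U y a l b m Z)
        - tay K (h * nd K j) fun m => jv U y a l b m Z‖ ∂(PiM U y b)
      ≤ η + (5 * Qd.Λ + 1) * (12 * c) * δ + (η + (5 * Qd.Λ + 1) * (12 * c) * δ) := by
    intro j
    simp only [tay_jv']
    have i0 := fun m => (int_comp_lip (hsel j m) ((it (zz 0) (h * nd K j)).prodMk
      (it (zz 1) (h * nd K j)))).sub (it (fun i => XX a l (zz m i)) (h * nd K j))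
    refine le_of_eq_of_le ?_ (int_pair_le (i0 0) (i0 1) (hT j 0) (hT j 1))
    refine integral_congr_ae (ae_of_all _ fun Z => ?_)
    simp only [jv, tay_pair, jet_succ, Pi.sub_apply, sel_zero, sel_one]
    rfl
  have hTq : ∀ j, ∫ Z, ‖q (b + (h * nd K j) • a)
      (tay K (h * nd K j) fun m => Nat.casesOn m Z fun m => jv U y a l b m Z)
        - tay K (h * nd K j) fun m => jet U y a l Q m b Z‖ ∂(PiM U y b)
      ≤ ηo + (5 * Qd.Λ + 1) * (12 * c) * δ := by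
    intro j
    simp only [tay_jv']
    exact H.transport_obs hb ha hl (H.nd0 j) (H.nd1 j) (by linarith) Q hQ (hq j) (hηo j)
  have CE := colloc_error H.hK Qd H.hh (by linarith [H.h20]) (by linarith)
    (by linarith) (by positivity) (by positivity) a b v q hv hq hs' (PiM U y b) hid
    (jv U y a l b) (fun m => jet U y a l Q m b) hjv (fun m => ij _ _) hB₁ hBK hTv hTq J i
  simp only [tay_jv'] at CE
  have N := flow_num (ηo := ηo) hΛ hc (Nat.cast_nonneg K) H.hΛ hδ hη0 H.δ1 H.δ2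
  exact ⟨CE.1.trans N.1, CE.2.trans N.2⟩

end Vale.Agent.P347.Idl
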