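import Vale.Agent.P347.PiBasic
import Vale.Agent.P347.Flat

/-! Matrix families with dimension-free operator norm, used in the jet bounds. -/

open MeasureTheory ProbabilityTheory

namespace Vale.Agent.P347

/-- all the data on which the jet bounds must be uniform -/
structure Ctx where
  d : ℕ
  ε : ℝ
  U : E d → ℝ
  hU : Pot 0 ε U
  hε : ε ≤ 1 / 2
  y : E d
  b : ℝ × ℝ
  a : ℝ × ℝ
  l : ℝ
  l' : ℝ
  hb : 1 / 2 ≤ lev b
  ha : ‖a‖ ≤ 1
  hl : |l| * ε ≤ 1
  hl' : |l'| * ε ≤ 1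

/-- evaluation at a state -/
noncomputable def Ctx.ev (θ : Ctx) (Z : E θ.d × E θ.d) : R θ.d →ₐ[ℝ] ℝ := evS θ.U θ.y θ.b Z

/-- squared operator norm bound -/
def MB {ι κ : Type} [Fintype ι] [Fintype κ] (A : ι → κ → ℝ) (K : ℝ) : Prop :=
  ∀ v : κ → ℝ, ∑ i, (∑ k, A i k * v k) ^ 2 ≤ K * ∑ k, v k ^ 2

theorem sum_inj_le {ι ι' : Type} [Fintype ι] [Fintype ι'] {e : ι' → ι} (he : Function.Injective e)
    (F : ι → ℝ) (hF : ∀ i, 0 ≤ F i) : ∑ i, F (e i) ≤ ∑ i, F i := by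
  have : ∑ i, F (e i) = ∑ i ∈ Finset.univ.map ⟨e, he⟩, F i := by rw [Finset.sum_map]; rfl
  rw [this]
  exact Finset.sum_le_sum_of_subset_of_nonneg (Finset.subset_univ _) fun i _ _ => hF i

section MB

variable {ι κ μ : Type} [Fintype ι] [Fintype κ] [Fintype μ]

theorem MB.mul {A : ι → μ → ℝ} {B : μ → κ → ℝ} {K K' : ℝ} (hA : MB A K) (hB : MB B K')
    (hK : 0 ≤ K) : MB (fun i k => ∑ j, A i j * B j k) (K * K') := by
  intro v
  have h1 : ∀ i, ∑ k, (∑ j, A i j * B j k) * v k = ∑ j, A i j * ∑ k, B j k * v k := by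
    intro i
    simp only [Finset.sum_mul, Finset.mul_sum, mul_assoc]
    exact Finset.sum_comm
  simp only [h1]
  refine (hA _).trans ?_
  rw [mul_assoc]
  exact mul_le_mul_of_nonneg_left (hB v) hK

theorem MB.kron [DecidableEq μ] {A : ι → κ → ℝ} {K : ℝ} (hA : MB A K) :
    MB (fun (i : μ × ι) (k : μ × κ) => if i.1 = k.1 then A i.2 k.2 else 0) K := by
  intro v
  rw [Fintype.sum_prod_type, Fintype.sum_prod_type (f := fun k => v k ^ 2), Finset.mul_sum]
  refine Finset.sum_le_sum fun s _ => ?_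
  refine le_trans (le_of_eq ?_) (hA fun k => v (s, k))
  refine Finset.sum_congr rfl fun i _ => ?_
  congr 1
  rw [Fintype.sum_prod_type, Finset.sum_comm]
  refine Finset.sum_congr rfl fun k _ => ?_
  simp

theorem MB.add {A B : ι → κ → ℝ} {K K' : ℝ} (hA : MB A K) (hB : MB B K') :
    MB (fun i k => A i k + B i k) (2 * K + 2 * K') := by
  intro v
  have h1 := hA v
  have h2 := hB v
  have h3 : ∑ i, (∑ k, (A i k + B i k) * v k) ^ 2 ≤
      ∑ i, (2 * (∑ k, A i k * v k) ^ 2 + 2 * (∑ k, B i k * v k) ^ 2) := by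
    refine Finset.sum_le_sum fun i _ => ?_
    simp only [add_mul, Finset.sum_add_distrib]
    nlinarith [sq_nonneg (∑ k, A i k * v k - ∑ k, B i k * v k)]
  rw [Finset.sum_add_distrib, ← Finset.mul_sum, ← Finset.mul_sum] at h3
  linarith

theorem MB.reidx {ι' κ' : Type} [Fintype ι'] [Fintype κ'] {A : ι → κ → ℝ} {K : ℝ} (hA : MB A K)
    {e : ι' → ι} {f : κ' → κ} (he : Function.Injective e) (hf : Function.Injective f) :
    MB (fun i k => A (e i) (f k)) K := by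
  intro v
  have h1 := hA (Function.extend f v 0)
  have h2 : ∑ k, v k ^ 2 = ∑ k, Function.extend f v 0 k ^ 2 :=
    Fintype.sum_of_injective f hf _ _ (fun k hk => by
      rw [Function.extend_apply' _ _ _ (by simpa using hk)]; simp) fun k => by
        rw [hf.extend_apply]
  have h3 : ∀ i, ∑ k, A i (f k) * v k = ∑ k, A i k * Function.extend f v 0 k := fun i =>
    Fintype.sum_of_injective f hf _ _ (fun k hk => by
      rw [Function.extend_apply' _ _ _ (by simpa using hk)]; simp) fun k => by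
        rw [hf.extend_apply]
  simp only [h3]
  rw [h2]
  exact (sum_inj_le he (fun i => (∑ k, A i k * Function.extend f v 0 k) ^ 2)
    fun _ => sq_nonneg _).trans h1

end MB

/-- the class of matrix families generated by the derivative tensors of the Hessian -/
inductive OC : {ι κ : Ctx → Type} → [∀ θ, Fintype (ι θ)] → [∀ θ, Fintype (κ θ)] →
    (∀ θ, ι θ → κ θ → R θ.d) → Prop
  | gen (p q : ℕ) (c : Ctx → ℝ) (hc : ∀ θ, |c θ| * θ.ε ≤ 1) :
      OC fun θ (r : Fin θ.d × Pw θ.d q) (a : Fin θ.d × Pw θ.d p) => c θ • TT p q a r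
  | mul {ι κ μ : Ctx → Type} [∀ θ, Fintype (ι θ)] [∀ θ, Fintype (κ θ)] [∀ θ, Fintype (μ θ)]
      {A : ∀ θ, ι θ → μ θ → R θ.d} {B : ∀ θ, μ θ → κ θ → R θ.d} :
      OC A → OC B → OC fun θ i k => ∑ j, A θ i j * B θ j k
  | kron {ι κ : Ctx → Type} (μ : Ctx → Type) [∀ θ, Fintype (ι θ)] [∀ θ, Fintype (κ θ)]
      [∀ θ, Fintype (μ θ)] [∀ θ, DecidableEq (μ θ)] {A : ∀ θ, ι θ → κ θ → R θ.d} :
      OC A → OC fun θ (i : μ θ × ι θ) (k : μ θ × κ θ) => if i.1 = k.1 then A θ i.2 k.2 else 0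
  | add {ι κ : Ctx → Type} [∀ θ, Fintype (ι θ)] [∀ θ, Fintype (κ θ)]
      {A B : ∀ θ, ι θ → κ θ → R θ.d} : OC A → OC B → OC fun θ i k => A θ i k + B θ i k
  | reidx {ι κ ι' κ' : Ctx → Type} [∀ θ, Fintype (ι θ)] [∀ θ, Fintype (κ θ)]
      [∀ θ, Fintype (ι' θ)] [∀ θ, Fintype (κ' θ)] {A : ∀ θ, ι θ → κ θ → R θ.d}
      (e : ∀ θ, ι' θ → ι θ) (f : ∀ θ, κ' θ → κ θ) (he : ∀ θ, Function.Injective (e θ))
      (hf : ∀ θ, Function.Injective (f θ)) : OC A → OC fun θ i k => A θ (e θ i) (f θ k)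

theorem inj_swap {α β : Type} : Function.Injective fun x : α × β => (x.2, x.1) :=
  Prod.swap_injective

theorem inj_rot {α β γ : Type} : Function.Injective fun x : α × β × γ => (x.2.1, x.1, x.2.2) := by
  rintro ⟨a, b, c⟩ ⟨a', b', c'⟩ h
  simp only [Prod.mk.injEq] at h
  obtain ⟨rfl, rfl, rfl⟩ := h
  rfl

theorem inj_map {α β γ : Type} {e : β → γ} (he : Function.Injective e) :
    Function.Injective fun x : α × β => (x.1, e x.2) := by
  rintro ⟨a, b⟩ ⟨a', b'⟩ h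
  simp only [Prod.mk.injEq] at h
  obtain ⟨rfl, h⟩ := h
  rw [he h]

section OC

variable {ι κ μ σ : Ctx → Type} [∀ θ, Fintype (ι θ)] [∀ θ, Fintype (κ θ)] [∀ θ, Fintype (μ θ)]
  [∀ θ, Fintype (σ θ)]

theorem OC.congr {A B : ∀ θ, ι θ → κ θ → R θ.d} (h : OC A) (hAB : ∀ θ i k, B θ i k = A θ i k) :
    OC B := by
  have : B = A := by funext θ i k; exact hAB θ i k
  rwa [this]

theorem OC.mem_XO {A : ∀ θ, ι θ → κ θ → R θ.d} (h : OC A) : ∀ θ i k, A θ i k ∈ XO θ.d := by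
  induction h with
  | gen p q c hc => exact fun θ i k => Subalgebra.smul_mem _ (TT_mem_XO p q k i) _
  | mul _ _ ihA ihB => exact fun θ i k => sum_mem fun j _ => mul_mem (ihA θ i j) (ihB θ j k)
  | kron μ _ ih =>
    intro θ i k
    dsimp only
    split_ifs
    · exact ih θ _ _
    · exact zero_mem _
  | add _ _ ihA ihB => exact fun θ i k => add_mem (ihA θ i k) (ihB θ i k)
  | reidx e f he hf _ ih => exact fun θ i k => ih θ _ _

theorem OC.bound {A : ∀ θ, ι θ → κ θ → R θ.d} (h : OC A) :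
    ∃ K : ℝ, 0 ≤ K ∧ ∀ (θ : Ctx) Z, MB (fun i k => θ.ev Z (A θ i k)) K := by
  induction h with
  | gen p q c hc =>
    obtain ⟨K, hK⟩ := flat_bound p q
    refine ⟨K ^ 2, sq_nonneg _, fun θ Z v => ?_⟩
    have hlev : lev θ.b ≤ 1 := by unfold lev; nlinarith [sq_nonneg θ.b.1, sq_nonneg θ.b.2]
    have h1 := hK θ.d θ.ε θ.U θ.hU θ.hε θ.b Z (lev θ.b) (pt θ.y θ.b Z) 0 θ.hb hlev v
    have h2 : ∀ r : Fin θ.d × Pw θ.d q, (∑ a, θ.ev Z (c θ • TT p q a r) * v a) ^ 2 =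
        c θ ^ 2 * (∑ a, ev θ.U θ.b Z (lev θ.b) (pt θ.y θ.b Z) 0 (TT p q a r) * v a) ^ 2 := by
      intro r
      rw [← mul_pow, Finset.mul_sum]
      congr 1
      refine Finset.sum_congr rfl fun a _ => ?_
      rw [map_smul, smul_eq_mul, mul_assoc]
      rfl
    simp only [h2]
    rw [← Finset.mul_sum]
    refine (mul_le_mul_of_nonneg_left h1 (sq_nonneg _)).trans ?_
    have h3 : 0 ≤ ∑ a, v a ^ 2 := Finset.sum_nonneg fun _ _ => sq_nonneg _
    have h4 : (|c θ| * θ.ε) ^ 2 ≤ 1 :=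
      pow_le_one₀ (mul_nonneg (abs_nonneg _) θ.hU.le) (hc θ)
    rw [mul_pow, sq_abs] at h4
    calc c θ ^ 2 * ((K * θ.ε) ^ 2 * ∑ a, v a ^ 2)
        = (c θ ^ 2 * θ.ε ^ 2) * (K ^ 2 * ∑ a, v a ^ 2) := by ring
      _ ≤ 1 * (K ^ 2 * ∑ a, v a ^ 2) := by gcongr
      _ = _ := one_mul _
  | mul _ _ ihA ihB =>
    obtain ⟨K, hK, h1⟩ := ihA
    obtain ⟨K', hK', h2⟩ := ihB
    refine ⟨K * K', mul_nonneg hK hK', fun θ Z => ?_⟩
    simp only [map_sum, map_mul]
    exact (h1 θ Z).mul (h2 θ Z) hK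
  | kron μ _ ih =>
    obtain ⟨K, hK, h1⟩ := ih
    refine ⟨K, hK, fun θ Z => ?_⟩
    simp only [apply_ite (θ.ev Z), map_zero]
    exact (h1 θ Z).kron
  | add _ _ ihA ihB =>
    obtain ⟨K, hK, h1⟩ := ihA
    obtain ⟨K', hK', h2⟩ := ihB
    refine ⟨2 * K + 2 * K', by positivity, fun θ Z => ?_⟩
    simp only [map_add]
    exact (h1 θ Z).add (h2 θ Z)
  | reidx e f he hf _ ih =>
    obtain ⟨K, hK, h1⟩ := ih
    exact ⟨K, hK, fun θ Z => (h1 θ Z).reidx (he θ) (hf θ)⟩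

theorem OC.mulL {A : ∀ θ, ι θ → μ θ → R θ.d} {B : ∀ θ, σ θ × μ θ → κ θ → R θ.d} (hA : OC A)
    (hB : OC B) : OC fun θ (i : σ θ × ι θ) k => ∑ j, A θ i.2 j * B θ (i.1, j) k := by
  classical
  refine ((hA.kron σ).mul hB).congr fun θ i k => ?_
  rw [Fintype.sum_prod_type, Finset.sum_comm]
  refine Finset.sum_congr rfl fun j _ => ?_
  simp

theorem OC.mulR {A : ∀ θ, ι θ → σ θ × μ θ → R θ.d} {B : ∀ θ, μ θ → κ θ → R θ.d} (hA : OC A)
    (hB : OC B) : OC fun θ i (k : σ θ × κ θ) => ∑ j, A θ i (k.1, j) * B θ j k.2 := by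
  classical
  refine (hA.mul (hB.kron σ)).congr fun θ i k => ?_
  rw [Fintype.sum_prod_type, Finset.sum_comm]
  refine Finset.sum_congr rfl fun j _ => ?_
  simp

theorem OC.mulL' {A : ∀ θ, ι θ → μ θ → R θ.d} {B : ∀ θ, μ θ × σ θ → κ θ → R θ.d} (hA : OC A)
    (hB : OC B) : OC fun θ (i : ι θ × σ θ) k => ∑ j, A θ i.1 j * B θ (j, i.2) k :=
  (hA.mulL (hB.reidx (fun θ (x : σ θ × μ θ) => (x.2, x.1)) (fun _ k => k) (fun _ => inj_swap)
    fun _ => Function.injective_id)).reidx (fun θ (x : ι θ × σ θ) => (x.2, x.1)) (fun _ k => k)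
    (fun _ => inj_swap) fun _ => Function.injective_id

theorem OC.mulR' {A : ∀ θ, ι θ → μ θ × σ θ → R θ.d} {B : ∀ θ, μ θ → κ θ → R θ.d} (hA : OC A)
    (hB : OC B) : OC fun θ i (k : κ θ × σ θ) => ∑ j, A θ i (j, k.2) * B θ j k.1 :=
  ((hA.reidx (fun _ k => k) (fun θ (x : σ θ × μ θ) => (x.2, x.1))
    (fun _ => Function.injective_id) fun _ => inj_swap).mulR hB).reidx (fun _ k => k)
    (fun θ (x : κ θ × σ θ) => (x.2, x.1)) (fun _ => Function.injective_id) fun _ => inj_swap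

theorem OC.two {A : ∀ θ, ι θ → κ θ → R θ.d} (hA : OC A) : OC fun θ i k => 2 * A θ i k :=
  (hA.add hA).congr fun _ _ _ => two_mul _

theorem OC.H (c : Ctx → ℝ) (hc : ∀ θ, |c θ| * θ.ε ≤ 1) :
    OC fun θ (i k : Fin θ.d) => c θ • H i k :=
  ((OC.gen 0 0 c hc).reidx (fun θ (i : Fin θ.d) => (i, ())) (fun θ (i : Fin θ.d) => (i, ()))
    (fun _ _ _ h => congrArg Prod.fst h) fun _ _ _ h => congrArg Prod.fst h).congr
    fun θ i k => by rw [H_symm]; rfl

theorem OC.H1 : OC fun θ (i k : Fin θ.d) => P347.H i k :=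
  (OC.H (fun _ => 1) fun θ => by rw [abs_one, one_mul]; linarith [θ.hε]).congr
    fun _ _ _ => (one_smul _ _).symm

theorem OC.dF {A : ∀ θ, ι θ → κ θ → R θ.d} (h : OC A) :
    OC fun θ (i : Fin θ.d × ι θ) k => dx i.1 (A θ i.2 k) := by
  induction h with
  | gen p q c hc =>
    refine ((OC.gen p (q + 1) c hc).reidx
      (fun θ (x : Fin θ.d × Fin θ.d × Pw θ.d q) => (x.2.1, x.1, x.2.2)) (fun _ k => k)
      (fun _ => inj_rot) fun _ => Function.injective_id).congr fun θ i k => ?_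
    rw [Derivation.map_smul, TT, dx_dxs]
    rfl
  | mul hA hB ihA ihB =>
    refine ((ihA.mul hB).add (hA.mulL ihB)).congr fun θ i k => ?_
    rw [map_sum, ← Finset.sum_add_distrib]
    refine Finset.sum_congr rfl fun j _ => ?_
    rw [Derivation.leibniz, smul_eq_mul, smul_eq_mul]
    ring
  | kron μ _ ih =>
    refine ((ih.kron μ).reidx (fun θ (x : Fin θ.d × μ θ × _) => (x.2.1, x.1, x.2.2)) (fun _ k => k)
      (fun _ => inj_rot) fun _ => Function.injective_id).congr fun θ i k => ?_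
    dsimp only
    split_ifs
    · rfl
    · exact map_zero _
  | add _ _ ihA ihB => exact (ihA.add ihB).congr fun θ i k => map_add _ _ _
  | reidx e f he hf _ ih =>
    exact ih.reidx (fun θ (x : Fin θ.d × _) => (x.1, e θ x.2)) f (fun θ => inj_map (he θ)) hf

theorem OC.dC {A : ∀ θ, ι θ → κ θ → R θ.d} (h : OC A) :
    OC fun θ i (k : Fin θ.d × κ θ) => dx k.1 (A θ i k.2) := by
  induction h with
  | gen p q c hc =>
    refine ((OC.gen (p + 1) q c hc).reidx (fun _ k => k)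
      (fun θ (x : Fin θ.d × Fin θ.d × Pw θ.d p) => (x.2.1, x.1, x.2.2))
      (fun _ => Function.injective_id) fun _ => inj_rot).congr fun θ i k => ?_
    rw [Derivation.map_smul]
    rfl
  | mul hA hB ihA ihB =>
    refine ((ihA.mulR hB).add (hA.mul ihB)).congr fun θ i k => ?_
    rw [map_sum, ← Finset.sum_add_distrib]
    refine Finset.sum_congr rfl fun j _ => ?_
    rw [Derivation.leibniz, smul_eq_mul, smul_eq_mul]
    ring
  | kron μ _ ih =>
    refine ((ih.kron μ).reidx (fun _ k => k) (fun θ (x : Fin θ.d × μ θ × _) => (x.2.1, x.1, x.2.2))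
      (fun _ => Function.injective_id) fun _ => inj_rot).congr fun θ i k => ?_
    dsimp only
    split_ifs
    · rfl
    · exact map_zero _
  | add _ _ ihA ihB => exact (ihA.add ihB).congr fun θ i k => map_add _ _ _
  | reidx e f he hf _ ih =>
    exact ih.reidx e (fun θ (x : Fin θ.d × _) => (x.1, f θ x.2)) he fun θ => inj_map (hf θ)

theorem OC.BB_gen (p q : ℕ) (c : Ctx → ℝ) (hc : ∀ θ, |c θ| * θ.ε ≤ 1) :
    OC fun θ (r : Fin θ.d × Pw θ.d q) (a : Fin θ.d × Pw θ.d p) => BB (c θ • TT p q a r) := by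
  induction p with
  | zero =>
    induction q with
    | zero =>
      refine ((((OC.H c hc).mul OC.H1).two).reidx (fun θ (i : Fin θ.d × Pw θ.d 0) => i.1)
        (fun θ (i : Fin θ.d × Pw θ.d 0) => i.1) (fun _ _ _ h => Prod.ext h rfl)
        fun _ _ _ h => Prod.ext h rfl).congr fun θ i k => ?_
      have : TT 0 0 k i = P347.H i.1 k.1 := by rw [H_symm]; rfl
      rw [this, BB_smul, BB_H, ← mul_smul_comm, Finset.smul_sum]
      simp only [smul_mul_assoc]
    | succ q ih =>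
      have h1 := (ih.dF.add (OC.H1.mulL' (OC.gen 0 q c hc).dF).two).reidx
        (fun θ (x : Fin θ.d × Fin θ.d × Pw θ.d q) => (x.2.1, x.1, x.2.2)) (fun _ k => k)
        (fun _ => inj_rot) fun _ => Function.injective_id
      refine OC.congr (ι := fun θ => Fin θ.d × Pw θ.d (q + 1)) h1 fun θ i k => ?_
      rw [← BB_dx, Derivation.map_smul]
      rfl
  | succ p ih =>
    have h1 := (ih.dC.add ((OC.gen p q c hc).dC.mulR' OC.H1).two).reidx (fun _ k => k)
      (fun θ (x : Fin θ.d × Fin θ.d × Pw θ.d p) => (x.2.1, x.1, x.2.2))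
      (fun _ => Function.injective_id) fun _ => inj_rot
    refine OC.congr (κ := fun θ => Fin θ.d × Pw θ.d (p + 1)) h1 fun θ i k => ?_
    have h2 := BB_dx k.2.1 (c θ • TT p q (k.1, k.2.2) i)
    simp only [H_symm k.2.1, mul_comm (P347.H _ _)] at h2
    rw [← h2, Derivation.map_smul]
    rfl

theorem OC.BB {A : ∀ θ, ι θ → κ θ → R θ.d} (h : OC A) : OC fun θ i k => BB (A θ i k) := by
  induction h with
  | gen p q c hc => exact OC.BB_gen p q c hc
  | mul hA hB ihA ihB =>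
    refine (((ihA.mul hB).add (hA.mul ihB)).add (hA.dC.mul hB.dF).two).congr fun θ i k => ?_
    rw [BB_sum, Fintype.sum_prod_type, Finset.sum_comm, Finset.mul_sum, ← Finset.sum_add_distrib,
      ← Finset.sum_add_distrib]
    exact Finset.sum_congr rfl fun j _ => BB_mul _ _
  | kron μ _ ih =>
    refine (ih.kron μ).congr fun θ i k => ?_
    dsimp only
    split_ifs
    · rfl
    · exact BB_zero
  | add _ _ ihA ihB => exact (ihA.add ihB).congr fun θ i k => BB_add _ _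
  | reidx e f he hf _ ih => exact ih.reidx e f he hf

end OC

end Vale.Agent.P347
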