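import Vale.Agent.P347.TiltEst

/-! Lower bound, part 1: the chain potentials and their admissibility. -/

open MeasureTheory

namespace Vale.Agent.P347

/-- a radial cutoff profile with its two derivatives -/
structure CutP (C : ℝ) (χ χ1 χ2 : ℝ → ℝ) : Prop where
  cd : ContDiff ℝ 2 χ
  d1 : ∀ t, HasDerivAt χ (χ1 t) t
  d2 : ∀ t, HasDerivAt χ1 (χ2 t) t
  b0 : ∀ t, |χ t| ≤ 1
  b1 : ∀ t, |χ1 t| ≤ C
  b2 : ∀ t, |χ2 t| ≤ C
  lo : χ 0 = 0 ∧ χ1 0 = 0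
  hi : ∀ t, 3 ≤ t → χ t = 0 ∧ χ1 t = 0 ∧ χ2 t = 0
  mid : ∀ t, 1 / 4 < t → t < 2 → χ t = 1 ∧ χ1 t = 0

/-- a quadratic link with a dead zone of width `τ` -/
structure LinkP (C τ : ℝ) (φ φ1 φ2 : ℝ → ℝ) : Prop where
  cd : ContDiff ℝ 2 φ
  d1 : ∀ t, HasDerivAt φ (φ1 t) t
  d2 : ∀ t, HasDerivAt φ1 (φ2 t) t
  b0 : ∀ t, |φ t| ≤ t ^ 2 / 2
  b1 : ∀ t, |φ1 t| ≤ C * |t|
  b1' : ∀ t, |φ1 t - t| ≤ C * τ
  b2 : ∀ t, |φ2 t| ≤ C
  zero : ∀ t, |t| < τ → φ t = 0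

theorem bound_of_compact {f : ℝ → ℝ} (hf : ContDiff ℝ 2 f) (hc : HasCompactSupport f) :
    ∃ C : ℝ, 1 ≤ C ∧ ∀ t, |deriv f t| ≤ C ∧ |deriv (deriv f) t| ≤ C := by
  have h1 : ContDiff ℝ 1 (deriv f) := hf.deriv'
  obtain ⟨C1, hC1⟩ := h1.continuous.bounded_above_of_compact_support hc.deriv
  obtain ⟨C2, hC2⟩ := (h1.continuous_deriv le_rfl).bounded_above_of_compact_support
    hc.deriv.deriv
  refine ⟨max 1 (max C1 C2), le_max_left _ _, fun t => ⟨?_, ?_⟩⟩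
  · exact (hC1 t).trans ((le_max_left _ _).trans (le_max_right _ _))
  · exact (hC2 t).trans ((le_max_right _ _).trans (le_max_right _ _))

theorem derivs_of_contDiff {f : ℝ → ℝ} (hf : ContDiff ℝ 2 f) :
    (∀ t, HasDerivAt f (deriv f t) t) ∧ ∀ t, HasDerivAt (deriv f) (deriv (deriv f) t) t := by
  have h1 : ContDiff ℝ 1 (deriv f) := hf.deriv'
  exact ⟨fun t => (hf.differentiable (by norm_num) t).hasDerivAt,
    fun t => (h1.differentiable (by norm_num) t).hasDerivAt⟩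

theorem deriv_zero_of_const {f : ℝ → ℝ} {s : Set ℝ} (hs : IsOpen s) {c : ℝ}
    (h : ∀ t ∈ s, f t = c) : ∀ t ∈ s, deriv f t = 0 := by
  intro t ht
  have : f =ᶠ[nhds t] fun _ => c := Filter.eventually_of_mem (hs.mem_nhds ht) h
  rw [this.deriv_eq, deriv_const]

theorem exists_cut : ∃ (C : ℝ) (χ χ1 χ2 : ℝ → ℝ), 1 ≤ C ∧ CutP C χ χ1 χ2 := by
  let b : ContDiffBump (9 / 8 : ℝ) := ⟨7 / 8, 1, by norm_num, by norm_num⟩
  have hb : ContDiff ℝ 2 b := b.contDiff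
  obtain ⟨C, hC, hC'⟩ := bound_of_compact hb b.hasCompactSupport
  have z1 : ∀ t ∈ Set.Iio (1 / 8 : ℝ), b t = 0 := fun t ht =>
    b.zero_of_le_dist (by
      rw [Real.dist_eq, abs_of_neg (by simp at ht; linarith)]; simp [b] at ht ⊢; linarith)
  have z2 : ∀ t ∈ Set.Ioi (5 / 2 : ℝ), b t = 0 := fun t ht =>
    b.zero_of_le_dist (by
      rw [Real.dist_eq, abs_of_pos (by simp at ht; linarith)]; simp [b] at ht ⊢; linarith)
  have z3 : ∀ t ∈ Set.Ioo (1 / 4 : ℝ) 2, b t = 1 := fun t ht =>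
    b.one_of_mem_closedBall (by
      rw [Metric.mem_closedBall, Real.dist_eq, abs_le]; simp [b] at ht ⊢
      constructor <;> linarith [ht.1, ht.2])
  have z2' := deriv_zero_of_const isOpen_Ioi z2
  refine ⟨C, b, deriv b, deriv (deriv b), hC, hb, (derivs_of_contDiff hb).1,
    (derivs_of_contDiff hb).2, fun t => ?_, fun t => (hC' t).1, fun t => (hC' t).2,
    ⟨z1 0 (by simp), deriv_zero_of_const isOpen_Iio z1 0 (by simp)⟩, fun t ht => ?_,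
    fun t h1 h2 => ⟨z3 t ⟨h1, h2⟩, deriv_zero_of_const isOpen_Ioo z3 t ⟨h1, h2⟩⟩⟩
  · rw [abs_of_nonneg b.nonneg]; exact b.le_one
  · have : t ∈ Set.Ioi (5 / 2 : ℝ) := by simp; linarith
    exact ⟨z2 t this, z2' t this, deriv_zero_of_const isOpen_Ioi z2' t this⟩

theorem exists_link : ∃ C : ℝ, 1 ≤ C ∧ ∀ τ : ℝ, 0 < τ → ∃ φ φ1 φ2, LinkP C τ φ φ1 φ2 := by
  let b : ContDiffBump (0 : ℝ) := ⟨1, 2, by norm_num, by norm_num⟩
  let g : ℝ → ℝ := fun t => t ^ 2 / 2 * b t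
  have hg : ContDiff ℝ 2 g := ((contDiff_id.pow 2).div_const 2).mul b.contDiff
  have hc : HasCompactSupport g := b.hasCompactSupport.mul_left
  obtain ⟨C, hC, hC'⟩ := bound_of_compact hg hc
  obtain ⟨g1, g2⟩ := derivs_of_contDiff hg
  refine ⟨C + 1, by linarith, fun τ hτ => ?_⟩
  have hz : ∀ t ∈ Set.Ioo (-τ) τ, t ^ 2 / 2 - τ ^ 2 * g (t / τ) = 0 := by
    intro t ht
    have : b (t / τ) = 1 := b.one_of_mem_closedBall (by
      rw [Metric.mem_closedBall, Real.dist_eq, sub_zero, abs_div, abs_of_pos hτ]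
      change _ ≤ (1 : ℝ)
      rw [div_le_one hτ, abs_le]; exact ⟨ht.1.le, ht.2.le⟩)
    simp only [g, this]; field_simp; ring
  have d1 : ∀ t, HasDerivAt (fun t => t ^ 2 / 2 - τ ^ 2 * g (t / τ)) (t - τ * deriv g (t / τ)) t := by
    intro t
    refine (((hasDerivAt_pow 2 t).div_const 2).sub
      (((g1 (t / τ)).comp t ((hasDerivAt_id t).div_const τ)).const_mul (τ ^ 2))).congr_deriv ?_
    simp; field_simp
  have b1' : ∀ t, |t - τ * deriv g (t / τ) - t| ≤ C * τ := by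
    intro t
    rw [sub_sub_cancel_left, abs_neg, abs_mul, abs_of_pos hτ, mul_comm]
    exact mul_le_mul_of_nonneg_right (hC' _).1 hτ.le
  refine ⟨fun t => t ^ 2 / 2 - τ ^ 2 * g (t / τ), fun t => t - τ * deriv g (t / τ),
    fun t => 1 - deriv (deriv g) (t / τ),
    ((contDiff_id.pow 2).div_const 2).sub (contDiff_const.mul (hg.comp (contDiff_id.div_const τ))),
    d1, fun t => ?_, fun t => ?_, fun t => ?_, fun t => (b1' t).trans (by nlinarith),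
    fun t => ?_, fun t ht => hz t (abs_lt.1 ht)⟩
  · refine ((hasDerivAt_id t).sub
      (((g2 (t / τ)).comp t ((hasDerivAt_id t).div_const τ)).const_mul τ)).congr_deriv ?_
    simp; field_simp
  · have e : t ^ 2 / 2 - τ ^ 2 * g (t / τ) = t ^ 2 / 2 * (1 - b (t / τ)) := by
      simp only [g]; field_simp
    rw [e, abs_of_nonneg (mul_nonneg (by positivity) (sub_nonneg.2 b.le_one))]
    exact mul_le_of_le_one_right (by positivity) (by linarith [b.nonneg (x := t / τ)])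
  · rcases lt_or_ge |t| τ with h | h
    · have h1 := deriv_zero_of_const isOpen_Ioo hz t (abs_lt.1 h)
      rw [(d1 t).deriv] at h1
      rw [h1, abs_zero]; positivity
    · have h1 := b1' t
      have h2 := abs_add_le (t - τ * deriv g (t / τ) - t) t
      rw [sub_add_cancel] at h2
      nlinarith
  · refine (abs_sub _ _).trans ?_
    rw [abs_one]; linarith [(hC' (t / τ)).2]

variable {d : ℕ}

theorem second_deriv_line {V : E d → ℝ} (hV : ContDiff ℝ 2 V) (x v : E d) {f1 : ℝ → ℝ} {f2 : ℝ}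
    (h1 : ∀ t, HasDerivAt (fun t : ℝ => V (x + t • v)) (f1 t) t) (h2 : HasDerivAt f1 f2 0) :
    iteratedFDeriv ℝ 2 V x ![v, v] = f2 := by
  have hl : ∀ t : ℝ, HasDerivAt (fun t : ℝ => x + t • v) v t := fun t => by
    simpa using ((hasDerivAt_id t).smul_const v).const_add x
  have hd : Differentiable ℝ V := hV.differentiable (by norm_num)
  have e1 : f1 = fun t : ℝ => fderiv ℝ V (x + t • v) v := by
    funext t
    exact (h1 t).unique ((hd _).hasFDerivAt.comp_hasDerivAt t (hl t))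
  have hd2 : Differentiable ℝ (fderiv ℝ V) :=
    (hV.fderiv_right (m := 1) (by norm_num)).differentiable (by norm_num)
  have h3 : HasDerivAt (fun t : ℝ => fderiv ℝ V (x + t • v)) (fderiv ℝ (fderiv ℝ V) x v) 0 := by
    have := (hd2 (x + (0 : ℝ) • v)).hasFDerivAt.comp_hasDerivAt (0 : ℝ) (hl 0)
    rw [zero_smul, add_zero] at this
    exact this
  have h4 := h3.clm_apply (hasDerivAt_const (0 : ℝ) v)
  rw [iteratedFDeriv_two_apply]
  rw [e1] at h2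
  simpa using h4.unique h2

/-- the chain with `k` links -/
noncomputable def Fk (φ : ℝ → ℝ) (u : ℕ → E d) (k : ℕ) (x : E d) : ℝ :=
  -(√d * inner ℝ (u 0) x) + ∑ j ∈ Finset.range k, φ (inner ℝ (u j - u (j + 1)) x)

/-- its first derivative -/
noncomputable def Fk1 (φ1 : ℝ → ℝ) (u : ℕ → E d) (k : ℕ) (x v : E d) : ℝ :=
  -(√d * inner ℝ (u 0) v) +
    ∑ j ∈ Finset.range k, φ1 (inner ℝ (u j - u (j + 1)) x) * inner ℝ (u j - u (j + 1)) v

/-- its second derivative -/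
noncomputable def Fk2 (φ2 : ℝ → ℝ) (u : ℕ → E d) (k : ℕ) (x v : E d) : ℝ :=
  ∑ j ∈ Finset.range k, φ2 (inner ℝ (u j - u (j + 1)) x) * inner ℝ (u j - u (j + 1)) v ^ 2

/-- the potential -/
noncomputable def Vk (η : ℝ) (χ φ : ℝ → ℝ) (u : ℕ → E d) (k : ℕ) (x : E d) : ℝ :=
  3 / 4 * ‖x‖ ^ 2 + η * (χ (‖x‖ ^ 2 / d) * Fk φ u k x)

/-- its first derivative -/
noncomputable def Vk1 (η : ℝ) (χ χ1 φ φ1 : ℝ → ℝ) (u : ℕ → E d) (k : ℕ) (x v : E d) : ℝ :=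
  3 / 2 * inner ℝ x v + η * (χ1 (‖x‖ ^ 2 / d) * (2 * inner ℝ x v / d) * Fk φ u k x
    + χ (‖x‖ ^ 2 / d) * Fk1 φ1 u k x v)

variable {C C' τ η : ℝ} {χ χ1 χ2 φ φ1 φ2 : ℝ → ℝ} {u : ℕ → E d} {k : ℕ}

theorem line_inner (w x v : E d) (t : ℝ) :
    HasDerivAt (fun t : ℝ => (inner ℝ w (x + t • v) : ℝ)) (inner ℝ w v) t := by
  simp only [inner_add_right, real_inner_smul_right]
  simpa using ((hasDerivAt_id t).mul_const (inner ℝ w v : ℝ)).const_add (inner ℝ w x : ℝ)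

theorem line_inner' (x v : E d) (t : ℝ) :
    HasDerivAt (fun t : ℝ => (inner ℝ (x + t • v) v : ℝ)) (‖v‖ ^ 2) t := by
  simp only [real_inner_comm v]
  simpa [real_inner_self_eq_norm_sq] using line_inner v x v t

theorem line_sq (x v : E d) (t : ℝ) :
    HasDerivAt (fun t : ℝ => ‖x + t • v‖ ^ 2) (2 * inner ℝ (x + t • v) v) t := by
  have hl : HasDerivAt (fun t : ℝ => x + t • v) v t := by
    simpa using ((hasDerivAt_id t).smul_const v).const_add x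
  exact hl.norm_sq

theorem line_Fk (hφ : LinkP C' τ φ φ1 φ2) (x v : E d) (t : ℝ) :
    HasDerivAt (fun t : ℝ => Fk φ u k (x + t • v)) (Fk1 φ1 u k (x + t • v) v) t :=
  ((line_inner _ x v t).const_mul _).neg.add
    (HasDerivAt.fun_sum fun j _ => (hφ.d1 _).comp t (line_inner (u j - u (j + 1)) x v t))

theorem line_Fk1 (hφ : LinkP C' τ φ φ1 φ2) (x v : E d) (t : ℝ) :
    HasDerivAt (fun t : ℝ => Fk1 φ1 u k (x + t • v) v) (Fk2 φ2 u k (x + t • v) v) t := by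
  refine (HasDerivAt.fun_sum fun j _ => ((hφ.d2 _).comp t
    (line_inner (u j - u (j + 1)) x v t)).mul_const (inner ℝ (u j - u (j + 1)) v)).const_add _
      |>.congr_deriv ?_
  exact Finset.sum_congr rfl fun j _ => by ring

theorem line_Vk (hχ : CutP C χ χ1 χ2) (hφ : LinkP C' τ φ φ1 φ2) (x v : E d) (t : ℝ) :
    HasDerivAt (fun t : ℝ => Vk η χ φ u k (x + t • v)) (Vk1 η χ χ1 φ φ1 u k (x + t • v) v) t := by
  refine (((line_sq x v t).const_mul (3 / 4)).add ((((hχ.d1 _).comp t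
    ((line_sq x v t).div_const d)).mul (line_Fk hφ x v t)).const_mul η)).congr_deriv ?_
  simp only [Vk1, Function.comp]
  ring

theorem contDiff_Vk (hχ : CutP C χ χ1 χ2) (hφ : LinkP C' τ φ φ1 φ2) :
    ContDiff ℝ 2 (Vk η χ φ u k) := by
  have h1 : ContDiff ℝ 2 fun x : E d => ‖x‖ ^ 2 := contDiff_norm_sq ℝ
  have h2 : ∀ w : E d, ContDiff ℝ 2 fun x : E d => (inner ℝ w x : ℝ) := fun w =>
    (innerSL ℝ w).contDiff
  refine (contDiff_const.mul h1).add (contDiff_const.mul ((hχ.cd.comp (h1.div_const _)).mul ?_))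
  exact (contDiff_const.mul (h2 _)).neg.add (ContDiff.sum fun j _ => hφ.cd.comp (h2 _))

theorem inner_grad_Vk (hχ : CutP C χ χ1 χ2) (hφ : LinkP C' τ φ φ1 φ2) (x v : E d) :
    inner ℝ v (gradient (Vk η χ φ u k) x) = Vk1 η χ χ1 φ φ1 u k x v := by
  have hl : HasDerivAt (fun t : ℝ => x + t • v) v 0 := by
    simpa using ((hasDerivAt_id (0 : ℝ)).smul_const v).const_add x
  have hd := ((contDiff_Vk (η := η) (u := u) (k := k) hχ hφ).differentiable (by norm_num)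
    (x + (0 : ℝ) • v)).hasFDerivAt.comp_hasDerivAt (0 : ℝ) hl
  have := hd.unique (line_Vk hχ hφ x v 0)
  simp only [zero_smul, add_zero] at this
  rw [← this, real_inner_comm, gradient, InnerProductSpace.toDual_symm_apply]

/-- Bessel type hypotheses on the directions -/
structure Bes (u : ℕ → E d) (k : ℕ) : Prop where
  n0 : ‖u 0‖ ≤ 1
  sum : ∀ v, ∑ j ∈ Finset.range k, inner ℝ (u j - u (j + 1)) v ^ 2 ≤ 4 * ‖v‖ ^ 2

theorem abs_inner_u0 (hu : Bes u k) (v : E d) : |√d * inner ℝ (u 0) v| ≤ √d * ‖v‖ := by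
  rw [abs_mul, abs_of_nonneg (Real.sqrt_nonneg _)]
  refine mul_le_mul_of_nonneg_left ((abs_real_inner_le_norm _ _).trans ?_) (Real.sqrt_nonneg _)
  exact mul_le_of_le_one_left (norm_nonneg _) hu.n0

theorem abs_Fk_le (hφ : LinkP C' τ φ φ1 φ2) (hu : Bes u k) (x : E d) :
    |Fk φ u k x| ≤ √d * ‖x‖ + 2 * ‖x‖ ^ 2 := by
  refine (abs_add_le _ _).trans (add_le_add (by rw [abs_neg]; exact abs_inner_u0 hu x) ?_)
  refine (Finset.abs_sum_le_sum_abs _ _).trans ((Finset.sum_le_sum fun j _ => hφ.b0 _).trans ?_)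
  rw [← Finset.sum_div]
  linarith [hu.sum x]

theorem abs_Fk1_le (hφ : LinkP C' τ φ φ1 φ2) (hC : 0 ≤ C') (hu : Bes u k) (x v : E d) :
    |Fk1 φ1 u k x v| ≤ √d * ‖v‖ + 4 * C' * (‖x‖ * ‖v‖) := by
  refine (abs_add_le _ _).trans (add_le_add (by rw [abs_neg]; exact abs_inner_u0 hu v) ?_)
  have h1 : ∑ j ∈ Finset.range k, |inner ℝ (u j - u (j + 1)) x| * |inner ℝ (u j - u (j + 1)) v|
      ≤ 4 * (‖x‖ * ‖v‖) := by
    refine abs_le_of_sq_le_sq' ?_ (by positivity) |>.2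
    refine (Finset.sum_mul_sq_le_sq_mul_sq _ _ _).trans ?_
    simp only [sq_abs]
    calc _ ≤ (4 * ‖x‖ ^ 2) * (4 * ‖v‖ ^ 2) :=
          mul_le_mul (hu.sum x) (hu.sum v) (Finset.sum_nonneg fun _ _ => sq_nonneg _)
            (by positivity)
      _ = _ := by ring
  refine (Finset.abs_sum_le_sum_abs _ _).trans ?_
  calc _ ≤ ∑ j ∈ Finset.range k,
        C' * (|inner ℝ (u j - u (j + 1)) x| * |inner ℝ (u j - u (j + 1)) v|) := by
        refine Finset.sum_le_sum fun j _ => ?_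
        rw [abs_mul, ← mul_assoc]
        exact mul_le_mul_of_nonneg_right (hφ.b1 _) (abs_nonneg _)
    _ ≤ C' * (4 * (‖x‖ * ‖v‖)) := by rw [← Finset.mul_sum]; gcongr
    _ = _ := by ring

theorem abs_Fk2_le (hφ : LinkP C' τ φ φ1 φ2) (hC : 0 ≤ C') (hu : Bes u k) (x v : E d) :
    |Fk2 φ2 u k x v| ≤ 4 * C' * ‖v‖ ^ 2 := by
  refine (Finset.abs_sum_le_sum_abs _ _).trans ?_
  calc _ ≤ ∑ j ∈ Finset.range k, C' * inner ℝ (u j - u (j + 1)) v ^ 2 := by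
        refine Finset.sum_le_sum fun j _ => ?_
        rw [abs_mul, abs_of_nonneg (sq_nonneg (inner ℝ (u j - u (j + 1)) v : ℝ))]
        exact mul_le_mul_of_nonneg_right (hφ.b2 _) (sq_nonneg _)
    _ ≤ C' * (4 * ‖v‖ ^ 2) := by rw [← Finset.mul_sum]; gcongr; exact hu.sum v
    _ = _ := by ring

theorem norm_le_of_lt (hd : 0 < d) {x : E d} (h : ‖x‖ ^ 2 / d < 3) : ‖x‖ ≤ 2 * √d := by
  have hd0 : (0 : ℝ) < d := by exact_mod_cast hd
  rw [div_lt_iff₀ hd0] at h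
  refine abs_le_of_sq_le_sq' ?_ (by positivity) |>.2
  rw [mul_pow, Real.sq_sqrt hd0.le]; linarith

theorem hess_extra (hd : 0 < d) (hχ : CutP C χ χ1 χ2) (hφ : LinkP C τ φ φ1 φ2) (hC : 1 ≤ C)
    (hu : Bes u k) (x v : E d) :
    |χ2 (‖x‖ ^ 2 / d) * (2 * inner ℝ x v / d) ^ 2 * Fk φ u k x
      + χ1 (‖x‖ ^ 2 / d) * (2 * ‖v‖ ^ 2 / d) * Fk φ u k x
      + 2 * (χ1 (‖x‖ ^ 2 / d) * (2 * inner ℝ x v / d) * Fk1 φ1 u k x v)
      + χ (‖x‖ ^ 2 / d) * Fk2 φ2 u k x v| ≤ 300 * C ^ 2 * ‖v‖ ^ 2 := by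
  rcases le_or_gt 3 (‖x‖ ^ 2 / d) with h | h
  · obtain ⟨h0, h1, h2⟩ := hχ.hi _ h
    simp only [h0, h1, h2, zero_mul, mul_zero, add_zero, abs_zero]
    positivity
  have hd0 : (0 : ℝ) < d := by exact_mod_cast hd
  have hs : 0 < √(d : ℝ) := Real.sqrt_pos.2 hd0
  have hx := norm_le_of_lt hd h
  obtain ⟨s, hs1⟩ : ∃ s, s = √(d : ℝ) := ⟨_, rfl⟩
  have hds : (d : ℝ) = s ^ 2 := by rw [hs1, Real.sq_sqrt hd0.le]
  have f0 : |Fk φ u k x| ≤ 10 * s ^ 2 := by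
    refine (abs_Fk_le hφ hu x).trans ?_
    rw [← hs1] at hx hs ⊢
    nlinarith [norm_nonneg x]
  have f1 : |Fk1 φ1 u k x v| ≤ 9 * C * s * ‖v‖ := by
    refine (abs_Fk1_le hφ (by linarith) hu x v).trans ?_
    rw [← hs1] at hx hs ⊢
    have h1 : ‖x‖ * ‖v‖ ≤ 2 * s * ‖v‖ := by gcongr
    have h2 : 4 * C * (‖x‖ * ‖v‖) ≤ 4 * C * (2 * s * ‖v‖) := by gcongr
    have h3 : 1 * (s * ‖v‖) ≤ C * (s * ‖v‖) := by gcongr
    linarith
  have f2 := abs_Fk2_le hφ (by linarith) hu x v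
  rw [← hs1] at hx hs
  have f3 : |2 * inner ℝ x v / (d : ℝ)| ≤ 4 * ‖v‖ / s := by
    rw [abs_div, abs_of_pos hd0, abs_mul, abs_two, hds, div_le_div_iff₀ (by positivity) hs]
    have h1 := abs_real_inner_le_norm x v
    have h2 : ‖x‖ * ‖v‖ ≤ 2 * s * ‖v‖ := by gcongr
    nlinarith
  have t1 : |χ2 (‖x‖ ^ 2 / d) * (2 * inner ℝ x v / d) ^ 2 * Fk φ u k x| ≤ 160 * C * ‖v‖ ^ 2 := by
    rw [abs_mul, abs_mul, abs_pow]
    calc _ ≤ C * (4 * ‖v‖ / s) ^ 2 * (10 * s ^ 2) := by gcongr; exact hχ.b2 _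
      _ = _ := by field_simp; ring
  have t2 : |χ1 (‖x‖ ^ 2 / d) * (2 * ‖v‖ ^ 2 / d) * Fk φ u k x| ≤ 20 * C * ‖v‖ ^ 2 := by
    rw [abs_mul, abs_mul, abs_of_nonneg (by positivity : 0 ≤ 2 * ‖v‖ ^ 2 / (d : ℝ))]
    calc _ ≤ C * (2 * ‖v‖ ^ 2 / d) * (10 * s ^ 2) := by gcongr; exact hχ.b1 _
      _ = _ := by rw [hds]; field_simp; ring
  have t3 : |χ1 (‖x‖ ^ 2 / d) * (2 * inner ℝ x v / d) * Fk1 φ1 u k x v| ≤
      36 * C ^ 2 * ‖v‖ ^ 2 := by
    rw [abs_mul, abs_mul]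
    calc _ ≤ C * (4 * ‖v‖ / s) * (9 * C * s * ‖v‖) := by gcongr; exact hχ.b1 _
      _ = _ := by field_simp; ring
  have t4 : |χ (‖x‖ ^ 2 / d) * Fk2 φ2 u k x v| ≤ 4 * C * ‖v‖ ^ 2 := by
    rw [abs_mul]
    exact (mul_le_of_le_one_left (abs_nonneg _) (hχ.b0 _)).trans f2
  have h5 : C * ‖v‖ ^ 2 ≤ C ^ 2 * ‖v‖ ^ 2 := by gcongr; nlinarith
  have h6 : 0 ≤ C ^ 2 * ‖v‖ ^ 2 := by positivity
  rw [abs_le] at t1 t2 t3 t4 ⊢
  constructor <;> linarith [t1.1, t1.2, t2.1, t2.2, t3.1, t3.2, t4.1, t4.2]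

theorem admissible_Vk (hd : 0 < d) (hχ : CutP C χ χ1 χ2) (hφ : LinkP C τ φ φ1 φ2) (hC : 1 ≤ C)
    (hu : Bes u k) (hη0 : 0 ≤ η) (hη : η * (600 * C ^ 2) ≤ 1) : Admissible (Vk η χ φ u k) := by
  refine ⟨contDiff_Vk hχ hφ, by simp [Vk, hχ.lo.1], ?_, fun x v => ?_⟩
  · have := inner_grad_Vk (η := η) (u := u) (k := k) hχ hφ 0 (gradient (Vk η χ φ u k) 0)
    simpa [Vk1, hχ.lo.1, hχ.lo.2] using this
  have h2 : HasDerivAt (fun t : ℝ => Vk1 η χ χ1 φ φ1 u k (x + t • v) v)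
      (3 / 2 * ‖v‖ ^ 2 + η * (χ2 (‖x‖ ^ 2 / d) * (2 * inner ℝ x v / d) ^ 2 * Fk φ u k x
      + χ1 (‖x‖ ^ 2 / d) * (2 * ‖v‖ ^ 2 / d) * Fk φ u k x
      + 2 * (χ1 (‖x‖ ^ 2 / d) * (2 * inner ℝ x v / d) * Fk1 φ1 u k x v)
      + χ (‖x‖ ^ 2 / d) * Fk2 φ2 u k x v)) 0 := by
    have n1 := (line_sq x v 0).div_const d
    refine (((line_inner' x v 0).const_mul (3 / 2)).add
      ((((((hχ.d2 _).comp 0 n1).mul (((line_inner' x v 0).const_mul 2).div_const d)).mul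
        (line_Fk hφ x v 0)).add (((hχ.d1 _).comp 0 n1).mul
          (line_Fk1 hφ x v 0))).const_mul η)).congr_deriv ?_
    simp only [Function.comp, Pi.mul_apply, zero_smul, add_zero]
    ring
  rw [second_deriv_line (contDiff_Vk hχ hφ) x v (line_Vk hχ hφ x v) h2]
  have h3 := hess_extra hd hχ hφ hC hu x v
  have h4 := mul_le_mul_of_nonneg_left h3 hη0
  rw [← abs_of_nonneg hη0, ← abs_mul, abs_of_nonneg hη0, abs_le] at h4
  have h5 : η * (300 * C ^ 2 * ‖v‖ ^ 2) ≤ 1 / 2 * ‖v‖ ^ 2 := by nlinarith [sq_nonneg ‖v‖]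
  constructor <;> linarith [h4.1, h4.2]

end Vale.Agent.P347
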