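import Vale.Agent.P347.LB1

/-! Lower bound, part 2: under the Gibbs law the last direction of the chain is positive. -/

open MeasureTheory

namespace Vale.Agent.P347

variable {d : ℕ}

theorem lipR_integrable_gibbs {V : E d → ℝ} (h : Pot 1 2 V) {f : E d → ℝ} {L : ℝ}
    (hf : LipR L f) : Integrable f (gibbs V) :=
  h.integrable_gibbs_pg one_pos hf.pg hf.continuous.aestronglyMeasurable

theorem gibbs_var {V : E d → ℝ} (h : Pot 1 2 V) {f : E d → ℝ} (hf : LipR 1 f) :
    Integrable (fun x => (f x - ∫ y, f y ∂(gibbs V)) ^ 2) (gibbs V) ∧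
      ∫ x, (f x - ∫ y, f y ∂(gibbs V)) ^ 2 ∂(gibbs V) ≤ 1 := by
  have := h.isProb_gibbs one_pos
  set m := ∫ y, f y ∂(gibbs V) with hm
  have hg : LipR 1 fun x => f x - m := fun x y => by
    rw [sub_sub_sub_cancel_right]; exact hf x y
  refine ⟨h.integrable_gibbs_pg one_pos (hg.pg.pow 2)
    (hg.continuous.pow 2).aestronglyMeasurable, ?_⟩
  have key := poincare_lip h.smooth.continuous one_pos h.mid (h.integrable_gibbs one_pos)
    zero_le_one hg
  have e : ∫ x, (f x - m) ∂(gibbs V) = 0 := by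
    rw [integral_sub (lipR_integrable_gibbs h hf) (integrable_const _)]
    simp [hm]
  change ∫ x, (f x - m) ^ 2 ∂(gibbs V) - (∫ x, (f x - m) ∂(gibbs V)) ^ 2 ≤ _ at key
  rw [e] at key
  simpa using key

theorem lipR_inner {w : E d} (hw : ‖w‖ ≤ 1) : LipR 1 fun x : E d => (inner ℝ w x : ℝ) := by
  intro a b
  rw [← inner_sub_right]
  exact (abs_real_inner_le_norm _ _).trans (mul_le_mul_of_nonneg_right hw (norm_nonneg _))

theorem lipR_norm : LipR 1 fun x : E d => ‖x‖ := fun x y => by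
  simpa using abs_norm_sub_norm_le x y

theorem gibbs_sq_lower {V : E d → ℝ} (h : Pot 1 2 V) : (d : ℝ) ≤ 2 * ∫ x, ‖x‖ ^ 2 ∂(gibbs V) := by
  have := h.isProb_gibbs one_pos
  set e := EuclideanSpace.basisFun (Fin d) ℝ
  have gc : Continuous (gradient V) := h.contDiff_grad.continuous
  have g1 : PG fun u : E d => ‖gradient V u‖ := LipV.pg (L := 2) h.lip
  have l1 : ∀ i, LipR 1 fun u : E d => (inner ℝ (e i) u : ℝ) := fun i =>
    lipR_inner (e.norm_eq_one i).le
  have g2 : ∀ i, PG fun u : E d => (inner ℝ (e i) (gradient V u) : ℝ) := fun i =>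
    ((PG.const ‖e i‖).mul g1).of_le fun u => (abs_real_inner_le_norm _ _).trans (le_abs_self _)
  have a1 : ∀ i, ∫ u, inner ℝ (e i) u * inner ℝ (e i) (gradient V u) ∂(gibbs V) = 1 := by
    intro i
    rw [← h.gibbs_ibp one_pos (l1 i).pg (PG.const 1) (f' := fun _ => 1) (l1 i).continuous
      continuous_const (e i) fun u => by
        have := (innerSL ℝ (e i)).hasFDerivAt.hasLineDerivAt (x := u) (e i)
        rw [innerSL_apply_apply, real_inner_self_eq_norm_sq, e.norm_eq_one, one_pow] at this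
        exact this]
    simp
  have i1 : ∀ i, Integrable (fun u => inner ℝ (e i) u * inner ℝ (e i) (gradient V u)) (gibbs V) :=
    fun i => h.integrable_gibbs_pg one_pos ((l1 i).pg.mul (g2 i)) (by fun_prop)
  have a2 : ∫ u, ∑ i, inner ℝ (e i) u * inner ℝ (e i) (gradient V u) ∂(gibbs V) = d := by
    rw [integral_finsetSum _ fun i _ => i1 i, Finset.sum_congr rfl fun i _ => a1 i]
    simp
  rw [← a2, ← integral_const_mul]
  refine integral_mono (integrable_finsetSum _ fun i _ => i1 i)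
    ((h.integrable_gibbs_pg one_pos (PG.norm.pow 2) (by fun_prop)).const_mul 2) fun u => ?_
  have b1 := e.sum_inner_mul_inner u (gradient V u)
  simp_rw [real_inner_comm _ u] at b1
  have b2 := h.norm_grad_le u
  have b3 := real_inner_le_norm (gradient V u) u
  dsimp only
  rw [b1]
  nlinarith [norm_nonneg u]

theorem gibbs_norm_mean {V : E d → ℝ} (h : Pot 1 2 V) (hd : 100 ≤ d) :
    3 / 5 * √d ≤ ∫ x, ‖x‖ ∂(gibbs V) ∧ ∫ x, ‖x‖ ∂(gibbs V) ≤ √d := by
  have := h.isProb_gibbs one_pos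
  have hd0 : (100 : ℝ) ≤ d := by exact_mod_cast hd
  have h0 : 0 ≤ ∫ x, ‖x‖ ∂(gibbs V) := integral_nonneg fun _ => norm_nonneg _
  have h1 := gibbs_sq_lower h
  have h2 := gibbs_sq_moment h
  have h3 := poincare_lip h.smooth.continuous one_pos h.mid (h.integrable_gibbs one_pos)
    zero_le_one lipR_norm
  change ∫ x, ‖x‖ ^ 2 ∂(gibbs V) - (∫ x, ‖x‖ ∂(gibbs V)) ^ 2 ≤ _ at h3
  have h4 := sq_integral_le (lipR_integrable_gibbs h lipR_norm)
    (h.integrable_gibbs_pg one_pos (PG.norm.pow 2) (by fun_prop))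
  have h5 : √(d : ℝ) ^ 2 = d := Real.sq_sqrt (by linarith)
  constructor
  · refine abs_le_of_sq_le_sq' ?_ h0 |>.2
    rw [mul_pow, h5]; linarith
  · refine abs_le_of_sq_le_sq' ?_ (Real.sqrt_nonneg _) |>.2
    rw [h5]; linarith

/-- orthonormality of the first `L + 1` directions -/
def OrthoU (u : ℕ → E d) (L : ℕ) : Prop :=
  ∀ i, i ≤ L → ∀ j, j ≤ L → inner ℝ (u i) (u j) = if i = j then (1 : ℝ) else 0

variable {C τ η : ℝ} {χ χ1 χ2 φ φ1 φ2 : ℝ → ℝ} {u : ℕ → E d} {L : ℕ}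

theorem OrthoU.norm_le (hu : OrthoU u L) {j : ℕ} (hj : j ≤ L) : ‖u j‖ ≤ 1 := by
  have := hu j hj j hj
  rw [if_pos rfl, real_inner_self_eq_norm_sq] at this
  nlinarith [norm_nonneg (u j)]

theorem OrthoU.bes (hu : OrthoU u L) {k : ℕ} (hk : k ≤ L) : Bes u k := by
  refine ⟨hu.norm_le (Nat.zero_le _), fun v => ?_⟩
  have ho : Orthonormal ℝ fun i : Fin (L + 1) => u i := by
    rw [orthonormal_iff_ite]
    intro i j
    rw [hu i (Nat.lt_succ_iff.1 i.2) j (Nat.lt_succ_iff.1 j.2)]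
    simp [Fin.ext_iff]
  have hb := ho.sum_inner_products_le (s := Finset.univ) v
  simp only [Real.norm_eq_abs, sq_abs] at hb
  rw [Fin.sum_univ_eq_sum_range (fun i => (inner ℝ (u i) v : ℝ) ^ 2)] at hb
  have h1 : ∑ j ∈ Finset.range k, (inner ℝ (u j) v : ℝ) ^ 2 ≤ ‖v‖ ^ 2 :=
    le_trans (Finset.sum_le_sum_of_subset_of_nonneg (Finset.range_mono (by omega))
      fun _ _ _ => sq_nonneg _) hb
  have h2 : ∑ j ∈ Finset.range k, (inner ℝ (u (j + 1)) v : ℝ) ^ 2 ≤ ‖v‖ ^ 2 := by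
    have h3 : ∑ j ∈ Finset.range (k + 1), (inner ℝ (u j) v : ℝ) ^ 2 ≤ ‖v‖ ^ 2 :=
      le_trans (Finset.sum_le_sum_of_subset_of_nonneg (Finset.range_mono (by omega))
        fun _ _ _ => sq_nonneg _) hb
    rw [Finset.sum_range_succ'] at h3
    nlinarith [sq_nonneg (inner ℝ (u 0) v : ℝ)]
  calc _ ≤ ∑ j ∈ Finset.range k, (2 * (inner ℝ (u j) v : ℝ) ^ 2
        + 2 * (inner ℝ (u (j + 1)) v : ℝ) ^ 2) := by
        refine Finset.sum_le_sum fun j _ => ?_
        rw [inner_sub_left]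
        nlinarith [sq_nonneg ((inner ℝ (u j) v : ℝ) + inner ℝ (u (j + 1)) v)]
    _ ≤ _ := by rw [Finset.sum_add_distrib, ← Finset.mul_sum, ← Finset.mul_sum]; linarith

theorem OrthoU.sum_link (hu : OrthoU u L) (ψ : ℕ → ℝ) {j : ℕ} (hj : j ≤ L) :
    ∑ i ∈ Finset.range L, ψ i * inner ℝ (u i - u (i + 1)) (u j) =
      (if j < L then ψ j else 0) - if 1 ≤ j then ψ (j - 1) else 0 := by
  have e : ∀ i ∈ Finset.range L, ψ i * inner ℝ (u i - u (i + 1)) (u j) =
      (if i = j then ψ i else 0) - if i = j - 1 then (if 1 ≤ j then ψ i else 0) else 0 := by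
    intro i hi
    rw [Finset.mem_range] at hi
    rw [inner_sub_left, hu i (by omega) j hj, hu (i + 1) (by omega) j hj]
    split_ifs <;> first | omega | ring
  rw [Finset.sum_congr rfl e, Finset.sum_sub_distrib, Finset.sum_ite_eq', Finset.sum_ite_eq']
  simp only [Finset.mem_range]
  split_ifs <;> first | omega | rfl

/-- the linear chain operator -/
noncomputable def lin (s : ℝ) (L : ℕ) (a : ℕ → ℝ) (j : ℕ) : ℝ :=
  -(if j = 0 then s else 0) +
    ((if j < L then a j - a (j + 1) else 0) - if 1 ≤ j then a (j - 1) - a j else 0)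

theorem Fk1_sub_lin (hφ : LinkP C τ φ φ1 φ2) (hu : OrthoU u L) (hCτ : 0 ≤ C * τ) {j : ℕ}
    (hj : j ≤ L) (x : E d) :
    |Fk1 φ1 u L x (u j) - lin (√d) L (fun i => inner ℝ (u i) x) j| ≤ 2 * (C * τ) := by
  rw [Fk1, hu.sum_link _ hj, hu 0 (Nat.zero_le _) j hj, lin]
  have h1 := hφ.b1' (inner ℝ (u j - u (j + 1)) x)
  have h2 := hφ.b1' (inner ℝ (u (j - 1) - u (j - 1 + 1)) x)
  rw [abs_le] at h1 h2 ⊢
  simp only [inner_sub_left] at h1 h2 ⊢
  rcases Nat.eq_zero_or_pos j with rfl | hj0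
  · split_ifs <;> first | omega | constructor <;> linarith [h1.1, h1.2]
  · rw [show j - 1 + 1 = j by omega] at h2 ⊢
    split_ifs <;> first | omega | constructor <;> linarith [h1.1, h1.2, h2.1, h2.2]

theorem Vk1_sub_lin (hd : 100 ≤ d) (hχ : CutP C χ χ1 χ2) (hφ : LinkP C τ φ φ1 φ2) (hC : 1 ≤ C)
    (hτ : 0 ≤ τ) (hu : OrthoU u L) {j : ℕ} (hj : j ≤ L) {m : ℝ} (hm1 : 3 / 5 * √d ≤ m)
    (hm2 : m ≤ √d) (x : E d) :
    |χ1 (‖x‖ ^ 2 / d) * (2 * inner ℝ x (u j) / d) * Fk φ u L x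
      + χ (‖x‖ ^ 2 / d) * Fk1 φ1 u L x (u j) - lin (√d) L (fun i => inner ℝ (u i) x) j|
      ≤ 2 * (C * τ) + 600 * C * (‖x‖ - m) ^ 2 := by
  have h0 := Fk1_sub_lin hφ hu (by positivity) hj x
  have hd0 : (100 : ℝ) ≤ d := by exact_mod_cast hd
  obtain ⟨s, hs1⟩ : ∃ s, s = √(d : ℝ) := ⟨_, rfl⟩
  have hds : (d : ℝ) = s ^ 2 := by rw [hs1, Real.sq_sqrt (by linarith)]
  have hs0 : 0 ≤ s := hs1 ▸ Real.sqrt_nonneg _
  have hs : 10 ≤ s := by nlinarith
  by_cases hN : 1 / 4 < ‖x‖ ^ 2 / d ∧ ‖x‖ ^ 2 / d < 2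
  · obtain ⟨e0, e1⟩ := hχ.mid _ hN.1 hN.2
    rw [e0, e1, zero_mul, zero_mul, zero_add, one_mul]
    exact h0.trans (le_add_of_nonneg_right (by positivity))
  have hD : s / 10 ≤ |‖x‖ - m| := by
    rw [← hs1] at hm1 hm2
    rw [not_and_or, not_lt, not_lt, div_le_iff₀ (by linarith), le_div_iff₀ (by linarith),
      hds] at hN
    rcases hN with h | h
    · have : ‖x‖ ≤ s / 2 := abs_le_of_sq_le_sq' (by linarith) (by linarith) |>.2
      rw [abs_sub_comm]; exact le_trans (by linarith) (le_abs_self _)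
    · have : 7 / 5 * s ≤ ‖x‖ := abs_le_of_sq_le_sq' (by nlinarith) (norm_nonneg _) |>.2
      exact le_trans (by linarith) (le_abs_self _)
  have hu1 := hu.norm_le hj
  have t1 : |χ1 (‖x‖ ^ 2 / d) * (2 * inner ℝ x (u j) / d) * Fk φ u L x| ≤ 40 * C * s := by
    rcases le_or_gt 3 (‖x‖ ^ 2 / d) with h | h
    · rw [(hχ.hi _ h).2.1, zero_mul, zero_mul, abs_zero]; positivity
    have hx := norm_le_of_lt (by omega) h
    have f0 := abs_Fk_le hφ (hu.bes le_rfl) x
    rw [← hs1] at hx f0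
    have f0' : |Fk φ u L x| ≤ 10 * s ^ 2 := f0.trans (by nlinarith [norm_nonneg x])
    have f3 : |2 * inner ℝ x (u j) / (d : ℝ)| ≤ 4 / s := by
      rw [abs_div, abs_of_pos (by linarith : (0 : ℝ) < d), abs_mul, abs_two, hds,
        div_le_div_iff₀ (by positivity) (by linarith)]
      have h1 := abs_real_inner_le_norm x (u j)
      have h2 : ‖x‖ * ‖u j‖ ≤ 2 * s * 1 := by gcongr
      nlinarith
    rw [abs_mul, abs_mul]
    calc _ ≤ C * (4 / s) * (10 * s ^ 2) := by gcongr; exact hχ.b1 _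
      _ = _ := by field_simp; ring
  have t2 : |(χ (‖x‖ ^ 2 / d) - 1) * Fk1 φ1 u L x (u j)| ≤ 2 * (s + 4 * C * ‖x‖) := by
    rw [abs_mul]
    have f1 := abs_Fk1_le hφ (by linarith) (hu.bes le_rfl) x (u j)
    rw [← hs1] at f1
    have f2 : s * ‖u j‖ + 4 * C * (‖x‖ * ‖u j‖) ≤ s * 1 + 4 * C * (‖x‖ * 1) := by gcongr
    refine mul_le_mul ((abs_sub _ _).trans ?_) (by linarith) (abs_nonneg _) (by norm_num)
    rw [abs_one]; linarith [hχ.b0 (‖x‖ ^ 2 / d)]
  have t3 : ‖x‖ ≤ s + |‖x‖ - m| := by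
    rw [← hs1] at hm2
    linarith [le_abs_self (‖x‖ - m)]
  have t4 : 40 * C * s + 2 * (s + 4 * C * ‖x‖) ≤ 600 * C * (‖x‖ - m) ^ 2 := by
    rw [← sq_abs (‖x‖ - m)]
    generalize |‖x‖ - m| = D at hD t3 ⊢
    have a1 : C * ‖x‖ ≤ C * (s + D) := by gcongr
    have a2 : 1 * s ≤ C * s := by gcongr
    have a3 : C * s ≤ C * (10 * D) := by gcongr; linarith
    have a4 : C * D ≤ C * D ^ 2 := by gcongr; nlinarith
    have a5 : 0 ≤ C * D := mul_nonneg (by linarith) (by linarith)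
    linarith
  rw [abs_le] at h0 t1 t2 ⊢
  constructor <;> linarith [h0.1, h0.2, t1.1, t1.2, t2.1, t2.2]

theorem lin_lower {η s err : ℝ} (hη : 0 < η) (hη1 : η ≤ 1 / 4) (hs : 0 ≤ s) (he : 0 ≤ err)
    {L : ℕ} {μ : ℕ → ℝ} (h : ∀ j, j ≤ L → -(η * err) ≤ 3 / 2 * μ j + η * lin s L μ j) :
    ∀ j, j ≤ L → (η / 2) ^ (j + 1) * s - err ≤ μ j := by
  have hmin : ∀ j, j ≤ L → 0 ≤ μ j + err := by
    obtain ⟨j0, hj0, hm⟩ := Finset.exists_min_image (Finset.range (L + 1)) μ ⟨0, by simp⟩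
    rw [Finset.mem_range] at hj0
    have h1 : lin s L μ j0 ≤ 0 := by
      have a1 : j0 < L → μ j0 ≤ μ (j0 + 1) := fun hh => hm _ (Finset.mem_range.2 (by omega))
      have a2 : μ j0 ≤ μ (j0 - 1) := hm _ (Finset.mem_range.2 (by omega))
      rw [lin]
      split_ifs <;> first | omega | linarith | linarith [a1 ‹_›]
    have h2 := h j0 (by omega)
    intro j hj
    have h3 := hm j (Finset.mem_range.2 (by omega))
    nlinarith
  have step : ∀ j, j ≤ L → ∀ p : ℝ, p - err ≤ (if j = 0 then s else μ (j - 1)) →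
      η / 2 * p - err ≤ μ j := by
    intro j hj p hp
    have h1 : lin s L μ j ≤ 2 * (μ j + err) - if j = 0 then s else μ (j - 1) := by
      have a0 := hmin j hj
      have a1 : j < L → 0 ≤ μ (j + 1) + err := fun hh => hmin _ hh
      rw [lin]
      split_ifs <;> first | omega | linarith | linarith [a1 ‹_›]
    have h2 := h j hj
    have h3 := mul_le_mul_of_nonneg_left h1 hη.le
    have h4 := mul_le_mul_of_nonneg_left hp hη.le
    have h5 := mul_le_mul_of_nonneg_right hη1 (hmin j hj)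
    have h6 := mul_le_mul_of_nonneg_right hη1 he
    linarith
  intro j
  induction j with
  | zero => exact fun hj => by simpa using step 0 hj s (by simpa using he)
  | succ j ih =>
    intro hj
    have := step (j + 1) hj ((η / 2) ^ (j + 1) * s) (by simpa using ih (by omega))
    rw [pow_succ' _ (j + 1), mul_assoc]
    exact this

theorem gibbs_last_pos (hd : 100 ≤ d) (hχ : CutP C χ χ1 χ2) (hφ : LinkP C τ φ φ1 φ2) (hC : 1 ≤ C)
    (hτ : 0 ≤ τ) (hu : OrthoU u L) (hη0 : 0 < η) (hη : η * (600 * C ^ 2) ≤ 1)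
    (hL : 4 + (2 * (C * τ) + 600 * C) ≤ (η / 2) ^ (L + 1) * √d) :
    15 / 16 ≤ (gibbs (Vk η χ φ u L)).real {x | 0 < (inner ℝ (u L) x : ℝ)} := by
  have hV := (admissible_Vk (by omega) hχ hφ hC (hu.bes le_rfl) hη0.le hη).pot
  set V := Vk η χ φ u L with hVdef
  have := hV.isProb_gibbs one_pos
  obtain ⟨hm1, hm2⟩ := gibbs_norm_mean hV hd
  obtain ⟨iv, hv⟩ := gibbs_var hV lipR_norm
  set m := ∫ x, ‖x‖ ∂(gibbs V)
  let μ : ℕ → ℝ := fun j => ∫ x, inner ℝ (u j) x ∂(gibbs V)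
  have ia : ∀ j, Integrable (fun x => (inner ℝ (u j) x : ℝ)) (gibbs V) := fun j =>
    lipR_integrable_gibbs hV (L := ‖u j‖) fun a b => by
      rw [← inner_sub_right]; exact abs_real_inner_le_norm _ _
  have hη1 : η ≤ 1 / 4 := by nlinarith
  have key : ∀ j, j ≤ L →
      -(η * (2 * (C * τ) + 600 * C)) ≤ 3 / 2 * μ j + η * lin (√d) L μ j := by
    intro j hj
    have g0 := hV.gibbs_ibp one_pos (PG.const 1) (PG.const 0) (f := fun _ => 1) (f' := fun _ => 0)
      continuous_const continuous_const (u j) fun x => (hasFDerivAt_const (1 : ℝ) x).hasLineDerivAt _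
    simp only [integral_zero, one_mul] at g0
    have ig : Integrable (fun x => (inner ℝ (u j) (gradient V x) : ℝ)) (gibbs V) :=
      lipR_integrable_gibbs hV (L := ‖u j‖ * 2) fun a b => by
        rw [← inner_sub_right, mul_assoc]
        exact (abs_real_inner_le_norm _ _).trans
          (mul_le_mul_of_nonneg_left (hV.lip a b) (norm_nonneg _))
    have il : Integrable (fun x => lin (√d) L (fun i => (inner ℝ (u i) x : ℝ)) j) (gibbs V) ∧
        ∫ x, lin (√d) L (fun i => (inner ℝ (u i) x : ℝ)) j ∂(gibbs V) = lin (√d) L μ j := by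
      have i1 : ∀ (p : Prop) [Decidable p] (a b : ℕ), Integrable (fun x =>
          if p then (inner ℝ (u a) x : ℝ) - inner ℝ (u b) x else 0) (gibbs V) ∧
          ∫ x, (if p then (inner ℝ (u a) x : ℝ) - inner ℝ (u b) x else 0) ∂(gibbs V) =
            if p then μ a - μ b else 0 := by
        intro p _ a b
        split_ifs
        · exact ⟨(ia a).sub (ia b), integral_sub (ia a) (ia b)⟩
        · simp
      have i2 : Integrable (fun x =>
          (if j < L then (inner ℝ (u j) x : ℝ) - inner ℝ (u (j + 1)) x else 0) -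
            if 1 ≤ j then (inner ℝ (u (j - 1)) x : ℝ) - inner ℝ (u j) x else 0) (gibbs V) :=
        (i1 (j < L) j (j + 1)).1.sub (i1 (1 ≤ j) (j - 1) j).1
      refine ⟨(integrable_const _).add i2, ?_⟩
      simp only [lin]
      rw [integral_add (integrable_const _) i2,
        integral_sub (i1 (j < L) j (j + 1)).1 (i1 (1 ≤ j) (j - 1) j).1, (i1 _ _ _).2, (i1 _ _ _).2]
      simp
    have hle : ∀ x, inner ℝ (u j) (gradient V x) ≤ 3 / 2 * inner ℝ (u j) x
        + η * lin (√d) L (fun i => (inner ℝ (u i) x : ℝ)) j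
        + η * (2 * (C * τ) + 600 * C * (‖x‖ - m) ^ 2) := by
      intro x
      have h1 := (abs_le.1 (Vk1_sub_lin hd hχ hφ hC hτ hu hj hm1 hm2 x)).2
      rw [hVdef, inner_grad_Vk hχ hφ, Vk1, real_inner_comm x (u j)]
      nlinarith
    have i3 : Integrable (fun x => η * (2 * (C * τ) + 600 * C * (‖x‖ - m) ^ 2)) (gibbs V) :=
      ((integrable_const (2 * (C * τ))).add (iv.const_mul (600 * C))).const_mul η
    have i4 : Integrable (fun x => 3 / 2 * inner ℝ (u j) x
        + η * lin (√d) L (fun i => (inner ℝ (u i) x : ℝ)) j) (gibbs V) :=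
      ((ia j).const_mul (3 / 2)).add (il.1.const_mul η)
    have h2 := integral_mono ig (i4.add i3) hle
    simp only [Pi.add_apply] at h2
    rw [← g0, integral_add i4 i3, integral_add ((ia j).const_mul _) (il.1.const_mul η),
      integral_const_mul, integral_const_mul, integral_const_mul, il.2,
      integral_add (integrable_const _) (iv.const_mul _), integral_const_mul (600 * C)] at h2
    simp only [integral_const, probReal_univ, one_smul] at h2
    have h3 : η * (600 * C * ∫ x, (‖x‖ - m) ^ 2 ∂(gibbs V)) ≤ η * (600 * C * 1) := by gcongr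
    change 0 ≤ 3 / 2 * μ j + _ + _ at h2
    linarith
  have hμ : 4 ≤ μ L := by
    have := lin_lower hη0 hη1 (Real.sqrt_nonneg _) (by positivity) key L le_rfl
    linarith
  obtain ⟨iw, hw⟩ := gibbs_var hV (lipR_inner (hu.norm_le le_rfl))
  have ms : MeasurableSet {x : E d | 0 < (inner ℝ (u L) x : ℝ)} :=
    measurableSet_lt measurable_const (innerSL ℝ (u L)).continuous.measurable
  rw [← integral_indicator_one ms]
  have h5 := integral_mono ((integrable_const (1 : ℝ)).sub (iw.div_const 16))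
    ((integrable_const (1 : ℝ)).indicator ms) fun x => by
      by_cases hx : x ∈ {x : E d | 0 < (inner ℝ (u L) x : ℝ)}
      · simp only [Pi.sub_apply, Set.indicator_of_mem hx]
        have : 0 ≤ (inner ℝ (u L) x - μ L) ^ 2 / 16 := by positivity
        linarith
      · simp only [Pi.sub_apply, Set.indicator_of_notMem hx]
        have h6 : (inner ℝ (u L) x : ℝ) ≤ 0 := not_lt.1 hx
        have : 16 ≤ (inner ℝ (u L) x - μ L) ^ 2 := by nlinarith
        linarith
  simp only [Pi.sub_apply] at h5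
  rw [integral_sub (integrable_const _) (iw.div_const 16), integral_div] at h5
  simp only [integral_const, probReal_univ, one_smul] at h5
  refine le_trans ?_ h5
  linarith

end Vale.Agent.P347
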