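import Vale.Agent.P347.LB2
import Vale.Agent.P347.ToAlg
import Vale.Agent.P347.Stmt

/-! Lower bound, part 3: random signs and the hybrid argument. -/

open MeasureTheory

namespace Vale.Agent.P347

variable {d : ℕ}

/-- sign of a Boolean -/
def sg (b : Bool) : ℝ := if b then 1 else -1

theorem sg_not (b : Bool) : sg (!b) = -sg b := by cases b <;> simp [sg]
theorem sg_mul_self (b : Bool) : sg b * sg b = 1 := by cases b <;> simp [sg]

/-- size of a block -/
def cnt (blk : Fin d → ℕ) (j : ℕ) : ℕ := (Finset.univ.filter fun i => blk i = j).card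

/-- normalised sign vector on block `j` -/
noncomputable def sv (blk : Fin d → ℕ) (s : Fin d → Bool) (j : ℕ) : E d :=
  WithLp.toLp 2 fun i => if blk i = j then sg (s i) / √(cnt blk j) else 0

/-- flip the signs on a set -/
def flipS (p : Fin d → Prop) [DecidablePred p] (s : Fin d → Bool) : Fin d → Bool :=
  fun i => if p i then !s i else s i

theorem sum_flipS (p : Fin d → Prop) [DecidablePred p] (g : (Fin d → Bool) → ℝ) :
    ∑ s, g (flipS p s) = ∑ s, g s := by
  have h : Function.Involutive (flipS p) := fun s => by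
    funext i; simp only [flipS]; split_ifs <;> simp
  exact Equiv.sum_comp h.toPerm g

variable {blk : Fin d → ℕ}

theorem inner_sv (s : Fin d → Bool) (j : ℕ) (x : E d) :
    inner ℝ (sv blk s j) x =
      (∑ i ∈ Finset.univ.filter fun i => blk i = j, sg (s i) * x i) / √(cnt blk j) := by
  rw [Finset.sum_filter, Finset.sum_div, PiLp.inner_apply]
  refine Finset.sum_congr rfl fun i _ => ?_
  simp only [sv, RCLike.inner_apply, conj_trivial]
  split_ifs <;> ring

theorem orthoU_sv {L : ℕ} (h : ∀ j, j ≤ L → 0 < cnt blk j) (s : Fin d → Bool) :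
    OrthoU (sv blk s) L := by
  intro i hi j _
  rw [inner_sv]
  have hc : (0 : ℝ) < cnt blk i := by exact_mod_cast h i hi
  split_ifs with hij
  · subst hij
    rw [Finset.sum_congr rfl (g := fun _ => 1 / √(cnt blk i)) fun k hk => by
      rw [Finset.mem_filter] at hk
      simp only [sv, hk.2, if_true]
      rw [← mul_div_assoc, sg_mul_self]]
    rw [Finset.sum_const, nsmul_eq_mul]
    change (cnt blk i : ℝ) * _ / _ = _
    have := Real.mul_self_sqrt hc.le
    have h2 : 0 < √(cnt blk i : ℝ) := Real.sqrt_pos.2 hc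
    field_simp
    linarith
  · rw [Finset.sum_eq_zero, zero_div]
    intro k hk
    rw [Finset.mem_filter] at hk
    simp only [sv, hk.2, hij, if_false, mul_zero]

theorem sv_congr {s s' : Fin d → Bool} {j : ℕ} (h : ∀ i, blk i = j → s i = s' i) :
    sv blk s j = sv blk s' j := by
  unfold sv
  congr 1
  funext i
  split_ifs with hi
  · rw [h i hi]
  · rfl

theorem sum_inner_sq_le {j : ℕ} (hc : 0 < cnt blk j) {x : (Fin d → Bool) → E d} {R : ℝ}
    (hx : ∀ s s', (∀ i, blk i ≠ j → s i = s' i) → x s = x s') (hR : ∀ s, ‖x s‖ ^ 2 ≤ R) :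
    ∑ s, (inner ℝ (sv blk s j) (x s) : ℝ) ^ 2 ≤ ∑ _ : Fin d → Bool, R / cnt blk j := by
  have hc' : (0 : ℝ) < cnt blk j := by exact_mod_cast hc
  simp only [inner_sv, div_pow, Real.sq_sqrt hc'.le]
  rw [← Finset.sum_div, ← Finset.sum_div]
  refine div_le_div_of_nonneg_right ?_ hc'.le
  set B := Finset.univ.filter fun i => blk i = j with hB
  have e1 : ∀ s, (∑ i ∈ B, sg (s i) * x s i) ^ 2 =
      ∑ i ∈ B, ∑ i' ∈ B, sg (s i) * x s i * (sg (s i') * x s i') := fun s => by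
    rw [sq, Finset.sum_mul_sum]
  simp only [e1]
  rw [Finset.sum_comm]
  have e2 : ∀ i ∈ B, ∑ s, ∑ i' ∈ B, sg (s i) * x s i * (sg (s i') * x s i') = ∑ s, x s i ^ 2 := by
    intro i hi
    rw [Finset.sum_comm, Finset.sum_eq_single i]
    · refine Finset.sum_congr rfl fun s _ => ?_
      linear_combination (x s i ^ 2) * sg_mul_self (s i)
    · intro i' _ hne
      have h1 := sum_flipS (fun k => k = i) fun s => sg (s i) * x s i * (sg (s i') * x s i')
      have h2 : ∀ s, x (flipS (fun k => k = i) s) = x s := fun s => hx _ _ fun k hk => by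
        have : k ≠ i := fun h => hk (h ▸ (Finset.mem_filter.1 hi).2)
        simp [flipS, this]
      simp only [h2, flipS, if_true, hne, if_false, sg_not, neg_mul, Finset.sum_neg_distrib] at h1
      linarith
    · exact fun h => absurd hi h
  rw [Finset.sum_congr rfl e2, Finset.sum_comm]
  refine Finset.sum_le_sum fun s _ => le_trans ?_ (hR s)
  rw [EuclideanSpace.norm_sq_eq]
  simp only [Real.norm_eq_abs, sq_abs]
  exact Finset.sum_le_sum_of_subset_of_nonneg (Finset.subset_univ _) fun _ _ _ => sq_nonneg _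

theorem sum_bad_le {j : ℕ} (hc : 0 < cnt blk j) {x : (Fin d → Bool) → E d} {R t : ℝ} (hR : 0 ≤ R)
    (ht : 0 < t) (hx : ∀ s s', (∀ i, blk i ≠ j → s i = s' i) → x s = x s') :
    ∑ s, (if ‖x s‖ ^ 2 ≤ R ∧ t ≤ |(inner ℝ (sv blk s j) (x s) : ℝ)| then (1 : ℝ) else 0) ≤
      ∑ _ : Fin d → Bool, R / cnt blk j / t ^ 2 := by
  have key := sum_inner_sq_le hc (x := fun s => if ‖x s‖ ^ 2 ≤ R then x s else 0) (R := R)
    (fun s s' h => by simp only [hx s s' h]) (fun s => by split_ifs with h <;> simp [h, hR])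
  rw [← Finset.sum_div]
  refine le_trans ?_ (div_le_div_of_nonneg_right key (by positivity))
  rw [Finset.sum_div]
  refine Finset.sum_le_sum fun s _ => ?_
  split_ifs with h1 h2
  · rw [le_div_iff₀ (by positivity), one_mul, ← sq_abs (inner ℝ _ _ : ℝ)]
    exact pow_le_pow_left₀ ht.le h1.2 2
  · exact absurd h1.1 h2
  all_goals positivity

theorem sum_pos_le (j : ℕ) {x : (Fin d → Bool) → E d}
    (hx : ∀ s s', (∀ i, blk i ≠ j → s i = s' i) → x s = x s') :
    ∑ s, (if 0 < (inner ℝ (sv blk s j) (x s) : ℝ) then (1 : ℝ) else 0) ≤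
      ∑ _ : Fin d → Bool, (1 / 2 : ℝ) := by
  have h1 := sum_flipS (fun k => blk k = j) fun s =>
    if 0 < (inner ℝ (sv blk s j) (x s) : ℝ) then (1 : ℝ) else 0
  have h2 : ∀ s, (inner ℝ (sv blk (flipS (fun k => blk k = j) s) j)
      (x (flipS (fun k => blk k = j) s)) : ℝ) = -inner ℝ (sv blk s j) (x s) := by
    intro s
    rw [hx _ s fun k hk => by simp [flipS, hk], inner_sv, inner_sv, ← neg_div,
      ← Finset.sum_neg_distrib]
    congr 1
    refine Finset.sum_congr rfl fun k hk => ?_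
    simp only [flipS, (Finset.mem_filter.1 hk).2, if_true, sg_not, neg_mul]
  simp only [h2] at h1
  have h3 : ∑ s, ((if 0 < -(inner ℝ (sv blk s j) (x s) : ℝ) then (1 : ℝ) else 0) +
      if 0 < (inner ℝ (sv blk s j) (x s) : ℝ) then (1 : ℝ) else 0) ≤
      ∑ _ : Fin d → Bool, (1 / 2 + 1 / 2 : ℝ) := by
    refine Finset.sum_le_sum fun s _ => ?_
    split_ifs <;> linarith
  rw [Finset.sum_add_distrib, Finset.sum_add_distrib] at h3
  linarith

variable {C τ η : ℝ} {χ χ1 χ2 φ φ1 φ2 : ℝ → ℝ}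

theorem Vk_congr {u u' : ℕ → E d} {k : ℕ} (h : ∀ j, j ≤ k → u j = u' j) :
    Vk η χ φ u k = Vk η χ φ u' k := by
  funext x
  simp only [Vk, Fk]
  rw [h 0 (Nat.zero_le _), Finset.sum_congr rfl fun j hj => by
    rw [h j (by have := Finset.mem_range.1 hj; omega),
      h (j + 1) (by have := Finset.mem_range.1 hj; omega)]]

theorem Vk_local (hd : 0 < d) (hχ : CutP C χ χ1 χ2) (hφ : LinkP C τ φ φ1 φ2) {u : ℕ → E d}
    {k L : ℕ} (hk : k ≤ L) {x : E d}
    (hx : ∀ j, k ≤ j → j ≤ L → ¬(‖x‖ ^ 2 ≤ 3 * d ∧ τ / 2 ≤ |(inner ℝ (u j) x : ℝ)|)) :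
    Vk η χ φ u L =ᶠ[nhds x] Vk η χ φ u k := by
  have hd0 : (0 : ℝ) < d := by exact_mod_cast hd
  rcases lt_or_ge (3 * (d : ℝ)) (‖x‖ ^ 2) with h | h
  · have : ∀ᶠ y in nhds x, 3 * (d : ℝ) < ‖y‖ ^ 2 :=
      (continuous_norm.pow 2).continuousAt.eventually (lt_mem_nhds h)
    filter_upwards [this] with y hy
    have := (hχ.hi (‖y‖ ^ 2 / d) (by rw [le_div_iff₀ hd0]; exact hy.le)).1
    simp only [Vk, this, zero_mul]
  · have h1 : ∀ᶠ y in nhds x, ∀ j ∈ Finset.Icc k L, |(inner ℝ (u j) y : ℝ)| < τ / 2 := by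
      rw [Filter.eventually_all_finset]
      intro j hj
      rw [Finset.mem_Icc] at hj
      have h2 : |(inner ℝ (u j) x : ℝ)| < τ / 2 := by
        by_contra h3
        exact hx j hj.1 hj.2 ⟨h, not_lt.1 h3⟩
      exact (innerSL ℝ (u j)).continuous.abs.continuousAt.eventually (gt_mem_nhds h2)
    filter_upwards [h1] with y hy
    simp only [Vk, Fk]
    rw [← Finset.sum_range_add_sum_Ico _ hk, Finset.sum_eq_zero (s := Finset.Ico k L), add_zero]
    intro j hj
    rw [Finset.mem_Ico] at hj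
    refine hφ.zero _ ?_
    rw [inner_sub_left]
    have a1 := hy j (Finset.mem_Icc.2 ⟨hj.1, hj.2.le⟩)
    have a2 := hy (j + 1) (Finset.mem_Icc.2 ⟨by omega, hj.2⟩)
    exact (abs_sub _ _).trans_lt (by linarith)

variable {Ω : Type} [MeasurableSpace Ω]

/-- the record when query `k` is answered by the potential `W k` -/
noncomputable def hrec (A : Stmt.Alg d Ω) (W : ℕ → E d → ℝ) (ω : Ω) : ℕ → ℕ → ℝ × E d
  | 0 => fun _ => (0, 0)
  | k + 1 => Function.update (hrec A W ω k) k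
      (W k (A.query k (ω, hrec A W ω k)), gradient (W k) (A.query k (ω, hrec A W ω k)))

theorem hrec_congr (A : Stmt.Alg d Ω) {W W' : ℕ → E d → ℝ} (ω : Ω) {k : ℕ}
    (h : ∀ i, i < k → W i = W' i) : hrec A W ω k = hrec A W' ω k := by
  induction k with
  | zero => rfl
  | succ k ih => simp only [hrec, ih fun i hi => h i (by omega), h k (by omega)]

theorem record_eq_hrec (A : Stmt.Alg d Ω) {V : E d → ℝ} {W : ℕ → E d → ℝ} (ω : Ω) {k : ℕ}
    (h : ∀ i, i < k → V =ᶠ[nhds (A.query i (ω, hrec A W ω i))] W i) :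
    A.record V ω k = hrec A W ω k := by
  induction k with
  | zero => rfl
  | succ k ih =>
    have h1 := h k (by omega)
    simp only [hrec, Stmt.Alg.record, ih fun i hi => h i (by omega), h1.eq_of_nhds,
      h1.gradient_eq]

theorem measurable_output (A : Stmt.Alg d Ω) {V : E d → ℝ} (hV : Pot 1 2 V) (q : ℕ) :
    Measurable fun ω => A.output (ω, A.record V ω q) := by
  have e : ∀ ω k, A.record V ω k = grec V A.query ω k := by
    intro ω k
    induction k with
    | zero => rfl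
    | succ k ih => simp only [Stmt.Alg.record, grec, ih]
  simp only [e]
  exact A.measurable_output.comp (measurable_id.prodMk (measurable_grec
    hV.smooth.continuous.measurable hV.contDiff_grad.continuous.measurable A.measurable_query q))

theorem sum_success_le (hd : 0 < d) (hχ : CutP C χ χ1 χ2) (hφ : LinkP C τ φ φ1 φ2) (hτ : 0 < τ)
    {L q n : ℕ} (hq : q ≤ L) (hn : 0 < n) (hc : ∀ j, j ≤ L → n ≤ cnt blk j)
    (A : Stmt.Alg d Ω) (ω : Ω) :
    ∑ s, (if 0 < (inner ℝ (sv blk s L)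
        (A.output (ω, A.record (Vk η χ φ (sv blk s) L) ω q)) : ℝ) then (1 : ℝ) else 0) ≤
      ∑ _ : Fin d → Bool, (1 / 2 + (L + 1) ^ 2 * (3 * d / n / (τ / 2) ^ 2) : ℝ) := by
  let W : (Fin d → Bool) → ℕ → E d → ℝ := fun s k => Vk η χ φ (sv blk s) k
  have hW : ∀ k j, k ≤ j → ∀ s s', (∀ i, blk i ≠ j → s i = s' i) →
      hrec A (W s) ω k = hrec A (W s') ω k := fun k j hkj s s' h =>
    hrec_congr A ω fun i hi => Vk_congr fun l hl => sv_congr fun a ha => h a (by omega)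
  let x : ℕ → (Fin d → Bool) → E d := fun k s => A.query k (ω, hrec A (W s) ω k)
  let bad : ℕ → ℕ → (Fin d → Bool) → ℝ := fun k j s =>
    if ‖x k s‖ ^ 2 ≤ 3 * d ∧ τ / 2 ≤ |(inner ℝ (sv blk s j) (x k s) : ℝ)| then 1 else 0
  have bad0 : ∀ k j s, 0 ≤ bad k j s := fun k j s => by simp only [bad]; split_ifs <;> norm_num
  have h1 : ∀ s, (if 0 < (inner ℝ (sv blk s L)
        (A.output (ω, A.record (Vk η χ φ (sv blk s) L) ω q)) : ℝ) then (1 : ℝ) else 0) ≤
      (if 0 < (inner ℝ (sv blk s L) (A.output (ω, hrec A (W s) ω q)) : ℝ) then (1 : ℝ) else 0)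
        + ∑ k ∈ Finset.range q, ∑ j ∈ Finset.Icc k L, bad k j s := by
    intro s
    by_cases hb : ∀ k, k < q → ∀ j, k ≤ j → j ≤ L →
        ¬(‖x k s‖ ^ 2 ≤ 3 * d ∧ τ / 2 ≤ |(inner ℝ (sv blk s j) (x k s) : ℝ)|)
    · rw [record_eq_hrec A ω (W := W s) fun k hk => Vk_local hd hχ hφ (by omega) (hb k hk)]
      exact le_add_of_nonneg_right
        (Finset.sum_nonneg fun k _ => Finset.sum_nonneg fun j _ => bad0 k j s)
    · push Not at hb
      obtain ⟨k, hk, j, hj1, hj2, hb⟩ := hb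
      have a1 : bad k j s ≤ ∑ j ∈ Finset.Icc k L, bad k j s :=
        Finset.single_le_sum (f := fun j => bad k j s) (fun j _ => bad0 k j s)
          (Finset.mem_Icc.2 ⟨hj1, hj2⟩)
      have a2 : ∑ j ∈ Finset.Icc k L, bad k j s ≤
          ∑ k ∈ Finset.range q, ∑ j ∈ Finset.Icc k L, bad k j s :=
        Finset.single_le_sum (f := fun k => ∑ j ∈ Finset.Icc k L, bad k j s)
          (fun k _ => Finset.sum_nonneg fun j _ => bad0 k j s) (Finset.mem_range.2 hk)
      have a3 : bad k j s = 1 := if_pos hb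
      split_ifs <;> linarith
  refine (Finset.sum_le_sum fun s _ => h1 s).trans ?_
  rw [Finset.sum_add_distrib, Finset.sum_add_distrib]
  refine add_le_add (sum_pos_le L fun s s' h => by rw [hW q L hq s s' h]) ?_
  rw [Finset.sum_comm, ← Finset.mul_sum]
  have h0 : 0 ≤ ∑ _ : Fin d → Bool, (3 * d / n / (τ / 2) ^ 2 : ℝ) :=
    Finset.sum_nonneg fun _ _ => by positivity
  have h2 : ∀ k ∈ Finset.range q, ∑ s, ∑ j ∈ Finset.Icc k L, bad k j s ≤
      (L + 1) * ∑ _ : Fin d → Bool, (3 * d / n / (τ / 2) ^ 2 : ℝ) := by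
    intro k _
    rw [Finset.sum_comm]
    refine (Finset.sum_le_card_nsmul _ _ (∑ _ : Fin d → Bool, (3 * d / n / (τ / 2) ^ 2 : ℝ))
      fun j hj => ?_).trans ?_
    · rw [Finset.mem_Icc] at hj
      have h3 := hc j hj.2
      refine (sum_bad_le (lt_of_lt_of_le hn h3) (by positivity) (by positivity)
        fun s s' h => by simp only [x, hW k j hj.1 s s' h]).trans
        (Finset.sum_le_sum fun _ _ => ?_)
      gcongr
    · rw [nsmul_eq_mul, Nat.card_Icc]
      gcongr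
      exact_mod_cast Nat.sub_le _ _
  refine (Finset.sum_le_card_nsmul _ _ _ h2).trans ?_
  rw [nsmul_eq_mul, Finset.card_range, ← mul_assoc, sq ((L : ℝ) + 1)]
  gcongr
  exact_mod_cast Nat.le_succ_of_le hq

theorem cnt_div {n L : ℕ} (hn : 0 < n) (h : (L + 1) * n ≤ d) {j : ℕ} (hj : j ≤ L) :
    n ≤ cnt (fun i : Fin d => i / n) j := by
  have hlt : ∀ a : Fin n, j * n + a < d := fun a => by
    have := a.2
    have := Nat.mul_le_mul_right n hj
    nlinarith
  calc n = (Finset.univ : Finset (Fin n)).card := by simp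
    _ ≤ _ := Finset.card_le_card_of_injOn (fun a => (⟨j * n + a, hlt a⟩ : Fin d))
      (fun a _ => by
        simp only [Finset.coe_filter, Finset.mem_univ, true_and, Set.mem_ofPred_eq]
        rw [add_comm, Nat.add_mul_div_right _ _ hn, Nat.div_eq_of_lt a.2, zero_add])
      (fun a _ b _ hab => by
        simp only [Fin.mk.injEq, add_right_inj] at hab
        exact Fin.ext hab)

theorem not_solves_of (hd : 100 ≤ d) (hχ : CutP C χ χ1 χ2) (hC : 1 ≤ C) {L q : ℕ}
    (hφ : LinkP C (10 * (L + 1) ^ 2) φ φ1 φ2) (hq : q ≤ L) (hLd : L + 1 ≤ d) (hη0 : 0 < η)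
    (hη : η * (600 * C ^ 2) ≤ 1)
    (hL : 4 + (2 * (C * (10 * (L + 1) ^ 2)) + 600 * C) ≤ (η / 2) ^ (L + 1) * √d) :
    ¬Stmt.Solves d q := by
  rintro ⟨Ω, _, P, hP, A, hA⟩
  obtain ⟨n, hn⟩ : ∃ n, n = d / (L + 1) := ⟨_, rfl⟩
  have hn0 : 0 < n := hn ▸ Nat.div_pos hLd (by omega)
  have hn1 : (L + 1) * n ≤ d := hn ▸ Nat.mul_div_le _ _
  have hn2 : d ≤ 2 * (L + 1) * n := by
    have := Nat.lt_mul_div_succ d (show 0 < L + 1 by omega)
    rw [← hn] at this
    nlinarith
  let blk : Fin d → ℕ := fun i => i / n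
  have hc : ∀ j, j ≤ L → n ≤ cnt blk j := fun j hj => cnt_div hn0 hn1 hj
  have ho := orthoU_sv fun j hj => lt_of_lt_of_le hn0 (hc j hj)
  have hadm := fun s => admissible_Vk (by omega) hχ hφ hC ((ho s).bes le_rfl) hη0.le hη
  let X : (Fin d → Bool) → Ω → E d := fun s ω =>
    A.output (ω, A.record (Vk η χ φ (sv blk s) L) ω q)
  have mX : ∀ s, Measurable (X s) := fun s => measurable_output A (hadm s).pot q
  have ms : ∀ s, MeasurableSet {x : E d | 0 < (inner ℝ (sv blk s L) x : ℝ)} := fun s =>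
    measurableSet_lt measurable_const (innerSL ℝ (sv blk s L)).continuous.measurable
  let f : (Fin d → Bool) → Ω → ℝ := fun s ω =>
    if 0 < (inner ℝ (sv blk s L) (X s ω) : ℝ) then 1 else 0
  have ef : ∀ s, f s = (X s ⁻¹' {x : E d | 0 < (inner ℝ (sv blk s L) x : ℝ)}).indicator 1 := by
    intro s
    funext ω
    simp [f, Set.indicator_apply]
  have hf : ∀ s, Integrable (f s) P := fun s => by
    rw [ef]; exact (integrable_const 1).indicator (mX s (ms s))
  have h1 : ∀ s, 15 / 16 - 1 / 10 ≤ ∫ ω, f s ω ∂P := by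
    intro s
    have a1 := gibbs_last_pos hd hχ hφ hC (by positivity) (ho s) hη0 hη hL
    have a2 := (abs_le.1 (hA _ (hadm s) _ (ms s))).1
    rw [ef, integral_indicator_one (mX s (ms s)), ← map_measureReal_apply (mX s) (ms s)]
    change _ ≤ (P.map (X s)).real _ - (gibbs _).real _ at a2
    linarith
  have h2 := Finset.sum_le_sum fun s (_ : s ∈ Finset.univ) => h1 s
  rw [← integral_finsetSum _ fun s _ => hf s] at h2
  have h3 : ∫ ω, ∑ s, f s ω ∂P ≤ ∫ _, ∑ _ : Fin d → Bool, (3 / 4 : ℝ) ∂P := by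
    refine integral_mono (integrable_finsetSum _ fun s _ => hf s) (integrable_const _) fun ω => ?_
    refine (sum_success_le (by omega) hχ hφ (by positivity) hq hn0 hc A ω).trans
      (Finset.sum_le_sum fun _ _ => ?_)
    have b1 : (d : ℝ) ≤ 2 * (L + 1) * n := by exact_mod_cast hn2
    have b2 : (0 : ℝ) < n := by exact_mod_cast hn0
    have b3 : (1 : ℝ) ≤ L + 1 := by linarith [Nat.cast_nonneg (α := ℝ) L]
    have b4 : 3 * (d : ℝ) / n ≤ 6 * (L + 1) := by rw [div_le_iff₀ b2]; linarith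
    have b5 : ((L : ℝ) + 1) ^ 2 * (3 * d / n / (10 * (L + 1) ^ 2 / 2) ^ 2) ≤
        (L + 1) ^ 2 * (6 * (L + 1) / (10 * (L + 1) ^ 2 / 2) ^ 2) := by gcongr
    have b6 : ((L : ℝ) + 1) ^ 2 * (6 * (L + 1) / (10 * (L + 1) ^ 2 / 2) ^ 2) =
        6 / 25 / (L + 1) := by field_simp; ring
    have b7 : 6 / 25 / ((L : ℝ) + 1) ≤ 6 / 25 := div_le_self (by norm_num) b3
    linarith
  simp only [integral_const, probReal_univ, one_smul, Finset.sum_const, nsmul_eq_mul] at h2 h3
  have h4 : (0 : ℝ) < (Finset.univ : Finset (Fin d → Bool)).card := by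
    exact_mod_cast Finset.card_pos.2 Finset.univ_nonempty
  linarith

theorem CutP.mono {C' : ℝ} (h : CutP C χ χ1 χ2) (hC : C ≤ C') : CutP C' χ χ1 χ2 :=
  { h with b1 := fun t => (h.b1 t).trans hC, b2 := fun t => (h.b2 t).trans hC }

theorem LinkP.mono {C' : ℝ} (h : LinkP C τ φ φ1 φ2) (hC : C ≤ C') (hτ : 0 ≤ τ) :
    LinkP C' τ φ φ1 φ2 :=
  { h with
    b1 := fun t => (h.b1 t).trans (mul_le_mul_of_nonneg_right hC (abs_nonneg _))
    b1' := fun t => (h.b1' t).trans (mul_le_mul_of_nonneg_right hC hτ)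
    b2 := fun t => (h.b2 t).trans hC }

theorem exists_base_lb :
    ∃ K : ℕ, 2 ≤ K ∧ ∀ d L q : ℕ, K ^ (L + 1) ≤ d → q ≤ L → ¬Stmt.Solves d q := by
  obtain ⟨C1, χ, χ1, χ2, hC1, hχ⟩ := exists_cut
  obtain ⟨C2, hC2, hφ⟩ := exists_link
  obtain ⟨C, hC⟩ : ∃ C, C = max C1 C2 := ⟨_, rfl⟩
  have hC' : 1 ≤ C := hC ▸ hC1.trans (le_max_left _ _)
  obtain ⟨M, hM⟩ : ∃ M : ℕ, 2496 * C * (1200 * C ^ 2) ≤ M := exists_nat_ge _
  have hM1 : (100 : ℝ) ≤ M := by nlinarith [one_le_pow₀ (n := 2) hC']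
  have hM2 : 100 ≤ M := by exact_mod_cast hM1
  refine ⟨M ^ 2, by nlinarith, fun d L q hd hq => ?_⟩
  obtain ⟨φ, φ1, φ2, hφ⟩ := hφ (10 * (L + 1) ^ 2) (by positivity)
  have h1 : M ^ 2 ≤ (M ^ 2) ^ (L + 1) := Nat.le_self_pow (by omega) _
  have h2 : L + 1 < (M ^ 2) ^ (L + 1) := Nat.lt_pow_self (by nlinarith)
  refine not_solves_of (η := 1 / (600 * C ^ 2)) (by nlinarith) (hχ.mono (hC ▸ le_max_left _ _)) hC'
    (hφ.mono (hC ▸ le_max_right _ _) (by positivity)) hq (by omega) (by positivity)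
    (le_of_eq (by field_simp)) ?_
  have h3 : (M : ℝ) ^ (L + 1) ≤ √d := by
    refine Real.le_sqrt_of_sq_le ?_
    rw [← pow_mul, mul_comm, pow_mul]
    exact_mod_cast hd
  have h4 : ((L : ℝ) + 1) ^ 2 ≤ 4 ^ (L + 1) := by
    have : ((L : ℝ) + 1) ≤ 2 ^ (L + 1) := by exact_mod_cast (Nat.lt_two_pow_self).le
    calc ((L : ℝ) + 1) ^ 2 ≤ (2 ^ (L + 1)) ^ 2 := by gcongr
      _ = 4 ^ (L + 1) := by rw [← pow_mul, mul_comm, pow_mul]; norm_num
  have h5 : (1 : ℝ) ≤ 4 ^ (L + 1) := one_le_pow₀ (by norm_num)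
  have h6 : 624 * C ≤ (624 * C) ^ (L + 1) := le_self_pow₀ (by linarith) (by omega)
  calc 4 + (2 * (C * (10 * ((L : ℝ) + 1) ^ 2)) + 600 * C) ≤ 624 * C * 4 ^ (L + 1) := by nlinarith
    _ ≤ (624 * C) ^ (L + 1) * 4 ^ (L + 1) := by gcongr
    _ = (1 / (600 * C ^ 2) / 2) ^ (L + 1) * (2496 * C * (1200 * C ^ 2)) ^ (L + 1) := by
        rw [← mul_pow, ← mul_pow]; congr 1; field_simp; norm_num
    _ ≤ _ := by
        gcongr
        exact (pow_le_pow_left₀ (by positivity) hM _).trans h3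

end Vale.Agent.P347
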