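import Vale.Agent.P347.LB3
import Vale.Agent.P347.Final2

/-! Lower bound, part 4: one query is always needed; the logarithmic lower bound. -/

open MeasureTheory

namespace Vale.Agent.P347

variable {d : ℕ}

theorem admissible_quad {a : ℝ} (h1 : 1 / 2 ≤ a) (h2 : a ≤ 1) :
    Admissible fun x : E d => a * ‖x‖ ^ 2 := by
  have hc : ContDiff ℝ 2 fun x : E d => a * ‖x‖ ^ 2 := contDiff_const.mul (contDiff_norm_sq ℝ)
  refine ⟨hc, by simp, ?_, fun x v => ?_⟩
  · have := ((hasStrictFDerivAt_norm_sq (0 : E d)).hasFDerivAt.const_mul a).fderiv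
    rw [gradient, this]
    simp
  · rw [second_deriv_line hc x v (fun t => (line_sq x v t).const_mul a)
      (((line_inner' x v 0).const_mul 2).const_mul a)]
    constructor <;> nlinarith [sq_nonneg ‖v‖]

theorem integral_close {μ ν : Measure (E d)} [IsProbabilityMeasure μ] [IsProbabilityMeasure ν]
    {δ : ℝ} (h : ∀ B, MeasurableSet B → μ.real B - ν.real B ≤ δ) {f : E d → ℝ}
    (hf : Continuous f) (h0 : ∀ x, 0 ≤ f x) (h1 : ∀ x, f x ≤ 1) :
    ∫ x, f x ∂μ - ∫ x, f x ∂ν ≤ δ := by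
  have hi : ∀ (m : Measure (E d)) [IsProbabilityMeasure m], Integrable f m := fun m _ =>
    (integrable_const (1 : ℝ)).mono' hf.aestronglyMeasurable
      (ae_of_all _ fun x => by rw [Real.norm_of_nonneg (h0 x)]; exact h1 x)
  have hm : ∀ (m : Measure (E d)) [IsProbabilityMeasure m],
      IntegrableOn (fun t => m.real {x | t ≤ f x}) (Set.Ioc (0 : ℝ) 1) := by
    intro m _
    have ha : Antitone fun t => m.real {x | t ≤ f x} := fun s t hst =>
      measureReal_mono fun x hx => hst.trans hx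
    exact (integrable_const (1 : ℝ)).mono' ha.measurable.aestronglyMeasurable
      (ae_of_all _ fun t => by
        rw [Real.norm_of_nonneg measureReal_nonneg]; exact measureReal_le_one)
  rw [(hi μ).integral_eq_integral_Ioc_meas_le (ae_of_all _ h0) (ae_of_all _ h1),
    (hi ν).integral_eq_integral_Ioc_meas_le (ae_of_all _ h0) (ae_of_all _ h1),
    ← integral_sub (hm μ) (hm ν)]
  refine (integral_mono ((hm μ).sub (hm ν)) (integrable_const δ) fun t =>
    h _ (measurableSet_le measurable_const hf.measurable)).trans (le_of_eq ?_)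
  simp

theorem integral_exp_diag {n : ℕ} (b : Fin n → ℝ) :
    ∫ x : E n, Real.exp (-∑ i, b i * x i ^ 2) = ∏ i, √(Real.pi / b i) := by
  rw [← (PiLp.volume_preserving_toLp (Fin n)).integral_comp
    (MeasurableEquiv.toLp 2 _).measurableEmbedding]
  simp only [← Finset.sum_neg_distrib, Real.exp_sum, ← neg_mul]
  rw [integral_fintype_prod_volume_eq_prod fun i (t : ℝ) => Real.exp (-b i * t ^ 2)]
  simp only [integral_gaussian]

theorem gibbs_quad_exp {n : ℕ} {a c : ℝ} (ha : 0 < a) (hc : 0 ≤ c) :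
    ∫ x, Real.exp (-(c * (x 0 ^ 2 + x 1 ^ 2))) ∂(gibbs fun x : E (n + 2) => a * ‖x‖ ^ 2) =
      a / (a + c) := by
  rw [integral_gibbs]
  have e1 := integral_exp_diag (n := n + 2) fun _ => a
  have e2 := integral_exp_diag (n := n + 2) (Fin.cons (a + c) (Fin.cons (a + c) fun _ => a))
  have n1 : ∀ x : E (n + 2), ‖x‖ ^ 2 = ∑ i, x i ^ 2 := fun x => by
    rw [EuclideanSpace.norm_sq_eq]; simp only [Real.norm_eq_abs, sq_abs]
  have e3 : ∫ x : E (n + 2), Real.exp (-(a * ‖x‖ ^ 2)) = ∏ _ : Fin (n + 2), √(Real.pi / a) := by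
    rw [← e1]; simp only [n1, Finset.mul_sum]
  have e4 : ∫ x : E (n + 2), Real.exp (-(c * (x 0 ^ 2 + x 1 ^ 2))) * Real.exp (-(a * ‖x‖ ^ 2)) =
      √(Real.pi / (a + c)) * (√(Real.pi / (a + c)) * ∏ _ : Fin n, √(Real.pi / a)) := by
    simp only [Fin.prod_univ_succ, Fin.sum_univ_succ, Fin.cons_zero, Fin.cons_succ] at e2
    rw [← e2]
    congr 1
    funext x
    rw [← Real.exp_add, n1]
    simp only [Fin.sum_univ_succ, ← Finset.mul_sum, Fin.succ_zero_eq_one]
    congr 1
    ring
  rw [e3, e4, Fin.prod_univ_succ, Fin.prod_univ_succ, ← mul_assoc, ← mul_assoc]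
  have hp := Real.pi_pos
  have h1 : 0 < ∏ _ : Fin n, √(Real.pi / a) := Finset.prod_pos fun _ _ => by positivity
  rw [Real.mul_self_sqrt (by positivity), Real.mul_self_sqrt (by positivity)]
  field_simp

theorem not_solves_zero (hd : 2 ≤ d) : ¬Stmt.Solves d 0 := by
  obtain ⟨n, rfl⟩ : ∃ n, d = n + 2 := ⟨d - 2, by omega⟩
  rintro ⟨Ω, _, P, hP, A, hA⟩
  have a1 := admissible_quad (d := n + 2) (a := 1) (by norm_num) le_rfl
  have a2 := admissible_quad (d := n + 2) (a := 1 / 2) le_rfl (by norm_num)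
  have := a1.pot.isProb_gibbs one_pos
  have := a2.pot.isProb_gibbs one_pos
  let y : ℝ → E (n + 2) → ℝ := fun c x => Real.exp (-(c * (x 0 ^ 2 + x 1 ^ 2)))
  have yc : ∀ c, Continuous (y c) := fun c => by simp only [y]; fun_prop
  have y0 : ∀ c x, 0 < y c x := fun c x => Real.exp_pos _
  have y1 : ∀ c, 0 ≤ c → ∀ x, y c x ≤ 1 := fun c hc x =>
    Real.exp_le_one_iff.2 (neg_nonpos.2 (by positivity))
  have y2 : ∀ x, y (5 / 2) x = y (5 / 4) x ^ 2 := fun x => by
    simp only [y]; rw [← Real.exp_nat_mul]; congr 1; push_cast; ring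
  have y3 : ∀ x, y (15 / 4) x = y (5 / 4) x ^ 3 := fun x => by
    simp only [y]; rw [← Real.exp_nat_mul]; congr 1; push_cast; ring
  have key := integral_close (μ := gibbs fun x : E (n + 2) => 1 * ‖x‖ ^ 2)
    (ν := gibbs fun x : E (n + 2) => 1 / 2 * ‖x‖ ^ 2) (δ := 1 / 5) (fun B hB => by
      have b1 := (abs_le.1 (hA _ a1 B hB)).1
      have b2 := (abs_le.1 (hA _ a2 B hB)).2
      change _ ≤ (P.map fun ω => A.output (ω, fun _ => (0, 0))).real B - (gibbs _).real B at b1
      change (P.map fun ω => A.output (ω, fun _ => (0, 0))).real B - (gibbs _).real B ≤ _ at b2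
      linarith)
    (f := fun x => 3 * y (5 / 4) x - 3 * y (5 / 2) x + y (15 / 4) x)
    (by have := yc; fun_prop)
    (fun x => by
      rw [y2, y3]
      have := y0 (5 / 4) x
      have := y1 (5 / 4) (by norm_num) x
      nlinarith [sq_nonneg (y (5 / 4) x)])
    (fun x => by
      rw [y2, y3]
      have := pow_nonneg (sub_nonneg.2 (y1 (5 / 4) (by norm_num) x)) 3
      nlinarith)
  have hi : ∀ (m : Measure (E (n + 2))) [IsProbabilityMeasure m],
      ∫ x, (3 * y (5 / 4) x - 3 * y (5 / 2) x + y (15 / 4) x) ∂m =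
        3 * ∫ x, y (5 / 4) x ∂m - 3 * ∫ x, y (5 / 2) x ∂m + ∫ x, y (15 / 4) x ∂m := by
    intro m _
    have i1 : ∀ c, 0 ≤ c → Integrable (y c) m := fun c hc =>
      (integrable_const (1 : ℝ)).mono' (yc c).aestronglyMeasurable
        (ae_of_all _ fun x => by rw [Real.norm_of_nonneg (y0 c x).le]; exact y1 c hc x)
    have i2 := (i1 (5 / 4) (by norm_num)).const_mul 3
    have i3 := (i1 (5 / 2) (by norm_num)).const_mul 3
    have i4 : Integrable (fun x => 3 * y (5 / 4) x - 3 * y (5 / 2) x) m := i2.sub i3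
    rw [integral_add i4 (i1 _ (by norm_num)), integral_sub i2 i3, integral_const_mul,
      integral_const_mul]
  rw [hi, hi] at key
  simp only [y] at key
  rw [gibbs_quad_exp (by norm_num) (by norm_num), gibbs_quad_exp (by norm_num) (by norm_num),
    gibbs_quad_exp (by norm_num) (by norm_num), gibbs_quad_exp (by norm_num) (by norm_num),
    gibbs_quad_exp (by norm_num) (by norm_num), gibbs_quad_exp (by norm_num) (by norm_num)] at key
  norm_num at key

theorem lower_bound : ∃ c : ℝ, 0 < c ∧ ∀ d : ℕ, 2 ≤ d → c * Real.log d ≤ Stmt.Q d := by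
  obtain ⟨K, hK, h⟩ := exists_base_lb
  obtain ⟨C, hC⟩ := stmt_Q_bound one_pos
  have hK1 : (1 : ℝ) < K := by exact_mod_cast hK
  have hl : 0 < Real.log K := Real.log_pos hK1
  refine ⟨1 / (2 * Real.log K), by positivity, fun d hd => ?_⟩
  have hs := (hC d hd).1
  have h1 : 1 ≤ Stmt.Q d := by
    by_contra h0
    rw [show Stmt.Q d = 0 by omega] at hs
    exact not_solves_zero hd hs
  have h2 : Nat.log K d ≤ Stmt.Q d := by
    by_contra h0
    refine h d (Nat.log K d - 1) _ ?_ (by omega) hs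
    rw [show Nat.log K d - 1 + 1 = Nat.log K d by omega]
    exact Nat.pow_log_le_self K (by omega)
  have h3 : d < K ^ (Nat.log K d + 1) := Nat.lt_pow_succ_log_self (by omega) d
  have h4 : d ≤ K ^ (2 * Stmt.Q d) := h3.le.trans (Nat.pow_le_pow_right (by omega) (by omega))
  have h5 : (d : ℝ) ≤ (K : ℝ) ^ (2 * Stmt.Q d) := by exact_mod_cast h4
  have h6 := Real.log_le_log (by exact_mod_cast (by omega : 0 < d)) h5
  rw [Real.log_pow] at h6
  rw [one_div, inv_mul_le_iff₀ (by positivity)]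
  push_cast at h6
  linarith

theorem two_sided :
    (∃ c : ℝ, 0 < c ∧ ∀ d : ℕ, 2 ≤ d → ∀ q : ℕ, Stmt.Solves d q → c * Real.log d ≤ q) := by
  obtain ⟨c, hc, h⟩ := lower_bound
  refine ⟨c, hc, fun d hd q hq => (h d hd).trans ?_⟩
  exact_mod_cast Nat.sInf_le (s := {q : ℕ | Stmt.Solves d q}) hq

end Vale.Agent.P347
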