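import Vale.Agent.P347.NodeDefs

/-! Closure properties of `Mat`, and the node hypothesis of `tmat`. -/

open MeasureTheory ProbabilityTheory

namespace Vale.Agent.P347

variable {d : ℕ} {P : Par} {I : Type} [MeasurableSpace I]

theorem Mat.explicit (t : ℝ) (j : ℕ) {f : I → E d} (hf : Measurable f) :
    Mat P t j (fun x : Vd d × I => f x.2) 0 0 := by
  refine ⟨le_rfl, fun j' _ σ _ _ => ?_⟩
  simpa using samp_gauss (d := d) hf σ

theorem Mat.order {t : ℝ} {j j' : ℕ} {f : Vd d × I → E d} {w : ℝ} {n : ℕ} (h : Mat P t j f w n)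
    (hj : j' ≤ j) : Mat P t j' f w n := by
  exact ⟨h.1, fun i hi => h.2 i (hi.trans hj)⟩

theorem Mat.comap {I' : Type} [MeasurableSpace I'] {t : ℝ} {j : ℕ} {f : Vd d × I → E d} {w : ℝ}
    {n : ℕ} (h : Mat P t j f w n) {φ : I' → I} (hφ : Measurable φ) :
    Mat P t j (fun x : Vd d × I' => f (x.1, φ x.2)) w n := by
  exact ⟨h.1, fun i hi σ hσ hκ => (h.2 i hi σ hσ hκ).comap hφ⟩

theorem Mat.scale (hP : P.Ok d) {t s : ℝ} {j : ℕ} {f : Vd d × I → E d} {w : ℝ} {n : ℕ}
    (h : Mat P t j f w n) (hs : t ≤ 4 * s) : Mat P s j f (2 * w) n := by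
  have hw := h.1
  refine ⟨by linarith, fun i hi σ hσ hκ => ?_⟩
  have h1 : √t ≤ 2 * √s := by
    calc √t ≤ √(4 * s) := Real.sqrt_le_sqrt hs
      _ = 2 * √s := by
        rw [Real.sqrt_mul (by norm_num), show (4 : ℝ) = 2 ^ 2 by norm_num,
          Real.sqrt_sq (by norm_num)]
  refine (h.2 i hi σ hσ (hκ.imp_right fun hκ => le_trans ?_ hκ)).mono le_rfl ?_
  · nlinarith [mul_le_mul_of_nonneg_left h1 hw]
  · nlinarith [mul_nonneg hw (hP.e_nonneg i)]

theorem Mat.cls (hP : P.Ok d) (t : ℝ) (j : ℕ) :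
    Cls (fun (f : Vd d × I → E d) w n => Mat P t j f w n) := by
  refine ⟨Mat.explicit (f := fun _ => 0) t j measurable_const, ?_, ?_, ?_⟩
  · intro f f' w w' n n' h h'
    have hw := h.1
    have hw' := h'.1
    refine ⟨by linarith, fun i hi σ hσ hκ => ?_⟩
    obtain ⟨θ, h0, h1, h2, h3⟩ : ∃ θ : ℝ, 0 ≤ θ ∧ θ ≤ 1 ∧ w ≤ θ * (w + w') ∧
        w' ≤ (1 - θ) * (w + w') := by
      rcases (add_nonneg hw hw').eq_or_lt with h0 | h0
      · exact ⟨0, le_rfl, zero_le_one, by linarith, by linarith⟩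
      · refine ⟨w / (w + w'), by positivity, (div_le_one h0).2 (by linarith), ?_, ?_⟩
        · rw [div_mul_cancel₀ _ h0.ne']
        · rw [sub_mul, div_mul_cancel₀ _ h0.ne']; linarith
    have key : ∀ u v : ℝ, 0 ≤ v → v ≤ 1 → u ≤ v * (w + w') →
        (i = 0 ∨ u * √t ≤ P.κ i * (√v * σ)) := fun u v hv0 hv1 hu => hκ.imp_right fun hκ => by
      have hk := mul_nonneg (hP.κ_nonneg i) hσ
      have hs : v ≤ √v := Real.le_sqrt_of_sq_le (by nlinarith)
      calc u * √t ≤ v * (w + w') * √t := mul_le_mul_of_nonneg_right hu (Real.sqrt_nonneg t)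
        _ = v * ((w + w') * √t) := by ring
        _ ≤ v * (P.κ i * σ) := mul_le_mul_of_nonneg_left hκ hv0
        _ ≤ √v * (P.κ i * σ) := mul_le_mul_of_nonneg_right hs hk
        _ = P.κ i * (√v * σ) := by ring
    have a1 := h.2 i hi (√θ * σ) (by positivity) (key w θ h0 h1 h2)
    have a2 := h'.2 i hi (√(1 - θ) * σ) (by positivity)
      (key w' (1 - θ) (by linarith) (by linarith) h3)
    have a3 := Samp.add a1 a2
    have e : √((√θ * σ) ^ 2 + (√(1 - θ) * σ) ^ 2) = σ := by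
      rw [mul_pow, mul_pow, Real.sq_sqrt h0, Real.sq_sqrt (by linarith),
        show θ * σ ^ 2 + (1 - θ) * σ ^ 2 = σ ^ 2 by ring, Real.sqrt_sq hσ]
    rw [e] at a3
    rw [add_mul, add_mul]
    exact a3
  · intro f w n c h
    have hw := h.1
    refine ⟨by positivity, fun i hi σ hσ hκ => ?_⟩
    rcases eq_or_ne c 0 with rfl | hc
    · have := samp_gauss (d := d) (I := I) (f := fun _ => 0) measurable_const σ
      simpa using this.mono (Nat.zero_le _) le_rfl
    · have hc' : 0 < |c| := abs_pos.2 hc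
      have a1 := h.2 i hi (σ / |c|) (by positivity) (hκ.imp_right fun hκ => by
        rw [← mul_div_assoc, le_div_iff₀ hc']; linarith)
      have a2 := Samp.smul a1 c
      rw [mul_div_cancel₀ _ hc'.ne', ← mul_assoc] at a2
      exact a2
  · intro f w w' n n' hw hn h
    refine ⟨h.1.trans hw, fun i hi σ hσ hκ => ?_⟩
    refine (h.2 i hi σ hσ (hκ.imp_right fun hκ => le_trans ?_ hκ)).mono
      (Nat.mul_le_mul_right _ hn) (mul_le_mul_of_nonneg_right hw (hP.e_nonneg i))
    exact mul_le_mul_of_nonneg_right hw (Real.sqrt_nonneg t)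

/-- the gradient field at level `t * lev b`, written in normalised form -/
noncomputable def Grn (t : ℝ) (V : Vd d) (b : ℝ × ℝ) (c : E d) : E d :=
  (√t)⁻¹ • Gt (fun u => V.1 (√t • u)) (lev b) ((√t)⁻¹ • c)

theorem Grn_eq {t : ℝ} (ht : 0 < t) (V : Vd d) {b : ℝ × ℝ} (hb : 0 < lev b) (c : E d) :
    Grn t V b c = Gt V.1 (t * lev b) c := by
  have hτ : 0 < √t := Real.sqrt_pos.2 ht
  unfold Grn
  rw [V.2.pot.Gt_scale hτ hb, smul_smul, smul_smul, inv_mul_cancel₀ hτ.ne',
    mul_inv_cancel₀ hτ.ne', one_smul, one_smul, Real.sq_sqrt ht.le]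

theorem gsc_eq {X : Type} {t : ℝ} (ht : 0 < t) (V : X → Vd d) (y : X → E d) (x : X) :
    gsc (√t) (fun x => Grn t (V x)) y x =
      gfun (fun u => (V x).1 (√t • u)) ((√t)⁻¹ • y x) := by
  have hτ : 0 < √t := Real.sqrt_pos.2 ht
  funext b Z
  simp only [gsc, Grn, gfun, pt]
  rw [smul_smul, mul_inv_cancel₀ hτ.ne', one_smul, smul_add (√t)⁻¹, smul_smul,
    inv_mul_cancel₀ hτ.ne', one_smul]

theorem pot_scaled {t : ℝ} (ht : 0 < t) (V : Vd d) : Pot 0 (2 * t) fun u => V.1 (√t • u) := by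
  have hτ : 0 < √t := Real.sqrt_pos.2 ht
  refine (V.2.pot.scale hτ).mono le_rfl (by positivity) (le_of_eq ?_)
  rw [Real.sq_sqrt ht.le, mul_comm]

/-- the node hypothesis of `tmat` at order `j` from the node theorems of order at most `j` -/
theorem node_hyp (hP : P.Ok d) {j : ℕ} (hj : j ≤ P.jst) (hN : ∀ j', j' ≤ j → NodeSt P d j')
    {t : ℝ} (ht : 0 < t) (htT : t ≤ P.T0) (b : ℝ × ℝ) (hb1 : |b.1| ≤ 2 * P.h)
    (hb2 : |b.2| ≤ 2 * P.h) (c : Vd d × I → E d)
    (hc : Mat P t (j - P.p) c (P.ω j / 2) (P.nn j)) (hr : ∀ x, ‖c x‖ ≤ P.Rr j) :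
    Nod (fun (f : Vd d × I → E d) w n => Mat P t j f w n) (4 * P.Rr j)
      (fun x => Grn t x.1 b (c x)) 1 1 := by
  have hh := hP.h_pos
  have hΛ := P.Qd.one_le
  have hh1 : P.h ≤ 1 / 20 := by
    have h1 := hP.hCM
    have h2 := hP.hCMh
    have h3 : 20 ≤ P.CM := by nlinarith
    nlinarith
  have hb1' : b.1 ^ 2 ≤ 1 / 100 := by
    rw [← sq_abs]; nlinarith [abs_nonneg b.1]
  have hb2' : b.2 ^ 2 ≤ 1 / 100 := by
    rw [← sq_abs]; nlinarith [abs_nonneg b.2]
  have hl0 : 1 / 4 ≤ lev b := by unfold lev; linarith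
  have hl1 : lev b ≤ 1 := by unfold lev; nlinarith [sq_nonneg b.1, sq_nonneg b.2]
  have hl : 0 < lev b := by linarith
  have hs0 : 0 < t * lev b := mul_pos ht hl
  have hst : t * lev b ≤ t := mul_le_of_le_one_right ht.le hl1
  have he : (fun x : Vd d × I => Grn t x.1 b (c x)) = fun x => Gt x.1.1 (t * lev b) (c x) :=
    funext fun x => Grn_eq ht x.1 hl (c x)
  rw [he]
  refine ⟨⟨zero_le_one, fun i hi σ hσ hκ => ?_⟩, fun x => ?_⟩
  · rw [one_mul, one_mul]
    have hc1 := (hc.scale hP (s := t * lev b) (by nlinarith)).order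
      (Nat.sub_le_sub_right hi P.p)
    have hc2 := (Mat.cls hP (t * lev b) (i - P.p)).mono (w' := P.ω i) (n' := P.nn i)
      (by have := hP.ω_anti i j hi hj; linarith) (hP.n_anti i j hi hj) hc1
    refine hN i hi I c (t * lev b) σ hs0 (hst.trans htT) hσ (hκ.imp_right fun hκ => ?_) hc2
      fun x => (hr x).trans (hP.R_anti i j hi hj)
    rw [one_mul] at hκ
    exact (Real.sqrt_le_sqrt hst).trans hκ
  · have hT := hP.T0_le
    have h1 := x.1.2.pot.norm_Gt_le hs0 (by linarith) (c x)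
    have h2 : √(t * lev b * d) ≤ 1 / 2 * √d := by
      rw [Real.sqrt_mul hs0.le]
      refine mul_le_mul_of_nonneg_right ?_ (Real.sqrt_nonneg _)
      exact Real.sqrt_le_iff.2 ⟨by norm_num, by linarith⟩
    have h3 := hP.R_d.trans (hP.R_anti j P.jst hj le_rfl)
    have h4 := hr x
    linarith

/-- Gaussian mixture over an explicit standard Gaussian input -/
noncomputable def mixG (f : E d → E d) (σ : ℝ) : Measure (E d) :=
  ((gam d).prod (gam d)).map fun p => f p.1 + σ • p.2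

theorem mixmap_lip {f : E d → E d} {L : ℝ} (hf : LipV L f) (σ : ℝ) :
    LipV (|L| + |σ|) fun p : E d × E d => f p.1 + σ • p.2 := by
  intro p q
  have h1 : ‖f p.1 - f q.1‖ ≤ |L| * ‖p - q‖ :=
    (hf p.1 q.1).trans (mul_le_mul (le_abs_self L) (norm_fst_le (p - q)) (norm_nonneg _)
      (abs_nonneg L))
  have h2 : ‖σ • (p.2 - q.2)‖ ≤ |σ| * ‖p - q‖ := by
    rw [norm_smul, Real.norm_eq_abs]
    exact mul_le_mul_of_nonneg_left (norm_snd_le (p - q)) (abs_nonneg σ)
  have e : f p.1 + σ • p.2 - (f q.1 + σ • q.2) = f p.1 - f q.1 + σ • (p.2 - q.2) := by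
    rw [smul_sub]; abel
  simp only
  rw [e, add_mul]
  exact (norm_add_le _ _).trans (add_le_add h1 h2)

theorem integral_mixG {f : E d → E d} {L : ℝ} (hf : LipV L f) (σ : ℝ) {ψ : E d → ℝ}
    (hψ : LipR 1 ψ) :
    ∫ x, ψ x ∂(mixG f σ) = ∫ g, ∫ ξ, ψ (f g + σ • ξ) ∂(gam d) ∂(gam d) := by
  have hfc := hf.continuous
  have hc : Continuous fun p : E d × E d => f p.1 + σ • p.2 := by fun_prop
  unfold mixG
  rw [integral_map hc.measurable.aemeasurable hψ.continuous.aestronglyMeasurable, integral_prod]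
  exact (hψ.pg.comp (mixmap_lip hf σ).pg).integrable_gam2
    (hψ.continuous.comp hc).aestronglyMeasurable

theorem smooth_lip {ψ : E d → ℝ} {L : ℝ} (hψ : LipR L ψ) (σ : ℝ) :
    LipR L fun x => ∫ ξ, ψ (x + σ • ξ) ∂(gam d) := by
  intro x y
  have hi : ∀ z : E d, Integrable (fun ξ => ψ (z + σ • ξ)) (gam d) := fun z => by
    have hl : LipV |σ| fun ξ : E d => z + σ • ξ := fun a b => by
      rw [add_sub_add_left_eq_sub, ← smul_sub, norm_smul, Real.norm_eq_abs]
    exact (hψ.pg.comp hl.pg).integrable_gam (hψ.continuous.comp hl.continuous).aestronglyMeasurable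
  rw [← integral_sub (hi x) (hi y)]
  have := norm_integral_le_of_norm_le_const (μ := gam d) (C := L * ‖x - y‖)
    (f := fun ξ => ψ (x + σ • ξ) - ψ (y + σ • ξ)) (ae_of_all _ fun ξ => by
      have := hψ (x + σ • ξ) (y + σ • ξ)
      rwa [add_sub_add_right_eq_sub] at this)
  simpa using this

theorem Samp.mix {q : ℕ} {η σ L : ℝ} {f : Vd d → I × E d → E d} (hL : 0 ≤ L)
    (h : Samp q η fun V i => gauss (f V i) σ) (hf : ∀ V i, LipV L fun g => f V (i, g)) :
    Samp q η fun V i => mixG (fun g => f V (i, g)) σ := by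
  have h0 := samp_gauss (d := d) (I := I) (f := fun _ => 0) measurable_const 1
  have hc : ∀ V i, Continuous fun p : E d × E d => f V (i, p.1) + σ • p.2 := fun V i =>
    (mixmap_lip (hf V i) σ).continuous
  have := Samp.bind (η'' := 0) (ν := fun V i => mixG (fun g => f V (i, g)) σ) h0 h hL
    (fun V i ψ hψ a b => by
      simp only
      rw [integral_gauss _ _ hψ.continuous.aestronglyMeasurable,
        integral_gauss _ _ hψ.continuous.aestronglyMeasurable]
      refine (smooth_lip hψ σ _ _).trans ?_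
      rw [one_mul]
      exact hf V i a b)
    (fun V i => Measure.isProbabilityMeasure_map (hc V i).measurable.aemeasurable)
    (fun V i => by
      unfold mixG
      rw [integrable_map_measure continuous_norm.aestronglyMeasurable
        (hc V i).measurable.aemeasurable]
      exact (mixmap_lip (hf V i) σ).pg.integrable_gam2 (hc V i).norm.aestronglyMeasurable)
    (fun V i ψ hψ => by
      have e : gauss (0 : E d) 1 = gam d := by simp [gauss]
      rw [integral_mixG (hf V i) σ hψ, e]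
      simp only [integral_gauss _ _ hψ.continuous.aestronglyMeasurable, sub_self, abs_zero,
        le_refl])
  simpa using this

end Vale.Agent.P347
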