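import Vale.Agent.P347.Node2

/-! The node recursion. -/

open MeasureTheory ProbabilityTheory

namespace Vale.Agent.P347

variable {d : ℕ} {P : Par}

theorem measurable_clip {r : ℝ} (hr : 0 ≤ r) : Measurable (clip r : E d → E d) :=
  (clip_lip hr).continuous.measurable

/-- the statement at order `j` with at most `m` levels left -/
def LevSt (P : Par) (d j m : ℕ) : Prop :=
  ∀ (I : Type) [MeasurableSpace I] (c : Vd d × I → E d) (t β : ℝ), 0 < t → t ≤ P.T0 →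
    t * (1 - P.h ^ 2) ^ m ≤ P.tmin → 0 < β → √t ≤ P.κ' j * β →
    Mat P t (j - P.p) c (P.ω j) (P.nn j) →
    (∀ x, ‖c x‖ ≤ P.Rr j + ((P.nL : ℝ) - m) * P.rinc j) →
    Samp ((m + 1) * P.q' j) ((m + 1) * P.e' j)
      fun V i => gauss (Gt V.1 t (c (V, i))) (√(2 * m + 1) * β)

theorem Par.Ok.e'_nonneg (hP : P.Ok d) (j : ℕ) : 0 ≤ P.e' j :=
  div_nonneg (hP.e_nonneg j) (by positivity)

theorem lev_base (hP : P.Ok d) {j : ℕ} (hj1 : 1 ≤ j) (hj : j ≤ P.jst) (m : ℕ)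
    {I : Type} [MeasurableSpace I] (c : Vd d × I → E d) {t σ : ℝ} (ht0 : 0 < t) (ht : t ≤ P.tmin)
    (hc : Mat P t (j - P.p) c (P.ω j) (P.nn j))
    (hr : ∀ x, ‖c x‖ ≤ P.Rr j + ((P.nL : ℝ) - m) * P.rinc j) :
    Samp ((m + 1) * P.q' j) ((m + 1) * P.e' j) fun V i => gauss (Gt V.1 t (c (V, i))) σ := by
  have h1 := hP.c5' j hj1 hj
  have h2 := hP.rinc_nonneg j
  have h3 := hP.e'_nonneg j
  have h4 : (0 : ℝ) ≤ m := Nat.cast_nonneg m
  refine (node_base hP hj1 hj c ht0 ht hc fun x => (hr x).trans (by nlinarith)).mono ?_ ?_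
  · nlinarith
  · nlinarith

section Step
variable {I : Type} [MeasurableSpace I]

/-- the centre read in the extended context -/
def yc (c : Vd d × I → E d) (x : Vd d × ((I × E d) × E d)) : E d := c (x.1, x.2.1.1)

/-- the initial state in the extended context -/
noncomputable def Zi (c : Vd d × I → E d) (a r ρ : ℝ) (x : Vd d × ((I × E d) × E d)) :
    E d × E d := Zc a r ρ (yc c x) x.2.1.2 x.2.2

theorem lev_adm (hP : P.Ok d) {j k : ℕ} (c : Vd d × I → E d) {t r : ℝ} (ht0 : 0 < t)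
    (ht1 : t ≤ 1) (hy : Mat P t k (yc c) (P.ω j) (P.nn j)) (hr : ∀ x, ‖c x‖ ≤ r)
    (hr0 : 0 ≤ r) (hr2 : r ≤ 2 * P.Rr j) :
    Adm (fun f w n => Mat P t k f w n) (√t) P.h (yc c) (Zi c (√t * P.h) (r + P.ρ) P.ρ)
      (3 * P.ω j) (P.nn j) (10 * P.Rr j + 3 * P.ρ) := by
  have hτ : 0 < √t := Real.sqrt_pos.2 ht0
  have hh := hP.h_pos
  have hh1 := hP.h_le
  have hρ := hP.ρ_pos
  have hω := hP.ω_nonneg j
  have hτ1 : √t ≤ 1 := Real.sqrt_le_one.2 ht1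
  have mP : Measurable fun i : (I × E d) × E d => clip (r + P.ρ) i.1.2 :=
    (measurable_clip (by positivity)).comp (measurable_snd.comp measurable_fst)
  have mg : Measurable fun i : (I × E d) × E d => clip P.ρ i.2 :=
    (measurable_clip hρ.le).comp measurable_snd
  intro b hb1 hb2
  have e : ctr (√t) (yc c) (Zi c (√t * P.h) (r + P.ρ) P.ρ) b = fun x => (1 - b.1 / P.h) • yc c x +
      ((b.1 / P.h) • clip (r + P.ρ) x.2.1.2 + (√t * b.2) • clip P.ρ x.2.2) := by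
    funext x
    simp only [ctr, Zi, Zc, smul_add, smul_smul, smul_sub, sub_smul, one_smul]
    have : √t * (b.1 * (√t * P.h)⁻¹) = b.1 / P.h := by field_simp
    rw [this]; abel
  have hb3 : |b.1 / P.h| ≤ 2 := by
    rw [abs_div, abs_of_pos hh, div_le_iff₀ hh]; exact hb1
  have hb4 : |1 - b.1 / P.h| ≤ 3 := by
    refine (abs_sub _ _).trans ?_
    rw [abs_one]; linarith
  rw [e]
  constructor
  · have cl := Mat.cls (I := (I × E d) × E d) hP t k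
    have m2 : Measurable fun i : (I × E d) × E d =>
        (b.1 / P.h) • clip (r + P.ρ) i.1.2 + (√t * b.2) • clip P.ρ i.2 :=
      (mP.const_smul (b.1 / P.h)).add (mg.const_smul (√t * b.2))
    have m3 := Mat.explicit (P := P) t k m2
    have m4 := cl.smul (1 - b.1 / P.h) hy
    have m5 := cl.add m4 m3
    refine cl.mono ?_ (le_of_eq (add_zero _)) m5
    rw [add_zero]; gcongr
  · intro x
    have n1 : ‖yc c x‖ ≤ 2 * P.Rr j := (hr _).trans hr2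
    have n2 := norm_clip_le (show 0 ≤ r + P.ρ by positivity) x.2.1.2
    have n3 := norm_clip_le hρ.le x.2.2
    have n4 : |√t * b.2| ≤ 1 := by
      rw [abs_mul, abs_of_pos hτ]
      exact mul_le_one₀ hτ1 (abs_nonneg _) (by linarith)
    refine (norm_add_le _ _).trans ?_
    refine (add_le_add_right (norm_add_le _ _) _).trans ?_
    simp only [norm_smul, Real.norm_eq_abs]
    have p1 : |1 - b.1 / P.h| * ‖yc c x‖ ≤ 3 * (2 * P.Rr j) := by gcongr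
    have p2 : |b.1 / P.h| * ‖clip (r + P.ρ) x.2.1.2‖ ≤ 2 * (r + P.ρ) := by gcongr
    have p3 : |√t * b.2| * ‖clip P.ρ x.2.2‖ ≤ 1 * P.ρ := by gcongr
    linarith

theorem t_mul_l {t β κ : ℝ} (ht0 : 0 < t) (hβ : 0 < β) (hκ : √t ≤ κ * β) :
    t * (β * √t)⁻¹ ≤ κ := by
  have hτ : 0 < √t := Real.sqrt_pos.2 ht0
  have htt : √t ^ 2 = t := Real.sq_sqrt ht0.le
  have : t * (β * √t)⁻¹ = √t / β := by
    conv_lhs => rw [← htt]
    simp only [Real.sqrt_sq hτ.le]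
    field_simp
  rw [this, div_le_iff₀ hβ]; exact hκ

theorem wT_ge (hP : P.Ok d) {j : ℕ} {t l : ℝ} (ht0 : 0 < t) (htT : t ≤ P.T0) (hl0 : 0 < l)
    (hlτ : t * l ≤ P.κ' j) :
    4 * P.h * P.Qd.Λ * √t ^ 2 * (3 * P.h + (|l| + |l / P.χ|) * P.Qd.Λ) ≤ P.wT j := by
  have hh := hP.h_pos
  have hχ := hP.χ_pos
  have hχ1 := hP.χ_le_one
  have hΛ := P.Qd.one_le
  have hκ0 := hP.κ'_nonneg j
  rw [Real.sq_sqrt ht0.le, Par.wT, abs_of_pos hl0, abs_of_pos (by positivity)]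
  have h1 : t * l ≤ P.κ' j / P.χ := by
    refine hlτ.trans ?_
    rw [le_div_iff₀ hχ]; nlinarith
  have h2 : t * (l / P.χ) ≤ P.κ' j / P.χ := by
    rw [← mul_div_assoc]; gcongr
  have e : 4 * P.h * P.Qd.Λ * t * (3 * P.h + (l + l / P.χ) * P.Qd.Λ) =
      4 * P.h * P.Qd.Λ * (3 * P.h * t + P.Qd.Λ * (t * l + t * (l / P.χ))) := by ring
  have e' : 2 * P.Qd.Λ * P.κ' j / P.χ = P.Qd.Λ * (P.κ' j / P.χ + P.κ' j / P.χ) := by ring
  rw [e, e']
  gcongr

theorem lev_tm (hP : P.Ok d) {j : ℕ} (hj1 : 1 ≤ j) (hj : j ≤ P.jst)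
    (hN : ∀ j', j' ≤ j - 1 → NodeSt P d j') (c : Vd d × I → E d) {t l r : ℝ} (ht0 : 0 < t)
    (htT : t ≤ P.T0) (hl0 : 0 < l) (hlτ : t * l ≤ P.κ' j)
    (hc : Mat P t (j - P.p) c (P.ω j) (P.nn j)) (hr : ∀ x, ‖c x‖ ≤ r)
    (hr0 : 0 ≤ r) (hr2 : r ≤ 2 * P.Rr j) :
    Nod (fun f w n => Mat P t (j - 1) f w n) (4 * P.Rr (j - 1))
        (fun x => (Zend P.Qd P.h P.J (gV x.1 t (yc c x)) l
          (Zi c (√t * P.h) (r + P.ρ) P.ρ x)).1 - (Zi c (√t * P.h) (r + P.ρ) P.ρ x).1)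
        (P.Qd.Λ * √t * (P.h + |l| * P.Qd.Λ)) ((P.K + 2) ^ 2) ∧
      Nod (fun f w n => Mat P t (j - 1) f w n) (4 * P.Rr (j - 1))
        (fun x => corr P.Qd P.h P.J (gV x.1 t (yc c x)) l (l / P.χ)
          (Zi c (√t * P.h) (r + P.ρ) P.ρ x)) (P.Qd.Λ ^ 2 * √t) ((P.K + 2) ^ 2) := by
  have hτ : 0 < √t := Real.sqrt_pos.2 ht0
  have hRj' := hP.R_nonneg (show j - 1 ≤ P.jst by omega)
  have hy : Mat P t (j - 1 - P.p) (yc c) (P.ω j) (P.nn j) :=
    (hc.comap (φ := fun i : (I × E d) × E d => i.1.1)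
      (measurable_fst.comp measurable_fst)).order (by omega)
  have hAdm := lev_adm hP c ht0 (htT.trans (hP.T0_le.trans (by norm_num))) hy hr hr0 hr2
  have hwT := wT_ge hP ht0 htT hl0 hlτ
  have tm := tmat P.Qd P.J (Mat.cls (I := (I × E d) × E d) hP t (j - 1 - P.p))
    (Mat.cls (I := (I × E d) × E d) hP t (j - 1)) (fun f w n h => h.order (by omega))
    (l := l) (l' := l / P.χ) (W := P.ω (j - 1) / 2) (Rc := P.Rr (j - 1))
    (Rg := 4 * P.Rr (j - 1)) (N := P.nn (j - 1)) hτ hP.h_pos (by positivity)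
    (fun x => Grn t x.1) (yc c)
    (fun b hb1 hb2 c' hc' hr' => node_hyp hP (by omega) hN ht0 htT b hb1 hb2 c' hc' hr')
    _ hAdm (le_trans (by linarith) (hP.c3 j hj1 hj)) (hP.c4 j hj1 hj)
    (le_trans (by gcongr) (hP.c5 j hj1 hj))
  have eg : ∀ x, gsc (√t) (fun x : Vd d × ((I × E d) × E d) => Grn t x.1) (yc c) x =
      gV x.1 t (yc c x) :=
    fun x => gsc_eq ht0 (fun x : Vd d × ((I × E d) × E d) => x.1) (yc c) x
  simpa only [eg] using tm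

theorem w_disp (hP : P.Ok d) {j : ℕ} {t l : ℝ} (ht0 : 0 < t) (htT : t ≤ P.T0) (hl0 : 0 < l)
    (hlτ : t * l ≤ P.κ' j) :
    √t * P.h * (P.Qd.Λ * √t * (P.h + |l| * P.Qd.Λ)) ≤
      P.h * P.Qd.Λ * (P.h * P.T0 + P.Qd.Λ * P.κ' j) := by
  have hh := hP.h_pos
  have hΛ := P.Qd.one_le
  have htt : √t ^ 2 = t := Real.sq_sqrt ht0.le
  have e : √t * P.h * (P.Qd.Λ * √t * (P.h + |l| * P.Qd.Λ)) =
      P.h * P.Qd.Λ * (P.h * t + P.Qd.Λ * (t * l)) := by
    rw [abs_of_pos hl0]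
    linear_combination (P.h * P.Qd.Λ * (P.h + l * P.Qd.Λ)) * htt
  rw [e]; gcongr

/-- the centre at the next level -/
noncomputable def cn (P : Par) (c : Vd d × I → E d) (t l r : ℝ)
    (x : Vd d × ((I × E d) × E d)) : E d :=
  yc c x + (√t * P.h) • (Zend P.Qd P.h P.J (gV x.1 t (yc c x)) l
    (Zi c (√t * P.h) (r + P.ρ) P.ρ x)).1

theorem lev_cn (hP : P.Ok d) {j : ℕ} (hj1 : 1 ≤ j) (hj : j ≤ P.jst)
    (hN : ∀ j', j' ≤ j - 1 → NodeSt P d j') (c : Vd d × I → E d) {t l r : ℝ} (ht0 : 0 < t)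
    (htT : t ≤ P.T0) (hl0 : 0 < l) (hlτ : t * l ≤ P.κ' j)
    (hc : Mat P t (j - P.p) c (P.ω j) (P.nn j)) (hr : ∀ x, ‖c x‖ ≤ r)
    (hr0 : 0 ≤ r) (hr2 : r ≤ 2 * P.Rr j) :
    Mat P (t * (1 - P.h ^ 2)) (j - P.p) (cn P c t l r) (P.ω j) (P.nn j) ∧
      ∀ x, ‖cn P c t l r x‖ ≤ r + P.rinc j := by
  have hτ : 0 < √t := Real.sqrt_pos.2 ht0
  have hh := hP.h_pos
  have hh1 := hP.h_le
  have hρ := hP.ρ_pos
  have hRj' := hP.R_nonneg (show j - 1 ≤ P.jst by omega)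
  have ha0 : 0 < √t * P.h := by positivity
  obtain ⟨⟨md, bd⟩, -⟩ := lev_tm hP hj1 hj hN c ht0 htT hl0 hlτ hc hr hr0 hr2
  have hw := w_disp hP ht0 htT hl0 hlτ
  have mP : Measurable fun i : (I × E d) × E d => clip (r + P.ρ) i.1.2 :=
    (measurable_clip (by positivity)).comp (measurable_snd.comp measurable_fst)
  have ec' : cn P c t l r = fun x => clip (r + P.ρ) x.2.1.2 +
      (√t * P.h) • ((Zend P.Qd P.h P.J (gV x.1 t (yc c x)) l
        (Zi c (√t * P.h) (r + P.ρ) P.ρ x)).1 - (Zi c (√t * P.h) (r + P.ρ) P.ρ x).1) := by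
    funext x
    simp only [cn, smul_sub]
    have : (√t * P.h) • (Zi c (√t * P.h) (r + P.ρ) P.ρ x).1 =
        clip (r + P.ρ) x.2.1.2 - yc c x := by
      simp only [Zi, Zc, smul_smul, mul_inv_cancel₀ ha0.ne', one_smul]
    rw [this]
    abel
  have cl := Mat.cls (I := (I × E d) × E d) hP t (j - 1)
  rw [ec']
  constructor
  · have m0 := Mat.explicit (P := P) t (j - 1) mP
    have m1 := cl.add m0 (cl.smul (√t * P.h) md)
    have hs : t ≤ 4 * (t * (1 - P.h ^ 2)) := by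
      have : P.h ^ 2 ≤ 1 / 2 := by nlinarith
      nlinarith
    have m2 := (m1.order (show j - P.p ≤ j - 1 by have := hP.p_pos; omega)).scale hP hs
    refine (Mat.cls hP _ _).mono ?_ ?_ m2
    · rw [zero_add, abs_of_pos ha0]
      have := hP.c6 j hj1 hj
      linarith
    · have h1 := hP.o2
      have h2 := hP.n_anti j P.jst hj le_rfl
      omega
  · intro x
    refine (norm_add_le _ _).trans ?_
    have n2 := norm_clip_le (show 0 ≤ r + P.ρ by positivity) x.2.1.2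
    rw [norm_smul, Real.norm_of_nonneg ha0.le]
    have n3 := mul_le_mul_of_nonneg_left (bd x) ha0.le
    have n4 := mul_le_mul_of_nonneg_right hw (show 0 ≤ 4 * P.Rr (j - 1) by positivity)
    have n5 := hP.c6' j hj1 hj
    linarith

theorem lev_corr (hP : P.Ok d) {j : ℕ} (hj1 : 1 ≤ j) (hj : j ≤ P.jst)
    (hN : ∀ j', j' ≤ j - 1 → NodeSt P d j') (c : Vd d × I → E d) {t β l r : ℝ} (ht0 : 0 < t)
    (htT : t ≤ P.T0) (hβ : 0 < β) (hκ : √t ≤ P.κ' j * β) (hl0 : 0 < l) (hlτ : t * l ≤ P.κ' j)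
    (hc : Mat P t (j - P.p) c (P.ω j) (P.nn j)) (hr : ∀ x, ‖c x‖ ≤ r)
    (hr0 : 0 ≤ r) (hr2 : r ≤ 2 * P.Rr j) :
    Samp ((P.K + 2) ^ 2 * P.qq (j - 1)) (P.χ * P.Qd.Λ ^ 2 * P.e (j - 1))
      fun (V : Vd d) (i : (I × E d) × E d) => gauss (β • i.2 + -(P.χ / √t) •
        corr P.Qd P.h P.J (gV V t (yc c (V, i))) l (l / P.χ)
          (Zi c (√t * P.h) (r + P.ρ) P.ρ (V, i))) β := by
  have hτ : 0 < √t := Real.sqrt_pos.2 ht0
  have hχ := hP.χ_pos
  obtain ⟨-, mc, -⟩ := lev_tm hP hj1 hj hN c ht0 htT hl0 hlτ hc hr hr0 hr2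
  have cl := Mat.cls (I := (I × E d) × E d) hP t (j - 1)
  have mβ : Measurable fun i : (I × E d) × E d => β • i.2 := measurable_snd.const_smul β
  have m0 := Mat.explicit (P := P) t (j - 1) mβ
  have m3 := cl.add m0 (cl.smul (-(P.χ / √t)) mc)
  have ew : 0 + |-(P.χ / √t)| * (P.Qd.Λ ^ 2 * √t) = P.χ * P.Qd.Λ ^ 2 := by
    rw [abs_neg, abs_of_pos (by positivity)]; field_simp; ring
  rw [ew, zero_add] at m3
  exact m3.2 (j - 1) le_rfl β hβ.le (Or.inr (by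
    have := hP.c7 j hj1 hj
    calc P.χ * P.Qd.Λ ^ 2 * √t ≤ P.χ * P.Qd.Λ ^ 2 * (P.κ' j * β) := by gcongr
      _ = P.χ * P.Qd.Λ ^ 2 * P.κ' j * β := by ring
      _ ≤ _ := by gcongr))

theorem rest_lip_g {F : E d × E d → E d} {a β ρ : ℝ} (ha : 0 < a) (hβ : 0 < β) (hρ : 0 < ρ)
    (hF : LipV (12 * a) F) (r : ℝ) (y o : E d) :
    LipV (β + 12 * a) fun g => β • g + F (Zc a r ρ y o g) := by
  intro g g'
  have h1 := hF (Zc a r ρ y o g) (Zc a r ρ y o g')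
  have h2 := Zc_lip_g a r hρ.le y o g g'
  rw [add_sub_add_comm, ← smul_sub]
  refine (norm_add_le _ _).trans ?_
  rw [norm_smul, Real.norm_of_nonneg hβ.le]
  nlinarith

theorem rest_lip_o {F : E d × E d → E d} {a r : ℝ} (ha : 0 < a) (hr : 0 ≤ r)
    (hF : LipV (12 * a) F) (β ρ : ℝ) (y g : E d) :
    LipV 12 fun o => β • g + F (Zc a r ρ y o g) := by
  intro o o'
  have h1 := hF (Zc a r ρ y o g) (Zc a r ρ y o' g)
  have h2 := Zc_lip_o ha hr ρ y g o o'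
  rw [add_sub_add_left_eq_sub]
  refine h1.trans ?_
  calc 12 * a * ‖Zc a r ρ y o g - Zc a r ρ y o' g‖
      ≤ 12 * a * (a⁻¹ * ‖o - o'‖) := by gcongr
    _ = 12 * ‖o - o'‖ := by field_simp

theorem mix_lip {F : E d × E d → E d} {a β r ρ : ℝ} (ha : 0 < a) (hβ : 0 < β) (hr : 0 ≤ r)
    (hρ : 0 < ρ) (hF : LipV (12 * a) F) (σ : ℝ) (y : E d) {ψ : E d → ℝ} (hψ : LipR 1 ψ) :
    LipR 12 fun o => ∫ x, ψ x ∂(mixG (fun g => β • g + F (Zc a r ρ y o g)) σ) := by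
  have e1 : (fun o => ∫ x, ψ x ∂(mixG (fun g => β • g + F (Zc a r ρ y o g)) σ)) = fun o =>
      ∫ g, ∫ ξ, ψ (β • g + F (Zc a r ρ y o g) + σ • ξ) ∂(gam d) ∂(gam d) := by
    funext o
    exact integral_mixG (rest_lip_g ha hβ hρ hF r y o) σ hψ
  have hψ1 := smooth_lip hψ σ
  have lF := LipR.integral_param (L := 1 * 12) (L' := 1 * (β + 12 * a))
    (fun g => hψ1.comp zero_le_one (rest_lip_o ha hr hF β ρ y g))
    (fun o => hψ1.comp zero_le_one (rest_lip_g ha hβ hρ hF r y o))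
  rw [one_mul] at lF
  rw [e1]
  exact lF

end Step

theorem lev_fin (hP : P.Ok d) {j : ℕ} (hj1 : 1 ≤ j) (hj : j ≤ P.jst)
    {I : Type} [MeasurableSpace I] (c : Vd d × I → E d) {t β σ r η : ℝ} {q : ℕ}
    (ht : P.tmin ≤ t) (htT : t ≤ P.T0) (hβ : 0 < β) (hcχ : 2 * √t ≤ P.χ * β)
    (hc : Mat P t (j - P.p) c (P.ω j) (P.nn j)) (hr : ∀ x, ‖c x‖ ≤ r) (hr0 : 0 ≤ r)
    (hr2 : r ≤ 2 * P.Rr j)
    (s3 : Samp q η fun (V : Vd d) (i : (I × E d) × E d) =>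
      gauss (β • i.2 + rest P V t β (c (V, i.1.1))
        (Zc (√t * P.h) (r + P.ρ) P.ρ (c (V, i.1.1)) i.1.2 i.2)) σ) :
    Samp (P.nn j * P.qq (j - P.p) + q)
      (12 * (P.ω j * P.e (j - P.p)) + η + (24 * d / P.ρ + P.eI d j))
      fun V i => gauss (Gt V.1 t (c (V, i))) √(β ^ 2 + σ ^ 2) := by
  have ht0 : 0 < t := lt_of_lt_of_le hP.tmin_pos ht
  have hτ : 0 < √t := Real.sqrt_pos.2 ht0
  have hh := hP.h_pos
  have hρ := hP.ρ_pos
  have ha0 : 0 < √t * P.h := by positivity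
  have hrest := fun V y => rest_lip hP V ht0 htT hβ hcχ y
  have s5 : Samp q η fun (V : Vd d) (i : I × E d) => mixG (fun g => β • g +
      rest P V t β (c (V, i.1)) (Zc (√t * P.h) (r + P.ρ) P.ρ (c (V, i.1)) i.2 g)) σ :=
    Samp.mix (I := I × E d) (L := β + 12 * (√t * P.h)) (by positivity)
      (f := fun V i => β • i.2 + rest P V t β (c (V, i.1.1))
        (Zc (√t * P.h) (r + P.ρ) P.ρ (c (V, i.1.1)) i.1.2 i.2)) s3
      (fun V i => rest_lip_g ha0 hβ hρ (hrest V (c (V, i.1))) (r + P.ρ) (c (V, i.1)) i.2)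
  have s0 := hc.2 (j - P.p) le_rfl (√t * P.h) ha0.le (by
    rcases hP.c1 j hj1 hj with h | h
    · exact Or.inl h
    · right
      calc P.ω j * √t ≤ P.κ (j - P.p) * P.h * √t := by gcongr
        _ = _ := by ring)
  exact Samp.bind (η'' := 24 * d / P.ρ + P.eI d j)
    (ν := fun V i => gauss (Gt V.1 t (c (V, i))) √(β ^ 2 + σ ^ 2)) s0 s5 (L := 12) (by norm_num)
    (fun V i ψ hψ => mix_lip ha0 hβ (by positivity) hρ (hrest V (c (V, i))) σ (c (V, i)) hψ)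
    (fun V i => inferInstance) (fun V i => integrable_norm_gauss _ _)
    (fun V i ψ hψ => level_close hP V hj ht htT hβ hcχ (c (V, i)) (hr (V, i)) hr2 hψ)

theorem rest_eq {I : Type} (c : Vd d × I → E d) (t β r : ℝ) (V : Vd d) (i : (I × E d) × E d) :
    Gt V.1 (t * (1 - P.h ^ 2)) (cn P c t (β * √t)⁻¹ r (V, i)) + (β • i.2 + -(P.χ / √t) •
        corr P.Qd P.h P.J (gV V t (yc c (V, i))) (β * √t)⁻¹ ((β * √t)⁻¹ / P.χ)
          (Zi c (√t * P.h) (r + P.ρ) P.ρ (V, i))) =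
      β • i.2 + rest P V t β (c (V, i.1.1))
        (Zc (√t * P.h) (r + P.ρ) P.ρ (c (V, i.1.1)) i.1.2 i.2) := by
  simp only [rest, cn, yc, Zi, neg_smul]
  abel

theorem lev_step (hP : P.Ok d) {j : ℕ} (hj1 : 1 ≤ j) (hj : j ≤ P.jst)
    (hN : ∀ j', j' ≤ j - 1 → NodeSt P d j') {m : ℕ} (hm : m + 1 ≤ P.nL) (IH : LevSt P d j m) :
    LevSt P d j (m + 1) := by
  intro I _ c t β ht0 htT hlev hβ hκ hc hr
  rcases le_total t P.tmin with ht | ht
  · exact lev_base hP hj1 hj (m + 1) c ht0 ht hc hr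
  have hτ : 0 < √t := Real.sqrt_pos.2 ht0
  have hh := hP.h_pos
  have hh1 := hP.h_le
  have hρ := hP.ρ_pos
  have hrinc := hP.rinc_nonneg j
  have hRj := hP.R_nonneg hj
  have hcχ : 2 * √t ≤ P.χ * β := by
    have := mul_le_mul_of_nonneg_right (hP.c2 j hj1 hj) hβ.le
    linarith
  have hlev1 : 0 < 1 - P.h ^ 2 := by nlinarith
  have ht' : 0 < t * (1 - P.h ^ 2) := mul_pos ht0 hlev1
  have ht't : t * (1 - P.h ^ 2) ≤ t := mul_le_of_le_one_right ht0.le (by linarith [sq_nonneg P.h])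
  obtain ⟨r, hr_def⟩ : ∃ r : ℝ, r = P.Rr j + ((P.nL : ℝ) - ((m + 1 : ℕ) : ℝ)) * P.rinc j :=
    ⟨_, rfl⟩
  rw [← hr_def] at hr
  have hmL : ((m + 1 : ℕ) : ℝ) ≤ P.nL := by exact_mod_cast hm
  have hr0 : 0 ≤ r := by
    have : 0 ≤ ((P.nL : ℝ) - ((m + 1 : ℕ) : ℝ)) * P.rinc j := mul_nonneg (by linarith) hrinc
    linarith
  have hr2 : r ≤ 2 * P.Rr j := by
    have h1 := hP.c5' j hj1 hj
    have h4 : 0 ≤ ((m + 1 : ℕ) : ℝ) * P.rinc j := mul_nonneg (Nat.cast_nonneg _) hrinc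
    linarith
  have n6 : r + P.rinc j = P.Rr j + ((P.nL : ℝ) - m) * P.rinc j := by
    rw [hr_def]; push_cast; ring
  have ha0 : 0 < √t * P.h := by positivity
  have hl0 : 0 < (β * √t)⁻¹ := by positivity
  have hlτ := t_mul_l ht0 hβ hκ
  obtain ⟨mc', bc'⟩ := lev_cn hP hj1 hj hN c ht0 htT hl0 hlτ hc hr hr0 hr2
  rw [n6] at bc'
  have s1 := IH _ _ (t * (1 - P.h ^ 2)) β ht' (ht't.trans htT)
    (by rw [mul_assoc, ← pow_succ']; exact hlev) hβ ((Real.sqrt_le_sqrt ht't).trans hκ) mc' bc'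
  have s2 := lev_corr hP hj1 hj hN c ht0 htT hβ hκ hl0 hlτ hc hr hr0 hr2
  have s3 := s1.add s2
  obtain ⟨σ, hσ⟩ : ∃ σ, σ = √((√(2 * m + 1) * β) ^ 2 + β ^ 2) := ⟨_, rfl⟩
  rw [← hσ] at s3
  simp only [rest_eq] at s3
  have s6 := lev_fin hP hj1 hj c ht htT hβ hcχ hc hr hr0 hr2 s3
  have eσ : √(β ^ 2 + σ ^ 2) = √(2 * ((m + 1 : ℕ) : ℝ) + 1) * β := by
    rw [hσ, Real.sq_sqrt (by positivity), mul_pow, Real.sq_sqrt (by positivity)]
    rw [show β ^ 2 + ((2 * (m : ℝ) + 1) * β ^ 2 + β ^ 2) = (2 * ((m + 1 : ℕ) : ℝ) + 1) * β ^ 2 by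
      push_cast; ring, Real.sqrt_mul (by positivity), Real.sqrt_sq hβ.le]
  rw [eσ] at s6
  refine s6.mono ?_ ?_
  · simp only [Par.q']; ring_nf; omega
  · have := hP.c9 j hj1 hj
    push_cast
    linarith

theorem lev_all (hP : P.Ok d) {j : ℕ} (hj1 : 1 ≤ j) (hj : j ≤ P.jst)
    (hN : ∀ j', j' ≤ j - 1 → NodeSt P d j') : ∀ m, m ≤ P.nL → LevSt P d j m := by
  intro m
  induction m with
  | zero =>
    intro _ I _ c t β ht0 _ hlev _ _ hc hr
    exact lev_base hP hj1 hj 0 c ht0 (by simpa using hlev) hc hr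
  | succ m ih => exact fun hm => lev_step hP hj1 hj hN hm (ih (by omega))

theorem node_zero (hP : P.Ok d) : NodeSt P d 0 := by
  intro I _ c t σ ht0 htT _ _ _ hr
  have s0 := (samp_gauss (d := d) (I := I) (f := fun _ => 0) measurable_const σ).close
    (η' := P.e 0) (κ' := fun V i => gauss (Gt V.1 t (c (V, i))) σ) (fun V i => by
      refine (close_gauss _ _ _).mono ?_
      have hT := hP.T0_le
      have h1 := V.2.pot.norm_Gt_le ht0 (by linarith) (c (V, i))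
      have h2 := hr (V, i)
      have h3 : √(t * d) ≤ 1 / 2 * √d := by
        rw [Real.sqrt_mul ht0.le]
        gcongr
        rw [Real.sqrt_le_iff]; constructor <;> linarith
      have h4 := hP.R_d
      have h5 := hP.R_anti 0 P.jst (Nat.zero_le _) le_rfl
      have h6 := hP.e_zero
      rw [zero_sub, norm_neg]
      linarith)
  exact s0.mono (Nat.zero_le _) (by simp)

theorem node_all (hP : P.Ok d) : ∀ j, j ≤ P.jst → NodeSt P d j := by
  intro j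
  induction j using Nat.strong_induction_on with
  | _ j ih =>
    intro hj
    rcases Nat.eq_zero_or_pos j with rfl | hj1
    · exact node_zero hP
    intro I _ c t σ ht0 htT hσ hκ hc hr
    have hκ' : √t ≤ P.κ j * σ := hκ.resolve_left (by omega)
    have hτ : 0 < √t := Real.sqrt_pos.2 ht0
    have hσ0 : 0 < σ := by
      rcases hσ.eq_or_lt with h | h
      · rw [← h, mul_zero] at hκ'; linarith
      · exact h
    have hq : 0 < √(2 * (P.nL : ℝ) + 1) := Real.sqrt_pos.2 (by positivity)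
    have hh := hP.h_pos
    have hh1 := hP.h_le
    have s := lev_all hP hj1 hj (fun j' h => ih j' (by omega) (by omega)) P.nL le_rfl I c t
      (σ / √(2 * (P.nL : ℝ) + 1)) ht0 htT
      (le_trans (mul_le_mul_of_nonneg_right htT (pow_nonneg (by nlinarith) _)) hP.lev)
      (by positivity) (by rw [Par.κ']; field_simp; exact hκ') hc (by simpa using hr)
    rw [mul_div_cancel₀ _ hq.ne'] at s
    refine s.mono (hP.c11 j hj1 hj) (le_of_eq ?_)
    rw [Par.e']; field_simp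

end Vale.Agent.P347
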