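import Vale.Agent.P347.MatBasic

/-! Analytic core of one level of the node recursion. -/

open MeasureTheory ProbabilityTheory

namespace Vale.Agent.P347

variable {d : ℕ} {P : Par}

theorem Par.Ok.Λ_one (P : Par) : 1 ≤ P.Qd.Λ := P.Qd.one_le

theorem Par.Ok.hs (hP : P.Ok d) : 20 * P.Qd.Λ ^ 2 * P.h ≤ 1 :=
  le_trans (mul_le_mul_of_nonneg_right hP.hCM hP.h_pos.le) hP.hCMh

theorem Par.Ok.h_le (hP : P.Ok d) : P.h ≤ 1 / 20 := by
  have h1 := hP.hs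
  have h2 : 1 ≤ P.Qd.Λ ^ 2 := one_le_pow₀ P.Qd.one_le
  have h3 := hP.h_pos
  nlinarith

theorem Par.Ok.χ_le_one (hP : P.Ok d) : P.χ ≤ 1 := by
  have h2 : 1 ≤ P.Qd.Λ ^ 2 := one_le_pow₀ P.Qd.one_le
  have h3 := hP.χ_pos
  have h4 := hP.χ_le
  nlinarith

theorem Par.Ok.R_nonneg (hP : P.Ok d) {j : ℕ} (hj : j ≤ P.jst) : 0 ≤ P.Rr j :=
  le_trans (le_trans (Real.sqrt_nonneg _) hP.R_d) (hP.R_anti j P.jst hj le_rfl)

theorem Par.Ok.κ'_nonneg (hP : P.Ok d) (j : ℕ) : 0 ≤ P.κ' j :=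
  mul_nonneg (hP.κ_nonneg j) (Real.sqrt_nonneg _)

/-- the scaled force -/
noncomputable def gV (V : Vd d) (t : ℝ) (y : E d) : ℝ × ℝ → E d × E d → E d :=
  gfun (fun u => V.1 (√t • u)) ((√t)⁻¹ • y)

/-- everything but the explicit Gaussian -/
noncomputable def rest (P : Par) (V : Vd d) (t β : ℝ) (y : E d) (Z : E d × E d) : E d :=
  Gt V.1 (t * (1 - P.h ^ 2))
      (y + (√t * P.h) • (Zend P.Qd P.h P.J (gV V t y) (β * √t)⁻¹ Z).1)
    - (P.χ / √t) • corr P.Qd P.h P.J (gV V t y) (β * √t)⁻¹ ((β * √t)⁻¹ / P.χ) Z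

theorem l_small (hP : P.Ok d) {t β : ℝ} (ht : 0 < t) (hβ : 0 < β) (hc : 2 * √t ≤ P.χ * β) :
    |(β * √t)⁻¹| * (2 * t) ≤ 1 ∧ |(β * √t)⁻¹ / P.χ| * (2 * t) ≤ 1 := by
  have hτ : 0 < √t := Real.sqrt_pos.2 ht
  have hχ := hP.χ_pos
  have hχ1 := hP.χ_le_one
  have htt : t = √t * √t := (Real.mul_self_sqrt ht.le).symm
  have e2 : |(β * √t)⁻¹ / P.χ| * (2 * t) = 2 * √t / (P.χ * β) := by
    rw [abs_of_pos (by positivity)]
    conv_lhs => rw [htt]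
    simp only [Real.sqrt_mul_self hτ.le]
    field_simp
  have e1 : |(β * √t)⁻¹| * (2 * t) = 2 * √t / β := by
    rw [abs_of_pos (by positivity)]
    conv_lhs => rw [htt]
    simp only [Real.sqrt_mul_self hτ.le]
    field_simp
  constructor
  · rw [e1, div_le_one hβ]; nlinarith
  · rw [e2, div_le_one (by positivity)]; exact hc

theorem rest_lip (hP : P.Ok d) (V : Vd d) {t β : ℝ} (ht : 0 < t) (htT : t ≤ P.T0) (hβ : 0 < β)
    (hc : 2 * √t ≤ P.χ * β) (y : E d) : LipV (12 * (√t * P.h)) (rest P V t β y) := by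
  have hτ : 0 < √t := Real.sqrt_pos.2 ht
  have hh := hP.h_pos
  have hh1 := hP.h_le
  have hχ := hP.χ_pos
  have hT := hP.T0_le
  obtain ⟨hl, hl'⟩ := l_small hP ht hβ hc
  have hg : GLip (2 * t) (gV V t y) := gfun_glip (pot_scaled ht V) _
  have hε0 : 0 ≤ 2 * t := by positivity
  have hε1 : 2 * t ≤ 1 := by linarith
  have hZ := Zend_lip P.Qd P.J hh hP.hs hε0 hε1 hg hl
  have hC := corr_lip P.Qd P.J hh hP.hs hε0 hε1 hg hl hl'
  have ht' : 0 < t * (1 - P.h ^ 2) := by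
    have : P.h ^ 2 < 1 := by nlinarith
    exact mul_pos ht (by linarith)
  have hG := (V.2.pot).Gt_lip ht'
  intro Z Z'
  set A := Zend P.Qd P.h P.J (gV V t y) (β * √t)⁻¹ with hA
  set B := corr P.Qd P.h P.J (gV V t y) (β * √t)⁻¹ ((β * √t)⁻¹ / P.χ) with hB
  have e : rest P V t β y Z - rest P V t β y Z' =
      (Gt V.1 (t * (1 - P.h ^ 2)) (y + (√t * P.h) • (A Z).1)
        - Gt V.1 (t * (1 - P.h ^ 2)) (y + (√t * P.h) • (A Z').1))
      - (P.χ / √t) • (B Z - B Z') := by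
    simp only [rest, smul_sub, ← hA, ← hB]; abel
  rw [e]
  refine (norm_sub_le _ _).trans ?_
  have h1 := hG (y + (√t * P.h) • (A Z).1) (y + (√t * P.h) • (A Z').1)
  have h2 : ‖y + (√t * P.h) • (A Z).1 - (y + (√t * P.h) • (A Z').1)‖
      ≤ (√t * P.h) * (2 * ‖Z - Z'‖) := by
    rw [add_sub_add_left_eq_sub, ← smul_sub, norm_smul, Real.norm_of_nonneg (by positivity)]
    refine mul_le_mul_of_nonneg_left ?_ (by positivity)
    refine le_trans ?_ (hZ Z Z')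
    exact norm_fst_le (A Z - A Z')
  have h3 : ‖(P.χ / √t) • (B Z - B Z')‖ ≤ 8 * (√t * P.h) * ‖Z - Z'‖ := by
    rw [norm_smul, Real.norm_of_nonneg (by positivity)]
    refine (mul_le_mul_of_nonneg_left (hC Z Z') (by positivity)).trans ?_
    have htt : t = √t * √t := (Real.mul_self_sqrt ht.le).symm
    have e3 : P.χ / √t * (4 * P.Qd.Λ ^ 2 * (2 * t) * P.h * ‖Z - Z'‖)
        = (P.χ * P.Qd.Λ ^ 2) * (8 * (√t * P.h) * ‖Z - Z'‖) := by
      conv_lhs => rw [htt]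
      simp only [Real.sqrt_mul_self hτ.le]
      field_simp
      ring
    rw [e3]
    exact mul_le_of_le_one_left (by positivity) hP.χ_le
  nlinarith [norm_nonneg (Z - Z')]

theorem rest_ideal (hP : P.Ok d) (V : Vd d) {j : ℕ} (hj : j ≤ P.jst) {t β : ℝ} (ht : P.tmin ≤ t)
    (htT : t ≤ P.T0) (hβ : 0 < β) (hc : 2 * √t ≤ P.χ * β) (y : E d) (hy : ‖y‖ ≤ 2 * P.Rr j)
    {ψ : E d → ℝ} (hψ : LipR 1 ψ) :
    |∫ Z, ψ (β • Z.2 + rest P V t β y Z) ∂((gam d).prod (gam d))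
      - ∫ ξ, ψ (Gt V.1 t y + β • ξ) ∂(gam d)| ≤ P.eI d j := by
  have hm := hP.tmin_pos
  have ht0 : 0 < t := lt_of_lt_of_le hm ht
  have hτ : 0 < √t := Real.sqrt_pos.2 ht0
  have hτm : 0 < √P.tmin := Real.sqrt_pos.2 hm
  have hτle : √P.tmin ≤ √t := Real.sqrt_le_sqrt ht
  have hh := hP.h_pos
  have hh1 := hP.h_le
  have hχ := hP.χ_pos
  have hχ1 := hP.χ_le_one
  have hT := hP.T0_le
  have hR := hP.R_nonneg hj
  obtain ⟨hl, hl'⟩ := l_small hP ht0 hβ hc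
  have hψ' : LipR 1 fun x : E d => β⁻¹ * ψ (β • x) := by
    intro x x'
    rw [← mul_sub, abs_mul, abs_of_pos (inv_pos.2 hβ)]
    have := hψ (β • x) (β • x')
    rw [← smul_sub, norm_smul, Real.norm_of_nonneg hβ.le] at this
    calc β⁻¹ * |ψ (β • x) - ψ (β • x')| ≤ β⁻¹ * (1 * (β * ‖x - x'‖)) := by gcongr
      _ = 1 * ‖x - x'‖ := by field_simp
  have hl0 : (β * √t)⁻¹ / P.χ ≠ 0 := by positivity
  have key := hP.main P.J d (2 * t) _ (pot_scaled ht0 V) (by linarith) ((√t)⁻¹ • y) P.h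
    (β * √t)⁻¹ ((β * √t)⁻¹ / P.χ) hh hP.hCMh hl hl' hl0 _ hψ'
  have hlev : 0 < 1 - P.h ^ 2 := by nlinarith
  have htt : √t ^ 2 = t := Real.sq_sqrt ht0.le
  have e1 : ∀ Z : E d × E d,
      β • (Z.2 + (β * √t)⁻¹ • gfun (fun u => V.1 (√t • u)) ((√t)⁻¹ • y) (P.h, 0)
          (Zend P.Qd P.h P.J (gfun (fun u => V.1 (√t • u)) ((√t)⁻¹ • y)) (β * √t)⁻¹ Z)
        - ((β * √t)⁻¹ ^ 2 / ((β * √t)⁻¹ / P.χ)) •
          corr P.Qd P.h P.J (gfun (fun u => V.1 (√t • u)) ((√t)⁻¹ • y)) (β * √t)⁻¹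
            ((β * √t)⁻¹ / P.χ) Z) = β • Z.2 + rest P V t β y Z := by
    intro Z
    simp only [rest, gV]
    set A := Zend P.Qd P.h P.J (gfun (fun u => V.1 (√t • u)) ((√t)⁻¹ • y)) (β * √t)⁻¹ Z
    set B := corr P.Qd P.h P.J (gfun (fun u => V.1 (√t • u)) ((√t)⁻¹ • y)) (β * √t)⁻¹
      ((β * √t)⁻¹ / P.χ) Z
    have e2 : gfun (fun u => V.1 (√t • u)) ((√t)⁻¹ • y) (P.h, 0) A =
        √t • Gt V.1 (t * (1 - P.h ^ 2)) (y + (√t * P.h) • A.1) := by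
      have e3 : lev (P.h, 0) = 1 - P.h ^ 2 := by simp [lev]
      rw [gfun, e3, (V.2.pot).Gt_scale hτ hlev, htt]
      congr 2
      simp only [pt, zero_smul, add_zero, smul_add, smul_smul, mul_inv_cancel₀ hτ.ne', one_smul]
    rw [e2, smul_sub, smul_add, smul_smul, smul_smul, smul_smul, add_sub_assoc]
    have e4 : β * (β * √t)⁻¹ * √t = 1 := by field_simp
    have e5 : β * ((β * √t)⁻¹ ^ 2 / ((β * √t)⁻¹ / P.χ)) = P.χ / √t := by field_simp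
    rw [e4, e5, one_smul]
  have e6 : ∀ ξ : E d, β • (ξ + (β * √t)⁻¹ • Gt (fun u => V.1 (√t • u)) 1 ((√t)⁻¹ • y)) =
      Gt V.1 t y + β • ξ := by
    intro ξ
    rw [(V.2.pot).Gt_scale hτ one_pos, htt, mul_one, smul_smul, smul_smul, smul_add, smul_smul,
      mul_inv_cancel₀ hτ.ne', one_smul, add_comm]
    have e4 : β * ((β * √t)⁻¹ * √t) = 1 := by field_simp
    rw [e4, one_smul]
  simp only [e1, e6, integral_const_mul] at key
  rw [← mul_sub, abs_mul, abs_of_pos (inv_pos.2 hβ), inv_mul_le_iff₀ hβ] at key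
  refine key.trans ?_
  have hCM : 0 ≤ P.CM := le_trans (by positivity) hP.hCM
  have a1 : β * (|(β * √t)⁻¹| + (β * √t)⁻¹ ^ 2 / |(β * √t)⁻¹ / P.χ|) ≤ 2 / √P.tmin := by
    rw [abs_of_pos (by positivity), abs_of_pos (by positivity)]
    have : β * ((β * √t)⁻¹ + (β * √t)⁻¹ ^ 2 / ((β * √t)⁻¹ / P.χ)) = (1 + P.χ) / √t := by
      field_simp
    rw [this]
    gcongr
    linarith
  have a2 : 1 + |(β * √t)⁻¹| + |(β * √t)⁻¹ / P.χ| ≤ 1 + 2 / P.tmin := by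
    have b1 : |(β * √t)⁻¹| ≤ 1 / P.tmin := by
      rw [le_div_iff₀ hm]
      nlinarith [abs_nonneg (β * √t)⁻¹]
    have b2 : |(β * √t)⁻¹ / P.χ| ≤ 1 / P.tmin := by
      rw [le_div_iff₀ hm]
      nlinarith [abs_nonneg ((β * √t)⁻¹ / P.χ)]
    have : 2 / P.tmin = 1 / P.tmin + 1 / P.tmin := by ring
    linarith
  have a3 : ‖(√t)⁻¹ • y‖ ≤ 2 * P.Rr j / √P.tmin := by
    rw [norm_smul, Real.norm_of_nonneg (by positivity), inv_mul_eq_div]
    gcongr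
  rw [Par.eI, ← mul_assoc, ← mul_assoc, ← mul_assoc]
  gcongr

end Vale.Agent.P347
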