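import Vale.Agent.P347.Node1

/-! Removing the clips; the base case of the node recursion. -/

open MeasureTheory ProbabilityTheory

namespace Vale.Agent.P347

variable {d : ℕ} {P : Par}

theorem LipR.comp {X Y : Type*} [NormedAddCommGroup X] [NormedAddCommGroup Y] {L L' : ℝ}
    {ψ : Y → ℝ} {f : X → Y} (hψ : LipR L ψ) (hL : 0 ≤ L) (hf : LipV L' f) :
    LipR (L * L') fun x => ψ (f x) := by
  intro x y
  refine (hψ _ _).trans ?_
  rw [mul_assoc]
  exact mul_le_mul_of_nonneg_left (hf x y) hL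

theorem LipR.integrable_gam {L : ℝ} {ψ : E d → ℝ} (h : LipR L ψ) : Integrable ψ (gam d) :=
  h.pg.integrable_gam h.continuous.aestronglyMeasurable

theorem LipR.integrable_gam2 {L : ℝ} {ψ : E d × E d → ℝ} (h : LipR L ψ) :
    Integrable ψ ((gam d).prod (gam d)) :=
  h.pg.integrable_gam2 h.continuous.aestronglyMeasurable

theorem LipR.integral_param {X : Type*} [NormedAddCommGroup X] {L L' : ℝ} {F : X → E d → ℝ}
    (h1 : ∀ g, LipR L fun o => F o g) (h2 : ∀ o, LipR L' (F o)) :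
    LipR L fun o => ∫ g, F o g ∂(gam d) := by
  intro x y
  rw [← integral_sub (h2 x).integrable_gam (h2 y).integrable_gam]
  have := norm_integral_le_of_norm_le_const (μ := gam d) (f := fun g => F x g - F y g)
    (C := L * ‖x - y‖) (Filter.Eventually.of_forall fun g => h1 g x y)
  simpa using this

theorem lipV_norm_clip {r : ℝ} (hr : 0 ≤ r) (c : E d) (a : ℝ) :
    LipR (2 * |a|) fun ξ : E d => ‖clip r (c + a • ξ) - (c + a • ξ)‖ := by
  intro x y
  refine (abs_norm_sub_norm_le _ _).trans ?_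
  have e : clip r (c + a • x) - (c + a • x) - (clip r (c + a • y) - (c + a • y)) =
      (clip r (c + a • x) - clip r (c + a • y)) - ((c + a • x) - (c + a • y)) := by abel
  rw [e]
  refine (norm_sub_le _ _).trans ?_
  have h1 := clip_lip hr (c + a • x) (c + a • y)
  have h2 : ‖(c + a • x) - (c + a • y)‖ = |a| * ‖x - y‖ := by
    rw [add_sub_add_left_eq_sub, ← smul_sub, norm_smul, Real.norm_eq_abs]
  rw [h2] at h1 ⊢
  linarith

/-- the clipped initial state -/
noncomputable def Zc (a r ρ : ℝ) (y o g : E d) : E d × E d :=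
  (a⁻¹ • (clip r o - y), clip ρ g)

theorem Zc_lip_o {a r : ℝ} (ha : 0 < a) (hr : 0 ≤ r) (ρ : ℝ) (y g : E d) :
    LipV a⁻¹ fun o => Zc a r ρ y o g := by
  intro o o'
  simp only [Zc, Prod.mk_sub_mk, sub_self, Prod.norm_mk, norm_zero]
  rw [← smul_sub, sub_sub_sub_cancel_right, norm_smul, Real.norm_of_nonneg (inv_pos.2 ha).le]
  refine max_le ?_ (by positivity)
  have := clip_lip hr o o'
  rw [one_mul] at this
  gcongr

theorem Zc_lip_g (a r : ℝ) {ρ : ℝ} (hρ : 0 ≤ ρ) (y o : E d) :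
    LipV 1 fun g => Zc a r ρ y o g := by
  intro g g'
  simp only [Zc, Prod.mk_sub_mk, sub_self, Prod.norm_mk, norm_zero]
  exact max_le (by positivity) (clip_lip hρ g g')

theorem Zc_lip2 {a r ρ : ℝ} (ha : 0 < a) (hr : 0 ≤ r) (hρ : 0 ≤ ρ) (y : E d) :
    LipV 1 fun Z : E d × E d => Zc a r ρ y (y + a • Z.1) Z.2 := by
  intro Z Z'
  simp only [Zc, Prod.mk_sub_mk, Prod.norm_mk]
  rw [← smul_sub, sub_sub_sub_cancel_right, norm_smul, Real.norm_of_nonneg (inv_pos.2 ha).le,
    one_mul]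
  refine max_le ?_ ?_
  · have h1 := clip_lip hr (y + a • Z.1) (y + a • Z'.1)
    rw [one_mul, add_sub_add_left_eq_sub, ← smul_sub, norm_smul, Real.norm_of_nonneg ha.le] at h1
    rw [inv_mul_le_iff₀ ha]
    exact h1.trans (mul_le_mul_of_nonneg_left (norm_fst_le (Z - Z')) ha.le)
  · have h1 := clip_lip hρ Z.2 Z'.2
    rw [one_mul] at h1
    exact h1.trans (norm_snd_le (Z - Z'))

theorem integral_Zc_sub {a r ρ : ℝ} (ha : 0 < a) (hρ : 0 < ρ) (y : E d) (hy : ‖y‖ ≤ r) :
    ∫ Z, ‖Zc a (r + ρ) ρ y (y + a • Z.1) Z.2 - Z‖ ∂((gam d).prod (gam d))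
      ≤ (a + 1) * d / ρ := by
  have hr : 0 ≤ r := le_trans (norm_nonneg _) hy
  have i1 : Integrable (fun Z : E d × E d =>
      ‖clip (r + ρ) (y + a • Z.1) - (y + a • Z.1)‖) ((gam d).prod (gam d)) :=
    (lipV_norm_clip (by positivity) y a).integrable_gam.comp_fst _
  have i2 : Integrable (fun Z : E d × E d =>
      ‖clip (0 + ρ) (0 + (1 : ℝ) • Z.2) - (0 + (1 : ℝ) • Z.2)‖) ((gam d).prod (gam d)) :=
    (lipV_norm_clip (by positivity) 0 1).integrable_gam.comp_snd _
  have hle : ∀ Z : E d × E d, ‖Zc a (r + ρ) ρ y (y + a • Z.1) Z.2 - Z‖ ≤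
      a⁻¹ * ‖clip (r + ρ) (y + a • Z.1) - (y + a • Z.1)‖
        + ‖clip (0 + ρ) (0 + (1 : ℝ) • Z.2) - (0 + (1 : ℝ) • Z.2)‖ := by
    intro Z
    obtain ⟨z1, z2⟩ := Z
    simp only [Zc, Prod.mk_sub_mk, Prod.norm_mk, zero_add, one_smul]
    have e : a⁻¹ • (clip (r + ρ) (y + a • z1) - y) - z1 =
        a⁻¹ • (clip (r + ρ) (y + a • z1) - (y + a • z1)) := by
      rw [← sub_sub, smul_sub a⁻¹ _ (a • z1), smul_smul, inv_mul_cancel₀ ha.ne', one_smul]
    rw [e, norm_smul, Real.norm_of_nonneg (inv_pos.2 ha).le]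
    refine max_le (le_add_of_nonneg_right (norm_nonneg _)) (le_add_of_nonneg_left (by positivity))
  refine (integral_mono_of_nonneg (Filter.Eventually.of_forall fun Z => norm_nonneg _)
    ((i1.const_mul _).add i2) (Filter.Eventually.of_forall hle)).trans ?_
  simp only [Pi.add_apply]
  rw [integral_add (i1.const_mul _) i2, integral_const_mul]
  have j1 := integral_clip_gauss hρ y hy a
  have j2 := integral_clip_gauss (r := 0) hρ (0 : E d) (by simp) 1
  rw [integral_fun_fst (fun z : E d => ‖clip (r + ρ) (y + a • z) - (y + a • z)‖),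
    integral_fun_snd (fun z : E d => ‖clip (0 + ρ) (0 + (1 : ℝ) • z) - (0 + (1 : ℝ) • z)‖)]
  simp only [probReal_univ, one_smul] at j2 ⊢
  have : a⁻¹ * (a ^ 2 * d / ρ) + 1 ^ 2 * d / ρ = (a + 1) * d / ρ := by field_simp
  rw [← this]
  gcongr

/-- one level, analytic part -/
theorem level_close (hP : P.Ok d) (V : Vd d) {j : ℕ} (hj : j ≤ P.jst) {t β σ r : ℝ}
    (ht : P.tmin ≤ t) (htT : t ≤ P.T0) (hβ : 0 < β) (hc : 2 * √t ≤ P.χ * β) (y : E d)
    (hy : ‖y‖ ≤ r) (hr : r ≤ 2 * P.Rr j) {ψ : E d → ℝ} (hψ : LipR 1 ψ) :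
    |∫ o, ∫ x, ψ x ∂(mixG (fun g => β • g +
          rest P V t β y (Zc (√t * P.h) (r + P.ρ) P.ρ y o g)) σ) ∂(gauss y (√t * P.h))
      - ∫ x, ψ x ∂(gauss (Gt V.1 t y) √(β ^ 2 + σ ^ 2))| ≤ 24 * d / P.ρ + P.eI d j := by
  have hm := hP.tmin_pos
  have ht0 : 0 < t := lt_of_lt_of_le hm ht
  have hτ : 0 < √t := Real.sqrt_pos.2 ht0
  have hh := hP.h_pos
  have hh1 := hP.h_le
  have hρ := hP.ρ_pos
  have hT := hP.T0_le
  have hr0 : 0 ≤ r := le_trans (norm_nonneg _) hy
  set a := √t * P.h with ha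
  have ha0 : 0 < a := by positivity
  have hτ1 : √t ≤ 1 := Real.sqrt_le_one.2 (by linarith)
  have ha1 : a ≤ 1 := by nlinarith
  have hrest := rest_lip hP V ht0 htT hβ hc y
  rw [← ha] at hrest
  set ψ' : E d → ℝ := fun x => ∫ ξ, ψ (x + σ • ξ) ∂(gam d) with hψ'
  have hψ1 : LipR 1 ψ' := smooth_lip hψ σ
  have lg : ∀ o, LipV (β + 12 * a) fun g => β • g +
      rest P V t β y (Zc a (r + P.ρ) P.ρ y o g) := by
    intro o g g'
    have h1 := hrest (Zc a (r + P.ρ) P.ρ y o g) (Zc a (r + P.ρ) P.ρ y o g')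
    have h2 := Zc_lip_g a (r + P.ρ) hρ.le y o g g'
    rw [add_sub_add_comm, ← smul_sub]
    refine (norm_add_le _ _).trans ?_
    rw [norm_smul, Real.norm_of_nonneg hβ.le]
    nlinarith
  have lo : ∀ g, LipV 12 fun o => β • g + rest P V t β y (Zc a (r + P.ρ) P.ρ y o g) := by
    intro g o o'
    have h1 := hrest (Zc a (r + P.ρ) P.ρ y o g) (Zc a (r + P.ρ) P.ρ y o' g)
    have h2 := Zc_lip_o ha0 (show 0 ≤ r + P.ρ by positivity) P.ρ y g o o'
    rw [add_sub_add_left_eq_sub]
    refine h1.trans ?_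
    calc 12 * a * ‖Zc a (r + P.ρ) P.ρ y o g - Zc a (r + P.ρ) P.ρ y o' g‖
        ≤ 12 * a * (a⁻¹ * ‖o - o'‖) := by gcongr
      _ = 12 * ‖o - o'‖ := by field_simp
  have e1 : ∀ o, ∫ x, ψ x ∂(mixG (fun g => β • g +
      rest P V t β y (Zc a (r + P.ρ) P.ρ y o g)) σ) =
      ∫ g, ψ' (β • g + rest P V t β y (Zc a (r + P.ρ) P.ρ y o g)) ∂(gam d) := fun o =>
    integral_mixG (lg o) σ hψ
  simp only [e1]
  have lF : LipR (1 * 12) fun o =>
      ∫ g, ψ' (β • g + rest P V t β y (Zc a (r + P.ρ) P.ρ y o g)) ∂(gam d) :=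
    LipR.integral_param (L' := 1 * (β + 12 * a)) (fun g => hψ1.comp zero_le_one (lo g))
      (fun o => hψ1.comp zero_le_one (lg o))
  rw [integral_gauss _ _ lF.continuous.aestronglyMeasurable,
    integral_gauss _ _ hψ.continuous.aestronglyMeasurable,
    ← integral_gauss_gauss _ _ _ hψ.continuous hψ.pg]
  have l2 : ∀ {W : E d × E d → E d × E d}, LipV 1 W →
      LipR (1 * (β + 12 * a)) fun Z : E d × E d => ψ' (β • Z.2 + rest P V t β y (W Z)) := by
    intro W hW
    refine hψ1.comp zero_le_one fun Z Z' => ?_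
    have h1 := hrest (W Z) (W Z')
    have h2 := hW Z Z'
    have h3 : ‖Z.2 - Z'.2‖ ≤ ‖Z - Z'‖ := norm_snd_le (Z - Z')
    rw [add_sub_add_comm, ← smul_sub]
    refine (norm_add_le _ _).trans ?_
    rw [norm_smul, Real.norm_of_nonneg hβ.le]
    nlinarith
  have i1 := (l2 (Zc_lip2 ha0 (show 0 ≤ r + P.ρ by positivity) hρ.le y)).integrable_gam2
  have i2 := (l2 (W := fun Z => Z) (fun Z Z' => by simp)).integrable_gam2
  rw [← integral_prod _ i1]
  have k2 := rest_ideal hP V hj ht htT hβ hc y (hy.trans hr) hψ1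
  have k1 : |∫ Z, ψ' (β • Z.2 + rest P V t β y (Zc a (r + P.ρ) P.ρ y (y + a • Z.1) Z.2))
      ∂((gam d).prod (gam d)) - ∫ Z, ψ' (β • Z.2 + rest P V t β y Z) ∂((gam d).prod (gam d))|
      ≤ 24 * d / P.ρ := by
    rw [← integral_sub i1 i2]
    have lz : LipR 2 fun Z : E d × E d => ‖Zc a (r + P.ρ) P.ρ y (y + a • Z.1) Z.2 - Z‖ := by
      intro Z Z'
      refine (abs_norm_sub_norm_le _ _).trans ?_
      rw [sub_sub_sub_comm]
      refine (norm_sub_le _ _).trans ?_
      have := Zc_lip2 ha0 (show 0 ≤ r + P.ρ by positivity) hρ.le y Z Z'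
      linarith
    have hb := norm_integral_le_of_norm_le (μ := (gam d).prod (gam d))
      (f := fun Z => ψ' (β • Z.2 + rest P V t β y (Zc a (r + P.ρ) P.ρ y (y + a • Z.1) Z.2))
        - ψ' (β • Z.2 + rest P V t β y Z))
      (lz.integrable_gam2.const_mul (12 * a)) (Filter.Eventually.of_forall fun Z => by
        refine (hψ1 _ _).trans ?_
        rw [one_mul, add_sub_add_left_eq_sub]
        exact hrest _ _)
    rw [Real.norm_eq_abs, integral_const_mul] at hb
    refine hb.trans ?_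
    have := integral_Zc_sub ha0 hρ y hy
    calc 12 * a * ∫ Z, ‖Zc a (r + P.ρ) P.ρ y (y + a • Z.1) Z.2 - Z‖ ∂((gam d).prod (gam d))
        ≤ 12 * 1 * ((1 + 1) * d / P.ρ) := by
          have h0 : 0 ≤ ∫ Z, ‖Zc a (r + P.ρ) P.ρ y (y + a • Z.1) Z.2 - Z‖
            ∂((gam d).prod (gam d)) := integral_nonneg fun Z => norm_nonneg _
          refine mul_le_mul (by linarith) (this.trans ?_) h0 (by norm_num)
          gcongr
      _ = 24 * d / P.ρ := by ring
  exact (abs_sub_le _ _ _).trans (add_le_add k1 k2)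

variable {I : Type} [MeasurableSpace I]

/-- the base case: at a small level one gradient query at a noisy centre is enough -/
theorem node_base (hP : P.Ok d) {j : ℕ} (hj1 : 1 ≤ j) (hj : j ≤ P.jst) (c : Vd d × I → E d)
    {t σ : ℝ} (ht0 : 0 < t) (ht : t ≤ P.tmin) (hc : Mat P t (j - P.p) c (P.ω j) (P.nn j))
    (hr : ∀ x, ‖c x‖ ≤ 2 * P.Rr j) :
    Samp (P.q' j) (P.e' j) fun V i => gauss (Gt V.1 t (c (V, i))) σ := by
  have hτ : 0 < √t := Real.sqrt_pos.2 ht0
  have hh := hP.h_pos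
  have hh1 := hP.h_le
  have hm := hP.tmin_le
  have s1 := hc.2 (j - P.p) le_rfl (√t * P.h) (by positivity) (by
    rcases hP.c1 j hj1 hj with h | h
    · exact Or.inl h
    · right
      calc P.ω j * √t ≤ P.κ (j - P.p) * P.h * √t := by gcongr
        _ = _ := by ring)
  have s2 : Samp (0 + 1) 0 fun (V : Vd d) (i : I × E d) => gauss (gradient V.1 i.2) σ :=
    Samp.query (samp_gauss (I := (I × E d) × E d) (f := fun i => i.2) measurable_snd σ)
      (x := fun i : I × E d => i.2) measurable_snd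
  have lg : ∀ (V : Vd d) (ψ : E d → ℝ), LipR 1 ψ →
      LipR 2 fun o => ∫ x, ψ x ∂(gauss (gradient V.1 o) σ) := by
    intro V ψ hψ
    have e : (fun o => ∫ x, ψ x ∂(gauss (gradient V.1 o) σ)) =
        fun o => ∫ ξ, ψ (gradient V.1 o + σ • ξ) ∂(gam d) := by
      funext o
      exact integral_gauss _ _ hψ.continuous.aestronglyMeasurable
    rw [e]
    have := (smooth_lip hψ σ).comp zero_le_one (f := gradient V.1) (L' := 2) V.2.pot.lip
    simpa using this
  have s3 := Samp.bind (η'' := 6 * √P.tmin * √d + 16 * P.tmin * P.Rr j)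
    (ν := fun V i => gauss (Gt V.1 t (c (V, i))) σ) s1 s2 (L := 2) (by norm_num)
    (fun V i ψ hψ => lg V ψ hψ) (fun V i => inferInstance)
    (fun V i => integrable_norm_gauss _ _) (by
      intro V i ψ hψ
      set y := c (V, i)
      have l1 := lg V ψ hψ
      rw [integral_gauss _ _ l1.continuous.aestronglyMeasurable]
      have la : LipV (√t * P.h) fun ξ : E d => y + (√t * P.h) • ξ := by
        intro x x'
        rw [add_sub_add_left_eq_sub, ← smul_sub, norm_smul, Real.norm_of_nonneg (by positivity)]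
      have i1 := (l1.comp (by norm_num) la).integrable_gam
      have e0 : ∫ x, ψ x ∂(gauss (Gt V.1 t y) σ) =
          ∫ _ : E d, ∫ x, ψ x ∂(gauss (Gt V.1 t y) σ) ∂(gam d) := by simp
      rw [e0, ← integral_sub i1 (integrable_const _)]
      have hG := V.2.pot.norm_Gt_sub_grad ht0 (by linarith) y
      have hn : LipR 1 fun ξ : E d => ‖ξ‖ := fun x x' => by
        simpa using abs_norm_sub_norm_le x x'
      have hb := norm_integral_le_of_norm_le (μ := gam d)
        (f := fun ξ => ∫ x, ψ x ∂(gauss (gradient V.1 (y + (√t * P.h) • ξ)) σ)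
          - ∫ x, ψ x ∂(gauss (Gt V.1 t y) σ))
        ((hn.integrable_gam.const_mul (2 * (√t * P.h))).add
          (integrable_const (‖Gt V.1 t y - gradient V.1 y‖)))
        (Filter.Eventually.of_forall fun ξ => by
          have h1 := (close_gauss (gradient V.1 (y + (√t * P.h) • ξ)) (Gt V.1 t y) σ).le ψ hψ
          refine h1.trans ?_
          have h2 := V.2.pot.lip (y + (√t * P.h) • ξ) y
          rw [add_sub_cancel_left, norm_smul, Real.norm_of_nonneg (by positivity)] at h2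
          have h3 := norm_sub_le_norm_sub_add_norm_sub (gradient V.1 (y + (√t * P.h) • ξ))
            (gradient V.1 y) (Gt V.1 t y)
          rw [norm_sub_rev (gradient V.1 y)] at h3
          simp only [Pi.add_apply]
          linarith)
      rw [Real.norm_eq_abs] at hb
      refine hb.trans ?_
      simp only [Pi.add_apply]
      rw [integral_add (hn.integrable_gam.const_mul _) (integrable_const _), integral_const_mul]
      simp only [integral_const, probReal_univ, one_smul]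
      have h4 := integral_norm_gam_le (d := d)
      have h5 : √t ≤ √P.tmin := Real.sqrt_le_sqrt ht
      have h6 : √(t * d) ≤ √P.tmin * √d := by
        rw [Real.sqrt_mul ht0.le]; gcongr
      have h7 := hr (V, i)
      have h8 : 2 * (√t * P.h) * ∫ ξ, ‖ξ‖ ∂(gam d) ≤ 2 * (√P.tmin * 1) * √d := by
        have h0 : 0 ≤ ∫ ξ, ‖ξ‖ ∂(gam d) := integral_nonneg fun _ => norm_nonneg _
        gcongr
        linarith
      have h9 : t * 2 * ‖y‖ ≤ P.tmin * 2 * (2 * P.Rr j) := by
        have := hP.tmin_pos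
        gcongr
      nlinarith)
  refine s3.mono ?_ ?_
  · simp only [Par.q']; omega
  · have := hP.c10 j hj1 hj
    linarith

end Vale.Agent.P347
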