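import Vale.Agent.P347.Colloc

/-! TASK TMat: bookkeeping of weights, counts and radii through the templates.
See PROOF.md, section T. -/

namespace Vale.Agent.P347

variable {d K : ℕ} {X : Type}

/-- a class of functions with a weight and a count, closed under linear combinations -/
structure Cls (M : (X → E d) → ℝ → ℕ → Prop) : Prop where
  zero : M (fun _ => 0) 0 0
  add : ∀ {f f' w w' n n'}, M f w n → M f' w' n' → M (fun x => f x + f' x) (w + w') (n + n')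
  smul : ∀ {f w n} (c : ℝ), M f w n → M (fun x => c • f x) (|c| * w) n
  mono : ∀ {f w w' n n'}, w ≤ w' → n ≤ n' → M f w n → M f w' n'

/-- sums of nodes: in the class, and bounded by the weight times `Rg` -/
def Nod (M : (X → E d) → ℝ → ℕ → Prop) (Rg : ℝ) (f : X → E d) (w : ℝ) (n : ℕ) : Prop :=
  M f w n ∧ ∀ x, ‖f x‖ ≤ w * Rg

/-- centre attached to a state and a parameter -/
noncomputable def ctr (τ : ℝ) (y : X → E d) (Z : X → E d × E d) (b : ℝ × ℝ) (x : X) : E d :=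
  y x + τ • (b.1 • (Z x).1 + b.2 • (Z x).2)

/-- the scaled force built from a family of gradient fields -/
noncomputable def gsc (τ : ℝ) (Gr : X → ℝ × ℝ → E d → E d) (y : X → E d) (x : X) (b : ℝ × ℝ)
    (Z : E d × E d) : E d :=
  τ • Gr x b (y x + τ • (b.1 • Z.1 + b.2 • Z.2))

/-- all centres reachable from the state are in the class `Mc` and bounded -/
def Adm (Mc : (X → E d) → ℝ → ℕ → Prop) (τ h : ℝ) (y : X → E d) (Z : X → E d × E d) (w : ℝ)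
    (n : ℕ) (r : ℝ) : Prop :=
  ∀ b : ℝ × ℝ, |b.1| ≤ 2 * h → |b.2| ≤ 2 * h →
    Mc (ctr τ y Z b) w n ∧ ∀ x, ‖ctr τ y Z b x‖ ≤ r

section Aux

variable {Mc Mn : (X → E d) → ℝ → ℕ → Prop} {Rg : ℝ}

theorem Nod.mono (hn : Cls Mn) (hRg : 0 ≤ Rg) {f : X → E d} {w w' : ℝ} {n n' : ℕ}
    (h : Nod Mn Rg f w n) (hw : w ≤ w') (hnn : n ≤ n') : Nod Mn Rg f w' n' :=
  ⟨hn.mono hw hnn h.1, fun x => (h.2 x).trans (mul_le_mul_of_nonneg_right hw hRg)⟩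

theorem Nod.zero (hn : Cls Mn) : Nod Mn Rg (fun _ => 0) 0 0 :=
  ⟨hn.zero, fun _ => by simp⟩

theorem Nod.add (hn : Cls Mn) {f f' : X → E d} {w w' : ℝ} {n n' : ℕ}
    (h : Nod Mn Rg f w n) (h' : Nod Mn Rg f' w' n') :
    Nod Mn Rg (fun x => f x + f' x) (w + w') (n + n') :=
  ⟨hn.add h.1 h'.1, fun x => by
    rw [add_mul]; exact (norm_add_le _ _).trans (add_le_add (h.2 x) (h'.2 x))⟩

theorem Nod.smul (hn : Cls Mn) {f : X → E d} {w : ℝ} {n : ℕ} (c : ℝ)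
    (h : Nod Mn Rg f w n) : Nod Mn Rg (fun x => c • f x) (|c| * w) n :=
  ⟨hn.smul c h.1, fun x => by
    rw [norm_smul, Real.norm_eq_abs, mul_assoc]
    exact mul_le_mul_of_nonneg_left (h.2 x) (abs_nonneg c)⟩

theorem Nod.smul_le (hn : Cls Mn) (hRg : 0 ≤ Rg) {f : X → E d} {w : ℝ} {n : ℕ} {c C : ℝ}
    (h : Nod Mn Rg f w n) (hw : 0 ≤ w) (hc : |c| ≤ C) :
    Nod Mn Rg (fun x => c • f x) (C * w) n :=
  (h.smul hn c).mono hn hRg (mul_le_mul_of_nonneg_right hc hw) le_rfl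

theorem Nod.sum_aux (hn : Cls Mn) {ι : Type} (s : Finset ι) (c : ι → ℝ) {f : ι → X → E d}
    {w : ℝ} {n : ℕ} (h : ∀ j, Nod Mn Rg (f j) w n) :
    Nod Mn Rg (fun x => ∑ j ∈ s, c j • f j x) ((∑ j ∈ s, |c j|) * w) (s.card * n) := by
  classical
  induction s using Finset.induction_on with
  | empty => simpa using Nod.zero hn
  | insert a s ha ih =>
    have := ((h a).smul hn (c a)).add hn ih
    simp only [Finset.sum_insert ha, Finset.card_insert_of_notMem ha]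
    rw [add_mul, add_mul, one_mul, add_comm (s.card * n) n]
    exact this

theorem Nod.sum (hn : Cls Mn) (hRg : 0 ≤ Rg) (c : Fin (K + 1) → ℝ) {L : ℝ}
    (hc : ∑ j, |c j| ≤ L) {f : Fin (K + 1) → X → E d} {w : ℝ} {n : ℕ} (hw : 0 ≤ w)
    (h : ∀ j, Nod Mn Rg (f j) w n) :
    Nod Mn Rg (fun x => ∑ j, c j • f j x) (L * w) ((K + 1) * n) :=
  (Nod.sum_aux hn Finset.univ c h).mono hn hRg (mul_le_mul_of_nonneg_right hc hw) (by simp)

/-- the state is admissible with spare weight `δ` and spare count `m` -/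
def Fit (Mc : (X → E d) → ℝ → ℕ → Prop) (τ h : ℝ) (y : X → E d) (W Rc Rg : ℝ) (N : ℕ)
    (Z : X → E d × E d) (δ : ℝ) (m : ℕ) : Prop :=
  ∃ (w r : ℝ) (n : ℕ), Adm Mc τ h y Z w n r ∧ w + δ ≤ W ∧ n + m ≤ N ∧ r + δ * Rg ≤ Rc

variable {τ h W Rc : ℝ} {N : ℕ} {y : X → E d}

theorem Fit.mono (hRg : 0 ≤ Rg) {Z : X → E d × E d} {δ δ' : ℝ} {m m' : ℕ}
    (hZ : Fit Mc τ h y W Rc Rg N Z δ m) (hδ : δ' ≤ δ) (hm : m' ≤ m) :
    Fit Mc τ h y W Rc Rg N Z δ' m' := by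
  obtain ⟨w, r, n, h1, h2, h3, h4⟩ := hZ
  refine ⟨w, r, n, h1, by linarith, by omega, ?_⟩
  have := mul_le_mul_of_nonneg_right hδ hRg
  linarith

theorem Fit.step (hc : Cls Mc) (hn : Cls Mn) (hnc : ∀ f w n, Mn f w n → Mc f w n)
    (hτ : 0 < τ) (hRg : 0 ≤ Rg) {Z Z' : X → E d × E d} {δ w' : ℝ} {m n' : ℕ} (hw' : 0 ≤ w')
    (hZ : Fit Mc τ h y W Rc Rg N Z (δ + 4 * h * τ * w') (m + 2 * n'))
    (h1 : Nod Mn Rg (fun x => (Z' x).1 - (Z x).1) w' n')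
    (h2 : Nod Mn Rg (fun x => (Z' x).2 - (Z x).2) w' n') :
    Fit Mc τ h y W Rc Rg N Z' δ m := by
  obtain ⟨w, r, n, hA, hw, hN, hr⟩ := hZ
  refine ⟨w + 4 * h * τ * w', r + 4 * h * τ * w' * Rg, n + 2 * n', ?_, by linarith, by omega,
    by linarith⟩
  intro b hb1 hb2
  obtain ⟨hM, hB⟩ := hA b hb1 hb2
  have hD : Nod Mn Rg (fun x => τ • (b.1 • ((Z' x).1 - (Z x).1) + b.2 • ((Z' x).2 - (Z x).2)))
      (4 * h * τ * w') (2 * n') := by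
    have := ((h1.smul_le hn hRg hw' hb1).add hn (h2.smul_le hn hRg hw' hb2)).smul hn τ
    refine this.mono hn hRg (le_of_eq ?_) (by omega)
    rw [abs_of_pos hτ]; ring
  have he : ctr τ y Z' b = fun x => ctr τ y Z b x +
      τ • (b.1 • ((Z' x).1 - (Z x).1) + b.2 • ((Z' x).2 - (Z x).2)) := by
    funext x
    simp only [ctr]
    module
  rw [he]
  exact ⟨hc.add hM (hnc _ _ _ hD.1), fun x =>
    (norm_add_le _ _).trans (add_le_add (hB x) (hD.2 x))⟩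

theorem Fit.force (hc : Cls Mc) (hn : Cls Mn) (hτ : 0 < τ)
    {Gr : X → ℝ × ℝ → E d → E d}
    (node : ∀ b : ℝ × ℝ, |b.1| ≤ 2 * h → |b.2| ≤ 2 * h → ∀ c : X → E d, Mc c W N →
      (∀ x, ‖c x‖ ≤ Rc) → Nod Mn Rg (fun x => Gr x b (c x)) 1 1)
    {Z : X → E d × E d} (hZ : Fit Mc τ h y W Rc Rg N Z 0 0) {b : ℝ × ℝ} (hb1 : |b.1| ≤ 2 * h)
    (hb2 : |b.2| ≤ 2 * h) : Nod Mn Rg (fun x => gsc τ Gr y x b (Z x)) τ 1 := by
  obtain ⟨w, r, n, hA, hw, hN, hr⟩ := hZ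
  obtain ⟨hM, hB⟩ := hA b hb1 hb2
  have h1 := node b hb1 hb2 (ctr τ y Z b) (hc.mono (by linarith) (by omega) hM)
    fun x => (hB x).trans (by linarith)
  have h2 := h1.smul hn τ
  rw [abs_of_pos hτ, mul_one] at h2
  exact h2

theorem Fit.pic (Qd : Quad K) (hc : Cls Mc) (hn : Cls Mn) (hnc : ∀ f w n, Mn f w n → Mc f w n)
    (hτ : 0 < τ) (hh : 0 < h) (hRg : 0 ≤ Rg) (a b : ℝ × ℝ)
    (v : X → ℝ × ℝ → E d × E d → E d × E d) {δ wv : ℝ} {m nv : ℕ} (hwv : 0 ≤ wv)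
    (hv : ∀ (j : Fin (K + 1)) (Z' : X → E d × E d), Fit Mc τ h y W Rc Rg N Z' δ m →
      Nod Mn Rg (fun x => (v x (b + (h * nd K j) • a) (Z' x)).1) wv nv ∧
      Nod Mn Rg (fun x => (v x (b + (h * nd K j) • a) (Z' x)).2) wv nv)
    {Z : X → E d × E d}
    (hZ : Fit Mc τ h y W Rc Rg N Z (δ + 4 * h * τ * (h * (Qd.Λ * wv))) (m + 2 * ((K + 1) * nv)))
    (n : ℕ) (i : Fin (K + 1)) :
    (Nod Mn Rg (fun x => (pic Qd h a (v x) b (Z x) n i).1 - (Z x).1) (h * (Qd.Λ * wv))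
        ((K + 1) * nv) ∧
      Nod Mn Rg (fun x => (pic Qd h a (v x) b (Z x) n i).2 - (Z x).2) (h * (Qd.Λ * wv))
        ((K + 1) * nv)) ∧
      Fit Mc τ h y W Rc Rg N (fun x => pic Qd h a (v x) b (Z x) n i) δ m := by
  have hΛ : 0 ≤ Qd.Λ := zero_le_one.trans Qd.one_le
  have hw : 0 ≤ h * (Qd.Λ * wv) := by positivity
  induction n generalizing i with
  | zero =>
    have h0 : Nod Mn Rg (fun _ => (0 : E d)) (h * (Qd.Λ * wv)) ((K + 1) * nv) :=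
      (Nod.zero hn).mono hn hRg hw (Nat.zero_le _)
    have h1 : Nod Mn Rg (fun x => (P347.pic Qd h a (v x) b (Z x) 0 i).1 - (Z x).1)
        (h * (Qd.Λ * wv)) ((K + 1) * nv) := by simpa [P347.pic] using h0
    have h2 : Nod Mn Rg (fun x => (P347.pic Qd h a (v x) b (Z x) 0 i).2 - (Z x).2)
        (h * (Qd.Λ * wv)) ((K + 1) * nv) := by simpa [P347.pic] using h0
    exact ⟨⟨h1, h2⟩, hZ.step hc hn hnc hτ hRg hw h1 h2⟩
  | succ n ih =>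
    have g1 := (Nod.sum hn hRg (Qd.a i) (Qd.ha i) hwv fun j => (hv j _ (ih j).2).1).smul hn h
    have g2 := (Nod.sum hn hRg (Qd.a i) (Qd.ha i) hwv fun j => (hv j _ (ih j).2).2).smul hn h
    rw [abs_of_pos hh] at g1 g2
    have h1 : Nod Mn Rg (fun x => (P347.pic Qd h a (v x) b (Z x) (n + 1) i).1 - (Z x).1)
        (h * (Qd.Λ * wv)) ((K + 1) * nv) := by
      simpa [P347.pic, Prod.fst_sum] using g1
    have h2 : Nod Mn Rg (fun x => (P347.pic Qd h a (v x) b (Z x) (n + 1) i).2 - (Z x).2)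
        (h * (Qd.Λ * wv)) ((K + 1) * nv) := by
      simpa [P347.pic, Prod.snd_sum] using g2
    exact ⟨⟨h1, h2⟩, hZ.step hc hn hnc hτ hRg hw h1 h2⟩

theorem abs_shift {h u c : ℝ} (hh : 0 < h) (hu : |u| ≤ h) (hc : |c| ≤ 1) (j : Fin (K + 1)) :
    |u + h * nd K j * c| ≤ 2 * h := by
  have h1 : |h * nd K j * c| ≤ h := by
    rw [abs_mul, abs_mul, abs_of_pos hh, abs_of_nonneg (nd_nonneg j)]
    calc h * nd K j * |c| ≤ h * 1 * 1 := by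
          gcongr
          exact nd_le_one j
      _ = h := by ring
  have := abs_add_le u (h * nd K j * c)
  linarith

theorem abs_eb (m : Fin 2) : |(eb m).1| ≤ 1 ∧ |(eb m).2| ≤ 1 := by
  fin_cases m <;> simp [eb, sel]

end Aux

theorem tmat (Qd : Quad K) (J : ℕ) {Mc Mn : (X → E d) → ℝ → ℕ → Prop} (hc : Cls Mc) (hn : Cls Mn)
    (hnc : ∀ f w n, Mn f w n → Mc f w n) {τ h l l' W Rc Rg w₀ r₀ : ℝ} {N n₀ : ℕ}
    (hτ : 0 < τ) (hh : 0 < h) (hRg : 0 ≤ Rg) (Gr : X → ℝ × ℝ → E d → E d) (y : X → E d)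
    (node : ∀ b : ℝ × ℝ, |b.1| ≤ 2 * h → |b.2| ≤ 2 * h → ∀ c : X → E d, Mc c W N →
      (∀ x, ‖c x‖ ≤ Rc) → Nod Mn Rg (fun x => Gr x b (c x)) 1 1)
    (Z : X → E d × E d) (hZ : Adm Mc τ h y Z w₀ n₀ r₀)
    (hW : w₀ + 4 * h * Qd.Λ * τ ^ 2 * (3 * h + (|l| + |l'|) * Qd.Λ) ≤ W)
    (hN : n₀ + 6 * (K + 2) ^ 2 ≤ N)
    (hR : r₀ + 4 * h * Qd.Λ * τ ^ 2 * (3 * h + (|l| + |l'|) * Qd.Λ) * Rg ≤ Rc) :
    Nod Mn Rg (fun x => (Zend Qd h J (gsc τ Gr y x) l (Z x)).1 - (Z x).1)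
        (Qd.Λ * τ * (h + |l| * Qd.Λ)) ((K + 2) ^ 2) ∧
      Nod Mn Rg (fun x => corr Qd h J (gsc τ Gr y x) l l' (Z x)) (Qd.Λ ^ 2 * τ) ((K + 2) ^ 2) := by
  have hΛ1 := Qd.one_le
  have hΛ : 0 ≤ Qd.Λ := zero_le_one.trans hΛ1
  have hg : ∀ {Z : X → E d × E d}, Fit Mc τ h y W Rc Rg N Z 0 0 → ∀ {b : ℝ × ℝ},
      |b.1| ≤ 2 * h → |b.2| ≤ 2 * h → Nod Mn Rg (fun x => gsc τ Gr y x b (Z x)) τ 1 :=
    fun hZ _ hb1 hb2 => hZ.force hc hn hτ node hb1 hb2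
  set δD : ℝ := 4 * h * τ * (h * (Qd.Λ * τ)) with hδD
  have hδD0 : 0 ≤ δD := by positivity
  have hD : ∀ (m : Fin 2) {Z : X → E d × E d}, Fit Mc τ h y W Rc Rg N Z δD (2 * (K + 1)) →
      ∀ {b : ℝ × ℝ}, |b.1| ≤ h → |b.2| ≤ h →
      Nod Mn Rg (fun x => Dhat Qd h J (gsc τ Gr y x) m b (Z x)) (h⁻¹ * (Qd.Λ * τ)) (K + 1) := by
    intro m Z hZ b hb1 hb2
    have hs : ∀ j : Fin (K + 1), |(b + (h * nd K j) • eb m).1| ≤ 2 * h ∧
        |(b + (h * nd K j) • eb m).2| ≤ 2 * h := fun j =>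
      ⟨abs_shift hh hb1 (abs_eb m).1 j, abs_shift hh hb2 (abs_eb m).2 j⟩
    have hp := fun i => Fit.pic Qd hc hn hnc hτ hh hRg (eb m) b
      (fun x => v0 (gsc τ Gr y x) (eb m)) (δ := 0) (wv := τ) (m := 0) (nv := 1) hτ.le
      (fun j Z' hZ' => by
        have h0 := hg hZ' (hs j).1 (hs j).2
        have h1 := h0.smul_le hn hRg (c := -(eb m).1) (C := 1) hτ.le (by rw [abs_neg]; exact (abs_eb m).1)
        have h2 := h0.smul_le hn hRg (c := -(eb m).2) (C := 1) hτ.le (by rw [abs_neg]; exact (abs_eb m).2)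
        rw [one_mul] at h1 h2
        exact ⟨by simpa [v0] using h1, by simpa [v0] using h2⟩)
      (Z := Z) (by simpa using hZ) J i
    have := (Nod.sum hn hRg Qd.c Qd.hc hτ.le
      fun i => hg (hp i).2 (hs i).1 (hs i).2).smul hn h⁻¹
    rw [abs_of_pos (inv_pos.2 hh), mul_one] at this
    exact this
  have hV : ∀ (a : ℝ × ℝ) (l : ℝ), |a.1| ≤ 1 → |a.2| ≤ 1 → ∀ {Z : X → E d × E d},
      Fit Mc τ h y W Rc Rg N Z δD (2 * (K + 1)) → ∀ {b : ℝ × ℝ}, |b.1| ≤ h → |b.2| ≤ h →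
      Nod Mn Rg (fun x => (vf Qd h J (gsc τ Gr y x) a l b (Z x)).1)
        (τ + |l| * (h⁻¹ * (Qd.Λ * τ))) (K + 2) ∧
      Nod Mn Rg (fun x => (vf Qd h J (gsc τ Gr y x) a l b (Z x)).2)
        (τ + |l| * (h⁻¹ * (Qd.Λ * τ))) (K + 2) := by
    intro a l ha1 ha2 Z hZ b hb1 hb2
    have h0 := hg (hZ.mono hRg hδD0 (Nat.zero_le _)) (b := b) (by linarith) (by linarith)
    have h1 := h0.smul_le hn hRg (c := -a.1) (C := 1) hτ.le (by rw [abs_neg]; exact ha1)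
    have h2 := h0.smul_le hn hRg (c := -a.2) (C := 1) hτ.le (by rw [abs_neg]; exact ha2)
    have h3 := h1.add hn ((hD 1 hZ hb1 hb2).smul hn (-l))
    have h4 := h2.add hn ((hD 0 hZ hb1 hb2).smul hn l)
    rw [one_mul, show 1 + (K + 1) = K + 2 by ring] at h3 h4
    rw [abs_neg] at h3
    exact ⟨by simpa [vf, sub_eq_add_neg] using h3, by simpa [vf] using h4⟩
  have hwv : ∀ l : ℝ, 0 ≤ τ + |l| * (h⁻¹ * (Qd.Λ * τ)) := fun l => by positivity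
  have hwe : ∀ l : ℝ, h * (Qd.Λ * (τ + |l| * (h⁻¹ * (Qd.Λ * τ)))) =
      Qd.Λ * τ * (h + |l| * Qd.Λ) := fun l => by field_simp
  set δA : ℝ := δD + 4 * h * τ * (h * (Qd.Λ * (τ + |l'| * (h⁻¹ * (Qd.Λ * τ))))) with hδA
  have hδA0 : δD ≤ δA := by
    rw [hδA]
    have := hwv l'
    have : 0 ≤ 4 * h * τ * (h * (Qd.Λ * (τ + |l'| * (h⁻¹ * (Qd.Λ * τ))))) := by positivity
    linarith
  have hA : ∀ {Z : X → E d × E d},
      Fit Mc τ h y W Rc Rg N Z δA (2 * (K + 1) + 2 * ((K + 1) * (K + 2))) →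
      ∀ {b : ℝ × ℝ}, |b.1| ≤ h → |b.2| ≤ h →
      Nod Mn Rg (fun x => Ahat Qd h J (gsc τ Gr y x) l' b (Z x)) (h⁻¹ * (Qd.Λ * τ)) (K + 1) := by
    intro Z hZ b hb1 hb2
    have hp := fun i => Fit.pic Qd hc hn hnc hτ hh hRg 0 b
      (fun x => vf Qd h J (gsc τ Gr y x) 0 l') (δ := δD) (m := 2 * (K + 1)) (nv := K + 2) (hwv l')
      (fun j Z' hZ' => hV 0 l' (by simp) (by simp) hZ' (by simpa using hb1) (by simpa using hb2))
      (Z := Z) hZ J i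
    have := (Nod.sum hn hRg Qd.c Qd.hc hτ.le
      fun i => hg ((hp i).2.mono hRg hδD0 (Nat.zero_le _)) (b := b + (h * nd K i) • (0 : ℝ × ℝ))
        (by simp; linarith) (by simp; linarith)).smul hn h⁻¹
    rw [abs_of_pos (inv_pos.2 hh), mul_one] at this
    exact this
  have hs : ∀ j : Fin (K + 1), |((0 : ℝ × ℝ) + (h * nd K j) • ((1, 0) : ℝ × ℝ)).1| ≤ h ∧
      |((0 : ℝ × ℝ) + (h * nd K j) • ((1, 0) : ℝ × ℝ)).2| ≤ h := fun j => by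
    refine ⟨?_, by simpa using hh.le⟩
    simp only [zero_add, Prod.smul_mk, smul_eq_mul, mul_one]
    rw [abs_mul, abs_of_pos hh, abs_of_nonneg (nd_nonneg j)]
    exact mul_le_of_le_one_right hh.le (nd_le_one j)
  have hbud : δA + 4 * h * τ * (h * (Qd.Λ * (τ + |l| * (h⁻¹ * (Qd.Λ * τ))))) =
      4 * h * Qd.Λ * τ ^ 2 * (3 * h + (|l| + |l'|) * Qd.Λ) := by
    rw [hδA, hδD, hwe, hwe]; ring
  have hZ' : Fit Mc τ h y W Rc Rg N Z
      (δA + 4 * h * τ * (h * (Qd.Λ * (τ + |l| * (h⁻¹ * (Qd.Λ * τ))))))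
      (2 * (K + 1) + 2 * ((K + 1) * (K + 2)) + 2 * ((K + 1) * (K + 2))) := by
    rw [hbud]
    exact ⟨w₀, r₀, n₀, hZ, hW, by nlinarith, hR⟩
  have hp := fun i => Fit.pic Qd hc hn hnc hτ hh hRg (1, 0) 0
    (fun x => vf Qd h J (gsc τ Gr y x) (1, 0) l) (δ := δA)
    (m := 2 * (K + 1) + 2 * ((K + 1) * (K + 2))) (nv := K + 2) (hwv l)
    (fun j Z' hZ' => hV (1, 0) l (by simp) (by simp) (hZ'.mono hRg hδA0 (by omega))
      (hs j).1 (hs j).2)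
    (Z := Z) hZ' J i
  refine ⟨((hp (Fin.last K)).1.1).mono hn hRg (hwe l).le (by nlinarith), ?_⟩
  have := (Nod.sum hn hRg (Qd.a (Fin.last K)) (Qd.ha _) (by positivity)
    fun i => hA (hp i).2 (hs i).1 (hs i).2).smul hn h
  refine Nod.mono hn hRg this (le_of_eq ?_) (by nlinarith)
  rw [abs_of_pos hh]
  field_simp

end Vale.Agent.P347
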