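import Vale.Agent.P347.Prog
import Vale.Agent.P347.TMat
import Vale.Agent.P347.Ideal

/-! Parameters of the recursion and the statements `Mat`, `NodeSt`. -/

open MeasureTheory ProbabilityTheory

namespace Vale.Agent.P347

/-- conclusion of `ideal_main` for the constant `C` -/
def IdealMain {K : ℕ} (Qd : Quad K) (C : ℝ) : Prop :=
  ∀ (J d : ℕ) (ε : ℝ) (U : E d → ℝ), Pot 0 ε U → ε ≤ 1 / 2 →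
    ∀ (y : E d) (h l l' : ℝ), 0 < h → C * h ≤ 1 → |l| * ε ≤ 1 → |l'| * ε ≤ 1 → l' ≠ 0 →
    ∀ ψ : E d → ℝ, LipR 1 ψ →
      |∫ Z, ψ (Z.2 + l • gfun U y (h, 0) (Zend Qd h J (gfun U y) l Z)
            - (l ^ 2 / l') • corr Qd h J (gfun U y) l l' Z) ∂((gam d).prod (gam d))
        - ∫ ξ, ψ (ξ + l • Gt U 1 y) ∂(gam d)|
      ≤ (|l| + l ^ 2 / |l'|) * (C / h ^ 2) * (1 + |l| + |l'|) *
          ((C * h) ^ J * (‖y‖ + √d) + h ^ (K + 1) * √d)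

/-- conclusion of `ideal_step` for the constant `C` -/
def IdealStep {K : ℕ} (Qd : Quad K) (C : ℝ) : Prop :=
  ∀ (J d : ℕ) (ε : ℝ) (U : E d → ℝ), Pot 0 ε U → ε ≤ 1 / 2 →
    ∀ (y : E d) (h : ℝ), 0 < h → C * h ≤ 1 →
    ∀ ψ : E d → ℝ, LipR 1 ψ →
      |∫ Z, ψ (y + h • (Zend Qd h J (gfun U y) 0 Z).1) ∂((gam d).prod (gam d))
        - ∫ Z, ψ (y + h • Z.1) ∂(PiM U y (h, 0))|
      ≤ (C / h ^ 2) * ((C * h) ^ J * (‖y‖ + √d) + h ^ (K + 1) * √d)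

/-- all parameters of the algorithm -/
structure Par where
  K : ℕ
  Qd : Quad K
  J : ℕ
  CM : ℝ
  CS : ℝ
  h : ℝ
  tmin : ℝ
  T0 : ℝ
  χ : ℝ
  ρ : ℝ
  Rs : ℝ
  σf : ℝ
  p : ℕ
  nL : ℕ
  jst : ℕ
  nup : ℕ
  ndown : ℕ
  κ : ℕ → ℝ
  e : ℕ → ℝ
  ω : ℕ → ℝ
  Rr : ℕ → ℝ
  rinc : ℕ → ℝ
  nn : ℕ → ℕ
  qq : ℕ → ℕ

namespace Par

variable (P : Par)

noncomputable def κ' (j : ℕ) : ℝ := P.κ j * √(2 * P.nL + 1)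
noncomputable def e' (j : ℕ) : ℝ := P.e j / (P.nL + 1)
def q' (j : ℕ) : ℕ := P.nn j * P.qq (j - P.p) + (P.K + 2) ^ 2 * P.qq (j - 1) + 1
/-- weight budget of the templates at order `j` -/
noncomputable def wT (j : ℕ) : ℝ :=
  4 * P.h * P.Qd.Λ * (3 * P.h * P.T0 + 2 * P.Qd.Λ * P.κ' j / P.χ)
/-- error of the ideal circuits at order `j` -/
noncomputable def eI (d j : ℕ) : ℝ :=
  2 / √P.tmin * (P.CM / P.h ^ 2) * (1 + 2 / P.tmin) *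
    ((P.CM * P.h) ^ P.J * (2 * P.Rr j / √P.tmin + √d) + P.h ^ (P.K + 1) * √d)
/-- error of one step of the outer chain -/
noncomputable def eS (d : ℕ) : ℝ :=
  P.Qd.Λ * P.T0 * P.h ^ 2 * P.e P.jst + 4 * d / P.ρ
    + P.CS / P.h ^ 2 * ((P.CS * P.h) ^ P.J * (P.Rs + √d) + P.h ^ (P.K + 1) * √d) + 4 * d / P.Rs
/-- total number of queries -/
def cost : ℕ := (P.nup + P.ndown) * ((P.K + 2) ^ 2 * P.qq P.jst)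

/-- the inequalities between the parameters -/
structure Ok (d : ℕ) : Prop where
  hK : 1 ≤ P.K
  main : IdealMain P.Qd P.CM
  step : IdealStep P.Qd P.CS
  hCM : 20 * P.Qd.Λ ^ 2 ≤ P.CM
  hCMh : P.CM * P.h ≤ 1
  hCSh : P.CS * P.h ≤ 1
  hCS : 0 ≤ P.CS
  h_pos : 0 < P.h
  tmin_pos : 0 < P.tmin
  tmin_le : P.tmin ≤ 1 / 4
  T0_pos : 0 < P.T0
  T0_le : P.T0 ≤ 1 / 4
  χ_pos : 0 < P.χ
  χ_le : P.χ * P.Qd.Λ ^ 2 ≤ 1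
  ρ_pos : 0 < P.ρ
  Rs_pos : 0 < P.Rs
  σf_pos : 0 < P.σf
  p_pos : 1 ≤ P.p
  jst_pos : 1 ≤ P.jst
  lev : P.T0 * (1 - P.h ^ 2) ^ P.nL ≤ P.tmin
  κ_nonneg : ∀ j, 0 ≤ P.κ j
  e_nonneg : ∀ j, 0 ≤ P.e j
  ω_nonneg : ∀ j, 0 ≤ P.ω j
  rinc_nonneg : ∀ j, 0 ≤ P.rinc j
  ω_anti : ∀ i j, i ≤ j → j ≤ P.jst → P.ω j ≤ P.ω i
  R_anti : ∀ i j, i ≤ j → j ≤ P.jst → P.Rr j ≤ P.Rr i
  n_anti : ∀ i j, i ≤ j → j ≤ P.jst → P.nn j ≤ P.nn i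
  R_d : √d ≤ P.Rr P.jst
  e_zero : 4 * P.Rr 0 ≤ P.e 0
  c1 : ∀ j, 1 ≤ j → j ≤ P.jst → j - P.p = 0 ∨ P.ω j ≤ P.κ (j - P.p) * P.h
  c2 : ∀ j, 1 ≤ j → j ≤ P.jst → 2 * P.κ' j ≤ P.χ
  c3 : ∀ j, 1 ≤ j → j ≤ P.jst → 3 * P.ω j + P.wT j ≤ P.ω (j - 1) / 2
  c4 : ∀ j, 1 ≤ j → j ≤ P.jst → P.nn j + 6 * (P.K + 2) ^ 2 ≤ P.nn (j - 1)
  c5 : ∀ j, 1 ≤ j → j ≤ P.jst →
    10 * P.Rr j + 3 * P.ρ + P.wT j * (4 * P.Rr (j - 1)) ≤ P.Rr (j - 1)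
  c5' : ∀ j, 1 ≤ j → j ≤ P.jst → P.nL * P.rinc j ≤ P.Rr j
  c6 : ∀ j, 1 ≤ j → j ≤ P.jst →
    2 * P.h * P.Qd.Λ * (P.h * P.T0 + P.Qd.Λ * P.κ' j) ≤ P.ω j
  c6' : ∀ j, 1 ≤ j → j ≤ P.jst →
    P.ρ + P.h * P.Qd.Λ * (P.h * P.T0 + P.Qd.Λ * P.κ' j) * (4 * P.Rr (j - 1)) ≤ P.rinc j
  c7 : ∀ j, 1 ≤ j → j ≤ P.jst → P.χ * P.Qd.Λ ^ 2 * P.κ' j ≤ P.κ (j - 1)
  c9 : ∀ j, 1 ≤ j → j ≤ P.jst →
    12 * (P.ω j * P.e (j - P.p)) + P.χ * P.Qd.Λ ^ 2 * P.e (j - 1) + 24 * d / P.ρ + P.eI d j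
      ≤ P.e' j
  c10 : ∀ j, 1 ≤ j → j ≤ P.jst →
    2 * (P.ω j * P.e (j - P.p)) + 6 * √P.tmin * √d + 16 * P.tmin * P.Rr j ≤ P.e' j
  c11 : ∀ j, 1 ≤ j → j ≤ P.jst → (P.nL + 1) * P.q' j ≤ P.qq j
  o1 : 12 * P.h ^ 2 * P.Qd.Λ * P.T0 ≤ P.ω P.jst / 2
  o2 : 6 * (P.K + 2) ^ 2 ≤ P.nn P.jst
  o3 : P.Rs + P.ρ + 12 * P.h ^ 2 * P.Qd.Λ * P.T0 * (4 * P.Rr P.jst) ≤ P.Rr P.jst
  o4 : 2 * P.Qd.Λ * P.T0 * P.h ≤ P.κ P.jst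
  o5 : ((1 - P.h ^ 2 * P.T0 / 2) ^ P.nup * (2 * √d) + (P.nup + P.ndown) * P.eS d) / P.σf
    + 2 * √(P.T0 * (1 - P.h ^ 2 / 2) ^ P.ndown + P.σf ^ 2) * d ≤ 1 / 10

end Par

variable {d : ℕ}

/-- `f` can be sampled with Gaussian noise at every order up to `j`, with weight `w` and
count `n`, at scale `t` -/
def Mat (P : Par) (t : ℝ) (j : ℕ) {I : Type} [MeasurableSpace I] (f : Vd d × I → E d) (w : ℝ)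
    (n : ℕ) : Prop :=
  0 ≤ w ∧ ∀ j', j' ≤ j → ∀ σ : ℝ, 0 ≤ σ → (j' = 0 ∨ w * √t ≤ P.κ j' * σ) →
    Samp (n * P.qq j') (w * P.e j') fun V i => gauss (f (V, i)) σ

/-- the node theorem at order `j` -/
def NodeSt (P : Par) (d j : ℕ) : Prop :=
  ∀ (I : Type) [MeasurableSpace I] (c : Vd d × I → E d) (t σ : ℝ), 0 < t → t ≤ P.T0 → 0 ≤ σ →
    (j = 0 ∨ √t ≤ P.κ j * σ) → Mat P t (j - P.p) c (P.ω j) (P.nn j) → (∀ x, ‖c x‖ ≤ P.Rr j) →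
    Samp (P.qq j) (P.e j) fun V i => gauss (Gt V.1 t (c (V, i))) σ

end Vale.Agent.P347
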