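import Vale.Agent.P347.NodeDefs

/-! The parameters as powers of one large integer. -/

namespace Vale.Agent.P347

/-- exponents and constants -/
structure Expo where
  K : ℕ
  Qd : Quad K
  CM : ℝ
  CS : ℝ
  g : ℕ
  p : ℕ
  c : ℕ
  x' : ℕ
  jst : ℕ
  r : ℕ
  x : ℕ
  E' : ℕ
  J2 : ℕ
  D : ℕ
  N : ℕ

namespace Expo

variable (X : Expo)

/-- integer power of the base -/
noncomputable def n (a : ℤ) : ℝ := (X.N : ℝ) ^ a

/-- the parameters -/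
noncomputable def par : Par where
  K := X.K
  Qd := X.Qd
  J := 2 * X.J2
  CM := X.CM
  CS := X.CS
  h := X.n (-1)
  tmin := X.n (-(2 * X.E'))
  T0 := X.n (-X.x)
  χ := X.n (-X.c)
  ρ := X.n (X.r - 5)
  Rs := X.n (X.r - 5)
  σf := X.n (-(X.D + 2))
  p := X.p
  nL := 2 * X.E' * X.N ^ 3
  jst := X.jst
  nup := 2 * (2 * X.D + 5) * X.N ^ (X.x + 3)
  ndown := (4 * X.D + 8) * X.N ^ 3
  κ := fun j => X.n (-(X.x' + X.p + j))
  e := fun j => 4 * X.n (X.r + X.jst - X.g * j)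
  ω := fun j => X.n (-(X.x' + j + 1))
  Rr := fun j => X.n (X.r + X.jst - j)
  rinc := fun j => X.n (X.r + X.jst - j - 4)
  nn := fun j => 6 * (X.K + 2) ^ 2 * (X.jst - j + 1)
  qq := fun j => X.N ^ (7 * j)

/-- the constraints -/
structure Good (d : ℕ) : Prop where
  hK : 1 ≤ X.K
  main : IdealMain X.Qd X.CM
  step : IdealStep X.Qd X.CS
  hCM : 20 * X.Qd.Λ ^ 2 ≤ X.CM
  hCS : 20 * X.Qd.Λ ^ 2 ≤ X.CS
  N100 : 100 ≤ X.N
  NCM : X.CM ^ 2 ≤ X.N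
  NCS : X.CS ^ 2 ≤ X.N
  NE : 4 * X.E' + 1 ≤ X.N
  ND : 8 * X.D + 18 ≤ X.N
  NK : 6 * (X.K + 2) ^ 2 * (X.jst + 1) + (X.K + 2) ^ 2 + 1 ≤ X.N
  hd : d ≤ X.N ^ X.D
  hc : X.c = X.g + 6
  hp : X.p = X.g + 10
  hx' : X.x' = X.g * X.p + 6
  hx : X.x = X.x' + X.p + X.jst
  jst_pos : 1 ≤ X.jst
  a1 : X.D + 11 + X.g * X.jst ≤ 2 * X.r + X.jst
  a2 : 4 * X.E' + X.r + X.jst + X.D + X.g * X.jst + 20 ≤ X.J2
  a3 : 3 * X.E' + X.D + X.g * X.jst + 20 ≤ X.K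
  a4 : X.D + X.r + X.jst + X.g * X.jst + 6 ≤ X.E'
  a5 : X.D + 6 + X.r + X.jst ≤ X.g * X.jst
  a6 : 2 * X.D + X.x + 13 ≤ X.r
  a7 : X.r + 2 * X.D + X.x + 20 ≤ X.J2
  a8 : 2 * X.D + X.x + 20 ≤ X.K

/-- `0 ≤ y ≤ N ^ a` -/
def B (y : ℝ) (a : ℤ) : Prop := 0 ≤ y ∧ y ≤ X.n a

variable {X} {d : ℕ}

theorem Good.N_ge (h : X.Good d) : (100 : ℝ) ≤ X.N := by exact_mod_cast h.N100
theorem Good.N_pos (h : X.Good d) : (0 : ℝ) < X.N := by linarith [h.N_ge]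
theorem Good.n_pos (h : X.Good d) (a : ℤ) : 0 < X.n a := zpow_pos h.N_pos a
theorem Good.n_add (h : X.Good d) (a b : ℤ) : X.n (a + b) = X.n a * X.n b :=
  zpow_add₀ h.N_pos.ne' a b
theorem Good.n_mul (h : X.Good d) {a b c : ℤ} (e : a + b = c) : X.n a * X.n b = X.n c := by
  rw [← e, h.n_add]
theorem Good.n_le (h : X.Good d) {a b : ℤ} (e : a ≤ b) : X.n a ≤ X.n b :=
  zpow_le_zpow_right₀ (by linarith [h.N_ge]) e
theorem n_one : X.n 1 = X.N := zpow_one _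
theorem n_zero : X.n 0 = 1 := zpow_zero _
theorem n_nat (m : ℕ) : X.n m = (X.N : ℝ) ^ m := zpow_natCast _ _
theorem n_neg (a : ℤ) : X.n (-a) = (X.n a)⁻¹ := zpow_neg _ _
theorem n_pow (a : ℤ) (m : ℕ) : X.n a ^ m = X.n (a * m) := by
  rw [n, n, zpow_mul, zpow_natCast]
theorem Good.drop (h : X.Good d) {a b : ℤ} (e : a + 1 ≤ b) : 100 * X.n a ≤ X.n b := by
  refine le_trans ?_ (h.n_le e)
  rw [h.n_add, n_one, mul_comm]
  exact mul_le_mul_of_nonneg_left h.N_ge (h.n_pos a).le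
theorem Good.sqrt_n (h : X.Good d) (a : ℤ) : √(X.n (-(2 * a))) = X.n (-a) := by
  rw [← h.n_mul (a := -a) (b := -a) (by ring), Real.sqrt_mul_self (h.n_pos _).le]
theorem Good.div_n (_h : X.Good d) (y : ℝ) (a : ℤ) : y / X.n a = y * X.n (-a) := by
  rw [n_neg, div_eq_mul_inv]

theorem Good.Bn (h : X.Good d) (a : ℤ) : X.B (X.n a) a := ⟨(h.n_pos a).le, le_rfl⟩
theorem Good.Bmono (h : X.Good d) {y : ℝ} {a b : ℤ} (hy : X.B y a) (e : a ≤ b) : X.B y b :=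
  ⟨hy.1, hy.2.trans (h.n_le e)⟩
theorem Good.Bmul (h : X.Good d) {y z : ℝ} {a b : ℤ} (hy : X.B y a) (hz : X.B z b) :
    X.B (y * z) (a + b) :=
  ⟨mul_nonneg hy.1 hz.1, by rw [h.n_add]; exact mul_le_mul hy.2 hz.2 hz.1 (h.n_pos a).le⟩
theorem Good.Badd (h : X.Good d) {y z : ℝ} {a b c : ℤ} (hy : X.B y a) (hz : X.B z b)
    (e1 : a + 1 ≤ c) (e2 : b + 1 ≤ c) : X.B (y + z) c := by
  refine ⟨add_nonneg hy.1 hz.1, ?_⟩
  have h1 := h.drop e1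
  have h2 := h.drop e2
  have h3 := h.n_pos c
  linarith [hy.2, hz.2]
theorem Good.Bc (h : X.Good d) {y : ℝ} (h0 : 0 ≤ y) (h1 : y ≤ 100) : X.B y 1 :=
  ⟨h0, by rw [n_one]; linarith [h.N_ge]⟩
theorem Good.Bdiv (h : X.Good d) {y : ℝ} {a : ℤ} (hy : X.B y a) (b : ℤ) :
    X.B (y / X.n b) (a + -b) := by
  rw [h.div_n]; exact h.Bmul hy (h.Bn _)
theorem Good.Bsmall (h : X.Good d) {y : ℝ} {a b : ℤ} (hy : X.B y a) (e : a + 1 ≤ b) :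
    100 * y ≤ X.n b := le_trans (by linarith [hy.2]) (h.drop e)
theorem Good.Ble (h : X.Good d) {y : ℝ} {a b : ℤ} (hy : X.B y a) (e : a ≤ b) : y ≤ X.n b :=
  (h.Bmono hy e).2

theorem Good.CM_ge (h : X.Good d) : 20 ≤ X.CM := by
  have : 1 ≤ X.Qd.Λ ^ 2 := one_le_pow₀ X.Qd.one_le
  linarith [h.hCM]
theorem Good.CS_ge (h : X.Good d) : 20 ≤ X.CS := by
  have : 1 ≤ X.Qd.Λ ^ 2 := one_le_pow₀ X.Qd.one_le
  linarith [h.hCS]
theorem Good.BCM (h : X.Good d) : X.B X.CM 1 :=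
  ⟨by linarith [h.CM_ge], by rw [n_one]; nlinarith [h.CM_ge, h.NCM]⟩
theorem Good.BCS (h : X.Good d) : X.B X.CS 1 :=
  ⟨by linarith [h.CS_ge], by rw [n_one]; nlinarith [h.CS_ge, h.NCS]⟩
theorem Good.BΛ2 (h : X.Good d) {c : ℝ} (h0 : 0 ≤ c) (h1 : c ≤ 100) :
    X.B (c * X.Qd.Λ ^ 2) 1 := by
  refine ⟨by positivity, ?_⟩
  rw [n_one]
  have h2 : 0 ≤ X.Qd.Λ ^ 2 := by positivity
  nlinarith [h.CM_ge, h.NCM, h.hCM]
theorem Good.BΛ (h : X.Good d) {c : ℝ} (h0 : 0 ≤ c) (h1 : c ≤ 100) : X.B (c * X.Qd.Λ) 1 := by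
  have h3 := X.Qd.one_le
  refine ⟨by positivity, le_trans ?_ (h.BΛ2 h0 h1).2⟩
  refine mul_le_mul_of_nonneg_left ?_ h0
  nlinarith
theorem Good.Bd (h : X.Good d) : X.B d X.D :=
  ⟨Nat.cast_nonneg _, by rw [n_nat]; exact_mod_cast h.hd⟩
theorem Good.Bsd (h : X.Good d) : X.B (√d) X.D := by
  refine ⟨Real.sqrt_nonneg _, ?_⟩
  have h1 : 1 ≤ X.n X.D := by rw [← n_zero (X := X)]; exact h.n_le (by positivity)
  rw [Real.sqrt_le_left (by linarith)]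
  nlinarith [h.Bd.2]
theorem Good.nL_le (h : X.Good d) : 2 * X.par.nL + 1 ≤ X.N ^ 4 := by
  have h1 := h.NE
  have h2 : 1 ≤ X.N ^ 3 := Nat.one_le_pow _ _ (by linarith [h.N100])
  simp only [par]
  calc 2 * (2 * X.E' * X.N ^ 3) + 1 ≤ (4 * X.E' + 1) * X.N ^ 3 := by nlinarith
    _ ≤ X.N * X.N ^ 3 := by gcongr
    _ = X.N ^ 4 := by ring
theorem Good.Bκ' (h : X.Good d) (j : ℕ) : X.B (X.par.κ' j) (-(X.x' + X.p + j) + 2) := by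
  refine h.Bmul (h.Bn _) ⟨Real.sqrt_nonneg _, ?_⟩
  rw [Real.sqrt_le_left (h.n_pos _).le, n_pow]
  have := h.nL_le
  rw [show (2 : ℤ) * (2 : ℕ) = (4 : ℕ) by norm_num, n_nat]
  exact_mod_cast this
theorem Good.e'_ge (h : X.Good d) {j : ℕ} :
    4 * X.n (X.r + X.jst - X.g * j - 5) ≤ X.par.e' j := by
  have h1 : ((X.par.nL : ℝ) + 1) ≤ X.n 5 := by
    refine le_trans ?_ (h.n_le (a := (4 : ℕ)) (by norm_num))
    rw [n_nat]
    have := h.nL_le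
    exact_mod_cast (by omega : X.par.nL + 1 ≤ X.N ^ 4)
  rw [Par.e', le_div_iff₀ (by positivity)]
  have h2 := h.n_mul (a := X.r + X.jst - X.g * j - 5) (b := 5) (c := X.r + X.jst - X.g * j)
    (by ring)
  have h3 := h.n_pos (X.r + X.jst - X.g * j - 5)
  change _ ≤ 4 * X.n (X.r + X.jst - X.g * j)
  nlinarith
theorem Good.BCh (h : X.Good d) {C : ℝ} (h0 : 0 ≤ C) (h1 : C ^ 2 ≤ X.N) :
    X.B ((C * X.n (-1)) ^ (2 * X.J2)) (-X.J2) := by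
  have h2 := h.n_pos (-1)
  refine ⟨by positivity, ?_⟩
  rw [pow_mul, show (-X.J2 : ℤ) = -1 * X.J2 by ring, ← n_pow]
  refine pow_le_pow_left₀ (by positivity) ?_ _
  have h3 := h.n_mul (a := 1) (b := -1) (c := 0) (by ring)
  rw [n_one, n_zero] at h3
  calc (C * X.n (-1)) ^ 2 = C ^ 2 * X.n (-1) * X.n (-1) := by ring
    _ ≤ X.N * X.n (-1) * X.n (-1) := by gcongr
    _ = X.n (-1) := by rw [h3, one_mul]

/-- `(1 - u)^m ≤ N^(-a)` as soon as `a N ≤ u m` -/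
theorem Good.geom (h : X.Good d) {u : ℝ} (h1 : u ≤ 1) {m a : ℕ} (hm : (a : ℝ) * X.N ≤ u * m) :
    X.B ((1 - u) ^ m) (-a) := by
  refine ⟨pow_nonneg (by linarith) _, ?_⟩
  have e1 : (1 - u) ^ m ≤ Real.exp (-u) ^ m :=
    pow_le_pow_left₀ (by linarith) (by linarith [Real.add_one_le_exp (-u)]) _
  refine e1.trans ?_
  rw [← Real.exp_nat_mul, n_neg, n_nat]
  have e2 : (X.N : ℝ) ^ a ≤ Real.exp X.N ^ a :=
    pow_le_pow_left₀ h.N_pos.le (by linarith [Real.add_one_le_exp (X.N : ℝ)]) _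
  rw [← Real.exp_nat_mul] at e2
  rw [le_inv_comm₀ (Real.exp_pos _) (pow_pos h.N_pos _), ← Real.exp_neg]
  refine e2.trans (Real.exp_le_exp.2 ?_)
  linarith

end Expo

end Vale.Agent.P347
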