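import Vale.Agent.P347.Params1

/-! The inequalities between the parameters. -/

namespace Vale.Agent.P347

namespace Expo

variable {X : Expo} {d : ℕ}

theorem Good.BwT (h : X.Good d) {j : ℕ} (hj : j ≤ X.jst) :
    X.B (X.par.wT j) (-(X.x' + j + 1)) := by
  have b1 := h.Bmul (h.Bmul (h.BΛ (c := 12) (by norm_num) (by norm_num))
    (h.Bmul (h.Bn (-1)) (h.Bn (-1)))) (h.Bn (-X.x))
  have b2 := h.Bdiv (h.Bmul (h.Bmul (h.BΛ2 (c := 8) (by norm_num) (by norm_num)) (h.Bn (-1)))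
    (h.Bκ' j)) (-X.c)
  have hc := h.hc
  have hp := h.hp
  have hx := h.hx
  have b3 := h.Badd b1 b2 (c := -(X.x' + j + 1)) (by omega) (by omega)
  convert b3 using 1
  simp only [Par.wT, par]
  ring

theorem Good.Bdisp (h : X.Good d) {j : ℕ} (hj : j ≤ X.jst) :
    X.B (X.par.h * X.par.Qd.Λ * (X.par.h * X.par.T0 + X.par.Qd.Λ * X.par.κ' j))
      (-(X.x' + j + 2)) := by
  have b1 := h.Bmul (h.Bmul (h.BΛ (c := 1) (by norm_num) (by norm_num))
    (h.Bmul (h.Bn (-1)) (h.Bn (-1)))) (h.Bn (-X.x))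
  have b2 := h.Bmul (h.Bmul (h.BΛ2 (c := 1) (by norm_num) (by norm_num)) (h.Bn (-1))) (h.Bκ' j)
  have hp := h.hp
  have hx := h.hx
  have b3 := h.Badd b1 b2 (c := -(X.x' + j + 2)) (by omega) (by omega)
  convert b3 using 1
  simp only [par]
  ring

theorem Good.Be (h : X.Good d) (j : ℕ) : X.B (X.par.e j) (1 + (X.r + X.jst - X.g * j)) :=
  h.Bmul (h.Bc (by norm_num) (by norm_num)) (h.Bn _)

theorem gsub (g j p : ℕ) : (g : ℤ) * j ≤ g * ((j - p : ℕ) : ℤ) + g * p := by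
  rw [← mul_add]
  exact mul_le_mul_of_nonneg_left (by omega) (by positivity)

theorem Good.Bωe (h : X.Good d) (j : ℕ) :
    X.B (X.par.ω j * X.par.e (j - X.p)) (X.r + X.jst - X.g * j - 6 - j) := by
  refine h.Bmono (h.Bmul (h.Bn _) (h.Be _)) ?_
  have h1 := gsub X.g j X.p
  have h2 : (X.x' : ℤ) = X.g * X.p + 6 := by exact_mod_cast h.hx'
  linarith

theorem gle (g : ℕ) {j k : ℕ} (h : j ≤ k) : (g : ℤ) * j ≤ g * k :=
  mul_le_mul_of_nonneg_left (by exact_mod_cast h) (by positivity)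

theorem Good.BeI (h : X.Good d) (j : ℕ) :
    X.B (X.par.eI d j) (-(X.g * X.jst) - 6) := by
  have a2 : (4 * X.E' + X.r + X.jst + X.D + X.g * X.jst + 20 : ℤ) ≤ X.J2 := by
    exact_mod_cast h.a2
  have a3 : (3 * X.E' + X.D + X.g * X.jst + 20 : ℤ) ≤ X.K := by exact_mod_cast h.a3
  have b1 := h.Bdiv (h.Bc (y := 2) (by norm_num) (by norm_num)) (-X.E')
  have b2 := h.Bdiv h.BCM (-1 * (2 : ℕ))
  have b3 := h.Badd (h.Bn 0) (h.Bdiv (h.Bc (y := 2) (by norm_num) (by norm_num)) (-(2 * X.E')))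
    (c := 2 * X.E' + 2) (by omega) (by omega)
  have b4 := h.Badd (h.Bdiv (h.Bmul (h.Bc (y := 2) (by norm_num) (by norm_num))
    (h.Bn (X.r + X.jst - j))) (-X.E')) h.Bsd (c := X.r + X.jst + X.E' + X.D + 2)
    (by omega) (by omega)
  have b5 := h.Bmul (h.BCh h.BCM.1 h.NCM) b4
  have b6 := h.Bmul (h.Bn (-1 * (X.K + 1 : ℕ))) h.Bsd
  have b7 := h.Badd b5 b6 (c := -(X.g * X.jst) - 3 * X.E' - 12) (by linarith)
    (by push_cast; linarith)
  have b8 := h.Bmul (h.Bmul (h.Bmul b1 b2) b3) b7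
  refine h.Bmono ?_ (a := _) (le_of_eq (show (1 + - -X.E' + (1 + -(-1 * (2 : ℕ))) + (2 * X.E' + 2)
    + (-(X.g * X.jst) - 3 * X.E' - 12) : ℤ) = -(X.g * X.jst) - 6 by push_cast; ring))
  convert b8 using 1
  simp only [Par.eI, par, h.sqrt_n, n_pow, n_zero]

theorem Good.c9 (h : X.Good d) {j : ℕ} (hj1 : 1 ≤ j) (hj : j ≤ X.jst) :
    12 * (X.par.ω j * X.par.e (j - X.par.p)) + X.par.χ * X.par.Qd.Λ ^ 2 * X.par.e (j - 1)
      + 24 * d / X.par.ρ + X.par.eI d j ≤ X.par.e' j := by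
  refine le_trans ?_ h.e'_ge
  have g1 := gle X.g hj
  have g2 := gsub X.g j 1
  have hj1' : (1 : ℤ) ≤ j := by exact_mod_cast hj1
  have hc : (X.c : ℤ) = X.g + 6 := by exact_mod_cast h.hc
  have a1 : (X.D + 11 + X.g * X.jst : ℤ) ≤ 2 * X.r + X.jst := by exact_mod_cast h.a1
  have b1 := h.Ble (h.Bmul (h.Bc (y := 12) (by norm_num) (by norm_num)) (h.Bωe j))
    (b := X.r + X.jst - X.g * j - 5) (by linarith)
  have b2 := h.Ble (h.Bmul (h.Bmul (h.Bn (-X.c)) (h.BΛ2 (c := 4) (by norm_num) (by norm_num)))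
    (h.Bn (X.r + X.jst - X.g * (j - 1 : ℕ)))) (b := X.r + X.jst - X.g * j - 5)
    (by push_cast at g2; linarith)
  have b3 := h.Ble (h.Bdiv (h.Bmul (h.Bc (y := 24) (by norm_num) (by norm_num)) h.Bd) (X.r - 5))
    (b := X.r + X.jst - X.g * j - 5) (by linarith)
  have b4 := h.Ble (h.BeI j) (b := X.r + X.jst - X.g * j - 5)
    (by linarith [Int.natCast_nonneg X.r, Int.natCast_nonneg X.jst])
  have e2 : X.par.χ * X.par.Qd.Λ ^ 2 * X.par.e (j - 1) =
      X.n (-X.c) * (4 * X.Qd.Λ ^ 2) * X.n (X.r + X.jst - X.g * (j - 1 : ℕ)) := by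
    simp only [par]; ring
  rw [e2]
  change 12 * (X.par.ω j * X.par.e (j - X.p)) + _ + 24 * d / X.n (X.r - 5) + _ ≤ _
  linarith

theorem Good.c10 (h : X.Good d) {j : ℕ} (hj1 : 1 ≤ j) (hj : j ≤ X.jst) :
    2 * (X.par.ω j * X.par.e (j - X.par.p)) + 6 * √X.par.tmin * √d
      + 16 * X.par.tmin * X.par.Rr j ≤ X.par.e' j := by
  refine le_trans ?_ h.e'_ge
  have g1 := gle X.g hj
  have hj1' : (1 : ℤ) ≤ j := by exact_mod_cast hj1
  have a4 : (X.D + X.r + X.jst + X.g * X.jst + 6 : ℤ) ≤ X.E' := by exact_mod_cast h.a4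
  have p1 := Int.natCast_nonneg X.r
  have p2 := Int.natCast_nonneg X.jst
  have p3 := Int.natCast_nonneg X.D
  have p4 := Int.natCast_nonneg X.E'
  have b1 := h.Ble (h.Bmul (h.Bc (y := 2) (by norm_num) (by norm_num)) (h.Bωe j))
    (b := X.r + X.jst - X.g * j - 5) (by linarith)
  have b2 := h.Ble (h.Bmul (h.Bmul (h.Bc (y := 6) (by norm_num) (by norm_num)) (h.Bn (-X.E')))
    h.Bsd) (b := X.r + X.jst - X.g * j - 5) (by linarith)
  have b3 := h.Ble (h.Bmul (h.Bmul (h.Bc (y := 16) (by norm_num) (by norm_num))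
    (h.Bn (-(2 * X.E')))) (h.Bn (X.r + X.jst - j))) (b := X.r + X.jst - X.g * j - 5) (by linarith)
  have h0 := h.n_pos (X.r + X.jst - X.g * j - 5)
  change 2 * (X.par.ω j * X.par.e (j - X.p)) + 6 * √(X.n (-(2 * X.E'))) * √d
    + 16 * X.n (-(2 * X.E')) * X.n (X.r + X.jst - j) ≤ _
  rw [h.sqrt_n]
  linarith

theorem Good.c11 (h : X.Good d) {j : ℕ} (hj1 : 1 ≤ j) :
    (X.par.nL + 1) * X.par.q' j ≤ X.par.qq j := by
  have hN : 1 ≤ X.N := by linarith [h.N100]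
  have h1 : X.par.nL + 1 ≤ X.N ^ 4 := by have := h.nL_le; omega
  have hp := h.hp
  have h2 : X.N ^ (7 * (j - X.p)) ≤ X.N ^ (7 * (j - 1)) := Nat.pow_le_pow_right hN (by omega)
  have h3 : 1 ≤ X.N ^ (7 * (j - 1)) := Nat.one_le_pow _ _ hN
  have h4 : X.par.q' j ≤ X.N * X.N ^ (7 * (j - 1)) := by
    refine le_trans ?_ (Nat.mul_le_mul_right _ h.NK)
    simp only [Par.q', par]
    have h5 : 6 * (X.K + 2) ^ 2 * (X.jst - j + 1) * X.N ^ (7 * (j - X.p)) ≤
        6 * (X.K + 2) ^ 2 * (X.jst + 1) * X.N ^ (7 * (j - 1)) := by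
      gcongr; omega
    nlinarith
  calc (X.par.nL + 1) * X.par.q' j ≤ X.N ^ 4 * (X.N * X.N ^ (7 * (j - 1))) := by gcongr
    _ = X.N ^ (7 * (j - 1) + 5) := by ring
    _ ≤ X.N ^ (7 * j) := Nat.pow_le_pow_right hN (by omega)

theorem Good.Bn_steps (h : X.Good d) :
    X.B ((X.par.nup : ℝ) + X.par.ndown) (X.x + 4) := by
  refine ⟨by positivity, ?_⟩
  rw [show (X.x + 4 : ℤ) = (X.x + 4 : ℕ) by push_cast; ring, n_nat]
  have hN : 1 ≤ X.N := by linarith [h.N100]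
  have h1 : X.N ^ 3 ≤ X.N ^ (X.x + 3) := Nat.pow_le_pow_right hN (by omega)
  have h2 : X.par.nup + X.par.ndown ≤ X.N ^ (X.x + 4) := by
    simp only [par]
    calc 2 * (2 * X.D + 5) * X.N ^ (X.x + 3) + (4 * X.D + 8) * X.N ^ 3
        ≤ 2 * (2 * X.D + 5) * X.N ^ (X.x + 3) + (4 * X.D + 8) * X.N ^ (X.x + 3) := by gcongr
      _ = (8 * X.D + 18) * X.N ^ (X.x + 3) := by ring
      _ ≤ X.N * X.N ^ (X.x + 3) := Nat.mul_le_mul_right _ h.ND
      _ = X.N ^ (X.x + 4) := by ring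
  exact_mod_cast h2

theorem Good.eS_le (h : X.Good d) : X.par.eS d ≤ 4 * X.n (-(X.x + X.D + 7)) ∧ 0 ≤ X.par.eS d := by
  have a5 : (X.D + 6 + X.r + X.jst : ℤ) ≤ X.g * X.jst := by exact_mod_cast h.a5
  have a6 := h.a6
  have a7 := h.a7
  have a8 := h.a8
  have b1 := h.Bmono (h.Bmul (h.Bmul (h.Bmul (h.BΛ (c := 4) (by norm_num) (by norm_num))
    (h.Bn (-X.x))) (h.Bn (-1 * (2 : ℕ)))) (h.Bn (X.r + X.jst - X.g * X.jst)))
    (b := -(X.x + X.D + 7)) (by push_cast; linarith)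
  have b2 := h.Bmono (h.Bdiv (h.Bmul (h.Bc (y := 4) (by norm_num) (by norm_num)) h.Bd) (X.r - 5))
    (b := -(X.x + X.D + 7)) (by omega)
  have b3 := h.Badd (h.Bn (X.r - 5)) h.Bsd (c := X.r + X.D + 1) (by omega) (by omega)
  have b4 := h.Badd (h.Bmul (h.BCh h.BCS.1 h.NCS) b3) (h.Bmul (h.Bn (-1 * (X.K + 1 : ℕ))) h.Bsd)
    (c := -(X.x + X.D + 10)) (by omega) (by omega)
  have b5 := h.Bmono (h.Bmul (h.Bdiv h.BCS (-1 * (2 : ℕ))) b4) (b := -(X.x + X.D + 7)) (by omega)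
  have e : X.par.eS d = 4 * X.Qd.Λ * X.n (-X.x) * X.n (-1 * (2 : ℕ)) *
      X.n (X.r + X.jst - X.g * X.jst) + 4 * d / X.n (X.r - 5)
      + X.CS / X.n (-1 * (2 : ℕ)) * ((X.CS * X.n (-1)) ^ (2 * X.J2) * (X.n (X.r - 5) + √d)
        + X.n (-1 * (X.K + 1 : ℕ)) * √d) + 4 * d / X.n (X.r - 5) := by
    simp only [Par.eS, par, n_pow]; ring
  rw [e]
  constructor
  · refine le_trans (add_le_add (add_le_add (add_le_add b1.2 b2.2) b5.2) b2.2) (le_of_eq ?_)
    ring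
  · exact add_nonneg (add_nonneg (add_nonneg b1.1 b2.1) b5.1) b2.1

theorem Good.o5 (h : X.Good d) :
    ((1 - X.par.h ^ 2 * X.par.T0 / 2) ^ X.par.nup * (2 * √d)
      + (X.par.nup + X.par.ndown) * X.par.eS d) / X.par.σf
    + 2 * √(X.par.T0 * (1 - X.par.h ^ 2 / 2) ^ X.par.ndown + X.par.σf ^ 2) * d ≤ 1 / 10 := by
  have h0 : X.n (-1) ≤ 1 / 100 := by
    have := h.drop (a := -1) (b := 0) (by norm_num)
    rw [n_zero] at this; linarith
  have u1 : X.par.h ^ 2 * X.par.T0 = X.n (-(X.x + 2)) := by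
    simp only [par, n_pow]; exact h.n_mul (by push_cast; ring)
  have u2 : X.par.h ^ 2 = X.n (-2) := by simp only [par, n_pow]; norm_num
  have l1 : X.n (-(X.x + 2)) ≤ 1 := by rw [← n_zero (X := X)]; exact h.n_le (by omega)
  have l2 : X.n (-2) ≤ 1 := by rw [← n_zero (X := X)]; exact h.n_le (by omega)
  have g1 := h.geom (u := X.n (-(X.x + 2)) / 2) (by linarith) (m := X.par.nup) (a := 2 * X.D + 5)
    (le_of_eq (by
      have := h.n_mul (a := -(X.x + 2)) (b := (X.x + 3 : ℕ)) (c := 1) (by push_cast; ring)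
      rw [n_nat, n_one] at this
      simp only [par]; push_cast
      linear_combination (-(2 * (X.D : ℝ) + 5)) * this))
  have g2 := h.geom (u := X.n (-2) / 2) (by linarith) (m := X.par.ndown) (a := 2 * X.D + 4)
    (le_of_eq (by
      have := h.n_mul (a := -2) (b := (3 : ℕ)) (c := 1) (by push_cast)
      rw [n_nat, n_one] at this
      simp only [par]; push_cast
      linear_combination (-(2 * (X.D : ℝ) + 4)) * this))
  rw [u1, u2]
  have b1 := h.Ble (h.Bdiv (h.Bmul g1 (h.Bmul (h.Bc (y := 2) (by norm_num) (by norm_num)) h.Bsd))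
    (-(X.D + 2))) (b := -1) (by omega)
  have b2 := h.Ble (h.Bdiv (h.Bmul h.Bn_steps (h.Bn (-(X.x + X.D + 7)))) (-(X.D + 2))) (b := -1)
    (by omega)
  have b3 : ((X.par.nup : ℝ) + X.par.ndown) * X.par.eS d / X.n (-(X.D + 2)) ≤ 4 * X.n (-1) := by
    have := h.n_pos (-(X.D + 2))
    calc ((X.par.nup : ℝ) + X.par.ndown) * X.par.eS d / X.n (-(X.D + 2))
        ≤ ((X.par.nup : ℝ) + X.par.ndown) * (4 * X.n (-(X.x + X.D + 7))) / X.n (-(X.D + 2)) := by
          gcongr; exact h.eS_le.1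
      _ = 4 * (((X.par.nup : ℝ) + X.par.ndown) * X.n (-(X.x + X.D + 7)) / X.n (-(X.D + 2))) := by
          ring
      _ ≤ _ := by linarith
  have b4 := h.Badd (h.Bmul (h.Bn (-X.x)) g2) (h.Bn (-(X.D + 2) * (2 : ℕ)))
    (c := -(2 * (X.D + 1))) (by omega) (by omega)
  have b5 : √(X.par.T0 * (1 - X.n (-2) / 2) ^ X.par.ndown + X.par.σf ^ 2) ≤ X.n (-(X.D + 1)) := by
    rw [← h.sqrt_n (X.D + 1)]
    refine Real.sqrt_le_sqrt ?_
    rw [← n_pow] at b4
    exact b4.2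
  have b6 := h.Ble (h.Bmul (⟨Real.sqrt_nonneg _, b5⟩ : X.B _ _) h.Bd) (b := -1) (by omega)
  rw [add_div]
  change _ / X.n (-(X.D + 2)) + _ / X.n (-(X.D + 2)) + _ ≤ _
  linarith

theorem Good.ok (h : X.Good d) : X.par.Ok d := by
  have hc := h.hc
  have hp := h.hp
  have hx := h.hx
  have hx6 : 6 ≤ X.x' := by have := h.hx'; omega
  have hjst := h.jst_pos
  have le1 : ∀ {y : ℝ} {a : ℤ}, X.B y a → a ≤ 0 → y ≤ 1 := fun hy e => by
    rw [← n_zero (X := X)]; exact h.Ble hy e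
  have le4 : ∀ {a : ℤ}, a + 1 ≤ 0 → X.n a ≤ 1 / 4 := fun e => by
    have := h.drop e
    rw [n_zero] at this; linarith
  have a4 := h.a4
  have a6 := h.a6
  refine
    { hK := h.hK, main := h.main, step := h.step, hCM := h.hCM
      hCMh := le1 (h.Bmul h.BCM (h.Bn _)) (by norm_num)
      hCSh := le1 (h.Bmul h.BCS (h.Bn _)) (by norm_num)
      hCS := h.BCS.1, h_pos := h.n_pos _, tmin_pos := h.n_pos _
      tmin_le := le4 (by omega), T0_pos := h.n_pos _, T0_le := le4 (by omega)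
      χ_pos := h.n_pos _, χ_le := ?_, ρ_pos := h.n_pos _, Rs_pos := h.n_pos _
      σf_pos := h.n_pos _, p_pos := (by change 1 ≤ X.p; omega), jst_pos := hjst, lev := ?_
      κ_nonneg := fun j => (h.n_pos _).le, e_nonneg := fun j => (h.Be j).1
      ω_nonneg := fun j => (h.n_pos _).le, rinc_nonneg := fun j => (h.n_pos _).le
      ω_anti := fun i j hij _ => h.n_le (by omega)
      R_anti := fun i j hij _ => h.n_le (by omega)
      n_anti := fun i j hij _ => Nat.mul_le_mul_left _ (by omega)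
      R_d := h.Ble h.Bsd (by change _ ≤ (X.r + X.jst - X.jst : ℤ); omega)
      e_zero := le_of_eq (by simp [par])
      c1 := ?_, c2 := ?_, c3 := ?_, c4 := ?_, c5 := ?_, c5' := ?_, c6 := ?_, c6' := ?_, c7 := ?_
      c9 := fun j h1 h2 => h.c9 h1 h2, c10 := fun j h1 h2 => h.c10 h1 h2
      c11 := fun j h1 _ => h.c11 h1
      o1 := ?_, o2 := le_of_eq (by simp [par]), o3 := ?_, o4 := ?_, o5 := h.o5 }
  · have := le1 (h.Bmul (h.Bn (-X.c)) (h.BΛ2 (c := 1) (by norm_num) (by norm_num))) (by omega)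
    rwa [one_mul] at this
  · have u2 : X.par.h ^ 2 = X.n (-2) := by simp only [par, n_pow]; norm_num
    have g2 := h.geom (u := X.n (-2)) (le1 (h.Bn _) (by norm_num)) (m := X.par.nL)
      (a := 2 * X.E') (le_of_eq (by
        have := h.n_mul (a := -2) (b := (3 : ℕ)) (c := 1) (by push_cast)
        rw [n_nat, n_one] at this
        simp only [par]; push_cast
        linear_combination (-(2 * (X.E' : ℝ))) * this))
    rw [u2]
    exact h.Ble (h.Bmul (h.Bn (-X.x)) g2) (by omega)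
  · intro j _ _
    rcases le_total j X.p with hj | hj
    · left; change j - X.p = 0; omega
    · right
      change X.n _ ≤ X.n _ * X.n _
      rw [← h.n_add]
      refine h.n_le ?_
      change _ ≤ (-(X.x' + X.p + (j - X.p : ℕ)) + -1 : ℤ)
      omega
  · intro j _ _
    exact h.Ble (h.Bmul (h.Bc (y := 2) (by norm_num) (by norm_num)) (h.Bκ' j)) (by omega)
  · intro j h1 h2
    have b1 := (h.BwT h2).2
    have b2 := h.drop (a := -(X.x' + j + 1)) (b := -(X.x' + (j - 1 : ℕ) + 1)) (by omega)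
    have b3 := h.n_pos (-(X.x' + j + 1))
    change 3 * X.n (-(X.x' + j + 1)) + _ ≤ X.n (-(X.x' + (j - 1 : ℕ) + 1)) / 2
    linarith
  · intro j h1 h2
    change 6 * (X.K + 2) ^ 2 * (X.jst - j + 1) + 6 * (X.K + 2) ^ 2 ≤
      6 * (X.K + 2) ^ 2 * (X.jst - (j - 1) + 1)
    change j ≤ X.jst at h2
    rw [show X.jst - (j - 1) + 1 = (X.jst - j + 1) + 1 by omega]
    exact le_of_eq (by ring)
  · intro j h1 h2
    change j ≤ X.jst at h2
    have b1 := h.drop (a := X.r + X.jst - j) (b := X.r + X.jst - (j - 1 : ℕ)) (by omega)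
    have b2 := h.drop (a := X.r - 5) (b := X.r + X.jst - (j - 1 : ℕ)) (by omega)
    have b3 := h.Bsmall (h.Bmul (h.BwT h2) (h.Bn (X.r + X.jst - (j - 1 : ℕ))))
      (b := X.r + X.jst - (j - 1 : ℕ)) (by omega)
    have b4 := h.n_pos (X.r + X.jst - (j - 1 : ℕ))
    change 10 * X.n (X.r + X.jst - j) + 3 * X.n (X.r - 5)
      + X.par.wT j * (4 * X.n (X.r + X.jst - (j - 1 : ℕ))) ≤ X.n (X.r + X.jst - (j - 1 : ℕ))
    linarith
  · intro j _ _
    have b1 : X.B (X.par.nL : ℝ) (4 : ℕ) := ⟨Nat.cast_nonneg _, by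
      rw [n_nat]
      have := h.nL_le
      exact_mod_cast (by omega : X.par.nL ≤ X.N ^ 4)⟩
    exact h.Ble (h.Bmul b1 (h.Bn (X.r + X.jst - j - 4))) (by omega)
  · intro j _ h2
    have b1 := h.Bsmall (h.Bdisp h2) (b := -(X.x' + j + 1)) (by omega)
    have b2 := (h.Bdisp h2).1
    change _ ≤ X.n (-(X.x' + j + 1))
    linarith
  · intro j h1 h2
    change j ≤ X.jst at h2
    have b1 := h.Bsmall (h.Bmul (h.Bdisp h2) (h.Bn (X.r + X.jst - (j - 1 : ℕ))))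
      (b := X.r + X.jst - j - 4) (by omega)
    have b2 := h.drop (a := X.r - 5) (b := X.r + X.jst - j - 4) (by omega)
    have b3 := h.n_pos (X.r + X.jst - j - 4)
    change X.n (X.r - 5) + _ * (4 * X.n (X.r + X.jst - (j - 1 : ℕ))) ≤ X.n (X.r + X.jst - j - 4)
    linarith
  · intro j h1 _
    have := h.Ble (h.Bmul (h.Bmul (h.Bn (-X.c)) (h.BΛ2 (c := 1) (by norm_num) (by norm_num)))
      (h.Bκ' j)) (b := -(X.x' + X.p + (j - 1 : ℕ))) (by omega)
    rwa [one_mul] at this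
  · have b1 := h.Bsmall (h.Bmul (h.Bmul (h.BΛ (c := 12) (by norm_num) (by norm_num))
      (h.Bn (-1 * (2 : ℕ)))) (h.Bn (-X.x))) (b := -(X.x' + X.jst + 1)) (by omega)
    have b2 := h.n_pos (-(X.x' + X.jst + 1))
    change 12 * X.n (-1) ^ 2 * X.Qd.Λ * X.n (-X.x) ≤ X.n (-(X.x' + X.jst + 1)) / 2
    rw [n_pow]
    generalize X.n (-1 * (2 : ℕ)) = w at *
    linarith
  · have b1 := h.Bsmall (h.Bmul (h.Bmul (h.Bmul (h.BΛ (c := 48) (by norm_num) (by norm_num))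
      (h.Bn (-1 * (2 : ℕ)))) (h.Bn (-X.x))) (h.Bn (X.r + X.jst - X.jst)))
      (b := X.r + X.jst - X.jst) (by omega)
    have b2 := h.drop (a := X.r - 5) (b := X.r + X.jst - X.jst) (by omega)
    have b3 := h.n_pos (X.r + X.jst - X.jst)
    change X.n (X.r - 5) + X.n (X.r - 5) + 12 * X.n (-1) ^ 2 * X.Qd.Λ * X.n (-X.x) *
      (4 * X.n (X.r + X.jst - X.jst)) ≤ X.n (X.r + X.jst - X.jst)
    rw [n_pow]
    linarith
  · exact h.Ble (h.Bmul (h.Bmul (h.BΛ (c := 2) (by norm_num) (by norm_num)) (h.Bn (-X.x)))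
      (h.Bn (-1))) (by change _ ≤ (-(X.x' + X.p + X.jst) : ℤ); omega)

theorem Good.cost_le (h : X.Good d) : X.par.cost ≤ X.N ^ (X.x + 5 + 7 * X.jst) := by
  have h1 := h.Bn_steps.2
  rw [show (X.x + 4 : ℤ) = (X.x + 4 : ℕ) by push_cast; ring, n_nat] at h1
  have h2 : X.par.nup + X.par.ndown ≤ X.N ^ (X.x + 4) := by exact_mod_cast h1
  have h3 : (X.K + 2) ^ 2 ≤ X.N := by have := h.NK; omega
  calc X.par.cost = (X.par.nup + X.par.ndown) * ((X.K + 2) ^ 2 * X.N ^ (7 * X.jst)) := rfl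
    _ ≤ X.N ^ (X.x + 4) * (X.N * X.N ^ (7 * X.jst)) := by gcongr
    _ = _ := by ring

end Expo

end Vale.Agent.P347
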