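import Vale.Agent.P347.Ev
import Vale.Agent.P347.TiltEst

/-! TASK PiBasic: the measures `Π_b`. -/

open MeasureTheory ProbabilityTheory MvPolynomial

namespace Vale.Agent.P347

variable {d : ℕ} {α β : ℝ} {U : E d → ℝ}

namespace PiB

theorem continuous_pt (y : E d) (b : ℝ × ℝ) : Continuous (pt y b) := by
  unfold pt
  fun_prop

theorem continuous_Fz_x (h : Pot α β U) (s : ℝ) : Continuous (Fz U s) :=
  h.continuous_Fz.comp (Continuous.prodMk_right s)

theorem continuous_Fpt (h : Pot α β U) (y : E d) (b : ℝ × ℝ) :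
    Continuous fun Z => Fz U (lev b) (pt y b Z) :=
  (continuous_Fz_x h _).comp (continuous_pt y b)

theorem measurable_dens (h : Pot α β U) (y : E d) (b : ℝ × ℝ) :
    Measurable fun Z : E d × E d => ENNReal.ofReal (Fz U (lev b) (pt y b Z) / Fz U 1 y) :=
  ((continuous_Fpt h y b).div_const _).measurable.ennreal_ofReal

theorem pg_of_bdd {X : Type*} [NormedAddCommGroup X] {f : X → ℝ} (c : ℝ) (hf : ∀ x, |f x| ≤ c) :
    PG f := ⟨c, 0, fun x => by simpa using hf x⟩

theorem pg_Fz (h : Pot α β U) {X : Type*} [NormedAddCommGroup X] (s : ℝ) (φ : X → E d) :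
    PG fun x => Fz U s (φ x) :=
  pg_of_bdd 1 fun x => by rw [abs_of_pos (h.Fz_pos _ _)]; exact h.Fz_le_one _ _

theorem pg_expU (h : Pot α β U) {X : Type*} [NormedAddCommGroup X] (φ : X → E d) :
    PG fun x => Real.exp (-U (φ x)) :=
  pg_of_bdd 1 fun x => by
    rw [abs_of_pos (Real.exp_pos _)]
    exact Real.exp_le_one_iff.2 (neg_nonpos.2 (h.nonneg_val _))

theorem pg_norm {X : Type*} [NormedAddCommGroup X] {f : X → ℝ} (hf : PG f) :
    PG fun x => ‖f x‖ :=
  hf.of_le fun x => by rw [Real.norm_eq_abs, abs_abs]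

theorem pg_affine (c : E d) (a₁ a₂ : ℝ) :
    PG fun p : E d × E d => ‖c + a₁ • p.1 + a₂ • p.2‖ := by
  refine ⟨‖c‖ + |a₁| + |a₂|, 1, fun p => ?_⟩
  rw [abs_norm, pow_one]
  have h1 : ‖p.1‖ ≤ ‖p‖ := norm_fst_le p
  have h2 : ‖p.2‖ ≤ ‖p‖ := norm_snd_le p
  have h3 := norm_add₃_le (a := c) (b := a₁ • p.1) (c := a₂ • p.2)
  rw [norm_smul, norm_smul, Real.norm_eq_abs, Real.norm_eq_abs] at h3
  have h4 := mul_le_mul_of_nonneg_left h1 (abs_nonneg a₁)
  have h5 := mul_le_mul_of_nonneg_left h2 (abs_nonneg a₂)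
  have h6 := mul_nonneg (norm_nonneg c) (norm_nonneg p)
  have h7 := abs_nonneg a₁
  have h8 := abs_nonneg a₂
  nlinarith

theorem integral_Fpt (h : Pot α β U) (y : E d) {b : ℝ × ℝ} (hb : 0 ≤ lev b) :
    ∫ Z, Fz U (lev b) (pt y b Z) ∂((gam d).prod (gam d)) = Fz U 1 y := by
  have hc : Continuous fun x => Fz U (lev b) (y + x) := (continuous_Fz_x h _).comp (by fun_prop)
  have h1 := integral_map (μ := (gam d).prod (gam d))
    (φ := fun p : E d × E d => b.1 • p.1 + b.2 • p.2) (f := fun x => Fz U (lev b) (y + x))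
    (by fun_prop) hc.aestronglyMeasurable
  rw [gam_add, integral_map (by fun_prop) hc.aestronglyMeasurable] at h1
  have h2 := integral_gauss_gauss y √(b.1 ^ 2 + b.2 ^ 2) √(lev b)
    (f := fun x => Real.exp (-U x)) (by have := h.smooth.continuous; fun_prop) (pg_expU h id)
  have h3 : √(b.1 ^ 2 + b.2 ^ 2) ^ 2 + √(lev b) ^ 2 = 1 := by
    rw [Real.sq_sqrt (by positivity), Real.sq_sqrt hb, lev]
    ring
  rw [h3] at h2
  exact h1.symm.trans h2

theorem sum_sel (m : Fin 2) (i : Fin d) (a : Fin 2 → Fin d → ℝ) :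
    ∑ m', ∑ i', sel m' (sel m (((EuclideanSpace.single i (1 : ℝ), 0),
      (0, EuclideanSpace.single i (1 : ℝ))) : (E d × E d) × (E d × E d))) i' * a m' i' =
      a m i := by
  fin_cases m <;> simp [sel, Fin.sum_univ_two]

theorem inner_sel (m : Fin 2) (i : Fin d) (Z : E d × E d) :
    inner ℝ Z.1 (sel m (((EuclideanSpace.single i (1 : ℝ), 0),
      (0, EuclideanSpace.single i (1 : ℝ))) : (E d × E d) × (E d × E d))).1 +
    inner ℝ Z.2 (sel m (((EuclideanSpace.single i (1 : ℝ), 0),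
      (0, EuclideanSpace.single i (1 : ℝ))) : (E d × E d) × (E d × E d))).2 = sel m Z i := by
  fin_cases m <;> simp [sel, EuclideanSpace.inner_single_right]

theorem evS_zz (y : E d) (b : ℝ × ℝ) (Z : E d × E d) (m : Fin 2) (i : Fin d) :
    evS U y b Z (zz m i) = sel m Z i := by
  simp [evS, ev, zz]

theorem evS_bb (y : E d) (b : ℝ × ℝ) (Z : E d × E d) (m : Fin 2) :
    evS U y b Z (bb m) = sel m b := by
  simp [evS, ev, bb]

theorem evS_G (h : Pot α β U) (y : E d) {b : ℝ × ℝ} (hb : 0 < lev b) (Z : E d × E d) (i : Fin d) :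
    evS U y b Z (G i) = gfun U y b Z i :=
  ev_G h b Z hb _ _ i

end PiB

theorem integral_PiM (h : Pot α β U) (y : E d) (b : ℝ × ℝ) {F : Type*} [NormedAddCommGroup F]
    [NormedSpace ℝ F] (f : E d × E d → F) :
    ∫ Z, f Z ∂(PiM U y b) =
      ∫ Z, (Fz U (lev b) (pt y b Z) / Fz U 1 y) • f Z ∂((gam d).prod (gam d)) := by
  unfold PiM
  rw [integral_withDensity_eq_integral_toReal_smul (PiB.measurable_dens h y b)
    (Filter.Eventually.of_forall fun _ => ENNReal.ofReal_lt_top)]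
  refine integral_congr_ae (Filter.Eventually.of_forall fun Z => ?_)
  simp only
  rw [ENNReal.toReal_ofReal (div_pos (h.Fz_pos _ _) (h.Fz_pos _ _)).le]

/-- `b · Z + √(1 - |b|²) ξ` is standard Gaussian (`gam_add` twice). -/
theorem isProb_PiM (h : Pot α β U) (y : E d) {b : ℝ × ℝ} (hb : 0 ≤ lev b) :
    IsProbabilityMeasure (PiM U y b) := by
  constructor
  have hint : Integrable (fun Z => Fz U (lev b) (pt y b Z) / Fz U 1 y) ((gam d).prod (gam d)) :=
    ((PiB.pg_Fz h _ _).integrable_gam2 (PiB.continuous_Fpt h y b).aestronglyMeasurable).div_const _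
  unfold PiM
  rw [withDensity_apply _ MeasurableSet.univ, Measure.restrict_univ,
    ← ofReal_integral_eq_lintegral_ofReal hint (Filter.Eventually.of_forall fun Z =>
      (div_pos (h.Fz_pos _ _) (h.Fz_pos _ _)).le), integral_div, PiB.integral_Fpt h y hb,
    div_self (h.Fz_pos _ _).ne', ENNReal.ofReal_one]

theorem PiM_zero (h : Pot α β U) (y : E d) : PiM U y 0 = (gam d).prod (gam d) := by
  unfold PiM
  have h1 : (fun Z : E d × E d => ENNReal.ofReal (Fz U (lev 0) (pt y 0 Z) / Fz U 1 y)) = 1 := by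
    funext Z
    have h2 : lev 0 = 1 := by simp [lev]
    have h3 : pt y 0 Z = y := by simp [pt]
    rw [h2, h3, div_self (h.Fz_pos _ _).ne', ENNReal.ofReal_one, Pi.one_apply]
  rw [h1, withDensity_one]

theorem integrable_PiM (h : Pot α β U) (y : E d) (b : ℝ × ℝ) {F : Type*} [NormedAddCommGroup F]
    {f : E d × E d → F} (hf : Continuous f) (hg : PG fun Z => ‖f Z‖) :
    Integrable f (PiM U y b) := by
  have h1 : Integrable f ((gam d).prod (gam d)) :=
    (integrable_norm_iff hf.aestronglyMeasurable).1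
      (hg.integrable_gam2 hf.norm.aestronglyMeasurable)
  have h2 : PiM U y b ≤ ENNReal.ofReal (1 / Fz U 1 y) • (gam d).prod (gam d) := by
    rw [← withDensity_const]
    refine withDensity_mono (Filter.Eventually.of_forall fun Z => ?_)
    exact ENNReal.ofReal_le_ofReal
      (div_le_div_of_nonneg_right (h.Fz_le_one _ _) (h.Fz_pos _ _).le)
  exact (h1.smul_measure ENNReal.ofReal_ne_top).mono_measure h2

theorem integrable_evS (h : Pot α β U) (y : E d) {b : ℝ × ℝ} (hb : 0 < lev b) (P : R d) :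
    Integrable (fun Z => evS U y b Z P) (PiM U y b) := by
  exact integrable_PiM h y b (continuous_evS h P y hb) (PiB.pg_norm (pg_evS h P y hb))

/-- integration by parts against a `C¹` weight along the coordinate `(m, i)` -/
theorem PiM_ibp (h : Pot α β U) (y : E d) {b : ℝ × ℝ} (hb : 0 < lev b) (m : Fin 2) (i : Fin d)
    (P : R d) {f f' : E d × E d → ℝ} (hfc : Continuous f) (hfc' : Continuous f') (hg : PG f)
    (hg' : PG f')
    (hf : ∀ Z, HasLineDerivAt ℝ f (f' Z) Z
      (sel m ((EuclideanSpace.single i (1 : ℝ), 0), (0, EuclideanSpace.single i (1 : ℝ))))) :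
    ∫ Z, f' Z * evS U y b Z P ∂(PiM U y b) =
      ∫ Z, f Z * evS U y b Z (del m i P) ∂(PiM U y b) := by
  set v : E d × E d :=
    sel m ((EuclideanSpace.single i (1 : ℝ), 0), (0, EuclideanSpace.single i (1 : ℝ))) with hv
  have cF := PiB.continuous_Fpt h y b
  have pF : PG fun Z => Fz U (lev b) (pt y b Z) := PiB.pg_Fz h _ _
  have cE := fun Q => continuous_evS h Q y hb
  have pE := fun Q => pg_evS h Q y hb
  have hD : ∀ Z, HasLineDerivAt ℝ
      (fun Z => f Z * evS U y b Z P * Fz U (lev b) (pt y b Z))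
      (f' Z * evS U y b Z P * Fz U (lev b) (pt y b Z) +
        f Z * evS U y b Z (dZ m i P - bb m * G i * P) * Fz U (lev b) (pt y b Z)) Z v := by
    intro Z
    have h1 : HasDerivAt (fun t : ℝ => f (Z + t • v)) (f' Z) 0 := hf Z
    have h2 := hasDerivAt_evS_Z h P y hb Z v 0
    have h3 := hasDerivAt_Fz_Z h y hb Z v 0
    rw [hv, PiB.sum_sel, ← hv] at h2 h3
    have h4 := (h1.mul h2).mul h3
    refine HasDerivAt.congr_deriv h4 ?_
    simp only [Pi.mul_apply, zero_smul, add_zero, map_sub, map_mul]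
    ring
  have i1 : Integrable (fun Z => f' Z * evS U y b Z P * Fz U (lev b) (pt y b Z))
      ((gam d).prod (gam d)) :=
    ((hg'.mul (pE _)).mul pF).integrable_gam2 ((hfc'.mul (cE _)).mul cF).aestronglyMeasurable
  have i2 : ∀ Q, Integrable (fun Z => f Z * evS U y b Z Q * Fz U (lev b) (pt y b Z))
      ((gam d).prod (gam d)) := fun Q =>
    ((hg.mul (pE _)).mul pF).integrable_gam2 ((hfc.mul (cE _)).mul cF).aestronglyMeasurable
  have h5 := gam2_ibp v hD ((hfc.mul (cE _)).mul cF) ((hg.mul (pE _)).mul pF)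
    (((hg'.mul (pE _)).mul pF).add ((hg.mul (pE _)).mul pF)) (i1.add (i2 _)).aestronglyMeasurable
  rw [integral_add i1 (i2 _)] at h5
  have h6 : ∫ Z, (inner ℝ Z.1 v.1 + inner ℝ Z.2 v.2) *
      (f Z * evS U y b Z P * Fz U (lev b) (pt y b Z)) ∂((gam d).prod (gam d)) =
      (∫ Z, f Z * evS U y b Z (del m i P) * Fz U (lev b) (pt y b Z) ∂((gam d).prod (gam d))) +
      ∫ Z, f Z * evS U y b Z (dZ m i P - bb m * G i * P) * Fz U (lev b) (pt y b Z)
        ∂((gam d).prod (gam d)) := by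
    rw [← integral_add (i2 _) (i2 _)]
    refine integral_congr_ae (Filter.Eventually.of_forall fun Z => ?_)
    simp only [hv, PiB.inner_sel, del, map_sub, map_mul, map_add, PiB.evS_zz]
    ring
  rw [h6, add_left_inj] at h5
  rw [integral_PiM h, integral_PiM h]
  have h7 : ∀ g : E d × E d → ℝ,
      ∫ Z, (Fz U (lev b) (pt y b Z) / Fz U 1 y) • g Z ∂((gam d).prod (gam d)) =
      (∫ Z, g Z * Fz U (lev b) (pt y b Z) ∂((gam d).prod (gam d))) / Fz U 1 y := by
    intro g
    rw [← integral_div]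
    refine integral_congr_ae (Filter.Eventually.of_forall fun Z => ?_)
    simp only [smul_eq_mul]
    ring
  rw [h7, h7, h5]

theorem integral_del (h : Pot α β U) (y : E d) {b : ℝ × ℝ} (hb : 0 < lev b) (m : Fin 2)
    (i : Fin d) (P : R d) : ∫ Z, evS U y b Z (del m i P) ∂(PiM U y b) = 0 := by
  have h1 := PiM_ibp h y hb m i P (f := fun _ => 1) (f' := fun _ => 0) continuous_const
    continuous_const (PG.const 1) (PG.const 0) (fun Z => hasDerivAt_const _ _)
  simpa using h1.symm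

theorem integral_del_mul (h : Pot α β U) (y : E d) {b : ℝ × ℝ} (hb : 0 < lev b) (m : Fin 2)
    (i : Fin d) (P P' : R d) :
    ∫ Z, evS U y b Z (del m i P * P') ∂(PiM U y b) =
      ∫ Z, evS U y b Z (P * dZ m i P') ∂(PiM U y b) := by
  have h1 := integral_del h y hb m i (P * P')
  simp only [del_mul, map_sub] at h1
  rw [integral_sub (integrable_evS h y hb _) (integrable_evS h y hb _)] at h1
  exact sub_eq_zero.1 h1

/-- at `b = (r, 0)` the second component is standard Gaussian -/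
theorem integral_PiM_snd (h : Pot α β U) (y : E d) {r : ℝ} (hr : r ^ 2 ≤ 1) {f : E d → ℝ}
    (hf : Continuous f) (hg : PG f) :
    ∫ Z, f Z.2 ∂(PiM U y (r, 0)) = ∫ ξ, f ξ ∂(gam d) := by
  have hb : 0 ≤ lev (r, 0) := by simp only [lev]; linarith
  have key : ∀ g : E d → ℝ, ∫ Z, g Z.2 ∂(PiM U y (r, 0)) =
      (∫ ζ, Fz U (lev (r, 0)) (y + r • ζ) / Fz U 1 y ∂(gam d)) * ∫ ξ, g ξ ∂(gam d) := by
    intro g
    rw [integral_PiM h, ← integral_prod_mul]
    refine integral_congr_ae (Filter.Eventually.of_forall fun Z => ?_)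
    simp [pt]
  have := isProb_PiM h y hb
  have h1 := key fun _ => 1
  simp only [integral_const, probReal_univ, smul_eq_mul, mul_one] at h1
  rw [key, ← h1, one_mul]

/-- at `b = (r, 0)` the point `y + r ζ` is a bridge between `y` and a sample of `tilt U 1 y`
(rotate the pair `(ζ, ξ)` with `gam_rot`, then use `Pot.integral_tilt_gam`) -/
theorem integral_PiM_bridge (h : Pot α β U) (y : E d) {r : ℝ} (hr : r ^ 2 ≤ 1) {f : E d → ℝ}
    (hf : Continuous f) (hg : PG f) :
    ∫ Z, f (y + r • Z.1) ∂(PiM U y (r, 0)) =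
      ∫ u, ∫ ξ, f ((1 - r ^ 2) • y + r ^ 2 • u + (r * √(1 - r ^ 2)) • ξ) ∂(gam d)
        ∂(tilt U 1 y) := by
  set c : ℝ := √(1 - r ^ 2) with hc
  have hc2 : c ^ 2 + r ^ 2 = 1 := by rw [hc, Real.sq_sqrt (by linarith)]; ring
  have hU := h.smooth.continuous
  have hl : lev (r, 0) = 1 - r ^ 2 := by simp [lev]
  have h1 : ∫ Z, f (y + r • Z.1) ∂(PiM U y (r, 0)) =
      (∫ ζ, Fz U (1 - r ^ 2) (y + r • ζ) * f (y + r • ζ) ∂(gam d)) / Fz U 1 y := by
    have h2 := integral_prod_mul (μ := gam d) (ν := gam d)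
      (fun ζ => Fz U (1 - r ^ 2) (y + r • ζ) * f (y + r • ζ) / Fz U 1 y) (fun _ => (1 : ℝ))
    simp only [integral_const, probReal_univ, smul_eq_mul, mul_one] at h2
    rw [integral_PiM h, ← integral_div, ← h2]
    refine integral_congr_ae (Filter.Eventually.of_forall fun Z => ?_)
    simp only [pt, hl, zero_smul, add_zero, smul_eq_mul]
    ring
  let g : E d × E d → ℝ := fun p =>
    f ((1 - r ^ 2) • y + r ^ 2 • (y + p.1) + (r * c) • p.2) * Real.exp (-U (y + p.1))
  have gc : Continuous g := by simp only [g]; fun_prop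
  have gi : Integrable g ((gam d).prod (gam d)) := by
    refine PG.integrable_gam2 (PG.mul (hg.comp ?_) (PiB.pg_expU h _)) gc.aestronglyMeasurable
    have := PiB.pg_affine ((1 - r ^ 2) • y + r ^ 2 • y) (r ^ 2) (r * c)
    simpa only [smul_add, add_assoc] using this
  have hrot : Measurable fun p : E d × E d => (c • p.1 + r • p.2, c • p.2 - r • p.1) := by
    fun_prop
  have h3 := integral_map (μ := (gam d).prod (gam d)) (f := g) hrot.aemeasurable
    gc.aestronglyMeasurable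
  have gi' : Integrable (fun p : E d × E d => g (c • p.1 + r • p.2, c • p.2 - r • p.1))
      ((gam d).prod (gam d)) := by
    have h4 := gi
    rw [← gam_rot hc2] at h4
    exact (integrable_map_measure gc.aestronglyMeasurable hrot.aemeasurable).1 h4
  rw [gam_rot hc2, integral_prod _ gi, integral_prod_symm _ gi'] at h3
  rw [h1, h.integral_tilt_gam one_pos]
  congr 1
  simp only [Real.sqrt_one, one_smul, ← integral_mul_const]
  refine Eq.trans ?_ h3.symm
  refine integral_congr_ae (Filter.Eventually.of_forall fun ζ => ?_)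
  simp only [Fz, g]
  rw [← integral_mul_const]
  refine integral_congr_ae (Filter.Eventually.of_forall fun ξ => ?_)
  have e1 : (1 - r ^ 2) • y + r ^ 2 • (y + (c • ξ + r • ζ)) + (r * c) • (c • ζ - r • ξ) =
      y + (r * (c ^ 2 + r ^ 2)) • ζ := by module
  have e2 : y + (c • ξ + r • ζ) = y + r • ζ + c • ξ := by abel
  simp only
  rw [e1, e2, hc2, mul_one, mul_comm]

/-- first moment of the state: `Z m i = del m i 1 - b m G i`; a crude explicit bound -/
theorem integral_norm_gfun_le (ε : ℝ) (h : Pot 0 ε U) (hε : ε ≤ 1 / 2) (y : E d) {b : ℝ × ℝ}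
    (hb : 1 / 2 ≤ lev b) :
    ∫ Z, ‖gfun U y b Z‖ ∂(PiM U y b) ≤ 4 * (‖y‖ + √d) := by
  have hb0 : 0 < lev b := by linarith
  have hb1 : lev b ≤ 1 := by simp only [lev]; nlinarith [sq_nonneg b.1, sq_nonneg b.2]
  have hbb : b.1 ^ 2 + b.2 ^ 2 ≤ 1 / 2 := by simp only [lev] at hb; linarith
  have hε0 : 0 ≤ ε := h.le
  have := isProb_PiM h y hb0.le
  set Y := ‖y‖ with hY
  set D := √(d : ℝ) with hD
  have hY0 : 0 ≤ Y := norm_nonneg _
  have hD0 : 0 ≤ D := Real.sqrt_nonneg _
  have hD2 : D ^ 2 = d := Real.sq_sqrt (Nat.cast_nonneg d)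
  let w : E d × E d → ℝ := fun Z => ‖b.1 • Z.1 + b.2 • Z.2‖
  have hw0 : ∀ Z, 0 ≤ w Z := fun Z => norm_nonneg _
  have wi : Integrable w (PiM U y b) := by
    refine integrable_PiM h y b (by simp only [w]; fun_prop) (PiB.pg_norm ?_)
    simpa only [zero_add] using PiB.pg_affine (0 : E d) b.1 b.2
  have hG : ∀ Z, ‖gfun U y b Z‖ ≤ Y / 2 + w Z / 2 + D := by
    intro Z
    have h1 := h.norm_Gt_le hb0 (by nlinarith) (pt y b Z)
    have h2 : ‖pt y b Z‖ ≤ Y + w Z := norm_add_le _ _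
    have h3 : √(lev b * d) ≤ D :=
      Real.sqrt_le_sqrt (mul_le_of_le_one_left (Nat.cast_nonneg d) hb1)
    have h4 : ε * ‖pt y b Z‖ ≤ 1 / 2 * (Y + w Z) := mul_le_mul hε h2 (norm_nonneg _) (by norm_num)
    have h5 : ε * √(lev b * d) ≤ 1 / 2 * D := mul_le_mul hε h3 (Real.sqrt_nonneg _) (by norm_num)
    unfold gfun
    linarith
  set μ := ∫ Z, w Z ∂(PiM U y b) with hμ
  have hμ0 : 0 ≤ μ := integral_nonneg hw0
  have h1 : ∫ Z, ∑ m, ∑ i, evS U y b Z (del m i 1 * zz m i) ∂(PiM U y b) = 2 * d := by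
    rw [integral_finsetSum _ fun m _ => integrable_finsetSum _ fun i _ =>
      integrable_evS h y hb0 _]
    have h2 : ∀ m : Fin 2, ∫ Z, ∑ i, evS U y b Z (del m i 1 * zz m i) ∂(PiM U y b) = d := by
      intro m
      rw [integral_finsetSum _ fun i _ => integrable_evS h y hb0 _]
      simp only [integral_del_mul h y hb0]
      simp [dZ_zz]
    simp only [h2, Fin.sum_univ_two]
    ring
  have h2 : ∀ Z, (3 * μ - Y / 2 - D) * w Z - 3 / 2 * μ ^ 2 ≤
      ∑ m, ∑ i, evS U y b Z (del m i 1 * zz m i) := by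
    intro Z
    have e1 : ∑ m, ∑ i, evS U y b Z (del m i 1 * zz m i) =
        ‖Z.1‖ ^ 2 + ‖Z.2‖ ^ 2 + inner ℝ (gfun U y b Z) (b.1 • Z.1 + b.2 • Z.2) := by
      simp only [del, Derivation.map_one_eq_zero, sub_zero, mul_one, map_mul, map_add,
        PiB.evS_zz, PiB.evS_bb, PiB.evS_G h y hb0, Fin.sum_univ_two, EuclideanSpace.real_norm_sq_eq,
        PiLp.inner_apply, ← Finset.sum_add_distrib]
      refine Finset.sum_congr rfl fun i _ => ?_
      simp [sel]
      ring
    have e2 := abs_real_inner_le_norm (gfun U y b Z) (b.1 • Z.1 + b.2 • Z.2)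
    have e3 : ‖gfun U y b Z‖ * w Z ≤ (Y / 2 + w Z / 2 + D) * w Z :=
      mul_le_mul_of_nonneg_right (hG Z) (hw0 Z)
    have e4 : w Z ≤ |b.1| * ‖Z.1‖ + |b.2| * ‖Z.2‖ := by
      refine (norm_add_le _ _).trans ?_
      rw [norm_smul, norm_smul, Real.norm_eq_abs, Real.norm_eq_abs]
    have e5 : w Z ^ 2 ≤ (b.1 ^ 2 + b.2 ^ 2) * (‖Z.1‖ ^ 2 + ‖Z.2‖ ^ 2) := by
      refine (pow_le_pow_left₀ (hw0 Z) e4 2).trans ?_
      rw [← sq_abs b.1, ← sq_abs b.2]
      nlinarith [sq_nonneg (|b.1| * ‖Z.2‖ - |b.2| * ‖Z.1‖)]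
    have e6 : (b.1 ^ 2 + b.2 ^ 2) * (‖Z.1‖ ^ 2 + ‖Z.2‖ ^ 2) ≤ 1 / 2 * (‖Z.1‖ ^ 2 + ‖Z.2‖ ^ 2) :=
      mul_le_mul_of_nonneg_right hbb (by positivity)
    have e7 := (abs_le.1 e2).1
    rw [e1]
    nlinarith [sq_nonneg (w Z - μ)]
  have h3 := integral_mono ((wi.const_mul (3 * μ - Y / 2 - D)).sub (integrable_const _))
    (integrable_finsetSum _ fun m _ => integrable_finsetSum _ fun i _ =>
      integrable_evS h y hb0 _) h2
  simp only [Pi.sub_apply] at h3
  rw [h1, integral_sub (wi.const_mul _) (integrable_const _), integral_const_mul, ← hμ,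
    integral_const, probReal_univ, one_smul] at h3
  have h4 : μ ≤ Y + 2 * D := by
    by_contra hcon
    rw [not_le] at hcon
    nlinarith
  have h5 : ∫ Z, ‖gfun U y b Z‖ ∂(PiM U y b) ≤ ∫ Z, (Y / 2 + D) + w Z / 2 ∂(PiM U y b) := by
    refine integral_mono_of_nonneg (Filter.Eventually.of_forall fun Z => norm_nonneg _)
      ((integrable_const _).add (wi.div_const _)) (Filter.Eventually.of_forall fun Z => ?_)
    have := hG Z
    simp only
    linarith
  rw [integral_add (integrable_const _) (wi.div_const _), integral_const, probReal_univ, one_smul,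
    integral_div, ← hμ] at h5
  linarith

end Vale.Agent.P347
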