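import Vale.Agent.P347.Misc

/-! TASK PotBasic: potentials, scaling, integrability and growth of moments of `tilt`. -/

open MeasureTheory ProbabilityTheory

namespace Vale.Agent.P347

variable {d : ℕ} {α β : ℝ} {U : E d → ℝ}

private theorem taylor_lower {φ φ' φ'' : ℝ → ℝ} (h1 : ∀ t, HasDerivAt φ (φ' t) t)
    (h2 : ∀ t, HasDerivAt φ' (φ'' t) t) {a : ℝ} (ha : ∀ t, a ≤ φ'' t) :
    φ 0 + φ' 0 + a / 2 ≤ φ 1 := by
  have k1 : ∀ t, HasDerivAt (fun t => φ t - φ' 0 * t - a / 2 * t ^ 2) (φ' t - φ' 0 - a * t) t := by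
    intro t
    refine (((h1 t).sub ((hasDerivAt_id t).const_mul (φ' 0))).sub
      ((hasDerivAt_pow 2 t).const_mul (a / 2))).congr_deriv ?_
    simp
    ring
  obtain ⟨c, hc, e⟩ := exists_hasDerivAt_eq_slope _ _ one_pos
    (fun t _ => (k1 t).continuousAt.continuousWithinAt) (fun t _ => k1 t)
  obtain ⟨c', -, e'⟩ := exists_hasDerivAt_eq_slope _ _ hc.1
    (fun t _ => (h2 t).continuousAt.continuousWithinAt) (fun t _ => h2 t)
  have h3 := ha c'
  rw [e', sub_zero, le_div_iff₀ hc.1] at h3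
  simp at e
  linarith

private theorem lip_of_lo_hi {g : E d → E d} {β : ℝ} (hβ : 0 < β)
    (lo : ∀ x y, U x + inner ℝ (g x) (y - x) ≤ U y)
    (hi : ∀ x y, U y ≤ U x + inner ℝ (g x) (y - x) + β / 2 * ‖y - x‖ ^ 2) (x y : E d) :
    ‖g x - g y‖ ≤ β * ‖x - y‖ := by
  have key : ∀ x y, U y - U x + inner ℝ (g y) (x - y) + ‖g x - g y‖ ^ 2 / (2 * β) ≤ 0 := by
    intro x y
    have h1 := lo y (x - β⁻¹ • (g x - g y))
    have h2 := hi x (x - β⁻¹ • (g x - g y))
    rw [sub_right_comm, inner_sub_right, real_inner_smul_right] at h1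
    rw [sub_sub_cancel_left, inner_neg_right, real_inner_smul_right, norm_neg, norm_smul,
      Real.norm_of_nonneg (by positivity), mul_pow] at h2
    have h3 : inner ℝ (g x) (g x - g y) - inner ℝ (g y) (g x - g y) = ‖g x - g y‖ ^ 2 := by
      rw [← inner_sub_left, real_inner_self_eq_norm_sq]
    have h4 : β / 2 * (β⁻¹ ^ 2 * ‖g x - g y‖ ^ 2) = ‖g x - g y‖ ^ 2 / (2 * β) := by field_simp
    have h5 : β⁻¹ * (inner ℝ (g x) (g x - g y) - inner ℝ (g y) (g x - g y)) =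
        2 * (‖g x - g y‖ ^ 2 / (2 * β)) := by rw [h3]; field_simp
    linarith
  have h1 := key x y
  have h2 := key y x
  rw [norm_sub_rev (g y), ← neg_sub x y, inner_neg_right] at h2
  have h3 := real_inner_le_norm (g x - g y) (x - y)
  rw [inner_sub_left] at h3
  have h4 : ‖g x - g y‖ ^ 2 ≤ ‖g x - g y‖ * ‖x - y‖ * β := by
    rw [← div_le_iff₀ hβ]
    have : ‖g x - g y‖ ^ 2 / β = 2 * (‖g x - g y‖ ^ 2 / (2 * β)) := by field_simp
    linarith
  by_contra h
  have h5 := not_le.1 h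
  have h6 : 0 < ‖g x - g y‖ := lt_of_le_of_lt (by positivity) h5
  nlinarith

theorem Admissible.pot {V : E d → ℝ} (h : Admissible V) : Pot 1 2 V := by
  obtain ⟨h1, h2, h3, h4⟩ := h
  have d1 : Differentiable ℝ V := h1.differentiable (by norm_num)
  have d2 : Differentiable ℝ (fderiv ℝ V) :=
    (h1.fderiv_right (m := 1) (by norm_num)).differentiable (by norm_num)
  have hl : ∀ (x v : E d) (t : ℝ), HasDerivAt (fun t : ℝ => x + t • v) v t := fun x v t => by
    simpa using ((hasDerivAt_id t).smul_const v).const_add x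
  have k1 : ∀ (x v : E d) (t : ℝ), HasDerivAt (fun t : ℝ => V (x + t • v))
      (fderiv ℝ V (x + t • v) v) t := fun x v t =>
    (d1 _).hasFDerivAt.comp_hasDerivAt t (hl x v t)
  have k2 : ∀ (x v : E d) (t : ℝ), HasDerivAt (fun t : ℝ => fderiv ℝ V (x + t • v) v)
      (iteratedFDeriv ℝ 2 V (x + t • v) ![v, v]) t := fun x v t => by
    rw [iteratedFDeriv_two_apply]
    have := ((d2 _).hasFDerivAt.comp_hasDerivAt t (hl x v t)).clm_apply (hasDerivAt_const t v)
    simpa using this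
  have lo : ∀ x y, V x + inner ℝ (gradient V x) (y - x) + 1 / 2 * ‖y - x‖ ^ 2 ≤ V y := by
    intro x y
    have := taylor_lower (k1 x (y - x)) (k2 x (y - x)) (fun t => (h4 _ _).1)
    rw [inner_gradient_left]
    simp only [zero_smul, add_zero, one_smul, add_sub_cancel] at this
    linarith
  have hi : ∀ x y, V y ≤ V x + inner ℝ (gradient V x) (y - x) + 2 / 2 * ‖y - x‖ ^ 2 := by
    intro x y
    have := taylor_lower (fun t => (k1 x (y - x) t).neg) (fun t => (k2 x (y - x) t).neg)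
      (fun t => neg_le_neg (h4 _ _).2)
    rw [inner_gradient_left]
    simp only [Pi.neg_apply, zero_smul, add_zero, one_smul, add_sub_cancel] at this
    linarith
  exact ⟨h1, h2, h3, zero_le_one, one_le_two, lip_of_lo_hi two_pos
    (fun x y => by nlinarith [lo x y, sq_nonneg ‖y - x‖]) hi, lo, hi⟩

theorem Pot.mono (h : Pot α β U) {α' β' : ℝ} (h0 : 0 ≤ α') (h1 : α' ≤ α) (h2 : β ≤ β') :
    Pot α' β' U :=
  ⟨h.smooth, h.zero, h.grad0, h0, h1.trans (h.le.trans h2),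
    fun x y => (h.lip x y).trans (mul_le_mul_of_nonneg_right h2 (norm_nonneg _)),
    fun x y => by nlinarith [h.lo x y, sq_nonneg ‖y - x‖],
    fun x y => by nlinarith [h.hi x y, sq_nonneg ‖y - x‖]⟩

theorem gradient_comp_smul (U : E d → ℝ) (τ : ℝ) (x : E d) :
    gradient (fun u => U (τ • u)) x = τ • gradient U (τ • x) := by
  refine ext_inner_right ℝ fun v => ?_
  rw [real_inner_smul_left, inner_gradient_left, inner_gradient_left, fderiv_comp_smul]
  rfl

theorem Pot.scale (h : Pot α β U) {τ : ℝ} (hτ : 0 < τ) :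
    Pot (τ ^ 2 * α) (τ ^ 2 * β) fun u => U (τ • u) := by
  have e : ∀ x y : E d, ‖τ • x - τ • y‖ = τ * ‖x - y‖ := fun x y => by
    rw [← smul_sub, norm_smul, Real.norm_of_nonneg hτ.le]
  have e2 : ∀ g x y : E d, inner ℝ g (τ • x - τ • y) = inner ℝ (τ • g) (x - y) := fun g x y => by
    rw [← smul_sub, real_inner_smul_right, real_inner_smul_left]
  refine ⟨h.smooth.comp (by fun_prop), by simp [h.zero], by simp [gradient_comp_smul, h.grad0],
    mul_nonneg (sq_nonneg _) h.nonneg, mul_le_mul_of_nonneg_left h.le (sq_nonneg _),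
    fun x y => ?_, fun x y => ?_, fun x y => ?_⟩
  · rw [gradient_comp_smul, gradient_comp_smul, e]
    have := mul_le_mul_of_nonneg_left (h.lip (τ • x) (τ • y)) hτ.le
    rw [e] at this
    linarith
  · have := h.lo (τ • x) (τ • y)
    rw [e, e2] at this
    rw [gradient_comp_smul]
    linarith
  · have := h.hi (τ • x) (τ • y)
    rw [e, e2] at this
    rw [gradient_comp_smul]
    linarith

theorem Pot.quad_le (h : Pot α β U) (x : E d) : α / 2 * ‖x‖ ^ 2 ≤ U x := by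
  have := h.lo 0 x
  simpa [h.zero, h.grad0] using this

theorem Pot.nonneg_val (h : Pot α β U) (x : E d) : 0 ≤ U x := by
  have := h.nonneg
  exact le_trans (by positivity) (h.quad_le x)

theorem Pot.norm_grad_le (h : Pot α β U) (x : E d) : ‖gradient U x‖ ≤ β * ‖x‖ := by
  simpa [h.grad0] using h.lip x 0

theorem Pot.contDiff_grad (h : Pot α β U) : ContDiff ℝ 1 (gradient U) := by
  have h1 : ContDiff ℝ 1 (fderiv ℝ U) := h.smooth.fderiv_right (m := 1) (by norm_num)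
  rw [contDiff_euclidean]
  intro i
  have : (fun x => gradient U x i) = fun x => fderiv ℝ U x (EuclideanSpace.single i 1) := by
    funext x
    rw [← inner_gradient_left, EuclideanSpace.inner_single_right]
    simp
  rw [this]
  exact h1.clm_apply contDiff_const

theorem Pot.norm_fderiv_grad_le (h : Pot α β U) (x : E d) : ‖fderiv ℝ (gradient U) x‖ ≤ β :=
  norm_fderiv_le_of_lip' ℝ (h.nonneg.trans h.le)
    (Filter.Eventually.of_forall fun y => h.lip y x)

theorem Pot.mid (h : Pot α β U) (x y : E d) :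
    U ((1 / 2 : ℝ) • (x + y)) ≤ (U x + U y) / 2 - α / 8 * ‖x - y‖ ^ 2 := by
  have h1 := h.lo ((1 / 2 : ℝ) • (x + y)) x
  have h2 := h.lo ((1 / 2 : ℝ) • (x + y)) y
  have e1 : x - (1 / 2 : ℝ) • (x + y) = (1 / 2 : ℝ) • (x - y) := by module
  have e2 : y - (1 / 2 : ℝ) • (x + y) = -((1 / 2 : ℝ) • (x - y)) := by module
  rw [e1] at h1
  rw [e2, inner_neg_right, norm_neg] at h2
  rw [norm_smul, Real.norm_of_nonneg (by norm_num)] at h1 h2
  linarith

theorem Pot.mid_tilt (h : Pot α β U) {s : ℝ} (hs : 0 < s) (c x y : E d) :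
    U ((1 / 2 : ℝ) • (x + y)) + ‖(1 / 2 : ℝ) • (x + y) - c‖ ^ 2 / (2 * s) ≤
      ((U x + ‖x - c‖ ^ 2 / (2 * s)) + (U y + ‖y - c‖ ^ 2 / (2 * s))) / 2
        - (α + s⁻¹) / 8 * ‖x - y‖ ^ 2 := by
  have h1 := h.mid x y
  have e1 : (1 / 2 : ℝ) • (x + y) - c = (1 / 2 : ℝ) • ((x - c) + (y - c)) := by module
  have e2 : x - y = (x - c) - (y - c) := by abel
  have e3 : ‖(1 / 2 : ℝ) • (x + y) - c‖ ^ 2 = (‖x - c‖ ^ 2 + ‖y - c‖ ^ 2) / 2 - ‖x - y‖ ^ 2 / 4 := by
    rw [e1, e2, norm_smul, Real.norm_of_nonneg (by norm_num), mul_pow, norm_add_sq_real,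
      norm_sub_sq_real (x - c)]
    ring
  have e4 : ‖(1 / 2 : ℝ) • (x + y) - c‖ ^ 2 / (2 * s) =
      (‖x - c‖ ^ 2 / (2 * s) + ‖y - c‖ ^ 2 / (2 * s)) / 2 - s⁻¹ / 8 * ‖x - y‖ ^ 2 := by
    rw [e3]
    field_simp
    ring
  linarith

theorem Pot.continuous_wt (h : Pot α β U) (s : ℝ) (x : E d) : Continuous (wt U s x) := by
  have := h.smooth.continuous
  unfold wt
  fun_prop

theorem wt_pos (U : E d → ℝ) (s : ℝ) (x u : E d) : 0 < wt U s x u := Real.exp_pos _

theorem Pot.integrable_wt (h : Pot α β U) {s : ℝ} (hs : 0 < s) (x : E d) (p : ℕ) :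
    Integrable (fun u : E d => (1 + ‖u‖) ^ p * wt U s x u) volume := by
  have hc := h.continuous_wt s x
  refine (integrable_pow_mul_exp_neg p (c := 1 / (2 * s)) (by positivity) x).mono' (by fun_prop)
    (ae_of_all _ fun u => ?_)
  rw [Real.norm_of_nonneg (mul_nonneg (by positivity) (wt_pos _ _ _ _).le)]
  refine mul_le_mul_of_nonneg_left (Real.exp_le_exp.2 ?_) (by positivity)
  rw [one_div_mul_eq_div]
  linarith [h.nonneg_val u]

theorem Pot.integrable_wt0 (h : Pot α β U) {s : ℝ} (hs : 0 < s) (x : E d) :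
    Integrable (fun u : E d => Real.exp (-(U u + ‖u - x‖ ^ 2 / (2 * s)))) volume := by
  simpa [wt] using h.integrable_wt hs x 0

theorem Pot.integral_wt_pos (h : Pot α β U) {s : ℝ} (hs : 0 < s) (x : E d) :
    0 < ∫ u, wt U s x u := integral_exp_pos (h.integrable_wt0 hs x)

theorem Pot.isProb_tilt (h : Pot α β U) {s : ℝ} (hs : 0 < s) (x : E d) :
    IsProbabilityMeasure (tilt U s x) := isProbabilityMeasure_tilted (h.integrable_wt0 hs x)

theorem Pot.integral_tilt (h : Pot α β U) {s : ℝ} (hs : 0 < s) (x : E d) (f : E d → ℝ) :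
    ∫ u, f u ∂(tilt U s x) = (∫ u, f u * wt U s x u) / ∫ u, wt U s x u := by
  rw [tilt, integral_tilted, ← integral_div]
  congr 1
  funext u
  rw [smul_eq_mul, div_mul_eq_mul_div, mul_comm]
  rfl

theorem Pot.integrable_tilt_vec (h : Pot α β U) {s : ℝ} (hs : 0 < s) (x : E d)
    {F : Type*} [NormedAddCommGroup F] {f : E d → F}
    (hf : PG fun u => ‖f u‖) (hm : AEStronglyMeasurable f volume) :
    Integrable f (tilt U s x) := by
  obtain ⟨C, p, hb⟩ := hf
  have h1 : Integrable (fun u : E d => (1 + ‖u‖) ^ p) (tilt U s x) := by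
    rw [tilt, integrable_tilted_iff (h.integrable_wt0 hs x)]
    simpa only [wt, smul_eq_mul, mul_comm] using h.integrable_wt hs x p
  exact (h1.const_mul C).mono' (hm.mono_ac (tilted_absolutelyContinuous _ _))
    (ae_of_all _ fun u => (le_abs_self _).trans (hb u))

theorem Pot.integrable_tilt (h : Pot α β U) {s : ℝ} (hs : 0 < s) (x : E d) {f : E d → ℝ}
    (hf : PG f) (hm : AEStronglyMeasurable f volume) : Integrable f (tilt U s x) :=
  h.integrable_tilt_vec hs x (hf.of_le fun u => by simp) hm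

theorem Pot.exists_center (h : Pot α β U) {s : ℝ} (hs : 0 < s) (x : E d) :
    ∃ z : E d, ‖z‖ ≤ ‖x‖ ∧ ∀ u,
      U z + ‖z - x‖ ^ 2 / (2 * s) + ‖u - z‖ ^ 2 / (2 * s) ≤ U u + ‖u - x‖ ^ 2 / (2 * s) ∧
      U u + ‖u - x‖ ^ 2 / (2 * s) ≤
        U z + ‖z - x‖ ^ 2 / (2 * s) + (β + s⁻¹) / 2 * ‖u - z‖ ^ 2 := by
  have hc := h.smooth.continuous
  have hβ : 0 ≤ β := h.nonneg.trans h.le
  obtain ⟨z, hz⟩ := Continuous.exists_forall_le' (f := fun u => U u + ‖u - x‖ ^ 2 / (2 * s))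
    (by fun_prop) x (by
      filter_upwards [(tendsto_norm_cocompact_atTop (E := E d)).eventually_ge_atTop
        (‖x‖ + (2 * s * U x + 1))] with u hu
      have h1 : 2 * s * U x + 1 ≤ ‖u - x‖ := by linarith [norm_sub_norm_le u x]
      have h2 : 0 ≤ 2 * s * U x := by have := h.nonneg_val x; positivity
      have h3 : U x ≤ ‖u - x‖ ^ 2 / (2 * s) := by
        rw [le_div_iff₀ (by positivity)]
        nlinarith
      simp only [sub_self, norm_zero]
      have := h.nonneg_val u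
      norm_num
      linarith)
  have e : ∀ u : E d, ‖u - x‖ ^ 2 / (2 * s) = ‖z - x‖ ^ 2 / (2 * s) +
      inner ℝ (s⁻¹ • (z - x)) (u - z) + ‖u - z‖ ^ 2 / (2 * s) := by
    intro u
    rw [show u - x = (z - x) + (u - z) by abel, norm_add_sq_real, real_inner_smul_left]
    field_simp
  have e2 : ∀ u : E d, ‖u - z‖ ^ 2 / (2 * s) = s⁻¹ / 2 * ‖u - z‖ ^ 2 := fun u => by field_simp
  have hG : gradient U z + s⁻¹ • (z - x) = 0 := by
    set G := gradient U z + s⁻¹ • (z - x) with hG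
    have hK : 0 < β + s⁻¹ := by positivity
    have h1 := hz (z - (β + s⁻¹)⁻¹ • G)
    have h2 := h.hi z (z - (β + s⁻¹)⁻¹ • G)
    have h3 := e (z - (β + s⁻¹)⁻¹ • G)
    rw [e2] at h3
    have h4 : inner ℝ (gradient U z) (z - (β + s⁻¹)⁻¹ • G - z) +
        inner ℝ (s⁻¹ • (z - x)) (z - (β + s⁻¹)⁻¹ • G - z) = -((β + s⁻¹)⁻¹ * ‖G‖ ^ 2) := by
      rw [← inner_add_left, ← hG, sub_sub_cancel_left, inner_neg_right, real_inner_smul_right,
        real_inner_self_eq_norm_sq]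
    have h5 : β / 2 * ‖z - (β + s⁻¹)⁻¹ • G - z‖ ^ 2 + s⁻¹ / 2 * ‖z - (β + s⁻¹)⁻¹ • G - z‖ ^ 2 =
        (β + s⁻¹)⁻¹ * ‖G‖ ^ 2 / 2 := by
      rw [sub_sub_cancel_left, norm_neg, norm_smul, Real.norm_of_nonneg (by positivity),
        ← add_mul, ← add_div]
      generalize β + s⁻¹ = K at hK ⊢
      field_simp
    have h6 : (β + s⁻¹)⁻¹ * ‖G‖ ^ 2 ≤ 0 := by
      linarith
    have h7 : ‖G‖ ^ 2 ≤ 0 := by
      by_contra h8
      have := mul_pos (inv_pos.2 hK) (not_le.1 h8)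
      linarith
    exact norm_eq_zero.1 (pow_eq_zero_iff two_ne_zero |>.1 (le_antisymm h7 (sq_nonneg _)))
  have hI : ∀ v, inner ℝ (gradient U z) v + inner ℝ (s⁻¹ • (z - x)) v = 0 := fun v => by
    rw [← inner_add_left, hG, inner_zero_left]
  refine ⟨z, ?_, fun u => ⟨?_, ?_⟩⟩
  · have h1 := h.lo z 0
    have h2 := hI z
    rw [zero_sub, inner_neg_right, h.zero] at h1
    rw [real_inner_smul_left, inner_sub_left, real_inner_self_eq_norm_sq] at h2
    have h3 := h.nonneg_val z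
    have h4 : 0 ≤ α / 2 * ‖-z‖ ^ 2 := by have := h.nonneg; positivity
    have h5 : ‖z‖ ^ 2 - inner ℝ x z ≤ 0 := by
      by_contra h8
      have := mul_pos (inv_pos.2 hs) (not_le.1 h8)
      linarith
    have h6 := real_inner_le_norm x z
    by_contra h8
    nlinarith [norm_nonneg x, not_le.1 h8]
  · have h4 : 0 ≤ α / 2 * ‖u - z‖ ^ 2 := by have := h.nonneg; positivity
    linarith [h.lo z u, e u, hI (u - z)]
  · linarith [h.hi z u, e u, hI (u - z), e2 u]

/-- Moments grow polynomially in the centre, uniformly for `s ∈ [s₀, 1]`.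
Hint: let `x*` minimise `Ψ = U + ‖· - x‖²/(2s)`; then `‖x*‖ ≤ ‖x‖` (first order condition and
`⟪∇U x*, x*⟫ ≥ 0`), and `‖u - x*‖²/(2 s) ≤ Ψ u - Ψ x* ≤ (β + 1/s) ‖u - x*‖²/2`. -/
theorem Pot.moment_growth (h : Pot α β U) {s₀ : ℝ} (hs₀ : 0 < s₀) (p : ℕ) :
    ∃ C : ℝ, ∀ s, s₀ ≤ s → s ≤ 1 → ∀ x : E d,
      ∫ u, (1 + ‖u‖) ^ p ∂(tilt U s x) ≤ C * (1 + ‖x‖) ^ p := by
  have hβ : 0 ≤ β := h.nonneg.trans h.le
  have hK : 0 < (β + s₀⁻¹) / 2 := by positivity
  have i1 : Integrable (fun v : E d => (1 + ‖v‖) ^ p * Real.exp (-(1 / 2 * ‖v‖ ^ 2))) volume := by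
    simpa using integrable_pow_mul_exp_neg p (c := 1 / 2) (by norm_num) (0 : E d)
  have i2 : Integrable (fun v : E d => Real.exp (-((β + s₀⁻¹) / 2 * ‖v‖ ^ 2))) volume := by
    simpa using integrable_pow_mul_exp_neg 0 hK (0 : E d)
  have p2 := integral_exp_pos i2
  refine ⟨(∫ v : E d, (1 + ‖v‖) ^ p * Real.exp (-(1 / 2 * ‖v‖ ^ 2))) /
    ∫ v : E d, Real.exp (-((β + s₀⁻¹) / 2 * ‖v‖ ^ 2)), fun s s1 s2 x => ?_⟩
  have hs : 0 < s := hs₀.trans_le s1
  obtain ⟨z, z1, z2⟩ := h.exists_center hs x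
  set m := U z + ‖z - x‖ ^ 2 / (2 * s) with hm
  have a1 : ∫ u, (1 + ‖u‖) ^ p * wt U s x u ≤ Real.exp (-m) * (1 + ‖x‖) ^ p *
      ∫ v : E d, (1 + ‖v‖) ^ p * Real.exp (-(1 / 2 * ‖v‖ ^ 2)) := by
    rw [← integral_sub_right_eq_self
      (fun v : E d => (1 + ‖v‖) ^ p * Real.exp (-(1 / 2 * ‖v‖ ^ 2))) z, ← integral_const_mul]
    refine integral_mono (h.integrable_wt hs x p) ((i1.comp_sub_right z).const_mul _) fun u => ?_
    have b1 : (1 + ‖u‖) ^ p ≤ (1 + ‖x‖) ^ p * (1 + ‖u - z‖) ^ p := by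
      rw [← mul_pow]
      refine pow_le_pow_left₀ (by positivity) ?_ p
      nlinarith [norm_sub_norm_le u z, mul_nonneg (norm_nonneg x) (norm_nonneg (u - z))]
    have b2 : wt U s x u ≤ Real.exp (-m) * Real.exp (-(1 / 2 * ‖u - z‖ ^ 2)) := by
      rw [← Real.exp_add]
      refine Real.exp_le_exp.2 ?_
      have : 1 / 2 * ‖u - z‖ ^ 2 ≤ ‖u - z‖ ^ 2 / (2 * s) := by
        rw [one_div_mul_eq_div]
        exact div_le_div_of_nonneg_left (sq_nonneg _) (by positivity) (by linarith)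
      linarith [(z2 u).1]
    refine (mul_le_mul b1 b2 (wt_pos _ _ _ _).le (by positivity)).trans (le_of_eq ?_)
    ring
  have a2 : Real.exp (-m) * ∫ v : E d, Real.exp (-((β + s₀⁻¹) / 2 * ‖v‖ ^ 2)) ≤
      ∫ u, wt U s x u := by
    rw [← integral_sub_right_eq_self
      (fun v : E d => Real.exp (-((β + s₀⁻¹) / 2 * ‖v‖ ^ 2))) z, ← integral_const_mul]
    refine integral_mono ((i2.comp_sub_right z).const_mul _) (h.integrable_wt0 hs x) fun u => ?_
    dsimp only
    rw [← Real.exp_add]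
    refine Real.exp_le_exp.2 ?_
    have : (β + s⁻¹) / 2 * ‖u - z‖ ^ 2 ≤ (β + s₀⁻¹) / 2 * ‖u - z‖ ^ 2 :=
      mul_le_mul_of_nonneg_right (by linarith [inv_anti₀ hs₀ s1]) (sq_nonneg _)
    linarith [(z2 u).2]
  rw [h.integral_tilt hs]
  have p1 : 0 ≤ ∫ v : E d, (1 + ‖v‖) ^ p * Real.exp (-(1 / 2 * ‖v‖ ^ 2)) :=
    integral_nonneg fun v => by positivity
  generalize (∫ v : E d, (1 + ‖v‖) ^ p * Real.exp (-(1 / 2 * ‖v‖ ^ 2))) = A at a1 p1 ⊢
  generalize (∫ v : E d, Real.exp (-((β + s₀⁻¹) / 2 * ‖v‖ ^ 2))) = B at a2 p2 ⊢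
  generalize (∫ u, (1 + ‖u‖) ^ p * wt U s x u) = N at a1 ⊢
  generalize (∫ u, wt U s x u) = D at a2 ⊢
  have hx : 0 ≤ (1 + ‖x‖) ^ p := by positivity
  generalize (1 + ‖x‖) ^ p = X at a1 hx ⊢
  have hem := Real.exp_pos (-m)
  generalize Real.exp (-m) = M at a1 a2 hem
  refine (div_le_div₀ (by positivity) a1 (by positivity) a2).trans (le_of_eq ?_)
  field_simp

private theorem wt_eq (U : E d → ℝ) (s : ℝ) (x u : E d) :
    Real.exp (-U u) * Real.exp (-(‖u - x‖ ^ 2 / (2 * s))) = wt U s x u := by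
  rw [← Real.exp_add, wt, neg_add]

theorem Pot.Fz_eq (h : Pot α β U) {s : ℝ} (hs : 0 < s) (x : E d) :
    Fz U s x = (2 * Real.pi * s) ^ (-(d : ℝ) / 2) * ∫ u, wt U s x u := by
  rw [Fz, integral_gam_affine x hs (fun u => Real.exp (-U u))]
  simp only [wt_eq]

private theorem Pot.exp_le (h : Pot α β U) (u : E d) : ‖Real.exp (-U u)‖ ≤ 1 := by
  rw [Real.norm_of_nonneg (Real.exp_pos _).le, Real.exp_le_one_iff]
  linarith [h.nonneg_val u]

theorem Pot.Fz_pos (h : Pot α β U) (s : ℝ) (x : E d) : 0 < Fz U s x := by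
  have hc := h.smooth.continuous
  exact integral_exp_pos ((integrable_const (1 : ℝ)).mono' (by fun_prop)
    (ae_of_all _ fun ξ => h.exp_le _))

theorem Pot.Fz_le_one (h : Pot α β U) (s : ℝ) (x : E d) : Fz U s x ≤ 1 := by
  have := norm_integral_le_of_norm_le_const (μ := gam d)
    (f := fun ξ => Real.exp (-U (x + √s • ξ))) (C := 1) (ae_of_all _ fun ξ => h.exp_le _)
  simp only [probReal_univ, mul_one] at this
  exact (le_abs_self _).trans this

theorem Pot.continuous_Fz (h : Pot α β U) : Continuous fun p : ℝ × E d => Fz U p.1 p.2 := by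
  have hc := h.smooth.continuous
  exact continuous_of_dominated (bound := fun _ => 1) (fun p => by fun_prop)
    (fun p => ae_of_all _ fun ξ => h.exp_le _) (integrable_const _)
    (ae_of_all _ fun ξ => by fun_prop)

/-- Gaussian form of tilted expectations. -/
theorem Pot.integral_tilt_gam (h : Pot α β U) {s : ℝ} (hs : 0 < s) (x : E d) (f : E d → ℝ) :
    ∫ u, f u ∂(tilt U s x) =
      (∫ ξ, f (x + √s • ξ) * Real.exp (-U (x + √s • ξ)) ∂(gam d)) / Fz U s x := by
  rw [h.integral_tilt hs, h.Fz_eq hs, integral_gam_affine x hs (fun u => f u * Real.exp (-U u)),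
    mul_div_mul_left _ _ (by positivity)]
  simp only [mul_assoc, wt_eq]

/-- scaling of the tilted law -/
theorem Pot.integral_tilt_scale (h : Pot α β U) {τ s : ℝ} (hτ : 0 < τ) (hs : 0 < s) (x : E d)
    {F : Type*} [NormedAddCommGroup F] [NormedSpace ℝ F] (f : E d → F) :
    ∫ u, f u ∂(tilt U (τ ^ 2 * s) (τ • x)) = ∫ u, f (τ • u) ∂(tilt (fun u => U (τ • u)) s x) := by
  have e : ∀ u : E d, Real.exp (-(U (τ • u) + ‖u - x‖ ^ 2 / (2 * s))) =
      wt U (τ ^ 2 * s) (τ • x) (τ • u) := fun u => by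
    rw [wt, ← smul_sub, norm_smul, Real.norm_of_nonneg hτ.le]
    congr 3
    field_simp
  rw [tilt, tilt, integral_tilted, integral_tilted]
  simp only [e]
  rw [Measure.integral_comp_smul_of_nonneg volume (wt U (τ ^ 2 * s) (τ • x)) τ (hR := hτ.le),
    Measure.integral_comp_smul_of_nonneg volume (fun u => (wt U (τ ^ 2 * s) (τ • x) u /
      (τ ^ Module.finrank ℝ (E d))⁻¹ • ∫ u, wt U (τ ^ 2 * s) (τ • x) u) • f u) τ (hR := hτ.le),
    ← integral_smul]
  congr 1
  funext u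
  rw [smul_smul, smul_eq_mul, ← mul_div_assoc, mul_div_mul_left _ _ (by positivity)]
  rfl

theorem Pot.Gt_scale (h : Pot α β U) {τ s : ℝ} (hτ : 0 < τ) (hs : 0 < s) (x : E d) :
    Gt (fun u => U (τ • u)) s x = τ • Gt U (τ ^ 2 * s) (τ • x) := by
  rw [Gt, Gt, h.integral_tilt_scale hτ hs x (fun u => u), integral_smul, ← smul_sub, smul_smul,
    smul_smul]
  congr 1
  field_simp

theorem Pot.integrable_gibbs (h : Pot α β U) (hα : 0 < α) (p : ℕ) :
    Integrable (fun u : E d => (1 + ‖u‖) ^ p * Real.exp (-U u)) volume := by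
  have hc := h.smooth.continuous
  refine (integrable_pow_mul_exp_neg p (c := α / 2) (by positivity) 0).mono' (by fun_prop)
    (ae_of_all _ fun u => ?_)
  rw [Real.norm_of_nonneg (by positivity), sub_zero]
  exact mul_le_mul_of_nonneg_left (Real.exp_le_exp.2 (neg_le_neg (h.quad_le u))) (by positivity)

theorem Pot.isProb_gibbs (h : Pot α β U) (hα : 0 < α) : IsProbabilityMeasure (gibbs U) :=
  isProbabilityMeasure_tilted (by simpa using h.integrable_gibbs hα 0)

theorem Pot.integrable_gibbs_pg (h : Pot α β U) (hα : 0 < α) {f : E d → ℝ}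
    (hf : PG f) (hm : AEStronglyMeasurable f volume) : Integrable f (gibbs U) := by
  obtain ⟨C, p, hb⟩ := hf
  have h1 : Integrable (fun u : E d => (1 + ‖u‖) ^ p) (gibbs U) := by
    rw [gibbs, integrable_tilted_iff (by simpa using h.integrable_gibbs hα 0)]
    simpa only [smul_eq_mul, mul_comm] using h.integrable_gibbs hα p
  exact (h1.const_mul C).mono' (hm.mono_ac (tilted_absolutelyContinuous _ _)) (ae_of_all _ hb)

end Vale.Agent.P347
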