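import Vale.Agent.P347.PotBasic

/-! TASK Prog: query programs, their laws, and the calculus of approximate sampling.
See PROOF.md, section A. -/

open MeasureTheory ProbabilityTheory

namespace Vale.Agent.P347

variable {d : ℕ}

/-- straight line programs with input space `I` and output in `E d` -/
inductive Prog (d : ℕ) : (I : Type) → [MeasurableSpace I] → Type 1
  | ret {I : Type} [MeasurableSpace I] (f : I → E d) (hf : Measurable f) : Prog d I
  | query {I : Type} [MeasurableSpace I] (x : I → E d) (hx : Measurable x)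
      (p : Prog d (I × E d)) : Prog d I
  | sample {I : Type} [MeasurableSpace I] (p : Prog d (I × E d)) : Prog d I

/-- number of gradient queries -/
def Prog.cost : {I : Type} → [MeasurableSpace I] → Prog d I → ℕ
  | _, _, @Prog.ret _ _ _ _ _ => 0
  | _, _, @Prog.query _ _ _ _ _ p => p.cost + 1
  | _, _, @Prog.sample _ _ _ p => p.cost

/-- law of the output for the gradient oracle `g` -/
noncomputable def Prog.law (g : E d → E d) :
    {I : Type} → [MeasurableSpace I] → Prog d I → I → Measure (E d)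
  | _, _, @Prog.ret _ _ _ f _, i => Measure.dirac (f i)
  | _, _, @Prog.query _ _ _ x _ p, i => p.law g (i, g (x i))
  | _, _, @Prog.sample _ _ _ p, i => (gam d).bind fun ξ => p.law g (i, ξ)

/-- the laws `κ V i` can be sampled with `q` queries up to `η` in Wasserstein distance -/
def Samp {I : Type} [MeasurableSpace I] (q : ℕ) (η : ℝ) (κ : Vd d → I → Measure (E d)) : Prop :=
  ∃ p : Prog d I, p.cost ≤ q ∧ ∀ (V : Vd d) (i : I), Close η (p.law (gradient V.1) i) (κ V i)

theorem LipR.integrable_of_norm {L : ℝ} {ψ : E d → ℝ} (hψ : LipR L ψ) {μ : Measure (E d)}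
    [IsFiniteMeasure μ] (hμ : Integrable (fun x => ‖x‖) μ) : Integrable ψ μ := by
  refine ((integrable_const |ψ 0|).add (hμ.const_mul L)).mono'
    hψ.continuous.aestronglyMeasurable (ae_of_all _ fun x => ?_)
  have h1 := hψ x 0
  rw [sub_zero] at h1
  have h2 := abs_sub_abs_le_abs_sub (ψ x) (ψ 0)
  simp only [Real.norm_eq_abs, Pi.add_apply]
  linarith

theorem lipR_norm : LipR 1 fun x : E d => ‖x‖ := fun x y => by
  rw [one_mul]; exact abs_norm_sub_norm_le x y

theorem Close.refl {μ : Measure (E d)} [hp : IsProbabilityMeasure μ]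
    (hi : Integrable (fun x => ‖x‖) μ) : Close 0 μ μ :=
  ⟨hp, hp, hi, hi, fun ψ _ => by simp⟩

theorem Close.nonneg {η : ℝ} {μ ν : Measure (E d)} (h : Close η μ ν) : 0 ≤ η := by
  have := h.le (fun _ => 0) (fun x y => by simp)
  simpa using this

theorem Close.trans {η η' : ℝ} {μ ν ρ : Measure (E d)} (h : Close η μ ν) (h' : Close η' ν ρ) :
    Close (η + η') μ ρ :=
  ⟨h.pl, h'.pr, h.il, h'.ir, fun ψ hψ =>
    (abs_sub_le _ _ _).trans (add_le_add (h.le ψ hψ) (h'.le ψ hψ))⟩
theorem Close.symm {η : ℝ} {μ ν : Measure (E d)} (h : Close η μ ν) : Close η ν μ :=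
  ⟨h.pr, h.pl, h.ir, h.il, fun ψ hψ => by rw [abs_sub_comm]; exact h.le ψ hψ⟩
theorem Close.mono {η η' : ℝ} {μ ν : Measure (E d)} (h : Close η μ ν) (h' : η ≤ η') :
    Close η' μ ν :=
  ⟨h.pl, h.pr, h.il, h.ir, fun ψ hψ => (h.le ψ hψ).trans h'⟩
theorem Close.lip {η L : ℝ} {μ ν : Measure (E d)} (h : Close η μ ν) (hL : 0 ≤ L) {ψ : E d → ℝ}
    (hψ : LipR L ψ) : |∫ x, ψ x ∂μ - ∫ x, ψ x ∂ν| ≤ L * η := by
  have := h.pl
  have := h.pr
  rcases hL.eq_or_lt with h0 | hpos
  · subst h0
    have hc : ψ = fun _ => ψ 0 := by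
      funext x
      have h1 := hψ x 0
      rw [zero_mul] at h1
      exact sub_eq_zero.1 (abs_nonpos_iff.1 h1)
    rw [hc]
    simp
  · have h1 : LipR 1 fun x => L⁻¹ * ψ x := fun x y => by
      rw [← mul_sub, abs_mul, abs_of_pos (inv_pos.2 hpos), inv_mul_le_iff₀ hpos, one_mul]
      exact hψ x y
    have h2 := h.le _ h1
    rw [integral_const_mul, integral_const_mul, ← mul_sub, abs_mul, abs_of_pos (inv_pos.2 hpos),
      inv_mul_le_iff₀ hpos] at h2
    exact h2
theorem close_gauss (c c' : E d) (σ : ℝ) : Close ‖c - c'‖ (gauss c σ) (gauss c' σ) := by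
  refine ⟨inferInstance, inferInstance, integrable_norm_gauss c σ, integrable_norm_gauss c' σ,
    fun ψ hψ => ?_⟩
  have hint : ∀ a : E d, Integrable (fun ξ => ψ (a + σ • ξ)) (gam d) := fun a => by
    have := hψ.integrable_of_norm (integrable_norm_gauss a σ)
    unfold gauss at this
    rwa [integrable_map_measure hψ.continuous.aestronglyMeasurable (by fun_prop)] at this
  rw [integral_gauss c σ hψ.continuous.aestronglyMeasurable,
    integral_gauss c' σ hψ.continuous.aestronglyMeasurable, ← integral_sub (hint c) (hint c')]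
  have := norm_integral_le_of_norm_le_const (μ := gam d)
    (f := fun ξ => ψ (c + σ • ξ) - ψ (c' + σ • ξ)) (C := ‖c - c'‖) (ae_of_all _ fun ξ => by
      have := hψ (c + σ • ξ) (c' + σ • ξ)
      rw [add_sub_add_right_eq_sub, one_mul] at this
      exact this)
  simpa using this

theorem Vd.measurable_grad (V : Vd d) : Measurable (gradient V.1) :=
  V.2.pot.contDiff_grad.continuous.measurable

/-- the law is a Markov kernel in the input -/
theorem Prog.law_markov {g : E d → E d} (hg : Measurable g) {I : Type} [MeasurableSpace I]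
    (p : Prog d I) : Measurable (p.law g) ∧ ∀ i, IsProbabilityMeasure (p.law g i) := by
  induction p with
  | ret f hf =>
    exact ⟨Measure.measurable_dirac.comp hf, fun i => by
      show IsProbabilityMeasure (Measure.dirac (f i)); infer_instance⟩
  | query x hx p ih =>
    exact ⟨ih.1.comp (measurable_id.prodMk (hg.comp hx)), fun i => ih.2 _⟩
  | @sample I _ p ih =>
    have hm : ∀ i : I, Measurable fun ξ => p.law g (i, ξ) := fun i =>
      ih.1.comp measurable_prodMk_left
    refine ⟨Measure.measurable_of_measurable_coe _ fun s hs => ?_, fun i => ?_⟩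
    · have : (fun i => (Prog.sample p).law g i s) =
          fun i => ∫⁻ ξ, p.law g (i, ξ) s ∂(gam d) := by
        funext i
        exact Measure.bind_apply hs (hm i).aemeasurable
      rw [this]
      exact Measurable.lintegral_prod_right' ((Measure.measurable_coe hs).comp ih.1)
    · exact isProbabilityMeasure_bind (hm i).aemeasurable (ae_of_all _ fun ξ => ih.2 _)

theorem Prog.exists_comap {I : Type} [MeasurableSpace I] (p : Prog d I) :
    ∀ (I' : Type) [MeasurableSpace I'] (f : I' → I), Measurable f →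
      ∃ p' : Prog d I', p'.cost = p.cost ∧ ∀ g i, p'.law g i = p.law g (f i) := by
  induction p with
  | ret φ hφ =>
    intro I' _ f hf
    exact ⟨Prog.ret (fun i => φ (f i)) (hφ.comp hf), rfl, fun _ _ => rfl⟩
  | query x hx p ih =>
    intro I' _ f hf
    obtain ⟨p', h1, h2⟩ := ih (I' × E d) (fun z => (f z.1, z.2)) (by fun_prop)
    exact ⟨Prog.query (fun i => x (f i)) (hx.comp hf) p', congrArg (· + 1) h1,
      fun g i => h2 g _⟩
  | sample p ih =>
    intro I' _ f hf
    obtain ⟨p', h1, h2⟩ := ih (I' × E d) (fun z => (f z.1, z.2)) (by fun_prop)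
    refine ⟨Prog.sample p', h1, fun g i => ?_⟩
    show (gam d).bind (fun ξ => p'.law g (i, ξ)) = (gam d).bind fun ξ => p.law g (f i, ξ)
    simp only [h2]

theorem Prog.exists_bind {I : Type} [MeasurableSpace I] (p : Prog d I) :
    ∀ r : Prog d (I × E d), ∃ p' : Prog d I, p'.cost = p.cost + r.cost ∧
      ∀ g, Measurable g → ∀ i, p'.law g i = (p.law g i).bind fun o => r.law g (i, o) := by
  induction p with
  | @ret I _ φ hφ =>
    intro r
    obtain ⟨p', h1, h2⟩ := r.exists_comap I (fun i => (i, φ i)) (by fun_prop)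
    refine ⟨p', by rw [h1]; exact (Nat.zero_add _).symm, fun g hg i => ?_⟩
    rw [h2]
    exact (Measure.dirac_bind (f := fun o => r.law g (i, o))
      ((r.law_markov hg).1.comp measurable_prodMk_left) (φ i)).symm
  | @query I _ x hx p ih =>
    intro r
    obtain ⟨r', e1, e2⟩ := r.exists_comap ((I × E d) × E d) (fun z => (z.1.1, z.2)) (by fun_prop)
    obtain ⟨p', h1, h2⟩ := ih r'
    refine ⟨Prog.query x hx p', ?_, fun g hg i => ?_⟩
    · show p'.cost + 1 = p.cost + 1 + r.cost
      omega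
    · show p'.law g (i, g (x i)) = (p.law g (i, g (x i))).bind fun o => r.law g (i, o)
      rw [h2 g hg]
      simp only [e2]
  | @sample I _ p ih =>
    intro r
    obtain ⟨r', e1, e2⟩ := r.exists_comap ((I × E d) × E d) (fun z => (z.1.1, z.2)) (by fun_prop)
    obtain ⟨p', h1, h2⟩ := ih r'
    refine ⟨Prog.sample p', ?_, fun g hg i => ?_⟩
    · show p'.cost = p.cost + r.cost
      omega
    · show (gam d).bind (fun ξ => p'.law g (i, ξ)) =
        ((gam d).bind fun ξ => p.law g (i, ξ)).bind fun o => r.law g (i, o)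
      have m1 : Measurable fun ξ => p.law g (i, ξ) :=
        (p.law_markov hg).1.comp measurable_prodMk_left
      have m2 : Measurable fun o => r.law g (i, o) :=
        (r.law_markov hg).1.comp measurable_prodMk_left
      rw [Measure.bind_bind m1.aemeasurable m2.aemeasurable]
      simp only [h2 g hg, e2]

theorem Prog.exists_map {I : Type} [MeasurableSpace I] (p : Prog d I) {φ : I × E d → E d}
    (hφ : Measurable φ) : ∃ p' : Prog d I, p'.cost = p.cost ∧
      ∀ g, Measurable g → ∀ i, p'.law g i = (p.law g i).map fun o => φ (i, o) := by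
  obtain ⟨p', h1, h2⟩ := p.exists_bind (Prog.ret φ hφ)
  refine ⟨p', h1, fun g hg i => ?_⟩
  rw [h2 g hg]
  exact Measure.bind_dirac_eq_map _ (hφ.comp measurable_prodMk_left)

theorem Close.map {η L : ℝ} {μ ν : Measure (E d)} (h : Close η μ ν) (hL : 0 ≤ L)
    {φ : E d → E d} (hφ : LipV L φ) : Close (L * η) (μ.map φ) (ν.map φ) := by
  have := h.pl
  have := h.pr
  have hm : Measurable φ := hφ.continuous.measurable
  have hcomp : ∀ ψ : E d → ℝ, LipR 1 ψ → LipR L fun x => ψ (φ x) := fun ψ hψ x y =>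
    (hψ _ _).trans (by rw [one_mul]; exact hφ x y)
  have hint : ∀ ρ : Measure (E d), IsProbabilityMeasure ρ → Integrable (fun x => ‖x‖) ρ →
      Integrable (fun x => ‖x‖) (ρ.map φ) := fun ρ _ hρ => by
    rw [integrable_map_measure continuous_norm.aestronglyMeasurable hm.aemeasurable]
    exact (hcomp _ lipR_norm).integrable_of_norm hρ
  refine ⟨Measure.isProbabilityMeasure_map hm.aemeasurable,
    Measure.isProbabilityMeasure_map hm.aemeasurable, hint μ h.pl h.il, hint ν h.pr h.ir,
    fun ψ hψ => ?_⟩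
  rw [integral_map hm.aemeasurable hψ.continuous.aestronglyMeasurable,
    integral_map hm.aemeasurable hψ.continuous.aestronglyMeasurable]
  exact h.lip hL (hcomp ψ hψ)

variable {I : Type} [MeasurableSpace I]

theorem Samp.mono {q q' : ℕ} {η η' : ℝ} {κ : Vd d → I → Measure (E d)} (h : Samp q η κ)
    (hq : q ≤ q') (hη : η ≤ η') : Samp q' η' κ := by
  obtain ⟨p, h1, h2⟩ := h
  exact ⟨p, h1.trans hq, fun V i => (h2 V i).mono hη⟩

theorem Samp.close {q : ℕ} {η η' : ℝ} {κ κ' : Vd d → I → Measure (E d)} (h : Samp q η κ)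
    (h' : ∀ V i, Close η' (κ V i) (κ' V i)) : Samp q (η + η') κ' := by
  obtain ⟨p, h1, h2⟩ := h
  exact ⟨p, h1, fun V i => (h2 V i).trans (h' V i)⟩

theorem Samp.comap {I' : Type} [MeasurableSpace I'] {q : ℕ} {η : ℝ}
    {κ : Vd d → I → Measure (E d)} (h : Samp q η κ) {f : I' → I} (hf : Measurable f) :
    Samp q η fun V i => κ V (f i) := by
  obtain ⟨p, h1, h2⟩ := h
  obtain ⟨p', e1, e2⟩ := p.exists_comap I' f hf
  exact ⟨p', e1 ▸ h1, fun V i => by rw [e2]; exact h2 V (f i)⟩

theorem samp_gauss {f : I → E d} (hf : Measurable f) (σ : ℝ) :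
    Samp 0 0 fun (_ : Vd d) i => gauss (f i) σ := by
  refine ⟨Prog.sample (Prog.ret (fun z : I × E d => f z.1 + σ • z.2) (by fun_prop)), le_rfl,
    fun V i => ?_⟩
  have : (Prog.sample (Prog.ret (fun z : I × E d => f z.1 + σ • z.2) (by fun_prop))).law
      (gradient V.1) i = gauss (f i) σ :=
    Measure.bind_dirac_eq_map (gam d) (f := fun ξ => f i + σ • ξ) (by fun_prop)
  rw [this]
  exact Close.refl (integrable_norm_gauss _ _)

theorem Samp.query {q : ℕ} {η : ℝ} {κ : Vd d → I × E d → Measure (E d)} (h : Samp q η κ)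
    {x : I → E d} (hx : Measurable x) :
    Samp (q + 1) η fun V i => κ V (i, gradient V.1 (x i)) := by
  obtain ⟨p, h1, h2⟩ := h
  exact ⟨Prog.query x hx p, Nat.add_le_add_right h1 1, fun V i => h2 V _⟩

/-- push forward by a map that is Lipschitz in the output -/
theorem Samp.map {q : ℕ} {η L : ℝ} {κ : Vd d → I → Measure (E d)} (h : Samp q η κ) (hL : 0 ≤ L)
    {φ : I × E d → E d} (hφ : Measurable φ) (hlip : ∀ i, LipV L fun o => φ (i, o)) :
    Samp q (L * η) fun V i => (κ V i).map fun o => φ (i, o) := by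
  obtain ⟨p, h1, h2⟩ := h
  obtain ⟨p', e1, e2⟩ := p.exists_map hφ
  refine ⟨p', e1 ▸ h1, fun V i => ?_⟩
  rw [e2 _ V.measurable_grad]
  exact (h2 V i).map hL (hlip i)

theorem gauss_map_add (a c : E d) (σ : ℝ) :
    (gauss c σ).map (fun x => a + x) = gauss (a + c) σ := by
  unfold gauss
  rw [Measure.map_map (by fun_prop) (by fun_prop)]
  congr 1
  funext ξ
  simp only [Function.comp_apply, add_assoc]

theorem gauss_neg (c : E d) (σ : ℝ) : gauss c (-σ) = gauss c σ := by
  unfold gauss
  conv_rhs => rw [← gam_neg, Measure.map_map (by fun_prop) (by fun_prop)]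
  congr 1
  funext ξ
  simp only [Function.comp_apply, neg_smul, smul_neg]

theorem gauss_map_smul (a : ℝ) (c : E d) (σ : ℝ) :
    (gauss c σ).map (fun x => a • x) = gauss (a • c) (|a| * σ) := by
  have h1 : (gauss c σ).map (fun x => a • x) = gauss (a • c) (a * σ) := by
    unfold gauss
    rw [Measure.map_map (by fun_prop) (by fun_prop)]
    congr 1
    funext ξ
    simp only [Function.comp_apply, smul_add, smul_smul]
  rw [h1]
  rcases abs_choice a with h | h
  · rw [h]
  · rw [h, neg_mul, gauss_neg]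

theorem close_bind {η η' η'' L : ℝ} {P μ ν : Measure (E d)} {R κ : E d → Measure (E d)}
    (h : Close η P μ) (hR : Measurable R) (h' : ∀ o, Close η' (R o) (κ o)) (hL : 0 ≤ L)
    (hlip : ∀ ψ, LipR 1 ψ → LipR L fun o => ∫ x, ψ x ∂(κ o))
    (hp : IsProbabilityMeasure ν) (hi : Integrable (fun x => ‖x‖) ν)
    (hν : ∀ ψ, LipR 1 ψ → |∫ o, ∫ x, ψ x ∂(κ o) ∂μ - ∫ x, ψ x ∂ν| ≤ η'') :
    Close (L * η + η' + η'') (P.bind R) ν := by
  have := h.pl
  have := h.pr
  let K : Kernel (E d) (E d) := ⟨R, hR⟩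
  have hK : ∀ o, K o = R o := fun _ => rfl
  have hKm : IsMarkovKernel K := ⟨fun o => (h' o).pl⟩
  have hB : ∀ ψ, LipR 1 ψ → Integrable (fun o => ∫ x, ψ x ∂(κ o)) P := fun ψ hψ =>
    (hlip ψ hψ).integrable_of_norm h.il
  have hA : ∀ ψ, LipR 1 ψ → Integrable (fun o => ∫ x, ψ x ∂(R o)) P := fun ψ hψ => by
    have hm : StronglyMeasurable fun o => ∫ x, ψ x ∂(K o) :=
      hψ.continuous.stronglyMeasurable.integral_kernel
    refine ((hB ψ hψ).norm.add (integrable_const η')).mono' hm.aestronglyMeasurable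
      (ae_of_all _ fun o => ?_)
    have h1 := (h' o).le ψ hψ
    have h2 := abs_sub_abs_le_abs_sub (∫ x, ψ x ∂(R o)) (∫ x, ψ x ∂(κ o))
    simp only [Real.norm_eq_abs, Pi.add_apply]
    linarith
  have hprob : IsProbabilityMeasure (P.bind R) :=
    isProbabilityMeasure_bind hR.aemeasurable (ae_of_all _ fun o => (h' o).pl)
  have hint : Integrable (fun x => ‖x‖) (P.bind R) := by
    have := (Measure.integrable_comp_iff (κ := K) (μ := P) (f := fun x : E d => ‖x‖)
      continuous_norm.aestronglyMeasurable).2 ⟨ae_of_all _ fun o => (h' o).il, by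
        simpa only [norm_norm, hK] using hA _ lipR_norm⟩
    exact this
  refine ⟨hprob, hp, hint, hi, fun ψ hψ => ?_⟩
  have hψi : Integrable ψ (P.bind R) := hψ.integrable_of_norm hint
  have e1 : ∫ x, ψ x ∂(P.bind R) = ∫ o, ∫ x, ψ x ∂(R o) ∂P := by
    have h1 : Integrable ψ (P.bind K) := hψi
    rw [Measure.comp_eq_comp_const_apply] at h1
    have h2 := Kernel.integral_comp h1
    rw [← Measure.comp_eq_comp_const_apply] at h2
    exact h2
  have e2 : |∫ o, ∫ x, ψ x ∂(R o) ∂P - ∫ o, ∫ x, ψ x ∂(κ o) ∂P| ≤ η' := by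
    rw [← integral_sub (hA ψ hψ) (hB ψ hψ)]
    have := norm_integral_le_of_norm_le_const (μ := P)
      (f := fun o => ∫ x, ψ x ∂(R o) - ∫ x, ψ x ∂(κ o)) (C := η')
      (ae_of_all _ fun o => (h' o).le ψ hψ)
    simpa using this
  have e3 := h.lip hL (hlip ψ hψ)
  have e4 := hν ψ hψ
  rw [e1]
  rw [abs_le] at e2 e3 e4 ⊢
  constructor <;> linarith [e2.1, e2.2, e3.1, e3.2, e4.1, e4.2]

theorem Samp.bind' {q q' : ℕ} {η η' η'' L : ℝ} {μ ν : Vd d → I → Measure (E d)}
    {κ : Vd d → I × E d → Measure (E d)} (h : Samp q η μ) (h' : Samp q' η' κ) (hL : 0 ≤ L)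
    (hlip : ∀ V i ψ, LipR 1 ψ → LipR L fun o => ∫ x, ψ x ∂(κ V (i, o)))
    (hp : ∀ V i, IsProbabilityMeasure (ν V i)) (hi : ∀ V i, Integrable (fun x => ‖x‖) (ν V i))
    (hν : ∀ V i ψ, LipR 1 ψ →
      |∫ o, ∫ x, ψ x ∂(κ V (i, o)) ∂(μ V i) - ∫ x, ψ x ∂(ν V i)| ≤ η'') :
    Samp (q + q') (L * η + η' + η'') ν := by
  obtain ⟨p, h1, h2⟩ := h
  obtain ⟨r, h3, h4⟩ := h'
  obtain ⟨p', e1, e2⟩ := p.exists_bind r
  refine ⟨p', by omega, fun V i => ?_⟩
  rw [e2 _ V.measurable_grad]
  exact close_bind (h2 V i) ((r.law_markov V.measurable_grad).1.comp measurable_prodMk_left)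
    (fun o => h4 V (i, o)) hL (hlip V i) (hp V i) (hi V i) (hν V i)

theorem Samp.add {q q' : ℕ} {η η' σ σ' : ℝ} {c c' : Vd d → I → E d}
    (h : Samp q η fun V i => gauss (c V i) σ) (h' : Samp q' η' fun V i => gauss (c' V i) σ') :
    Samp (q + q') (η + η') fun V i => gauss (c V i + c' V i) √(σ ^ 2 + σ' ^ 2) := by
  have h1 := (h'.comap (I' := I × E d) measurable_fst).map zero_le_one
    (φ := fun z => z.1.2 + z.2) (by fun_prop) (fun i x y => by
      rw [add_sub_add_left_eq_sub, one_mul])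
  simp only [gauss_map_add] at h1
  have h2 := h.bind' h1 zero_le_one (η'' := 0)
    (ν := fun V i => gauss (c V i + c' V i) √(σ ^ 2 + σ' ^ 2))
    (fun V i ψ hψ x y => by
      have := (close_gauss (x + c' V i) (y + c' V i) σ').le ψ hψ
      rwa [add_sub_add_right_eq_sub, ← one_mul ‖x - y‖] at this)
    (fun V i => inferInstance) (fun V i => integrable_norm_gauss _ _)
    (fun V i ψ hψ => by
      have hl : LipR 1 fun o => ∫ x, ψ x ∂(gauss (o + c' V i) σ') := fun x y => by
        have := (close_gauss (x + c' V i) (y + c' V i) σ').le ψ hψ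
        rwa [add_sub_add_right_eq_sub, ← one_mul ‖x - y‖] at this
      rw [integral_gauss _ _ hl.continuous.aestronglyMeasurable,
        integral_gauss _ _ hψ.continuous.aestronglyMeasurable,
        ← integral_gauss_gauss _ _ _ hψ.continuous hψ.pg]
      simp only [integral_gauss _ _ hψ.continuous.aestronglyMeasurable, add_right_comm _ (σ • _),
        sub_self, abs_zero, le_refl])
  exact h2.mono le_rfl (by linarith)

theorem Samp.smul {q : ℕ} {η σ : ℝ} {c : Vd d → I → E d}
    (h : Samp q η fun V i => gauss (c V i) σ) (a : ℝ) :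
    Samp q (|a| * η) fun V i => gauss (a • c V i) (|a| * σ) := by
  have h1 := h.map (abs_nonneg a) (φ := fun z => a • z.2) (by fun_prop) (fun i x y => by
    rw [← smul_sub, norm_smul, Real.norm_eq_abs])
  simpa only [gauss_map_smul] using h1

/-- sequential composition: first sample `o` close to `μ V i`, then run the second program on
`(i, o)` -/
theorem Samp.bind {q q' : ℕ} {η η' η'' L : ℝ} {μ ν : Vd d → I → Measure (E d)}
    {κ : Vd d → I × E d → Measure (E d)} (h : Samp q η μ) (h' : Samp q' η' κ) (hL : 0 ≤ L)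
    (hlip : ∀ V i ψ, LipR 1 ψ → LipR L fun o => ∫ x, ψ x ∂(κ V (i, o)))
    (hp : ∀ V i, IsProbabilityMeasure (ν V i)) (hi : ∀ V i, Integrable (fun x => ‖x‖) (ν V i))
    (hν : ∀ V i ψ, LipR 1 ψ →
      |∫ o, ∫ x, ψ x ∂(κ V (i, o)) ∂(μ V i) - ∫ x, ψ x ∂(ν V i)| ≤ η'') :
    Samp (q + q') (L * η + η' + η'') ν :=
  h.bind' h' hL hlip hp hi hν

/-- sequential composition when the second stage contracts towards a target that is only known
on average (used for the outer chain): the first stage is close to `μ V`, the second stage is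
uniformly close to the kernel `κ V`. Same statement as `Samp.bind` with trivial input. -/
theorem Samp.step {q q' : ℕ} {η η' η'' L : ℝ} {μ ν : Vd d → Measure (E d)}
    {κ : Vd d → E d → Measure (E d)} (h : Samp q η fun V (_ : Unit) => μ V) (h' : Samp q' η' κ)
    (hL : 0 ≤ L) (hlip : ∀ V ψ, LipR 1 ψ → LipR L fun o => ∫ x, ψ x ∂(κ V o))
    (hp : ∀ V, IsProbabilityMeasure (ν V)) (hi : ∀ V, Integrable (fun x => ‖x‖) (ν V))
    (hν : ∀ V ψ, LipR 1 ψ → |∫ o, ∫ x, ψ x ∂(κ V o) ∂(μ V) - ∫ x, ψ x ∂(ν V)| ≤ η'') :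
    Samp (q + q') (L * η + η' + η'') fun V (_ : Unit) => ν V :=
  h.bind (h'.comap (I' := Unit × E d) measurable_snd) hL (fun V _ => hlip V) (fun V _ => hp V)
    (fun V _ => hi V) (fun V _ => hν V)

end Vale.Agent.P347
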